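import Crest.Agent.R195.Defs2

/-! Row 195: correctness of the branch and bound check. -/

set_option autoImplicit false

namespace Crest.Agent.R195

namespace BB

lemma allLe_get {f : ℕ → ℕ} : ∀ {s : ℕ} {A : List ℕ}, allLe f s A = true →
    ∀ j, j < A.length → f (s + j) ≤ A.getD j 0
  | _, [], _, j, hj => by simp at hj
  | s, x :: A, h, j, hj => by
    simp only [allLe, Bool.and_eq_true, Nat.ble_eq] at h
    cases j with
    | zero => simpa using h.1
    | succ j =>
      have := allLe_get h.2 j (by simpa using hj)
      rw [show s + (j + 1) = s + 1 + j by omega]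
      simpa using this

lemma sm_le_sum (l : List ℕ) (k : ℕ) : (l.map fun x => min x k).sum ≤ l.sum := by
  have := sum_min_add_exc l k
  omega

lemma sm_le_mul (l : List ℕ) (k : ℕ) : (l.map fun x => min x k).sum ≤ l.length * k := by
  induction l with
  | nil => simp
  | cons a l ih =>
    simp only [List.map_cons, List.sum_cons, List.length_cons, add_mul]
    omega

lemma cap_ok {f : ℕ → ℕ} {al lam : List ℕ} (h : allLe f 0 (capL al) = true)
    (hf : ∀ k, (lam.map fun x => min x k).sum ≤ f k) (hs : lam.sum = al.sum) (k : ℕ) :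
    (lam.map fun x => min x k).sum ≤ (al.map fun x => min x k).sum := by
  by_cases hk : k < al.foldr max 0
  · have h1 := allLe_get h k (by simpa [capL] using hk)
    rw [zero_add] at h1
    refine (hf k).trans (h1.trans_eq ?_)
    simp [capL, List.getD, hk]
  · have h1 : (al.map fun x => min x k) = al := by
      conv_rhs => rw [← List.map_id al]
      refine List.map_congr_left fun x hx => ?_
      have := le_foldr_max hx
      simp only [id]
      omega
    rw [h1, ← hs]
    exact sm_le_sum lam k

lemma cap_ok1 {f : ℕ → ℕ} {al lam : List ℕ} (h : allLe f 1 (capL al).tail = true)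
    (hf : ∀ k, (lam.map fun x => min x k).sum ≤ f k) (hs : lam.sum = al.sum) (k : ℕ) :
    (lam.map fun x => min x k).sum ≤ (al.map fun x => min x k).sum := by
  refine cap_ok (f := fun k => if k = 0 then 0 else f k) ?_ (fun k => ?_) hs k
  · rcases hA : capL al with _ | ⟨x, A⟩
    · rfl
    · rw [hA, List.tail_cons] at h
      have key : ∀ (A : List ℕ) (s : ℕ), allLe (fun k => if k = 0 then 0 else f k) (s + 1) A =
          allLe f (s + 1) A := fun A => by
        induction A with
        | nil => intro s; rfl
        | cons y A ih => intro s; simp only [allLe, ih, Nat.succ_ne_zero, if_false]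
      rw [allLe, Bool.and_eq_true]
      exact ⟨by simp, (key A 0).trans h⟩
  · split_ifs with hk
    · subst hk
      simp
    · exact hf k

lemma exc_ge (l : List ℕ) (k : ℕ) : (vec l 0 - k) + (vec l 1 - k) ≤ exc l k := by
  rcases l with _ | ⟨a, _ | ⟨b, l⟩⟩
  · simp [vec]
  · simp [vec, exc]
  · simp only [vec, exc_cons, List.getD_cons_zero, List.getD_cons_succ]
    omega

lemma colv_of_lt {l : List ℕ} {j : ℕ} (h : ∀ x ∈ l, j < x) : colv l j = l.length :=
  List.countP_eq_length.2 fun x hx => by simpa using h x hx

lemma sum_le_mul {l : List ℕ} {v : ℕ} (h : ∀ x ∈ l, x ≤ v) : l.sum ≤ v * l.length := by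
  have := List.sum_le_card_nsmul l v h
  rwa [smul_eq_mul, mul_comm] at this

lemma mul_le_sum {l : List ℕ} {v : ℕ} (h : ∀ x ∈ l, v ≤ x) : v * l.length ≤ l.sum := by
  have := List.card_nsmul_le_sum l v h
  rwa [smul_eq_mul, mul_comm] at this

lemma split {l : List ℕ} (hs : l.Pairwise (· ≥ ·)) (hp : ∀ x ∈ l, 1 ≤ x) :
    ∃ (mid : List ℕ) (t : ℕ), l = mid ++ List.replicate t 1 ∧ ∀ x ∈ mid, 2 ≤ x := by
  induction l with
  | nil => exact ⟨[], 0, rfl, by simp⟩
  | cons a l ih =>
    rw [List.pairwise_cons] at hs
    by_cases ha : 2 ≤ a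
    · obtain ⟨mid, t, rfl, h⟩ := ih hs.2 fun x hx => hp x (List.mem_cons_of_mem _ hx)
      refine ⟨a :: mid, t, rfl, fun x hx => ?_⟩
      rcases List.mem_cons.1 hx with rfl | hx
      · exact ha
      · exact h x hx
    · refine ⟨[], (a :: l).length, ?_, by simp⟩
      rw [List.nil_append]
      refine List.eq_replicate_iff.2 ⟨rfl, fun x hx => ?_⟩
      have h1 := hp x hx
      rcases List.mem_cons.1 hx with rfl | hx
      · omega
      · have := hs.1 x hx
        omega

lemma rec_ok {node : List ℕ → ℕ → ℕ → Bool} {leaf : List ℕ → Bool} {G : List ℕ → Prop}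
    (hn : ∀ p rest : List ℕ, node p rest.length rest.sum = true → (∀ x ∈ p, 2 ≤ x) →
      (∀ x ∈ rest, 2 ≤ x) → G (p.reverse ++ rest))
    (hl : ∀ p, leaf p = true → G p.reverse) :
    ∀ rest p : List ℕ, bbRec node leaf rest.length p rest.sum = true → (∀ x ∈ p, 2 ≤ x) →
      (∀ x ∈ rest, 2 ≤ x) → (p.headD 0 :: rest).Pairwise (· ≥ ·) → G (p.reverse ++ rest) := by
  intro rest
  induction rest with
  | nil =>
    intro p h hp hr _
    simp only [List.length_nil, List.sum_nil, bbRec, bne_self_eq_false, Bool.false_or,
      Bool.or_eq_true] at h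
    rcases h with h | h
    · exact hn p [] h hp hr
    · rw [List.append_nil]; exact hl p h
  | cons v rest ih =>
    intro p h hp hr hs
    rw [List.length_cons, bbRec, Bool.or_eq_true] at h
    rcases h with h | h
    · exact hn p (v :: rest) h hp hr
    rw [List.pairwise_cons] at hs
    have hv : 2 ≤ v := hr v List.mem_cons_self
    have hr' : ∀ x ∈ rest, 2 ≤ x := fun x hx => hr x (List.mem_cons_of_mem _ hx)
    have h1 := List.all_eq_true.1 h v
      (List.mem_range.2 (Nat.lt_succ_of_le (hs.1 v List.mem_cons_self)))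
    have h2 := sum_le_mul (v := v) (List.pairwise_cons.1 hs.2).1
    have h3 := mul_le_sum hr'
    have h4 : ((2 : ℕ).ble v && (v :: rest).sum.ble (v * (rest.length + 1)) &&
        (v + 2 * rest.length).ble (v :: rest).sum) = true := by
      simp only [Bool.and_eq_true, Nat.ble_eq, List.sum_cons, mul_add, mul_one]
      omega
    rw [h4, Bool.not_true, Bool.false_or, List.sum_cons, Nat.add_sub_cancel_left] at h1
    have h5 := ih (v :: p) h1 (fun x hx => by
      rcases List.mem_cons.1 hx with rfl | hx
      · exact hv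
      · exact hp x hx) hr' hs.2
    simpa using h5

lemma code (L c t : ℕ) (hc : c < 32) (ht : t < 32) :
    (1024 * L + 32 * c + t) / 1024 = L ∧ (1024 * L + 32 * c + t) / 32 % 32 = c ∧
      (1024 * L + 32 * c + t) % 32 = t := by
  have h1 : (1024 * L + 32 * c + t) / 32 = 32 * L + c := by omega
  refine ⟨by omega, ?_, by omega⟩
  rw [h1]
  omega

end BB

/-- The check for all shapes with first row `L`, `cnt` further rows `≥ 2` and `t` rows `1`. -/
def bbT (K : List (List ℕ)) (μ : List ℕ) (As : List (List ℕ)) (find : List ℕ → Cert)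
    (L cnt t : ℕ) : Bool :=
  !((2 : ℕ).ble L && (L + t + 2 * cnt).ble μ.sum && μ.sum.ble (L + t + L * cnt)) ||
    bbRec (nodeB As μ.sum t) (fun p => chkC K (find (p.reverse ++ List.replicate t 1)) none μ
      (conjL (p.reverse ++ List.replicate t 1))) cnt [L] (μ.sum - L - t)

/-- The check for the cell with code `x = 1024 L + 32 cnt + t`. -/
def bbX (K : List (List ℕ)) (μ : List ℕ) (As : List (List ℕ)) (find : List ℕ → Cert) (x : ℕ) :
    Bool :=
  (x / 1024).ble (x / 32 % 32 + x % 32) || bbT K μ As find (x / 1024) (x / 32 % 32) (x % 32)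

/-- The part of the check that does not depend on the first row. -/
def bbTop (K : List (List ℕ)) (μ : List ℕ) (plans : List Plan) (As : List (List ℕ)) (L0 : ℕ) :
    Bool :=
  conjL μ == μ && (2 : ℕ).ble μ.sum &&
    As.any (fun A => allLe (fun k => μ.sum - (L0 - k)) 1 A.tail) &&
    (plans.filterMap fun p => runP K p none μ).map capL == As

open BB in
theorem bb_gen (hU : URules) (hP : PlanStmt) (hC : CertStmt) (hH : HookFacts)
    (K : List (List ℕ)) (hK : ∀ ν ∈ K, Full ν) (μ : List ℕ) (plans : List Plan)
    (As : List (List ℕ)) (L0 : ℕ) (h : bbTop K μ plans As L0 = true)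
    (h32 : L0 ≤ 32) (hall : ∀ x < 1024 * L0, ∃ find, bbX K μ As find x = true) : Full μ := by
  simp only [bbTop, Bool.and_eq_true, beq_iff_eq, Nat.ble_eq] at h
  obtain ⟨⟨⟨hsc, hn⟩, hL0⟩, rfl⟩ := h
  have hsort := hH.sorted μ hsc
  have cov : ∀ A ∈ (plans.filterMap fun p => runP K p none μ).map capL, ∀ (f : ℕ → ℕ)
      (lam : List ℕ), (allLe f 0 A = true ∨ allLe f 1 A.tail = true) → lam.sum = μ.sum →
      (∀ k, (lam.map fun x => min x k).sum ≤ f k) → FJ μ (colv lam) := by
    intro A hA f lam h1 h2 h3
    obtain ⟨al, hal, rfl⟩ := List.mem_map.1 hA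
    obtain ⟨p, -, hp⟩ := List.mem_filterMap.1 hal
    have hu : UF μ al := hP K hK p none μ al hsort hp
    have hs : lam.sum = al.sum := h2.trans hu.sum_eq.symm
    exact hU.dom μ al lam hu hs (h1.elim (fun h1 => cap_ok h1 h3 hs) fun h1 => cap_ok1 h1 h3 hs)
  refine hU.full_of μ hsc fun lam hs hpos hsum hlen => ?_
  rcases lam with _ | ⟨L, tl⟩
  · simp at hsum; omega
  simp only [List.headD_cons, List.length_cons] at hlen
  by_cases hL : L0 ≤ L
  · obtain ⟨A, hA, h1⟩ := List.any_eq_true.1 hL0
    refine cov A hA _ _ (Or.inr h1) hsum fun k => ?_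
    have := sum_min_add_exc (L :: tl) k
    rw [exc_cons] at this
    omega
  obtain ⟨mid, t, rfl, hmid⟩ := split (List.pairwise_cons.1 hs).2
    fun x hx => hpos x (List.mem_cons_of_mem _ hx)
  rw [List.length_append, List.length_replicate] at hlen
  have hsum' : L + mid.sum + t = μ.sum := by
    rw [← hsum]; simp [add_assoc]
  have hs' : (L :: mid).Pairwise (· ≥ ·) :=
    hs.sublist (List.Sublist.cons_cons _ (List.sublist_append_left _ _))
  have h2 := sum_le_mul (v := L) (List.pairwise_cons.1 hs').1
  have h3 := mul_le_sum hmid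
  have hL2 : 2 ≤ L := by
    by_contra h
    have h4 : mid.length = 0 := by omega
    rw [h4] at h2
    omega
  obtain ⟨find, h1⟩ := hall (1024 * L + 32 * mid.length + t) (by omega)
  obtain ⟨c1, c2, c3⟩ := code L mid.length t (by omega) (by omega)
  rw [bbX, c1, c2, c3,
    show L.ble (mid.length + t) = false by
      rw [← Bool.not_eq_true, Nat.ble_eq]; omega, Bool.false_or, bbT] at h1
  have h4 : ((2 : ℕ).ble L && (L + t + 2 * mid.length).ble μ.sum &&
      μ.sum.ble (L + t + L * mid.length)) = true := by
    simp only [Bool.and_eq_true, Nat.ble_eq]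
    omega
  rw [h4, Bool.not_true, Bool.false_or, show μ.sum - L - t = mid.sum by omega] at h1
  have key := rec_ok (G := fun l => (l ++ List.replicate t 1).sum = μ.sum →
    FJ μ (colv (l ++ List.replicate t 1))) ?_ ?_ mid [L] h1 (by simpa using hL2) hmid hs'
  · exact key hsum
  · intro p rest hnode hp hr hsm
    obtain ⟨A, hA, h5⟩ := List.any_eq_true.1 hnode
    rcases Bool.or_eq_true_iff.1 h5 with h5 | h5
    · refine cov A hA _ _ (Or.inl h5) hsm fun k => ?_
      have h6 := sm_le_sum rest k
      have h7 := sm_le_mul rest k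
      simp only [List.map_append, List.sum_append, List.map_reverse, List.sum_reverse,
        List.map_replicate, List.sum_replicate, smul_eq_mul]
      rw [mul_comm t]
      omega
    · refine hU.twist μ _ hsc (cov A hA _ _ (Or.inr h5) ((sum_conjL _).trans hsm) fun k => ?_)
      have h6 := sum_min_add_exc (conjL (p.reverse ++ rest ++ List.replicate t 1)) k
      have h7 := exc_ge (conjL (p.reverse ++ rest ++ List.replicate t 1)) k
      have h8 : ∀ j, j < 2 → colv (p.reverse ++ rest) j = p.length + rest.length := by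
        intro j hj
        rw [colv_of_lt, List.length_append, List.length_reverse]
        intro x hx
        rcases List.mem_append.1 hx with hx | hx
        · have := hp x (List.mem_reverse.1 hx); omega
        · have := hr x hx; omega
      rw [vec_conjL, colv_append, Pi.add_apply, Pi.add_apply, h8 0 (by omega), h8 1 (by omega),
        colv_replicate, colv_replicate, if_pos (by omega), if_neg (by omega)] at h7
      rw [sum_conjL, hsm] at h6
      omega
  · intro p hleaf _
    have := hC K hK _ none μ _ hsort hleaf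
    rwa [vec_conjL] at this

end Crest.Agent.R195
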