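import Crest.Agent.R195.Defs

/-! Row 195: basic lemmas on column vectors, labels and the bridge to `Kron`. -/

set_option autoImplicit false
set_option linter.unusedSectionVars false

namespace Crest.Agent.R195

open Finset

lemma rowsOf_eq_card {c : ℕ → ℕ} {N : ℕ} (h : ∀ j, N ≤ j → c j = 0) (i : ℕ) :
    rowsOf c i = ((range N).filter fun j => i < c j).card := by
  rw [rowsOf, ← Set.ncard_coe_finset]
  congr 1
  ext j
  simp only [Set.mem_ofPred_eq, coe_filter, mem_range]
  refine ⟨fun hj => ⟨?_, hj⟩, fun hj => hj.2⟩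
  by_contra hN
  rw [h j (not_lt.1 hN)] at hj
  omega

lemma FS.zero : FS 0 := ⟨0, fun _ _ => rfl⟩

lemma FS.add {p q : ℕ → ℕ} (hp : FS p) (hq : FS q) : FS (p + q) := by
  obtain ⟨N, hN⟩ := hp
  obtain ⟨M, hM⟩ := hq
  exact ⟨max N M, fun j hj => by
    simp [hN j (le_of_max_le_left hj), hM j (le_of_max_le_right hj)]⟩

lemma FS.of_le {p q : ℕ → ℕ} (hq : FS q) (h : ∀ j, p j ≤ q j) : FS p := by
  obtain ⟨N, hN⟩ := hq
  exact ⟨N, fun j hj => by have := h j; rw [hN j hj] at this; omega⟩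

lemma Sz.fs {m : ℕ} {c : ℕ → ℕ} (h : Sz m c) : FS c := ⟨h.choose, h.choose_spec.1⟩

lemma sum_range_eq_of_supp {c : ℕ → ℕ} {N M : ℕ} (h : ∀ j, N ≤ j → c j = 0) (hM : N ≤ M) :
    ∑ j ∈ range M, c j = ∑ j ∈ range N, c j :=
  (sum_subset (range_subset_range.2 hM) fun j _ hj => h j (by simpa using hj)).symm

/-- The total may be computed on any range containing the support. -/
lemma Sz.sum_eq {m : ℕ} {c : ℕ → ℕ} (h : Sz m c) {N : ℕ} (hN : ∀ j, N ≤ j → c j = 0) :
    ∑ j ∈ range N, c j = m := by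
  obtain ⟨M, hM, rfl⟩ := h
  rw [← sum_range_eq_of_supp hN (le_max_left N M), sum_range_eq_of_supp hM (le_max_right N M)]

lemma Sz.unique {m m' : ℕ} {c : ℕ → ℕ} (h : Sz m c) (h' : Sz m' c) : m = m' := by
  obtain ⟨N, hN, rfl⟩ := h'
  exact (h.sum_eq hN).symm

lemma FS.exists_sz {c : ℕ → ℕ} (h : FS c) : ∃ m, Sz m c := by
  obtain ⟨N, hN⟩ := h
  exact ⟨_, N, hN, rfl⟩

lemma Sz.zero : Sz 0 0 := ⟨0, fun _ _ => rfl, rfl⟩

lemma Sz.sum_le {m : ℕ} {c : ℕ → ℕ} (h : Sz m c) (S : Finset ℕ) : ∑ j ∈ S, c j ≤ m := by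
  obtain ⟨N, hN, rfl⟩ := h
  refine sum_le_sum_of_ne_zero fun j _ hj => mem_range.2 ?_
  by_contra h
  exact hj (hN j (not_lt.1 h))

lemma Sz.le {m : ℕ} {c : ℕ → ℕ} (h : Sz m c) (j : ℕ) : c j ≤ m := by
  simpa using h.sum_le {j}

lemma Sz.eq_zero {c : ℕ → ℕ} (h : Sz 0 c) : c = 0 := funext fun j => Nat.le_zero.1 (h.le j)

lemma Sz.add {m m' : ℕ} {p q : ℕ → ℕ} (hp : Sz m p) (hq : Sz m' q) : Sz (m + m') (p + q) := by
  obtain ⟨N, hN⟩ := hp.fs
  obtain ⟨M, hM⟩ := hq.fs
  have h1 : ∀ j, max N M ≤ j → p j = 0 := fun j hj => hN j (le_of_max_le_left hj)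
  have h2 : ∀ j, max N M ≤ j → q j = 0 := fun j hj => hM j (le_of_max_le_right hj)
  refine ⟨max N M, fun j hj => by simp [h1 j hj, h2 j hj], ?_⟩
  simp only [Pi.add_apply, sum_add_distrib, hp.sum_eq h1, hq.sum_eq h2]

lemma Sz.of_add {m m' : ℕ} {p q : ℕ → ℕ} (h : Sz (m + m') (p + q)) (hp : Sz m p) : Sz m' q := by
  obtain ⟨k, hk⟩ := (h.fs.of_le (p := q) fun j => by simp).exists_sz
  have := h.unique (hp.add hk)
  rwa [show m' = k by omega]

lemma sz_ind (S : Finset ℕ) : Sz S.card (ind S) := by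
  refine ⟨S.sup id + 1, fun j hj => if_neg fun h => ?_, ?_⟩
  · have := le_sup (f := id) h
    simp only [id] at this
    omega
  · simp only [ind]
    rw [← card_filter]
    congr 1
    ext j
    simp only [mem_filter, mem_range, and_iff_right_iff_imp]
    exact fun h => Nat.lt_succ_of_le (le_sup (f := id) h)

lemma sz_single (j h : ℕ) : Sz h (Pi.single j h) :=
  ⟨j + 1, fun i hi => Pi.single_eq_of_ne (by omega) _, by
    rw [sum_eq_single j (fun i _ hi => Pi.single_eq_of_ne hi _) (by simp), Pi.single_eq_same]⟩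

lemma ind_le_one (S : Finset ℕ) (j : ℕ) : ind S j ≤ 1 := by unfold ind; split_ifs <;> omega

@[simp] lemma ind_empty : ind ∅ = 0 := funext fun j => by simp [ind]

/-- A `0/1` vector is an indicator. -/
lemma Sz.exists_ind {m : ℕ} {c : ℕ → ℕ} (h : Sz m c) (h1 : ∀ j, c j ≤ 1) :
    ∃ S : Finset ℕ, S.card = m ∧ c = ind S := by
  obtain ⟨N, hN⟩ := h.fs
  have : c = ind ((range N).filter fun j => c j = 1) := funext fun j => by
    have := h1 j
    simp only [ind, mem_filter, mem_range]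
    split_ifs with hj
    · exact hj.2
    · by_cases hjN : j < N
      · have : c j ≠ 1 := fun h => hj ⟨hjN, h⟩
        omega
      · exact hN j (not_lt.1 hjN)
  exact ⟨_, (sz_ind _).unique (this ▸ h), this⟩

@[simp] lemma vec_nil : vec [] = 0 := funext fun j => by simp [vec]

@[simp] lemma vec_cons_zero (a : ℕ) (l : List ℕ) : vec (a :: l) 0 = a := rfl

@[simp] lemma vec_cons_succ (a : ℕ) (l : List ℕ) (j : ℕ) : vec (a :: l) (j + 1) = vec l j := rfl

lemma vec_of_le {l : List ℕ} {j : ℕ} (h : l.length ≤ j) : vec l j = 0 := by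
  simp [vec, List.getD, List.getElem?_eq_none h]

lemma vec_of_lt {l : List ℕ} {j : ℕ} (h : j < l.length) : vec l j = l[j] := by
  simp [vec, List.getD, h]

lemma sz_vec (l : List ℕ) : Sz l.sum (vec l) := by
  refine ⟨l.length, fun j hj => vec_of_le hj, ?_⟩
  induction l with
  | nil => simp
  | cons a l ih => rw [List.length_cons, sum_range_succ', List.sum_cons, ← ih, add_comm]; rfl

lemma fs_vec (l : List ℕ) : FS (vec l) := (sz_vec l).fs

@[simp] lemma colv_nil : colv [] = 0 := rfl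

lemma colv_cons (a : ℕ) (l : List ℕ) : colv (a :: l) = ind (range a) + colv l := by
  funext j
  simp only [colv, List.countP_cons, Pi.add_apply, ind, mem_range, decide_eq_true_eq]
  omega

lemma colv_cons_apply (a : ℕ) (l : List ℕ) (j : ℕ) :
    colv (a :: l) j = (if j < a then 1 else 0) + colv l j := by
  rw [colv_cons]; simp [ind]

lemma colv_append (l l' : List ℕ) : colv (l ++ l') = colv l + colv l' := by
  funext j; simp [colv]

lemma colv_perm {l l' : List ℕ} (h : l.Perm l') : colv l = colv l' :=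
  funext fun _ => h.countP_eq _

lemma colv_replicate (k b j : ℕ) : colv (List.replicate k b) j = if j < b then k else 0 := by
  simp [colv, List.countP_replicate]

lemma colv_anti (l : List ℕ) : Antitone (colv l) := fun i j hij =>
  List.countP_mono_left fun x _ hx => by
    simp only [decide_eq_true_eq] at hx ⊢; omega

lemma colv_eq_zero {l : List ℕ} {j : ℕ} : colv l j = 0 ↔ ∀ x ∈ l, x ≤ j := by
  simp [colv, List.countP_eq_zero]

lemma colv_le_length (l : List ℕ) (j : ℕ) : colv l j ≤ l.length := List.countP_le_length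

lemma sz_colv (l : List ℕ) : Sz l.sum (colv l) := by
  induction l with
  | nil => exact Sz.zero
  | cons a l ih =>
    rw [colv_cons, List.sum_cons]
    simpa using (sz_ind (range a)).add ih

lemma fs_colv (l : List ℕ) : FS (colv l) := (sz_colv l).fs

lemma le_foldr_max {l : List ℕ} {x : ℕ} (h : x ∈ l) : x ≤ l.foldr max 0 := by
  induction l with
  | nil => simp at h
  | cons a l ih =>
    rcases List.mem_cons.1 h with rfl | h
    · exact le_max_left _ _
    · exact (ih h).trans (le_max_right _ _)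

lemma vec_conjL (l : List ℕ) : vec (conjL l) = colv l := by
  funext j
  by_cases h : j < l.foldr max 0
  · rw [vec_of_lt (by simpa [conjL] using h)]; simp [conjL]
  · rw [vec_of_le (by simpa [conjL] using h), eq_comm, colv_eq_zero]
    exact fun x hx => (le_foldr_max hx).trans (not_lt.1 h)

lemma sum_conjL (l : List ℕ) : (conjL l).sum = l.sum :=
  (sz_vec _).unique (by rw [vec_conjL]; exact sz_colv l)

lemma SC.vec_eq {μ : List ℕ} (h : SC μ) : vec μ = colv μ := by
  rw [← vec_conjL, h]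

lemma rowsOf_vec (l : List ℕ) : rowsOf (vec l) = colv l := by
  funext i
  rw [rowsOf_eq_card (N := l.length) fun j hj => vec_of_le hj]
  induction l with
  | nil => simp
  | cons a l ih =>
    rw [colv_cons_apply, ← ih, List.length_cons, card_filter, card_filter, sum_range_succ',
      add_comm]
    rfl

lemma rowsOf_anti {c : ℕ → ℕ} (h : FS c) : Antitone (rowsOf c) := fun i j hij => by
  obtain ⟨N, hN⟩ := h
  rw [rowsOf_eq_card hN, rowsOf_eq_card hN]
  exact card_le_card fun x hx => by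
    simp only [mem_filter] at hx ⊢; exact ⟨hx.1, by omega⟩

lemma Sz.rowsOf {m : ℕ} {c : ℕ → ℕ} (h : Sz m c) : Sz m (rowsOf c) := by
  obtain ⟨N, hN⟩ := h.fs
  refine ⟨m, fun i hi => ?_, ?_⟩
  · rw [rowsOf_eq_card hN, card_eq_zero, filter_eq_empty_iff]
    exact fun j _ => not_lt.2 ((h.le j).trans hi)
  · simp only [rowsOf_eq_card hN, card_filter]
    rw [sum_comm]
    conv_rhs => rw [← h.sum_eq hN]
    refine sum_congr rfl fun j _ => ?_
    rw [← card_filter]
    have : (range m).filter (fun i => i < c j) = range (c j) := by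
      ext i
      have := h.le j
      simp only [mem_filter, mem_range]
      omega
    rw [this, card_range]

lemma FS.rowsOf {c : ℕ → ℕ} (h : FS c) : FS (rowsOf c) := h.exists_sz.choose_spec.rowsOf.fs

lemma isConj_rowsOf {f : ℕ → ℕ} (ha : Antitone f) (h : FS f) : IsConjShape f (rowsOf f) := by
  obtain ⟨N, hN⟩ := h
  intro i j
  rw [rowsOf_eq_card hN]
  constructor
  · intro hj
    have : range (i + 1) ⊆ (range N).filter fun x => j < f x := fun x hx => by
      have h1 : f i ≤ f x := ha (Nat.lt_succ_iff.1 (mem_range.1 hx))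
      refine mem_filter.2 ⟨mem_range.2 ?_, by omega⟩
      by_contra hx'
      rw [hN x (not_lt.1 hx')] at h1
      omega
    simpa using card_le_card this
  · intro hi
    by_contra hj
    have : ((range N).filter fun x => j < f x) ⊆ range i := fun x hx => by
      rw [mem_range]
      by_contra hx'
      have := ha (not_lt.1 hx')
      have := (mem_filter.1 hx).2
      omega
    have := card_le_card this
    rw [card_range] at this
    omega

lemma rowsOf_rowsOf {f : ℕ → ℕ} (ha : Antitone f) (h : FS f) : rowsOf (rowsOf f) = f :=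
  (isConj_rowsOf (rowsOf_anti h) h.rowsOf).unique (isConj_rowsOf ha h).symm

lemma isConj_colv (l : List ℕ) : IsConjShape (colv l) (rowsOf (colv l)) :=
  isConj_rowsOf (colv_anti l) (fs_colv l)

lemma colv_conjL (l : List ℕ) : colv (conjL l) = rowsOf (colv l) := by
  rw [← rowsOf_vec, vec_conjL]

lemma rowsOf_colv_conjL (l : List ℕ) : rowsOf (colv (conjL l)) = colv l := by
  rw [colv_conjL, rowsOf_rowsOf (colv_anti l) (fs_colv l)]

lemma colv_conjL_conjL (l : List ℕ) : colv (conjL (conjL l)) = colv l := by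
  rw [colv_conjL, rowsOf_colv_conjL]

lemma vec_anti {l : List ℕ} (h : l.Pairwise (· ≥ ·)) : Antitone (vec l) := by
  refine antitone_nat_of_succ_le fun j => ?_
  by_cases hj : j + 1 < l.length
  · rw [vec_of_lt hj, vec_of_lt (by omega)]
    exact List.pairwise_iff_getElem.1 h j (j + 1) (by omega) hj (by omega)
  · rw [vec_of_le (not_lt.1 hj)]; omega

/-- For a sorted list the rows of `colv l` are the entries of `l`. -/
lemma rowsOf_colv {l : List ℕ} (h : l.Pairwise (· ≥ ·)) : rowsOf (colv l) = vec l := by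
  rw [← rowsOf_vec, rowsOf_rowsOf (vec_anti h) (fs_vec l)]

lemma SC.rowsOf_colv {μ : List ℕ} (h : SC μ) : rowsOf (colv μ) = colv μ := by
  rw [← colv_conjL, h]

lemma rowsOf_vec_perm {l l' : List ℕ} (h : l.Perm l') : rowsOf (vec l) = rowsOf (vec l') := by
  rw [rowsOf_vec, rowsOf_vec, colv_perm h]

lemma rowsOf_add_disj {b c : ℕ → ℕ} (hb : FS b) (hc : FS c) (h : ∀ j, b j = 0 ∨ c j = 0) :
    rowsOf (b + c) = rowsOf b + rowsOf c := by
  obtain ⟨N, hN⟩ := hb.add hc
  have h1 : ∀ j, N ≤ j → b j = 0 := fun j hj => by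
    have := hN j hj; simp only [Pi.add_apply] at this; omega
  have h2 : ∀ j, N ≤ j → c j = 0 := fun j hj => by
    have := hN j hj; simp only [Pi.add_apply] at this; omega
  funext i
  simp only [Pi.add_apply, rowsOf_eq_card hN, rowsOf_eq_card h1, rowsOf_eq_card h2, card_filter,
    ← sum_add_distrib]
  refine sum_congr rfl fun j _ => ?_
  rcases h j with h | h <;> simp [h]

lemma rowsOf_ind (S : Finset ℕ) : rowsOf (ind S) = rowShape S.card := by
  funext i
  rw [rowsOf, rowShape]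
  split_ifs with h
  · subst h
    rw [← Set.ncard_coe_finset]
    congr 1
    ext j
    simp only [ind, Set.mem_ofPred_eq, mem_coe]
    split_ifs with hj <;> simp [hj]
  · rw [Set.ncard_eq_zero (Set.Finite.subset (Set.finite_empty) fun j hj => ?_)]
    · ext j
      have := ind_le_one S j
      simp only [Set.mem_ofPred_eq, Set.mem_empty_iff_false, iff_false]
      omega
    · have := ind_le_one S j
      simp only [Set.mem_ofPred_eq] at hj
      omega

/-! ### Labels -/

lemma Lab.sz {l : List ℕ} {c : ℕ → ℕ} (h : Lab l c) : Sz l.sum c := by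
  induction l generalizing c with
  | nil => rw [show c = 0 from h]; exact Sz.zero
  | cons a l ih =>
    obtain ⟨S, c', rfl, h, rfl⟩ := h
    exact (sz_ind S).add (ih h)

lemma Lab.le_length {l : List ℕ} {c : ℕ → ℕ} (h : Lab l c) (j : ℕ) : c j ≤ l.length := by
  induction l generalizing c with
  | nil => rw [show c = 0 from h]; simp
  | cons a l ih =>
    obtain ⟨S, c', rfl, h, rfl⟩ := h
    have := ih h
    have := ind_le_one S j
    simp only [Pi.add_apply, List.length_cons]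
    omega

lemma Lab.append_iff {l l' : List ℕ} {c : ℕ → ℕ} :
    Lab (l ++ l') c ↔ ∃ c1 c2, Lab l c1 ∧ Lab l' c2 ∧ c = c1 + c2 := by
  induction l generalizing c with
  | nil =>
    exact ⟨fun h => ⟨0, c, rfl, h, by simp⟩, fun ⟨c1, c2, h1, h2, h⟩ => by
      rw [h, show c1 = 0 from h1, zero_add]; exact h2⟩
  | cons a l ih =>
    constructor
    · rintro ⟨S, c', hS, h, rfl⟩
      obtain ⟨c1, c2, h1, h2, rfl⟩ := ih.1 h
      exact ⟨ind S + c1, c2, ⟨S, c1, hS, h1, rfl⟩, h2, by rw [add_assoc]⟩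
    · rintro ⟨_, c2, ⟨S, c1, hS, h1, rfl⟩, h2, rfl⟩
      exact ⟨S, c1 + c2, hS, ih.2 ⟨c1, c2, h1, h2, rfl⟩, by rw [add_assoc]⟩

lemma Lab.append {l l' : List ℕ} {c c' : ℕ → ℕ} (h : Lab l c) (h' : Lab l' c') :
    Lab (l ++ l') (c + c') := Lab.append_iff.2 ⟨c, c', h, h', rfl⟩

lemma Lab.perm {l l' : List ℕ} (hp : l.Perm l') {c : ℕ → ℕ} (h : Lab l c) : Lab l' c := by
  induction hp generalizing c with
  | nil => exact h
  | cons a _ ih =>
    obtain ⟨S, c', hS, h, rfl⟩ := h
    exact ⟨S, c', hS, ih h, rfl⟩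
  | swap a b l =>
    obtain ⟨S, _, hS, ⟨T, c', hT, h, rfl⟩, rfl⟩ := h
    exact ⟨T, ind S + c', hT, ⟨S, c', hS, h, rfl⟩, add_left_comm _ _ _⟩
  | trans _ _ ih1 ih2 => exact ih2 (ih1 h)

lemma lab_single {a : ℕ} {c : ℕ → ℕ} : Lab [a] c ↔ ∃ S : Finset ℕ, S.card = a ∧ c = ind S :=
  ⟨fun ⟨S, c', hS, h, hc⟩ => ⟨S, hS, by rw [hc, show c' = 0 from h, add_zero]⟩,
    fun ⟨S, hS, hc⟩ => ⟨S, 0, hS, rfl, by rw [hc, add_zero]⟩⟩

lemma lab_colv (l : List ℕ) : Lab l (colv l) := by
  induction l with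
  | nil => rfl
  | cons a l ih => exact ⟨range a, colv l, card_range a, ih, colv_cons a l⟩

lemma lab_replicate_iff {m : ℕ} {c : ℕ → ℕ} : Lab (List.replicate m 1) c ↔ Sz m c := by
  refine ⟨fun h => by simpa using h.sz, fun h => ?_⟩
  induction m generalizing c with
  | zero => exact h.eq_zero
  | succ m ih =>
    obtain ⟨j, hj⟩ : ∃ j, c j ≠ 0 := by
      by_contra hne
      push Not at hne
      have := h.unique (show Sz 0 c by rw [show c = 0 from funext hne]; exact Sz.zero)
      omega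
    have hc : c = ind {j} + fun i => c i - ind {j} i := funext fun i => by
      simp only [Pi.add_apply, ind, mem_singleton]
      split_ifs with hi
      · subst hi; omega
      · omega
    refine ⟨{j}, _, card_singleton j, ih ?_, hc⟩
    rw [hc, add_comm m 1] at h
    exact h.of_add (by simpa using sz_ind {j})

lemma Paired.sz {b : ℕ} {β : ℕ → ℕ} (h : Paired b β) : Sz (2 * b) β := by
  induction h with
  | zero => exact Sz.zero
  | add h j k _ _ _ _ _ ih =>
    have := ih.add ((sz_single j h).add (sz_single k h))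
    rwa [mul_add, two_mul h]

/-! ### Tableaux -/

variable {α : Type*} [Fintype α] [DecidableEq α]

lemma sz_cont (c : α → ℕ) : Sz (Fintype.card α) (cont c) := by
  have h : ∀ a, c a < univ.sup c + 1 := fun a => Nat.lt_succ_of_le (le_sup (mem_univ a))
  exact ⟨univ.sup c + 1, fun j hj => cont_eq_zero fun a ha => by have := h a; omega, sum_cont c h⟩

lemma fs_cont (c : α → ℕ) : FS (cont c) := (sz_cont c).fs

lemma cont_pos (c : α → ℕ) (a : α) : 0 < cont c (c a) := card_pos.2 ⟨a, by simp⟩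

lemma Latin.lt_cont {r c : α → ℕ} (h : Latin r c) (a : α) : r a < cont c (c a) := by
  have : range (r a + 1) ⊆ (univ.filter fun b => c b = c a).image r := fun i hi => by
    rcases (Nat.lt_succ_iff.1 (mem_range.1 hi)).eq_or_lt with rfl | hi
    · exact mem_image.2 ⟨a, by simp, rfl⟩
    · obtain ⟨b, h1, h2⟩ := h.down a i hi
      exact mem_image.2 ⟨b, by simp [h1], h2⟩
  have h2 := (card_le_card this).trans card_image_le
  rw [card_range] at h2
  exact h2

lemma Latin.exists_cell {r c : α → ℕ} (h : Latin r c) {i j : ℕ} (hi : i < cont c j) :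
    ∃ a, c a = j ∧ r a = i := by
  obtain ⟨a, ha⟩ := card_pos.1 (show 0 < cont c j by omega)
  have ha' : c a = j := (mem_filter.1 ha).2
  subst ha'
  refine h.exists_of_lt a ?_
  refine hi.trans_le (le_of_eq ?_)
  unfold cont
  congr

lemma cont_eq_rowsOf {r c : α → ℕ} (h : Latin r c) : cont r = rowsOf (cont c) := by
  funext i
  obtain ⟨N, hN⟩ := fs_cont c
  rw [rowsOf_eq_card hN, cont]
  refine card_bij (fun a _ => c a) (fun a ha => ?_) (fun a ha b hb hab => ?_) (fun j hj => ?_)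
  · have h1 := h.lt_cont a
    rw [(mem_filter.1 ha).2] at h1
    refine mem_filter.2 ⟨mem_range.2 ?_, h1⟩
    by_contra hx
    rw [hN _ (not_lt.1 hx)] at h1
    omega
  · exact h.inj a b hab (by rw [(mem_filter.1 ha).2, (mem_filter.1 hb).2])
  · obtain ⟨a, h1, h2⟩ := h.exists_cell (mem_filter.1 hj).2
    exact ⟨a, by simp [h2], h1⟩

/-- A tableau with prescribed column lengths. -/
lemma exists_model {p : ℕ → ℕ} (h : Sz (Fintype.card α) p) :
    ∃ r c : α → ℕ, Latin r c ∧ cont c = p := by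
  obtain ⟨N, hN, hs⟩ := h
  have hc : Fintype.card α = Fintype.card (Σ j : Fin N, Fin (p j)) := by
    rw [Fintype.card_sigma, ← hs, ← Fin.sum_univ_eq_sum_range]; simp
  obtain ⟨e⟩ := Fintype.card_eq.1 hc
  have hL : Latin (fun x : (Σ j : Fin N, Fin (p j)) => (x.2 : ℕ)) (fun x => (x.1 : ℕ)) := by
    constructor
    · rintro ⟨j, a⟩ ⟨k, b⟩ h1 h2
      obtain rfl : j = k := Fin.ext h1
      obtain rfl : a = b := Fin.ext h2
      rfl
    · rintro ⟨j, a⟩ i hi
      exact ⟨⟨j, i, hi.trans a.2⟩, rfl, rfl⟩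
  refine ⟨_, _, hL.comp e, ?_⟩
  rw [cont_comp]
  funext j
  rw [cont, card_filter, Fintype.sum_sigma]
  by_cases hj : j < N
  · rw [sum_eq_single (⟨j, hj⟩ : Fin N)
      (fun b _ hb => sum_eq_zero fun _ _ => if_neg fun h => hb (Fin.ext h)) (by simp)]
    simp
  · rw [hN j (not_lt.1 hj)]
    exact sum_eq_zero fun b _ => sum_eq_zero fun _ _ => if_neg fun h : (b : ℕ) = j => hj (h ▸ b.2)

/-- Relabelling the columns of a Latin pair to prescribed lengths. -/
lemma Latin.exists_relabel {κ : Type*} {r : α → ℕ} {c : α → κ} (h : Latin r c) {p : ℕ → ℕ}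
    (hp : FS p) (hr : cont r = rowsOf p) :
    ∃ c' : α → ℕ, Latin r c' ∧ cont c' = p ∧ ∀ a b, c a = c b ↔ c' a = c' b := by
  obtain ⟨m, hm⟩ := hp.exists_sz
  have h1 : Fintype.card α = m := (sz_cont r).unique (hr ▸ hm.rowsOf)
  obtain ⟨r', c', hL, hc⟩ := exists_model (α := α) (h1 ▸ hm)
  obtain ⟨e, he, he'⟩ := hL.exists_equiv h (by rw [cont_eq_rowsOf hL, hc, hr])
  exact ⟨c' ∘ e, h.congr he', by rw [cont_comp, hc], he'⟩

lemma isShape_rowsOf {c : ℕ → ℕ} (h : Sz (Fintype.card α) c) : IsShape α (rowsOf c) := by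
  obtain ⟨r, c', hL, rfl⟩ := exists_model h
  rw [← cont_eq_rowsOf hL]
  exact hL.isShape

lemma IsShape.sz {A : ℕ → ℕ} (h : IsShape α A) : Sz (Fintype.card α) A := by
  obtain ⟨r, c, h⟩ := h
  rw [← h.cont_eq]
  exact sz_cont r

/-- `Band` may be established on any finite alphabet. -/
lemma band_of {lo hi : ℕ} {p q c : ℕ → ℕ} (hc : FS c) {r1 c1 r2 c2 : α → ℕ} (h1 : Latin r1 c1)
    (h2 : Latin r2 c2) (hp : cont c1 = p) (hq : cont c2 = q)
    (hb : ∀ a, lo ≤ c1 a + c2 a ∧ c1 a + c2 a < hi)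
    (H : Sees (pairRep α) (poly2 r1 c1 r2 c2) (rowsOf c)) : Band lo hi p q c := by
  let e := (Fintype.equivFin α).symm
  exact ⟨hc, _, _, _, _, _, h1.comp e, h2.comp e, by rw [cont_comp, hp], by rw [cont_comp, hq],
    fun a => hb _, by rw [poly2_comp]; exact H.wcomp e⟩

lemma Band.mono {lo hi lo' hi' : ℕ} {p q c : ℕ → ℕ} (h : Band lo hi p q c) (h1 : lo' ≤ lo)
    (h2 : hi ≤ hi') : Band lo' hi' p q c := by
  obtain ⟨hc, n, r1, c1, r2, c2, l1, l2, hp, hq, hb, H⟩ := h
  exact ⟨hc, n, r1, c1, r2, c2, l1, l2, hp, hq, fun a => by have := hb a; omega, H⟩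

lemma Band.free {lo hi : ℕ} {p q c : ℕ → ℕ} (h : Band lo hi p q c) : Free p q c :=
  ⟨hi, h.mono (Nat.zero_le _) le_rfl⟩

lemma Band.recol {lo hi : ℕ} {p q c c' : ℕ → ℕ} (h : Band lo hi p q c) (hc : FS c')
    (he : rowsOf c = rowsOf c') : Band lo hi p q c' := ⟨hc, he ▸ h.2⟩

/-- All three vectors of a band have the same total. -/
lemma Band.sz {lo hi : ℕ} {p q c : ℕ → ℕ} (h : Band lo hi p q c) :
    ∃ n, Sz n p ∧ Sz n q ∧ Sz n c := by
  obtain ⟨hc, n, r1, c1, r2, c2, -, -, rfl, rfl, -, H⟩ := h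
  obtain ⟨m, hm⟩ := hc.exists_sz
  refine ⟨_, sz_cont c1, sz_cont c2, ?_⟩
  rwa [H.isShape.sz.unique hm.rowsOf]

theorem free_iff_kron {p q c : ℕ → ℕ} :
    Free p q c ↔ FS p ∧ FS q ∧ FS c ∧ Kron (rowsOf p) (rowsOf q) (rowsOf c) := by
  constructor
  · rintro ⟨hi, hc, n, r1, c1, r2, c2, l1, l2, rfl, rfl, -, H⟩
    exact ⟨fs_cont _, fs_cont _, hc, kron_of_sees l1 l2 (cont_eq_rowsOf l1) (cont_eq_rowsOf l2) H⟩
  · rintro ⟨hp, hq, hc, n, r1, c1, r2, c2, l1, h1, l2, h2, H⟩
    obtain ⟨d1, m1, e1, f1⟩ := l1.exists_relabel hp h1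
    obtain ⟨d2, m2, e2, f2⟩ := l2.exists_relabel hq h2
    refine ⟨univ.sup (fun a => d1 a + d2 a) + 1, hc, n, r1, d1, r2, d2, m1, m2, e1, e2,
      fun a => ⟨Nat.zero_le _, Nat.lt_succ_of_le (le_sup (f := fun a => d1 a + d2 a) (mem_univ a))⟩,
      ?_⟩
    rwa [← poly2_congr r1 r2 f1 f2]

/-- A full self-conjugate shape gives all Kronecker coefficients. -/
theorem Full.kron {μ : List ℕ} (h : Full μ) (hs : SC μ) {C : ℕ → ℕ} (hC : IsShape α C)
    (hn : Fintype.card α = μ.sum) : Kron (vec μ) (vec μ) C := by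
  have h1 := (free_iff_kron.1 (h (rowsOf C) (hn ▸ hC.sz.rowsOf))).2.2.2
  rwa [hs.rowsOf_colv, ← hs.vec_eq, rowsOf_rowsOf hC.anti hC.sz.fs] at h1

end Crest.Agent.R195
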