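import Crest.Agent.R195.Defs2

/-! Row 195: the large members of the family satisfy the criterion. -/

set_option autoImplicit false

namespace Crest.Agent.R195

namespace Big

/-! ### Runs -/

lemma run_succ (b l : ℕ) : run b (l + 1) = b :: run (b - 1) l := rfl

lemma run_add (b l1 l2 : ℕ) : run b (l1 + l2) = run b l1 ++ run (b - l1) l2 := by
  induction l1 generalizing b with
  | zero => simp [run]
  | succ l ih =>
    rw [Nat.add_right_comm, run_succ, run_succ, ih, List.cons_append, Nat.sub_sub,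
      Nat.add_comm 1 l]

lemma run_split {b l : ℕ} (l1 : ℕ) (h : l1 ≤ l) : run b l = run b l1 ++ run (b - l1) (l - l1) := by
  rw [← run_add, Nat.add_sub_cancel' h]

lemma run_le {b l x : ℕ} (h : x ∈ run b l) : x ≤ b := by
  induction l generalizing b with
  | zero => simp [run] at h
  | succ l ih =>
    rw [run_succ, List.mem_cons] at h
    rcases h with rfl | h
    · exact le_rfl
    · exact (ih h).trans (Nat.sub_le _ _)

lemma run_append_le {b l : ℕ} {ν : List ℕ} (h : ∀ x ∈ ν, x ≤ b) : ∀ x ∈ run b l ++ ν, x ≤ b :=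
  fun x hx => (List.mem_append.1 hx).elim run_le (h x)

/-! ### Weighted judgements -/

/-- The weight function. -/
def phi (a k : ℕ) : ℕ := min (2 * k + 4) (a + 6 - 2 * k)

/-- Universal judgement with reserved labels `del` and weight `s`; the rows are at most `e`. -/
def UB (a e : ℕ) (ν del : List ℕ) (s : ℕ) : Prop :=
  (∀ x ∈ ν, x ≤ e) ∧ ∃ al, UX e ν (del ++ al) ∧
    ∀ k, 1 ≤ k → 2 * exc (del ++ al) k ≤ 2 * exc ν (2 * k) + s * phi a k

/-- Balanced labels. -/
def bal (m : ℕ) : List ℕ := [(m + 3) / 4, (m + 2) / 4, (m + 1) / 4, m / 4]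

lemma bal_sum (m : ℕ) : (bal m).sum = m := by simp [bal]; omega

lemma exc_nil (k : ℕ) : exc [] k = 0 := rfl

lemma exc_bal (m k : ℕ) : exc (bal m) k = m - 4 * k := by
  simp only [bal, exc_cons, exc_nil]; omega

variable {a e b s : ℕ} {ν del del' : List ℕ}

lemma UB.mono (hU : URules) (h : UB a e ν del s) {e' s' : ℕ} (he : e ≤ e') (hs : s ≤ s') :
    UB a e' ν del s' := by
  obtain ⟨h0, al, h1, h2⟩ := h
  refine ⟨fun x hx => (h0 x hx).trans he, al, hU.mono _ _ _ _ h1 he, fun k hk => ?_⟩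
  exact (h2 k hk).trans (Nat.add_le_add_left (Nat.mul_le_mul_right _ hs) _)

lemma UB.single (hU : URules) (h : UB a e ν del s) (he : e + 1 ≤ b) (hb : 2 * b ≤ a + 6) :
    UB a b (b :: ν) del (s + 1) := by
  obtain ⟨h0, al, h1, h2⟩ := h
  have h3 : ∀ x ∈ ν, x ≤ b := fun x hx => by have := h0 x hx; omega
  refine ⟨by simpa using h3, b :: al, ?_, fun k hk => ?_⟩
  · have := hU.triv e 1 b ν _ h1 he h3
    rw [one_mul] at this
    exact hU.permX _ _ _ _ List.perm_middle.symm this
  · have := h2 k hk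
    simp only [exc_append, exc_cons, Nat.add_mul, one_mul] at this ⊢
    have : 2 * (b - k) ≤ 2 * (b - 2 * k) + phi a k := by unfold phi; omega
    omega

lemma UB.zz (hU : URules) (h : UB a e ν del s) (he : e + 2 ≤ b) :
    UB a b (b :: (b - 1) :: ν) del s := by
  obtain ⟨h0, al, h1, h2⟩ := h
  have h3 : ∀ x ∈ ν, x + 1 ≤ b := fun x hx => by have := h0 x hx; omega
  refine ⟨?_, bal (2 * b - 1) ++ al, ?_, fun k hk => ?_⟩
  · simp only [List.mem_cons]
    rintro x (rfl | rfl | hx)
    · exact le_rfl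
    · omega
    · have := h3 x hx; omega
  · have := hU.zz e b ν _ (bal (2 * b - 1)) h1 he h3 (by simp [bal]) (bal_sum _)
    refine hU.permX _ _ _ _ ?_ this
    rw [← List.append_assoc, ← List.append_assoc]
    exact List.perm_append_comm.append_right _
  · have := h2 k hk
    simp only [exc_append, exc_cons, exc_bal] at this ⊢
    omega

lemma UB.dd (hU : URules) (h : UB a e ν del s) (hd : del.Perm (1 :: del')) (he : e + 1 ≤ b)
    (hb : 2 * b + 1 ≤ a + 6) : UB a b (b :: b :: ν) del' (s + 2) := by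
  obtain ⟨h0, al, h1, h2⟩ := h
  have h3 : ∀ x ∈ ν, x ≤ b := fun x hx => by have := h0 x hx; omega
  refine ⟨by simpa using h3, (b + 1) :: b :: al, ?_, fun k hk => ?_⟩
  · have := hU.dd e b ν (del' ++ al) (b + 1) b (hU.permX _ _ _ _ (hd.append_right al) h1) he h3
      (by omega)
    refine hU.permX _ _ _ _ ?_ this
    exact (List.perm_middle.trans (List.perm_middle.cons _)).symm
  · have := h2 k hk
    rw [exc_perm (hd.append_right al)] at this
    simp only [List.cons_append, exc_append, exc_cons, Nat.add_mul] at this ⊢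
    have : 2 * ((b + 1 - k) + (b - k)) ≤ 4 * (b - 2 * k) + 2 * phi a k := by unfold phi; omega
    omega

lemma UB.pp (hU : URules) (h : UB a e ν (3 :: del') s) (he : e + 3 ≤ b) (h10 : 10 ≤ b)
    (hb : b ≤ a) : UB a b (b :: (b - 2) :: ν) del' (s + 1) := by
  obtain ⟨h0, al, h1, h2⟩ := h
  have h3 : ∀ x ∈ ν, x + 2 ≤ b := fun x hx => by have := h0 x hx; omega
  refine ⟨?_, bal (2 * b + 1) ++ al, ?_, fun k hk => ?_⟩
  · simp only [List.mem_cons]
    rintro x (rfl | rfl | hx)
    · exact le_rfl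
    · omega
    · have := h3 x hx; omega
  · have := hU.pp e b ν (del' ++ al) [3] (bal (2 * b + 1)) h1 he h3 (by simp [bal]) (bal_sum _)
      (Or.inl ⟨rfl, h10⟩)
    refine hU.permX _ _ _ _ ?_ this
    rw [← List.append_assoc, ← List.append_assoc]
    exact List.perm_append_comm.append_right _
  · have := h2 k hk
    simp only [List.cons_append, exc_append, exc_cons, exc_bal, Nat.add_mul, one_mul] at this ⊢
    have : 2 * (2 * b + 1 - 4 * k) ≤ 2 * ((b - 2 * k) + (b - 2 - 2 * k)) + phi a k := by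
      unfold phi; omega
    omega

lemma UB.run_aux (hU : URules) (h : UB a e ν del s) (t : ℕ) (he : e ≤ t) (j : ℕ) :
    UB a (t + 2 * j) (run (t + 2 * j) (2 * j) ++ ν) del s := by
  induction j with
  | zero => simpa [run] using h.mono hU he le_rfl
  | succ j ih =>
    have := ih.zz hU (b := t + 2 * (j + 1)) (by omega)
    have e1 : run (t + 2 * (j + 1)) (2 * (j + 1)) =
        (t + 2 * (j + 1)) :: (t + 2 * (j + 1) - 1) :: run (t + 2 * j) (2 * j) := by
      rw [show 2 * (j + 1) = 2 * j + 1 + 1 by ring, run_succ, run_succ]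
      congr 3
    rw [e1]
    exact this

lemma UB.run_even (hU : URules) (h : UB a e ν del s) {l : ℕ} (he : e + l ≤ b) (hl : l % 2 = 0) :
    UB a b (run b l ++ ν) del s := by
  obtain ⟨j, rfl⟩ : ∃ j, l = 2 * j := ⟨l / 2, by omega⟩
  have := h.run_aux hU (b - 2 * j) (by omega) j
  rwa [Nat.sub_add_cancel (by omega)] at this

lemma UB.run_any (hU : URules) (h : UB a e ν del s) {l : ℕ} (he : e + l ≤ b)
    (hb : 2 * (b - l + 1) ≤ a + 6) : UB a b (run b l ++ ν) del (s + 1) := by
  rcases Nat.mod_two_eq_zero_or_one l with hl | hl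
  · exact (h.run_even hU he hl).mono hU le_rfl (by omega)
  · have h1 := (h.single hU (b := b - l + 1) (by omega) hb).run_even hU (b := b) (l := l - 1)
      (by omega) (by omega)
    rw [run_split (l - 1) (Nat.sub_le l 1), show l - (l - 1) = 0 + 1 by omega, run_succ,
      show b - (l - 1) = b - l + 1 by omega]
    simpa [run] using h1

/-! ### The bottom rows -/

lemma ub_of (hU : URules) (ha : 72 ≤ a) {al al' : List ℕ} (h : UX e ν al') (hp : al'.Perm (del ++ al))
    (h0 : ∀ x ∈ ν, x ≤ e) (h4 : ∀ k, 4 ≤ k → exc al' k = 0)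
    (h1 : 2 * exc al' 1 ≤ 2 * exc ν 2 + s * 6) (h2 : 2 * exc al' 2 ≤ 2 * exc ν 4 + s * 8)
    (h3 : 2 * exc al' 3 ≤ 2 * exc ν 6 + s * 10) : UB a e ν del s := by
  refine ⟨h0, al, hU.permX _ _ _ _ hp h, fun k hk => ?_⟩
  rw [← exc_perm hp]
  rcases (by omega : k = 1 ∨ k = 2 ∨ k = 3 ∨ 4 ≤ k) with rfl | rfl | rfl | hk
  · rwa [show phi a 1 = 6 by unfold phi; omega]
  · rwa [show phi a 2 = 8 by unfold phi; omega]
  · rwa [show phi a 3 = 10 by unfold phi; omega]
  · rw [h4 k hk]; omega

lemma ux1 (hU : URules) : UX 1 [1] [1] := hU.triv 0 1 1 [] [] (hU.nil 0) le_rfl (by simp)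

lemma ux321 (hU : URules) : UX 3 [3, 2, 1] [3, 1, 1, 1] :=
  hU.zz 1 3 [1] [1] [3, 1, 1] (ux1 hU) le_rfl (by simp) (by simp) (by simp)

lemma base0 (hU : URules) (ha : 72 ≤ a) : UB a 3 [3, 2, 1] [3, 1, 1] 1 :=
  ub_of hU ha (al := [1]) (ux321 hU) (List.Perm.refl _) (by simp)
    (fun k hk => by simp only [exc_cons, exc_nil]; omega) (by decide) (by decide) (by decide)

lemma base4 (hU : URules) (ha : 72 ≤ a) : UB a 3 [3, 2, 1] [3, 1, 1, 1] 1 :=
  ub_of hU ha (al := []) (ux321 hU) (List.Perm.refl _) (by simp)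
    (fun k hk => by simp only [exc_cons, exc_nil]; omega) (by decide) (by decide) (by decide)

lemma base1 (hU : URules) (ha : 72 ≤ a) : UB a 3 [3, 2, 1, 1] [3, 1, 1] 1 := by
  have h1 : UX 1 [1, 1] [2] := hU.triv 0 2 1 [] [] (hU.nil 0) le_rfl (by simp)
  have h2 : UX 3 [3, 2, 1, 1] [3, 1, 1, 2] :=
    hU.zz 1 3 [1, 1] [2] [3, 1, 1] h1 le_rfl (by simp) (by simp) (by simp)
  exact ub_of hU ha (al := [2]) h2 (List.Perm.refl _) (by simp)
    (fun k hk => by simp only [exc_cons, exc_nil]; omega) (by decide) (by decide) (by decide)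

lemma base2 (hU : URules) (ha : 72 ≤ a) : UB a 4 [4, 3, 2, 2, 1] [3, 1, 1] 1 := by
  have h1 : UX 2 [2, 2, 1] [3, 2] := hU.dd 1 2 [1] [] 3 2 (ux1 hU) le_rfl (by simp) rfl
  have h2 : UX 4 [4, 3, 2, 2, 1] [3, 1, 1, 2, 3, 2] :=
    hU.zz 2 4 [2, 2, 1] [3, 2] [3, 1, 1, 2] h1 le_rfl (by simp) (by simp) (by simp)
  exact ub_of hU ha (al := [2, 3, 2]) h2 (List.Perm.refl _) (by simp)
    (fun k hk => by simp only [exc_cons, exc_nil]; omega) (by decide) (by decide) (by decide)

lemma base3 (hU : URules) (ha : 72 ≤ a) : UB a 5 [5, 4, 3, 3, 2, 1] [3, 1, 1] 2 := by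
  have h0 : UX 2 [2, 1] [1, 1, 1] :=
    hU.zz 0 2 [] [] [1, 1, 1] (hU.nil 0) le_rfl (by simp) (by simp) (by simp)
  have h1 : UX 3 [3, 3, 2, 1] [4, 3, 1, 1] := hU.dd 2 3 [2, 1] [1, 1] 4 3 h0 le_rfl (by simp) rfl
  have h2 : UX 5 [5, 4, 3, 3, 2, 1] [3, 1, 1, 4, 4, 3, 1, 1] :=
    hU.zz 3 5 [3, 3, 2, 1] [4, 3, 1, 1] [3, 1, 1, 4] h1 le_rfl (by simp) (by simp) (by simp)
  exact ub_of hU ha (al := [4, 4, 3, 1, 1]) h2 (List.Perm.refl _) (by simp)
    (fun k hk => by simp only [exc_cons, exc_nil]; omega) (by decide) (by decide) (by decide)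

lemma ub_low (hU : URules) (ha : 72 ≤ a) {p i : ℕ} (hp : 5 ≤ p) (hi : i ≤ p)
    (hia : 2 * (i + 1) ≤ a + 6) : UB a p (low p i) [3, 1, 1] (if i ≤ 2 then 3 else 5) := by
  rcases (by omega : i = 0 ∨ i = 1 ∨ i = 2 ∨ i = 3 ∨ 4 ≤ i) with rfl | rfl | rfl | rfl | h4
  · have := (base0 hU ha).run_any hU (b := p) (l := p - 3) (by omega) (by omega)
    rw [low, if_pos rfl, run_split (p - 3) (Nat.sub_le p 3), show p - (p - 3) = 3 by omega]
    exact this.mono hU le_rfl (by simp)
  · have := (base1 hU ha).run_any hU (b := p) (l := p - 3) (by omega) (by omega)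
    rw [low, if_neg (by omega), run_split (l := p - 1) (p - 3) (by omega),
      show p - (p - 3) = 3 by omega, show p - 1 - (p - 3) = 2 by omega, List.append_assoc]
    exact this.mono hU le_rfl (by simp)
  · have := (base2 hU ha).run_any hU (b := p) (l := p - 4) (by omega) (by omega)
    rw [low, if_neg (by omega), run_split (l := p - 2) (p - 4) (by omega),
      show p - (p - 4) = 4 by omega, show p - 2 - (p - 4) = 2 by omega, List.append_assoc]
    exact this.mono hU le_rfl (by simp)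
  · have := (base3 hU ha).run_any hU (b := p) (l := p - 5) (by omega) (by omega)
    rw [low, if_neg (by omega), run_split (l := p - 3) (p - 5) (by omega),
      show p - (p - 5) = 5 by omega, show p - 3 - (p - 5) = 2 by omega, List.append_assoc]
    exact this.mono hU le_rfl (by simp)
  · have h1 := (base4 hU ha).run_any hU (b := i - 1) (l := i - 4) (by omega) (by omega)
    have h2 := h1.dd hU (del' := [3, 1, 1]) (b := i) (by decide) (by omega) (by omega)
    have h3 := h2.run_any hU (b := p) (l := p - i) (by omega) (by omega)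
    rw [low, if_neg (by omega), run_split (b := i - 1) (l := i - 1) (i - 4) (by omega),
      show i - 1 - (i - 4) = 3 by omega, if_neg (by omega)]
    exact h3

/-! ### The upper rows -/

lemma ub_up (hU : URules) {A l i : ℕ} (h : UB a e ν (3 :: del') s) (he : e + l ≤ A) (hi : i ≤ l)
    (h10 : 10 + l ≤ A) (hA : 1 ≤ i → a = A + 1) (h1 : 2 * (A - l + 1) ≤ a + 6)
    (h2 : i = l → 2 * (A - l + 2) ≤ a + 6) :
    ∃ e' del, UB a e' (run (A + 1) i ++ (run (A - i) (l - i) ++ ν)) del (s + 2) := by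
  rcases Nat.mod_two_eq_zero_or_one i with hp | hp
  · have h3 := h.run_any hU (b := A - i) (l := l - i) (by omega) (by omega)
    exact ⟨_, _, (h3.run_even hU (b := A + 1) (l := i) (by omega) hp).mono hU le_rfl (by omega)⟩
  rcases hi.eq_or_lt with rfl | hlt
  · have h3 := h.run_any hU (b := A + 1) (l := i) (by omega) (by have := h2 rfl; omega)
    rw [Nat.sub_self]
    exact ⟨_, _, h3.mono hU le_rfl (by omega)⟩
  · have h3 := h.run_any hU (b := A - i - 1) (l := l - i - 1) (by omega) (by omega)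
    have h4 := h3.pp hU (b := A - i + 2) (by omega) (by omega) (by have := hA (by omega); omega)
    have h5 := h4.run_even hU (b := A + 1) (l := i - 1) (by omega) (by omega)
    refine ⟨A + 1, del', ?_⟩
    rw [run_split (l := i) (i - 1) (Nat.sub_le i 1), show i - (i - 1) = 0 + 1 by omega, run_succ,
      show l - i = (l - i - 1) + 1 by omega, run_succ, show A + 1 - (i - 1) = A - i + 2 by omega]
    simpa [run] using h5

lemma ub_fam (hU : URules) {d z i : ℕ} (hR : InR d z i) (hd : 37 ≤ d) :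
    ∃ e del, UB (2 * d + z - 2 + (if i = 0 then 0 else 1)) e (famE d z i) del 10 := by
  obtain ⟨-, hz, hi⟩ := hR
  set a := 2 * d + z - 2 + (if i = 0 then 0 else 1) with ha
  have ha1 : 2 * d + z - 2 ≤ a := by omega
  have ha2 : 1 ≤ i → a = 2 * d + z - 2 + 1 := fun h => by rw [ha, if_neg (by omega)]
  have h72 : 72 ≤ a := by omega
  have key : ∀ (l s : ℕ) (e : ℕ) (ν del' : List ℕ), UB a e ν (3 :: del') s → s ≤ 8 →
      e + l ≤ 2 * d + z - 2 → i ≤ l → 10 + l ≤ 2 * d + z - 2 →
      2 * (2 * d + z - 2 - l + 1) ≤ a + 6 → (i = l → 2 * (2 * d + z - 2 - l + 2) ≤ a + 6) →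
      ∃ e' del, UB a e' (run (2 * d + z - 1) i ++ (run (2 * d + z - 2 - i) (l - i) ++ ν)) del 10 := by
    intro l s e ν del' h hs h1 h2 h3 h4 h5
    obtain ⟨e', del, h6⟩ := ub_up hU h h1 h2 h3 ha2 h4 h5
    rw [show 2 * d + z - 2 + 1 = 2 * d + z - 1 by omega] at h6
    exact ⟨e', del, h6.mono hU le_rfl (by omega)⟩
  have hs5 : (if i ≤ 2 then 3 else 5) ≤ 5 := by split_ifs <;> omega
  rcases (by omega : z = 0 ∨ z = 1 ∨ z = 2 ∨ z = 3 ∨ z = 4) with rfl | rfl | rfl | rfl | rfl
  · have h0 := (ub_low hU h72 (p := d - 2) (i := i) (by omega) (by omega) (by omega)).mono hU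
      le_rfl hs5
    have h1 := h0.dd hU (del' := [3, 1]) (b := d) (by decide) (by omega) (by omega)
    exact key (d - 2) _ _ _ _ h1 (by omega) (by omega) (by omega) (by omega) (by omega)
      (fun h => by have := ha2 (by omega); omega)
  · have h0 := (ub_low hU h72 (p := d - 1) (i := i) (by omega) (by omega) (by omega)).mono hU
      le_rfl hs5
    have h1 := h0.single hU (b := d) (by omega) (by omega)
    exact key (d - 1) _ _ _ _ h1 (by omega) (by omega) (by omega) (by omega) (by omega)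
      (fun h => by have := ha2 (by omega); omega)
  · have h0 := (ub_low hU h72 (p := d - 1) (i := i) (by omega) (by omega) (by omega)).mono hU
      le_rfl hs5
    have h1 := h0.zz hU (b := d + 1) (by omega)
    exact key (d - 1) _ _ _ _ h1 (by omega) (by omega) (by omega) (by omega) (by omega)
      (fun h => by have := ha2 (by omega); omega)
  · have h0 := (ub_low hU h72 (p := d - 1) (i := i) (by omega) (by omega) (by omega)).mono hU
      le_rfl hs5
    have h1 := h0.dd hU (del' := [3, 1]) (b := d) (by decide) (by omega) (by omega)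
    have h2 := h1.single hU (b := d + 2) (by omega) (by omega)
    exact key (d - 1) _ _ _ _ h2 (by omega) (by omega) (by omega) (by omega) (by omega)
      (fun h => by omega)
  · have h0 := ub_low hU h72 (p := d - 2) (i := i) (by omega) (by omega) (by omega)
    rw [if_pos (by omega)] at h0
    have h1 := h0.dd hU (del' := [3, 1]) (b := d - 1) (by decide) (by omega) (by omega)
    have h2 := h1.dd hU (del' := [3]) (b := d) (by decide) (by omega) (by omega)
    have h3 := h2.single hU (b := d + 2) (by omega) (by omega)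
    exact key (d - 1) _ _ _ _ h3 (by omega) (by omega) (by omega) (by omega) (by omega)
      (fun h => by omega)

/-! ### Sums over the rows -/

/-- The sum of `g` over a list. -/
def G (g : ℕ → ℕ) (l : List ℕ) : ℕ := (l.map g).sum

lemma G_append (g : ℕ → ℕ) (l l' : List ℕ) : G g (l ++ l') = G g l + G g l' := by simp [G]
lemma G_cons (g : ℕ → ℕ) (x : ℕ) (l : List ℕ) : G g (x :: l) = g x + G g l := by simp [G]
lemma G_nil (g : ℕ → ℕ) : G g [] = 0 := rfl

lemma G_run (g : ℕ → ℕ) {b l : ℕ} (h : l ≤ b) :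
    G g (run b l) + G g (run (b - l) (b - l)) = G g (run b b) := by
  rw [← G_append, ← run_split l h]

lemma G_stair (g : ℕ → ℕ) (b : ℕ) : G g (run (b + 1) (b + 1)) = g (b + 1) + G g (run b b) := by
  rw [run_succ, G_cons, Nat.add_sub_cancel]

lemma G_low (g : ℕ → ℕ) {p i : ℕ} (h : i ≤ p) :
    G g (low p i) = G g (run p p) + (if i = 0 then 0 else g i) := by
  unfold low
  split_ifs with h0
  · rfl
  · obtain ⟨j, rfl⟩ : ∃ j, i = j + 1 := ⟨i - 1, by omega⟩
    have h1 := G_run g (b := p) (l := p - (j + 1)) (by omega)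
    rw [show p - (p - (j + 1)) = j + 1 by omega, G_stair] at h1
    simp only [G_append, G_cons, Nat.add_sub_cancel]
    omega

lemma G_up (g : ℕ → ℕ) {A l i : ℕ} (hi : i ≤ l) (hl : l ≤ A) :
    G g (run (A + 1) i) + G g (run (A - i) (l - i)) + G g (run (A - l) (A - l)) +
        (if i = 0 then 0 else g (A - i + 1)) =
      G g (run (A + (if i = 0 then 0 else 1)) (A + (if i = 0 then 0 else 1))) := by
  have h1 := G_run g (b := A - i) (l := l - i) (by omega)
  rw [show A - i - (l - i) = A - l by omega] at h1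
  split_ifs with h0
  · subst h0
    simpa [run, G_nil] using h1
  · have h2 := G_run g (b := A + 1) (l := i) (by omega)
    rw [show A + 1 - i = A - i + 1 by omega, G_stair] at h2
    omega

/-- Up to three values are skipped, and values `≤ d` are repeated. -/
lemma G_fam (g : ℕ → ℕ) {d z i : ℕ} (hR : InR d z i) (hd : 37 ≤ d) {a : ℕ}
    (ha : a = 2 * d + z - 2 + (if i = 0 then 0 else 1)) :
    ((∀ x ≤ d, g x = 0) → G g (famE d z i) ≤ G g (run a a)) ∧
      ∀ c, (∀ x, g x ≤ c) → G g (run a a) ≤ G g (famE d z i) + 3 * c := by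
  obtain ⟨-, hz, hi⟩ := hR
  obtain ⟨m, rfl⟩ : ∃ m, d = m + 2 := ⟨d - 2, by omega⟩
  have s1 := G_stair g m
  have s2 := G_stair g (m + 1)
  have s3 := G_stair g (m + 2)
  have s4 := G_stair g (m + 3)
  have s5 := G_stair g (m + 4)
  have hup := fun l h1 h2 => G_up g (A := 2 * (m + 2) + z - 2) (l := l) (i := i) h1 h2
  rw [← ha, show 2 * (m + 2) + z - 2 + 1 = 2 * (m + 2) + z - 1 by omega] at hup
  have hc : ∀ c, (∀ x, g x ≤ c) →
      (if i = 0 then 0 else g (2 * (m + 2) + z - 2 - i + 1)) ≤ c := fun c h => by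
    split_ifs
    · omega
    · exact h _
  have hz0 : (∀ x ≤ m + 2, g x = 0) → (if i = 0 then 0 else g i) = 0 := fun h => by
    split_ifs
    · rfl
    · exact h _ (by omega)
  simp only [Nat.add_assoc, Nat.reduceAdd] at s2 s3 s4 s5
  rcases (by omega : z = 0 ∨ z = 1 ∨ z = 2 ∨ z = 3 ∨ z = 4) with rfl | rfl | rfl | rfl | rfl
  · have h1 := hup m (by omega) (by omega)
    have h2 := G_low g (p := m) (i := i) (by omega)
    rw [show 2 * (m + 2) + 0 - 2 - m = m + 2 by omega] at h1
    have e : G g (famE (m + 2) 0 i) = G g (run (2 * (m + 2) + 0 - 1) i) +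
        (G g (run (2 * (m + 2) + 0 - 2 - i) (m - i)) + (g (m + 2) + g (m + 2) + G g (low m i))) := by
      simp [famE, mid, G_append, G_cons, Nat.add_assoc]
    refine ⟨fun h => ?_, fun c h => ?_⟩
    · have := hz0 h; have := h (m + 2) le_rfl; omega
    · have := hc c h; have := h (m + 1); omega
  · have h1 := hup (m + 1) (by omega) (by omega)
    have h2 := G_low g (p := m + 1) (i := i) (by omega)
    rw [show 2 * (m + 2) + 1 - 2 - (m + 1) = m + 2 by omega] at h1
    have e : G g (famE (m + 2) 1 i) = G g (run (2 * (m + 2) + 1 - 1) i) +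
        (G g (run (2 * (m + 2) + 1 - 2 - i) (m + 1 - i)) + (g (m + 2) + G g (low (m + 1) i))) := by
      simp [famE, mid, G_append, G_cons]
    refine ⟨fun h => ?_, fun c h => ?_⟩
    · have := hz0 h; omega
    · have := hc c h; omega
  · have h1 := hup (m + 1) (by omega) (by omega)
    have h2 := G_low g (p := m + 1) (i := i) (by omega)
    rw [show 2 * (m + 2) + 2 - 2 - (m + 1) = m + 3 by omega] at h1
    have e : G g (famE (m + 2) 2 i) = G g (run (2 * (m + 2) + 2 - 1) i) +
        (G g (run (2 * (m + 2) + 2 - 2 - i) (m + 1 - i)) +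
          (g (m + 3) + g (m + 2) + G g (low (m + 1) i))) := by
      simp [famE, mid, G_append, G_cons, Nat.add_assoc]
    refine ⟨fun h => ?_, fun c h => ?_⟩
    · have := hz0 h; omega
    · have := hc c h; omega
  · have h1 := hup (m + 1) (by omega) (by omega)
    have h2 := G_low g (p := m + 1) (i := i) (by omega)
    rw [show 2 * (m + 2) + 3 - 2 - (m + 1) = m + 4 by omega] at h1
    have e : G g (famE (m + 2) 3 i) = G g (run (2 * (m + 2) + 3 - 1) i) +
        (G g (run (2 * (m + 2) + 3 - 2 - i) (m + 1 - i)) +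
          (g (m + 4) + g (m + 2) + g (m + 2) + G g (low (m + 1) i))) := by
      simp [famE, mid, G_append, G_cons, Nat.add_assoc]
    refine ⟨fun h => ?_, fun c h => ?_⟩
    · have := hz0 h; have := h (m + 2) le_rfl; omega
    · have := hc c h; have := h (m + 3); omega
  · have h1 := hup (m + 1) (by omega) (by omega)
    have h2 := G_low g (p := m) (i := i) (by omega)
    rw [show 2 * (m + 2) + 4 - 2 - (m + 1) = m + 5 by omega] at h1
    have e : G g (famE (m + 2) 4 i) = G g (run (2 * (m + 2) + 4 - 1) i) +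
        (G g (run (2 * (m + 2) + 4 - 2 - i) (m + 1 - i)) +
          (g (m + 4) + g (m + 2) + g (m + 2) + g (m + 1) + g (m + 1) + G g (low m i))) := by
      simp [famE, mid, G_append, G_cons, Nat.add_assoc]
    refine ⟨fun h => ?_, fun c h => ?_⟩
    · have := hz0 h; have := h (m + 2) le_rfl; have := h (m + 1) (by omega); omega
    · have := hc c h; have := h (m + 3); have := h (m + 5); omega

lemma exc_stair (b c : ℕ) : 2 * G (· - c) (run b b) = (b - c) * (b - c + 1) := by
  induction b with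
  | zero => simp [run, G_nil]
  | succ b ih =>
    rw [G_stair, Nat.mul_add, ih]
    rcases Nat.lt_or_ge b c with h | h
    · rw [show b + 1 - c = 0 by omega, show b - c = 0 by omega]
    · rw [show b + 1 - c = b - c + 1 by omega]; ring

lemma min_stair (c u : ℕ) :
    2 * G (fun x => min x c) (run (c + u) (c + u)) = c * (c + 1) + 2 * (c * u) := by
  induction u with
  | zero =>
    have h : ∀ b ≤ c, 2 * G (fun x => min x c) (run b b) = b * (b + 1) := by
      intro b hb
      induction b with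
      | zero => simp [run, G_nil]
      | succ b ih => rw [G_stair, Nat.mul_add, ih (by omega), min_eq_left hb]; ring
    simpa using h c le_rfl
  | succ u ih =>
    rw [← Nat.add_assoc, G_stair, Nat.mul_add, ih, min_eq_right (by omega)]; ring

/-! ### The numerical criterion -/

lemma num1 {k u n E R : ℕ} (hk : 2 ≤ k) (e1 : E ≤ R + 5 * (2 * k + 4))
    (e2 : k * (2 * k + 1) + 2 * k * (u + 24) + R ≤ n + 6 * k) : k * (2 * k + u + 23) + E ≤ n := by
  nlinarith

lemma num2 {k u n E R : ℕ} (ha : 70 ≤ 2 * k + u) (hu : u ≤ 21) (e1 : E ≤ R + 5 * (u + 8))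
    (e2 : 2 * R ≤ (u + 2) * (u + 2 + 1))
    (hn : (2 * k + (u + 2)) * (2 * k + (u + 2)) ≤ 2 * n + 6 + (2 * k + (u + 2))) :
    k * (2 * k + u + 1) + E ≤ n := by
  have e4 : (u + 2) * 71 ≤ (u + 2) * (2 * k + u + 1) := Nat.mul_le_mul_left _ (by omega)
  have e5 : u * u ≤ u * 21 := Nat.mul_le_mul_left _ hu
  nlinarith

lemma num3 {j v n E : ℕ} (hv1 : 1 ≤ v) (hv7 : v ≤ 7) (e5 : E ≤ 5 * v + 1)
    (hn : (2 * j + 66 + v) * (2 * j + 66 + v) ≤ 2 * n + 6 + (2 * j + 66 + v)) (h6 : 6 ≤ 2 * j + v) :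
    (j + 36) * (j + 36 + E - 1) + E ≤ n := by
  have m3 : (j + 36) * (j + 36 + E - 1) ≤ (j + 36) * (j + 36 + 5 * v) :=
    Nat.mul_le_mul_left _ (by omega)
  generalize (j + 36) * (j + 36 + E - 1) = X at m3 ⊢
  interval_cases v <;> nlinarith

lemma crit {a n d : ℕ} {al : List ℕ} {R : ℕ → ℕ} (ha : 72 ≤ a) (hd : 2 * d ≤ a + 2)
    (hn : a * a ≤ 2 * n + 6 + a) (hE : ∀ k, 1 ≤ k → exc al k ≤ R k + 5 * phi a k)
    (h1 : ∀ k, d ≤ 2 * k → 2 * R k ≤ (a - 2 * k) * (a - 2 * k + 1))
    (h2 : ∀ k u, a = 2 * k + u → k * (2 * k + 1) + 2 * k * u + R k ≤ n + 6 * k) :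
    CritP a n al := by
  constructor
  · right
    have e1 := hE 1 le_rfl
    rw [show phi a 1 = 6 by unfold phi; omega] at e1
    have e2 := h2 1 (a - 2) (by omega)
    have e3 : 2 * a + exc al 1 - n - 5 ≤ 32 := by omega
    have e4 : (2 * a + exc al 1 - n - 5) ^ 2 ≤ 32 ^ 2 := Nat.pow_le_pow_left e3 2
    have e5 : 72 * a ≤ a * a := Nat.mul_le_mul_right _ ha
    omega
  · intro k hk
    have e1 := hE k (by omega)
    generalize exc al k = E at e1 ⊢
    have m1 : k * min (k + E - 1) (a - 1) ≤ k * (a - 1) := Nat.mul_le_mul_left _ (min_le_right _ _)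
    have m2 : k * min (k + E - 1) (a - 1) ≤ k * (k + E - 1) :=
      Nat.mul_le_mul_left _ (min_le_left _ _)
    by_cases c1 : a + 6 ≤ 2 * k
    · left
      have := h1 k (by omega)
      rw [show a - 2 * k = 0 by omega] at this
      rw [show phi a k = 0 by unfold phi; omega] at e1
      omega
    right
    by_cases c2 : 2 * k + 24 ≤ a
    · obtain ⟨u, rfl⟩ : ∃ u, a = 2 * k + (u + 24) := ⟨a - 2 * k - 24, by omega⟩
      have e3 : phi (2 * k + (u + 24)) k ≤ 2 * k + 4 := min_le_left _ _
      refine (Nat.add_le_add_right m1 E).trans ?_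
      rw [show 2 * k + (u + 24) - 1 = 2 * k + u + 23 by omega]
      exact num1 hk (by omega) (h2 k _ rfl)
    have e2 := h1 k (by omega)
    have e3 : phi a k ≤ a + 6 - 2 * k := min_le_right _ _
    by_cases c3 : 2 * k + 2 ≤ a
    · obtain ⟨u, rfl⟩ : ∃ u, a = 2 * k + (u + 2) := ⟨a - 2 * k - 2, by omega⟩
      rw [show 2 * k + (u + 2) - 2 * k = u + 2 by omega] at e2
      rw [show 2 * k + (u + 2) + 6 - 2 * k = u + 8 by omega] at e3
      refine (Nat.add_le_add_right m1 E).trans ?_
      rw [show 2 * k + (u + 2) - 1 = 2 * k + u + 1 by omega]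
      exact num2 (by omega) (by omega) (by omega) e2 hn
    · have e4 : R k ≤ 1 := by
        rcases (by omega : a - 2 * k = 1 ∨ a - 2 * k = 0) with h | h <;> rw [h] at e2 <;> omega
      obtain ⟨v, hv⟩ : ∃ v, a + 6 = 2 * k + v := ⟨a + 6 - 2 * k, by omega⟩
      rw [show a + 6 - 2 * k = v by omega] at e3
      obtain ⟨j, rfl⟩ : ∃ j, k = j + 36 := ⟨k - 36, by omega⟩
      obtain rfl : a = 2 * j + 66 + v := by omega
      exact (Nat.add_le_add_right m2 E).trans (num3 (by omega) (by omega) (by omega) hn (by omega))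

end Big

theorem bigStmt_of (hU : URules) (hH : HookFacts) : BigStmt := by
  intro d z i hR hd
  obtain ⟨e, del, -, al, h1, h2⟩ := Big.ub_fam hU hR hd
  refine ⟨del ++ al, hU.x2f _ _ _ h1, ?_⟩
  set a := 2 * d + z - 2 + (if i = 0 then 0 else 1) with ha
  have hz := hR.2.1
  refine Big.crit (d := d) (R := fun k => exc (famE d z i) (2 * k)) (by omega) (by omega) ?_
    (fun k hk => ?_) (fun k hk => ?_) fun k u hu => ?_
  · have h3 := hH.famSum d z i hR (by omega)
    rw [hH.famE d z i hR (by omega)] at h3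
    obtain ⟨A, hA⟩ : ∃ A, 2 * d + z = A + 2 := ⟨2 * d + z - 2, by omega⟩
    rw [hA, show A + 2 - 2 = A by omega] at ha
    rw [hA, show A + 2 - 2 = A by omega, show A + 2 - 1 = A + 1 by omega] at h3
    have h4 : (if z = 3 then 2 else if z = 4 then 10 else 0) ≤ 10 := by split_ifs <;> omega
    have h5 : 72 ≤ A := by omega
    have h6 : A * (A + 1) + 4 * i ≤ 2 * (famE d z i).sum + 10 := by omega
    rw [ha]
    generalize (famE d z i).sum = n at h6 ⊢
    clear h3 h4 h1 h2 ha
    by_cases hi : i = 0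
    · rw [if_pos hi]; nlinarith
    · rw [if_neg hi]
      have : 1 ≤ i := by omega
      nlinarith
  · have := h2 k hk
    omega
  · have h3 := (Big.G_fam (· - 2 * k) hR hd ha).1 fun x hx => by omega
    rw [← Big.exc_stair]
    exact Nat.mul_le_mul_left 2 h3
  · have h3 := (Big.G_fam (fun x => min x (2 * k)) hR hd ha).2 (2 * k) fun x => min_le_right _ _
    have h4 := Big.min_stair (2 * k) u
    rw [← hu] at h4
    have h5 := sum_min_add_exc (famE d z i) (2 * k)
    unfold Big.G at h3 h4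
    nlinarith

end Crest.Agent.R195
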