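import Crest.Agent.R195.Defs2

/-! Row 195: soundness of plans and certificates. -/

set_option autoImplicit false

namespace Crest.Agent.R195

open Finset

namespace Check

lemma le_head {ν : List ℕ} (h : ν.Pairwise (· ≥ ·)) {x : ℕ} (hx : x ∈ ν) : x ≤ ν.headD 0 := by
  cases ν with
  | nil => simp at hx
  | cons a l =>
    rcases List.mem_cons.1 hx with rfl | hx
    · exact le_rfl
    · exact (List.pairwise_cons.1 h).1 x hx

lemma s1B_sound {a : ℕ} {ν : List ℕ} (h : s1B a ν = true) (d : ℕ) (hd : 1 ≤ d) :
    ((range a).filter fun j => d ≤ min (colv ν j) (colv ν (a - 1 - j))).card ≤ a - d := by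
  by_cases hl : d < ν.length + 1
  · have h1 := List.all_eq_true.1 h d (List.mem_range.2 hl)
    simp only [Bool.or_eq_true, beq_iff_eq, Nat.ble_eq] at h1
    rcases h1 with h1 | h1
    · omega
    · refine le_trans (le_of_eq ?_) h1
      rw [← List.toFinset_card_of_nodup ((List.nodup_range).filter _)]
      congr 1
      ext j
      simp
  · rw [filter_eq_empty_iff.2, card_empty]
    · exact Nat.zero_le _
    · intro j _ hj
      have := colv_le_length ν j
      omega

lemma remL_perm {x : ℕ} {al al' : List ℕ} (h : remL x al = some al') : al.Perm (x :: al') := by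
  unfold remL at h
  split_ifs at h with hx
  obtain rfl := Option.some.inj h
  exact List.perm_cons_erase hx

lemma uj_of_ux (hU : URules) {m : Option ℕ} {b : ℕ} {ν al : List ℕ} (h : UX b ν al)
    (hm : okM m b = true) : UJ m ν al := by
  cases m with
  | none => exact hU.x2f _ _ _ h
  | some e => exact hU.mono _ _ _ _ h (by simpa [okM] using hm)

lemma jj_of_xj (hJ : JRules) {m : Option ℕ} {b : ℕ} {ν : List ℕ} {c : ℕ → ℕ} (h : XJ b ν c)
    (hm : okM m b = true) : JJ m ν c := by
  cases m with
  | none => exact hJ.x2f _ _ _ h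
  | some e => exact hJ.mono _ _ _ _ h (by simpa [okM] using hm)

lemma vec_addL (l l' : List ℕ) : vec (addL l l') = vec l + vec l' := by
  induction l generalizing l' with
  | nil => simp [addL]
  | cons a l ih =>
    cases l' with
    | nil => simp [addL]
    | cons b l' =>
      funext j
      cases j with
      | zero => rfl
      | succ j => exact congrFun (ih l') j

lemma colv_insD (x : ℕ) (l : List ℕ) : colv (insD x l) = colv (x :: l) := by
  induction l with
  | nil =>
    unfold insD
    split_ifs with h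
    · rw [beq_iff_eq.1 h]; funext j; simp [colv]
    · rfl
  | cons y l ih =>
    unfold insD
    split_ifs with h
    · rw [colv_cons, ih, colv_cons, colv_cons, colv_cons, add_left_comm]
    · rfl

lemma colv_nf (l : List ℕ) : colv (nf l) = colv l := by
  induction l with
  | nil => rfl
  | cons a l ih =>
    show colv (insD a (nf l)) = _
    rw [colv_insD, colv_cons, ih, colv_cons]

lemma mem_insD {x y : ℕ} {l : List ℕ} (h : y ∈ insD x l) : y = x ∨ y ∈ l := by
  induction l with
  | nil =>
    unfold insD at h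
    split_ifs at h <;> simp_all
  | cons z l ih =>
    unfold insD at h
    split_ifs at h
    · rcases List.mem_cons.1 h with h | h
      · exact Or.inr (h ▸ List.mem_cons_self)
      · exact (ih h).imp id (List.mem_cons_of_mem _)
    · exact List.mem_cons.1 h

lemma insD_sorted (x : ℕ) {l : List ℕ} (h : l.Pairwise (· ≥ ·)) :
    (insD x l).Pairwise (· ≥ ·) := by
  induction l with
  | nil =>
    unfold insD
    split_ifs <;> simp
  | cons z l ih =>
    unfold insD
    obtain ⟨h1, h2⟩ := List.pairwise_cons.1 h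
    split_ifs with hx
    · refine List.pairwise_cons.2 ⟨fun y hy => ?_, ih h2⟩
      rcases mem_insD hy with rfl | hy
      · simpa using hx
      · exact h1 y hy
    · have hx' : z ≤ x := by
        have : ¬ x ≤ z := by simpa using hx
        omega
      refine List.pairwise_cons.2 ⟨fun y hy => ?_, h⟩
      rcases List.mem_cons.1 hy with rfl | hy
      · exact hx'
      · exact le_trans (h1 y hy) hx'

lemma nf_sorted (l : List ℕ) : (nf l).Pairwise (· ≥ ·) := by
  induction l with
  | nil => exact List.Pairwise.nil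
  | cons a l ih => exact insD_sorted a ih

lemma colv_of_nf {l l' : List ℕ} (h : nf l = nf l') : colv l = colv l' := by
  rw [← colv_nf l, h, colv_nf]

lemma jj_recol (hJ : JRules) {m : Option ℕ} {ν : List ℕ} {c c' : ℕ → ℕ} (h : JJ m ν c)
    (hc : FS c') (he : rowsOf c = rowsOf c') : JJ m ν c' := by
  cases m with
  | none => exact hJ.recolF _ _ _ hc he h
  | some e => exact hJ.recol _ _ _ _ hc he h

lemma jj_nf (hJ : JRules) {m : Option ℕ} {ν X C : List ℕ} (h : JJ m ν (vec X))
    (he : nf X = nf C) : JJ m ν (vec C) :=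
  jj_recol hJ h (fs_vec C) (by rw [rowsOf_vec, rowsOf_vec, colv_of_nf he])

lemma vec_le {β : List ℕ} {k : ℕ} (h : ∀ x ∈ β, x ≤ k) (j : ℕ) : vec β j ≤ k := by
  by_cases hj : j < β.length
  · rw [vec_of_lt hj]; exact h _ (List.getElem_mem hj)
  · rw [vec_of_le (not_lt.1 hj)]; exact Nat.zero_le _

lemma disjB_sound {l l' : List ℕ} (h : disjB l l' = true) (j : ℕ) : vec l j = 0 ∨ vec l' j = 0 := by
  induction l generalizing l' j with
  | nil => simp
  | cons a l ih =>
    cases l' with
    | nil => simp
    | cons b l' =>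
      simp only [disjB, Bool.and_eq_true, Bool.or_eq_true, beq_iff_eq] at h
      cases j with
      | zero => exact h.1
      | succ j => exact ih h.2 j

lemma vec_pad (n : ℕ) (l : List ℕ) (j : ℕ) :
    vec (List.replicate n 0 ++ l) j = if j < n then 0 else vec l (j - n) := by
  induction n generalizing j with
  | zero => simp
  | succ n ih =>
    cases j with
    | zero => simp [List.replicate_succ]
    | succ j =>
      rw [List.replicate_succ, List.cons_append, vec_cons_succ, ih]
      simp

lemma vec_append (l l' : List ℕ) :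
    vec (l ++ l') = vec l + vec (List.replicate l.length 0 ++ l') := by
  induction l with
  | nil => simp
  | cons a l ih =>
    funext j
    cases j with
    | zero => rfl
    | succ j => exact congrFun ih j

lemma paired_dup (hs : List ℕ) (h : ∀ x ∈ hs, x ≤ 4) (n : ℕ) :
    Paired hs.sum (vec (List.replicate n 0 ++ dup hs)) := by
  induction hs generalizing n with
  | nil =>
    have : vec (List.replicate n 0 ++ dup []) = 0 := by
      funext j; rw [vec_pad]; simp [dup]
    rw [this]; exact Paired.zero
  | cons a l ih =>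
    have h1 := Paired.add a n (n + 1) (h a List.mem_cons_self) (by omega)
      (by rw [vec_pad, if_pos (by omega)]) (by rw [vec_pad, if_pos (by omega)])
      (ih (fun x hx => h x (List.mem_cons_of_mem _ hx)) (n + 2))
    rw [List.sum_cons, add_comm a]
    convert h1 using 1
    funext j
    simp only [Pi.add_apply, vec_pad, dup, Pi.single_apply]
    by_cases h1 : j < n
    · rw [if_pos h1, if_pos (by omega), if_neg (by omega), if_neg (by omega)]
      rfl
    · obtain ⟨i, rfl⟩ : ∃ i, j = n + i := ⟨j - n, by omega⟩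
      rw [if_neg h1, Nat.add_sub_cancel_left]
      match i with
      | 0 => simp
      | 1 => simp
      | i + 2 =>
        rw [if_neg (by omega), if_neg (by omega), if_neg (by omega),
          show n + (i + 2) - (n + 2) = i by omega]
        rfl

lemma sum_colv_le (lam : List ℕ) (S : Finset ℕ) :
    ∑ j ∈ S, colv lam j ≤ (lam.map fun x => min x S.card).sum := by
  induction lam with
  | nil => simp
  | cons a l ih =>
    simp only [colv_cons, Pi.add_apply, sum_add_distrib, List.map_cons, List.sum_cons]
    refine add_le_add (le_min ?_ ?_) ih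
    · simpa using (sz_ind (range a)).sum_le S
    · rw [card_eq_sum_ones]
      exact sum_le_sum fun j _ => ind_le_one _ j

lemma domB_sound {lam al : List ℕ} (h : domB lam al = true) :
    lam.sum = al.sum ∧
      ∀ k, (lam.map fun x => min x k).sum ≤ (al.map fun x => min x k).sum := by
  simp only [domB, Bool.and_eq_true, beq_iff_eq, List.all_eq_true, List.mem_range,
    Nat.ble_eq] at h
  refine ⟨h.1, fun k => ?_⟩
  by_cases hk : k < al.foldr max 0
  · exact h.2 k hk
  · have h1 : (al.map fun x => min x k) = al := by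
      conv_rhs => rw [← List.map_id al]
      exact List.map_congr_left fun x hx => min_eq_left ((le_foldr_max hx).trans (not_lt.1 hk))
    have h2 := sum_min_add_exc lam k
    rw [h1, ← h.1]
    omega

lemma isNone_eq {m : Option ℕ} (h : m.isNone = true) : m = none := by
  cases m <;> simp_all

end Check

open Check

theorem planStmt_of (hU : URules) : PlanStmt := by
  intro K hK p
  induction p with
  | nil =>
    intro m ν al _ h
    simp only [runP] at h
    split_ifs at h with h1
    obtain rfl := Option.some.inj h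
    obtain rfl := List.isEmpty_iff.1 h1
    cases m with
    | none => exact hU.x2f 0 _ _ (hU.nil 0)
    | some e => exact hU.nil e
  | full =>
    intro m ν al _ h
    simp only [runP] at h
    split_ifs at h with h1
    obtain rfl := Option.some.inj h
    simp only [Bool.and_eq_true, List.contains_iff_mem] at h1
    obtain rfl := isNone_eq h1.1
    exact hU.full ν (hK ν h1.2)
  | t k p ih =>
    intro m ν al hs h
    simp only [runP] at h
    split_ifs at h with h1
    obtain ⟨al', h2, rfl⟩ := Option.map_eq_some_iff.1 h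
    simp only [Bool.and_eq_true, beq_iff_eq, Nat.ble_eq] at h1
    obtain ⟨⟨h3, h4⟩, h5⟩ := h1
    have h6 := hU.triv _ k (ν.headD 0) _ _ (ih _ _ _ (hs.sublist (List.drop_sublist k ν)) h2)
      (by omega) fun x hx => le_head hs (List.mem_of_mem_drop hx)
    rw [← h5, List.take_append_drop] at h6
    exact uj_of_ux hU h6 h3
  | z lab p ih =>
    intro m ν al hs h
    match ν, hs, h with
    | [], _, h => simp [runP] at h
    | [_], _, h => simp [runP] at h
    | b :: c :: ν', hs, h =>
      simp only [runP] at h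
      split_ifs at h with h1
      obtain ⟨al', h2, rfl⟩ := Option.map_eq_some_iff.1 h
      simp only [Bool.and_eq_true, beq_iff_eq, Nat.ble_eq] at h1
      obtain ⟨⟨⟨⟨h3, h4⟩, h5⟩, h6⟩, h7⟩ := h1
      obtain ⟨hc, hs'⟩ := List.pairwise_cons.1 (List.pairwise_cons.1 hs).2
      have h8 := hU.zz _ b _ _ lab (ih _ _ _ hs' h2) (by omega)
        (fun x hx => by have := hc x hx; omega) h6 (by omega)
      rw [show b - 1 = c by omega] at h8
      exact uj_of_ux hU h8 h3
  | pp two lab p ih =>
    intro m ν al hs h
    match ν, hs, h with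
    | [], _, h => simp [runP] at h
    | [_], _, h => simp [runP] at h
    | b :: c :: ν', hs, h =>
      cases two with
      | true =>
        simp only [runP, if_true] at h
        split_ifs at h with h1
        obtain ⟨al3, h2, rfl⟩ := Option.map_eq_some_iff.1 h
        obtain ⟨al1, h2, h2'⟩ := Option.bind_eq_some_iff.1 h2
        obtain ⟨al2, h2', h2''⟩ := Option.bind_eq_some_iff.1 h2'
        simp only [Bool.and_eq_true, beq_iff_eq, Nat.ble_eq] at h1
        obtain ⟨⟨⟨⟨h3, h4⟩, h5⟩, h6⟩, h7⟩ := h1
        obtain ⟨hc, hs'⟩ := List.pairwise_cons.1 (List.pairwise_cons.1 hs).2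
        have hp : al1.Perm ([2, 1] ++ al3) := (remL_perm h2').trans ((remL_perm h2'').cons 2)
        have h8 := hU.pp _ b _ _ _ lab (hU.permX _ _ _ _ hp (ih _ _ _ hs' h2)) (by omega)
          (fun x hx => by have := hc x hx; omega) h6 h7 (Or.inr ⟨rfl, h4⟩)
        rw [show b - 2 = c by omega] at h8
        exact uj_of_ux hU h8 h3
      | false =>
        simp only [runP, Bool.false_eq_true, if_false] at h
        split_ifs at h with h1
        obtain ⟨al3, h2, rfl⟩ := Option.map_eq_some_iff.1 h
        obtain ⟨al1, h2, h2'⟩ := Option.bind_eq_some_iff.1 h2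
        simp only [Bool.and_eq_true, beq_iff_eq, Nat.ble_eq] at h1
        obtain ⟨⟨⟨⟨h3, h4⟩, h5⟩, h6⟩, h7⟩ := h1
        obtain ⟨hc, hs'⟩ := List.pairwise_cons.1 (List.pairwise_cons.1 hs).2
        have hp : al1.Perm ([3] ++ al3) := remL_perm h2'
        have h8 := hU.pp _ b _ _ _ lab (hU.permX _ _ _ _ hp (ih _ _ _ hs' h2)) (by omega)
          (fun x hx => by have := hc x hx; omega) h6 h7 (Or.inl ⟨rfl, h4⟩)
        rw [show b - 2 = c by omega] at h8
        exact uj_of_ux hU h8 h3
  | d x y p ih =>
    intro m ν al hs h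
    match ν, hs, h with
    | [], _, h => simp [runP] at h
    | [_], _, h => simp [runP] at h
    | b :: c :: ν', hs, h =>
      simp only [runP] at h
      split_ifs at h with h1
      obtain ⟨al2, h2, rfl⟩ := Option.map_eq_some_iff.1 h
      obtain ⟨al1, h2, h2'⟩ := Option.bind_eq_some_iff.1 h2
      simp only [Bool.and_eq_true, beq_iff_eq, Nat.ble_eq] at h1
      obtain ⟨⟨⟨h3, h4⟩, rfl⟩, h6⟩ := h1
      obtain ⟨hc, hs'⟩ := List.pairwise_cons.1 (List.pairwise_cons.1 hs).2
      have h8 := hU.dd _ c _ _ x y (hU.permX _ _ _ _ (remL_perm h2') (ih _ _ _ hs' h2)) (by omega)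
        hc h6
      exact uj_of_ux hU h8 h3
  | free p ih =>
    intro m ν al hs h
    simp only [runP] at h
    split_ifs at h with h1
    have h2 : UF ν al := ih _ _ _ hs h
    cases m with
    | none => exact h2
    | some e =>
      refine hU.f2x e _ _ h2 fun x hx => ?_
      have h3 := le_head hs hx
      simp only [okF, Nat.ble_eq] at h1
      omega
  | s1 p ih =>
    intro m ν al hs h
    match ν, hs, h with
    | [], _, h => simp [runP] at h
    | a :: ν', hs, h =>
      simp only [runP] at h
      split_ifs at h with h1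
      obtain ⟨al', h2, rfl⟩ := Option.map_eq_some_iff.1 h
      simp only [Bool.and_eq_true] at h1
      obtain rfl := isNone_eq h1.1
      obtain ⟨hc, hs'⟩ := List.pairwise_cons.1 hs
      exact hU.s1 a ν' al' (ih _ _ _ hs' h2) hc (s1B_sound h1.2)
  | cj p ih =>
    intro m ν al hs h
    simp only [runP] at h
    split_ifs at h with h1
    obtain rfl := isNone_eq h1
    exact fun c hc => (hU.conj _ _ (ih _ _ _ (conjL_sorted ν) h) c hc).of_conjL_conjL

theorem certStmt_of (hJ : JRules) (hG : GRStmt) (hP : PlanStmt) : CertStmt := by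
  intro K hK c
  induction c with
  | plan p =>
    intro m ν C hs h
    simp only [chkC] at h
    split at h
    · rename_i al hal
      obtain ⟨h1, h2⟩ := domB_sound h
      have hl : Lab al (colv (conjL C)) :=
        hG al _ (h1 ▸ sz_colv _) fun S => (sum_colv_le _ S).trans (h2 _)
      have h3 := hP K hK p m ν al hs hal
      refine jj_recol hJ (c := colv (conjL C)) ?_ (fs_vec C)
        (by rw [rowsOf_colv_conjL, rowsOf_vec])
      cases m with
      | none => exact h3 _ hl
      | some e => exact h3 _ hl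
    · simp at h
  | t k β κ c ih =>
    intro m ν C hs h
    simp only [chkC, Bool.and_eq_true, beq_iff_eq, Nat.ble_eq, List.all_eq_true] at h
    obtain ⟨⟨⟨⟨⟨⟨h1, h2⟩, h3⟩, h4⟩, h5⟩, h6⟩, h7⟩ := h
    obtain ⟨S, hS, hβ⟩ := (sz_vec β).exists_ind (vec_le h4)
    have h8 := hJ.triv _ k (ν.headD 0) _ _ S (ih _ _ _ (hs.sublist (List.drop_sublist k ν)) h7)
      (by omega) (fun x hx => le_head hs (List.mem_of_mem_drop hx)) (hS.trans h5)
    rw [← h3, List.take_append_drop, ← hβ, ← vec_addL] at h8
    exact jj_nf hJ (jj_of_xj hJ h8 h1) h6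
  | z β κ c ih =>
    intro m ν C hs h
    match ν, hs, h with
    | [], _, h => simp [chkC] at h
    | [_], _, h => simp [chkC] at h
    | b :: b' :: ν', hs, h =>
      simp only [chkC, Bool.and_eq_true, beq_iff_eq, Nat.ble_eq, List.all_eq_true] at h
      obtain ⟨⟨⟨⟨⟨⟨h1, h2⟩, h3⟩, h4⟩, h5⟩, h6⟩, h7⟩ := h
      obtain ⟨hc, hs'⟩ := List.pairwise_cons.1 (List.pairwise_cons.1 hs).2
      have h8 := hJ.zz _ b _ _ (vec β) (ih _ _ _ hs' h7) (by omega)
        (fun x hx => by have := hc x hx; omega)
        (by rw [show 2 * b - 1 = β.sum by omega]; exact sz_vec β) (vec_le h4)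
      rw [show b - 1 = b' by omega, ← vec_addL] at h8
      exact jj_nf hJ (jj_of_xj hJ h8 h1) h6
  | pp β1 β2 κ c ih =>
    intro m ν C hs h
    match ν, hs, h with
    | [], _, h => simp [chkC] at h
    | [_], _, h => simp [chkC] at h
    | b :: b' :: ν', hs, h =>
      simp only [chkC, Bool.and_eq_true, beq_iff_eq, Nat.ble_eq, List.all_eq_true] at h
      obtain ⟨⟨⟨⟨⟨⟨⟨⟨⟨h1, h2⟩, h3⟩, h4⟩, h4'⟩, h5⟩, h5'⟩, hd⟩, h6⟩, h7⟩ := h
      obtain ⟨hc, hs'⟩ := List.pairwise_cons.1 (List.pairwise_cons.1 hs).2
      have h8 := hJ.pp _ b _ _ (vec β1) (vec β2) (ih _ _ _ hs' h7) (by omega)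
        (fun x hx => by have := hc x hx; omega) (h5 ▸ sz_vec β1) (h5' ▸ sz_vec β2) (vec_le h4)
        (vec_le h4') (disjB_sound hd)
      rw [show b - 2 = b' by omega, ← vec_addL, ← vec_addL] at h8
      exact jj_nf hJ (jj_of_xj hJ h8 h1) h6
  | d l κ c ih =>
    intro m ν C hs h
    match ν, hs, h with
    | [], _, h => simp [chkC] at h
    | [_], _, h => simp [chkC] at h
    | b :: b' :: ν', hs, h =>
      simp only [chkC, Bool.and_eq_true, beq_iff_eq, Nat.ble_eq, List.all_eq_true] at h
      obtain ⟨⟨⟨⟨⟨⟨h1, h2⟩, rfl⟩, h4⟩, h5⟩, h6⟩, h7⟩ := h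
      obtain ⟨hc, hs'⟩ := List.pairwise_cons.1 (List.pairwise_cons.1 hs).2
      have h8 := hJ.dd _ b' _ _ (vec (dup l)) (ih _ _ _ hs' h7) (by omega) hc
        (h5 ▸ paired_dup l h4 0)
      rw [← vec_addL] at h8
      exact jj_nf hJ (jj_of_xj hJ h8 h1) h6
  | free c ih =>
    intro m ν C hs h
    simp only [chkC, Bool.and_eq_true] at h
    have h2 : FJ ν (vec C) := ih _ _ _ hs h.2
    cases m with
    | none => exact h2
    | some e =>
      refine hJ.f2x e _ _ h2 fun x hx => ?_
      have h3 := le_head hs hx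
      have h1 := h.1
      simp only [okF, Nat.ble_eq] at h1
      omega
  | s1 β κ c ih =>
    intro m ν C hs h
    match ν, hs, h with
    | [], _, h => simp [chkC] at h
    | a :: ν', hs, h =>
      simp only [chkC, Bool.and_eq_true, beq_iff_eq, Nat.ble_eq, List.all_eq_true] at h
      obtain ⟨⟨⟨⟨⟨h1, h2⟩, h4⟩, h5⟩, h6⟩, h7⟩ := h
      obtain rfl := isNone_eq h1
      obtain ⟨hc, hs'⟩ := List.pairwise_cons.1 hs
      obtain ⟨S, hS, hβ⟩ := (sz_vec β).exists_ind (vec_le h4)
      have h8 := hJ.s1 a ν' _ S (ih _ _ _ hs' h7) hc (s1B_sound h2) (hS.trans h5)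
      rw [← hβ, ← vec_addL] at h8
      exact jj_nf hJ (m := none) h8 h6
  | cj c ih =>
    intro m ν C hs h
    simp only [chkC, Bool.and_eq_true] at h
    obtain rfl := isNone_eq h.1
    exact (hJ.conj _ _ (ih _ _ _ (conjL_sorted ν) h.2)).of_conjL_conjL
  | tw c ih =>
    intro m ν C hs h
    simp only [chkC, Bool.and_eq_true, beq_iff_eq] at h
    obtain rfl := isNone_eq h.1.1
    exact hJ.recolF _ _ _ (fs_vec C) (by rw [rowsOf_colv_conjL, rowsOf_vec])
      (hJ.twist ν _ h.1.2 (ih _ _ _ hs h.2))
  | vs ν1 ν2 C1 C2 c1 c2 ih1 ih2 =>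
    intro m ν C hs h
    simp only [chkC, Bool.and_eq_true, beq_iff_eq] at h
    obtain ⟨⟨⟨⟨h1, h2⟩, h3⟩, h4⟩, h5⟩ := h
    obtain rfl := isNone_eq h1
    have h6 : FJ (nf ν2) (vec (List.replicate C1.length 0 ++ C2)) := by
      refine hJ.recolF _ _ _ (fs_vec _) ?_ (ih2 _ _ _ (nf_sorted ν2) h5)
      rw [rowsOf_vec, rowsOf_vec, colv_append]
      funext j
      simp [colv_replicate]
    have h7 := hJ.vs _ _ _ _ (ih1 _ _ _ (nf_sorted ν1) h4) h6 fun j => by
      by_cases hj : j < C1.length
      · right; rw [vec_pad, if_pos hj]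
      · left; exact vec_of_le (not_lt.1 hj)
    rw [← vec_append] at h7
    refine jj_nf hJ (m := none) ?_ h3
    unfold FJ at h7
    rw [colv_append, colv_nf, colv_nf, ← colv_append, colv_of_nf h2] at h7
    exact h7
  | hook =>
    intro m ν C hs h
    simp only [chkC, Bool.and_eq_true, beq_iff_eq] at h
    obtain ⟨⟨h1, rfl⟩, h3⟩ := h
    obtain rfl := isNone_eq h1
    exact jj_nf hJ (m := none) hJ.hook h3.symm

end Crest.Agent.R195
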