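import Crest.Agent.R195.XStep

/-!
Stacking a piece on top of an inner pair of tableaux.
-/

set_option autoImplicit false
set_option linter.unusedSectionVars false

namespace Crest.Agent.R195

open Equiv Finset

variable {α β γ : Type*} [Fintype α] [DecidableEq α] [Fintype β] [DecidableEq β] [Fintype γ]
  [DecidableEq γ] {κ κ' : Type*}
variable {W V V' : Type*} [AddCommGroup W] [Module ℂ W] [AddCommGroup V] [Module ℂ V]
  [AddCommGroup V'] [Module ℂ V']

/-- A nonzero value of a Young symmetriser sees its shape. -/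
lemma sees_symOp_altOp {σ : Representation ℂ (Perm α) W} {r : α → ℕ} {c : α → κ} (h : Latin r c)
    {u : W} (hu : symOp σ r (altOp σ c u) ≠ 0) : Sees σ (symOp σ r (altOp σ c u)) (cont r) := by
  obtain ⟨ζ, hζ⟩ := exists_sees' (σ := σ) hu
  obtain ⟨φ, hφ⟩ := hζ.exists_hom
  rw [map_symOp, map_altOp] at hφ
  have := specht_irreducible hζ.isShape
  rwa [(hasShape_of_symOp_altOp h rfl hφ).unique (hasShape_specht hζ.isShape)]

/-- The left factor acts by intertwiners of the right restriction. -/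
noncomputable def resLHom (σ : Representation ℂ (Perm (β ⊕ γ)) W) (g : Perm β) :
    (resR σ).IntertwiningMap (resR σ) where
  toLinearMap := resL σ g
  isIntertwining' k := by
    ext v
    simp only [LinearMap.coe_comp, Function.comp_apply, resL_resR, resR_resL]

lemma resL_symOp_altOp (σ : Representation ℂ (Perm (β ⊕ γ)) W) (r : γ → κ) (c : γ → κ')
    (g : Perm β) (v : W) : resL σ g (symOp (resR σ) r (altOp (resR σ) c v)) =
      symOp (resR σ) r (altOp (resR σ) c (resL σ g v)) :=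
  (map_symOp (resLHom σ g) r _).trans (congrArg _ (map_altOp (resLHom σ g) c v))

/-- The image of a Young symmetriser of the right factor. -/
noncomputable def youngR (σ : Representation ℂ (Perm (β ⊕ γ)) W) (r : γ → κ) (c : γ → κ') :
    Subrepresentation (resL σ) where
  toSubmodule := LinearMap.range (symOp (resR σ) r * altOp (resR σ) c)
  apply_mem_toSubmodule g := by
    rintro _ ⟨v, rfl⟩
    exact ⟨resL σ g v, (resL_symOp_altOp σ r c g v).symm⟩

/-- Positivity of a Littlewood–Richardson coefficient when the columns add. -/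
theorem exists_box_lr {R : β ⊕ γ → ℕ} {C : β ⊕ γ → κ} (h : Latin R C)
    (hβ : Latin (R ∘ Sum.inl) (C ∘ Sum.inl)) {q : γ → ℕ} (hγ : Latin q (C ∘ Sum.inr))
    (hq : ∀ a b, C (Sum.inr a) = C (Sum.inr b) → R (Sum.inr a) < R (Sum.inr b) → q a < q b)
    {σ : Representation ℂ (Perm (β ⊕ γ)) W} (H : HasShape σ (cont R))
    {ρ : Representation ℂ (Perm β) V} {τ : Representation ℂ (Perm γ) V'} {x : V} {z : V'}
    (hx : Sees ρ x (cont (R ∘ Sum.inl))) (hz : Sees τ z (cont q)) :
    ∃ B : V →ₗ[ℂ] V' →ₗ[ℂ] W,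
      (∀ g k a b, B (ρ g a) (τ k b) = σ (Perm.sumCongr g k) (B a b)) ∧ B x z ≠ 0 := by
  obtain ⟨φ, hφ⟩ := H.exists_inj
  have hs : ∀ g1 ∈ stab (C ∘ Sum.inl), ∀ g2 ∈ stab (C ∘ Sum.inr),
      σ (Perm.sumCongr g1 g2) (φ (polyS h rfl)) = (sg g1 * sg g2) • φ (polyS h rfl) :=
    fun g1 h1 g2 h2 => by
      rw [← φ.isIntertwining, ← map_smul]
      congr 1
      apply Sp.ext
      rw [(spIncl _ _).isIntertwining, map_smul, spIncl_polyS, rep_poly_of_mem, sg_sumCongr]
      exact mem_stab.2 fun x => by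
        rcases x with b | b
        · exact mem_stab.1 h1 b
        · exact mem_stab.1 h2 b
  have h1 : altOp (resL σ) (C ∘ Sum.inl) (φ (polyS h rfl)) =
      ((stab (C ∘ Sum.inl)).card : ℂ) • φ (polyS h rfl) :=
    altOp_of_inv _ fun g hg => by rw [resL_apply, hs g hg 1 (one_mem_stab _), sg_one, mul_one]
  have h2 : altOp (resR σ) (C ∘ Sum.inr) (φ (polyS h rfl)) =
      ((stab (C ∘ Sum.inr)).card : ℂ) • φ (polyS h rfl) :=
    altOp_of_inv _ fun g hg => by rw [resR_apply, hs 1 (one_mem_stab _) g hg, sg_one, one_mul]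
  have h3 : HasShape (subR (youngR σ q (C ∘ Sum.inr))) (cont (R ∘ Sum.inl)) := by
    refine hasShape_of_symOp_altOp hβ rfl (v := SubT.mk _ _ ⟨φ (polyS h rfl), rfl⟩) fun h0 => ?_
    have h4 := congrArg (subI (youngR σ q (C ∘ Sum.inr))) h0
    rw [map_symOp, map_altOp, subI_mk, map_zero, Module.End.mul_apply, h2, map_smul, map_smul,
      map_smul, altOp_resL_symOp_resR, h1, map_smul, map_smul, ← symOp_sum, ← map_symOp] at h4
    have h5 := (smul_eq_zero.1 ((smul_eq_zero.1 h4).resolve_left (card_stab_ne _))).resolve_left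
      (card_stab_ne _)
    have h6 := congrArg (spIncl _ _) (hφ (h5.trans (map_zero φ).symm))
    rw [map_symOp, spIncl_polyS, map_zero] at h6
    set N := Fintype.card (β ⊕ γ)
    have hN : ∀ x, R x < N := lt_of_cont fun i hi => by
      have : cont R N = 0 := h.isShape.eq_zero
      have := h.cont_anti hi
      omega
    refine symOp_poly_ne_zero h (q := Sum.elim (R ∘ Sum.inl) fun a => N + q a) ?_ ?_
    · rintro (a | a) (b | b) hc hr
      · exact hr
      · exact (hN _).trans_le (Nat.le_add_right _ _)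
      · obtain ⟨x, h3, h4⟩ := hβ.down b _ hr
        have := h.inj _ _ (h3.trans hc.symm) h4
        simp at this
      · exact Nat.add_lt_add_left (hq a b hc hr) N
    · rw [← h6]
      refine LinearMap.congr_fun (symOp_congr _ ?_) _
      rintro (a | a) (b | b)
      · simp
      · have := hN (Sum.inl a)
        simp only [Sum.elim_inl, Sum.elim_inr, Function.comp, Sum.map_inl, Sum.map_inr,
          reduceCtorEq, iff_false]
        omega
      · have := hN (Sum.inl b)
        simp only [Sum.elim_inl, Sum.elim_inr, Function.comp, Sum.map_inl, Sum.map_inr,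
          reduceCtorEq, iff_false]
        omega
      · simp
  obtain ⟨ψ, hψ⟩ := hx.exists_hom' h3
  refine exists_box ((subI _).comp ψ) ?_ hz
  obtain ⟨u, hu⟩ := subI_mem _ (ψ x)
  have h4 : symOp (resR σ) q (altOp (resR σ) (C ∘ Sum.inr) u) ≠ 0 := fun h0 =>
    hψ (subI_injective _ (by rw [← hu, map_zero]; exact h0))
  have := sees_symOp_altOp hγ h4
  rwa [← Module.End.mul_apply, hu] at this

/-- Label-disjoint vectors: the columns of the third shapes add. -/
theorem sees_wsum_add {L : Type*} (S : L → Prop) {x : (β → L) →₀ ℂ} {z : (γ → L) →₀ ℂ}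
    (hx : ∀ w, x w ≠ 0 → ∀ b, S (w b)) (hz : ∀ w, z w ≠ 0 → ∀ b, ¬ S (w b)) {c b : ℕ → ℕ}
    (fc : FS c) (fb : FS b) (Hx : Sees (lwordRep β L) x (rowsOf c))
    (Hz : Sees (lwordRep γ L) z (rowsOf b)) :
    Sees (lwordRep (β ⊕ γ) L) (wsum x z) (rowsOf (c + b)) := by
  obtain ⟨m, hm⟩ := fc.exists_sz
  obtain ⟨m', hm'⟩ := fb.exists_sz
  obtain ⟨r1, C1, l1, e1⟩ := exists_model (α := β) (Hx.isShape.sz.unique hm.rowsOf ▸ hm)
  obtain ⟨r2, C2, l2, e2⟩ := exists_model (α := γ) (Hz.isShape.sz.unique hm'.rowsOf ▸ hm')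
  have hL : Latin (Sum.elim r1 fun a => c (C2 a) + r2 a) (Sum.elim C1 C2) := by
    constructor
    · rintro (a | a) (b | b) h1 h2 <;> simp only [Sum.elim_inl, Sum.elim_inr] at h1 h2
      · exact congrArg _ (l1.inj _ _ h1 h2)
      · have := l1.lt_cont a
        rw [e1, h1] at this
        omega
      · have := l1.lt_cont b
        rw [e1, ← h1] at this
        omega
      · rw [h1] at h2
        exact congrArg _ (l2.inj _ _ h1 (Nat.add_left_cancel h2))
    · rintro (a | a) i hi <;> simp only [Sum.elim_inl, Sum.elim_inr] at hi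
      · obtain ⟨b, h1, h2⟩ := l1.down a i hi
        exact ⟨Sum.inl b, h1, h2⟩
      · by_cases h : i < c (C2 a)
        · obtain ⟨b, h1, h2⟩ := l1.exists_cell (e1 ▸ h)
          exact ⟨Sum.inl b, h1, h2⟩
        · obtain ⟨b, h1, h2⟩ := l2.down a (i - c (C2 a)) (by omega)
          refine ⟨Sum.inr b, h1, ?_⟩
          simp only [Sum.elim_inr, h1, h2]
          omega
  have hc : cont (Sum.elim r1 fun a => c (C2 a) + r2 a) = rowsOf (c + b) := by
    rw [cont_eq_rowsOf hL, cont_sum, e1, e2]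
  have hl : IsShape (β ⊕ γ) (rowsOf (c + b)) := hc ▸ hL.isShape
  obtain ⟨B, hB, hB0⟩ := exists_box_lr hL l1 l2 (fun a b h1 h2 => by
      simp only [Sum.elim_inr] at h1 h2
      rw [h1] at h2
      omega) (σ := spechtR _ (rowsOf (c + b))) (hc ▸ hasShape_specht hL.isShape)
    (x := x) (z := z) (by rw [← e1, ← cont_eq_rowsOf l1] at Hx; exact Hx)
    (by rw [← e2, ← cont_eq_rowsOf l2] at Hz; exact Hz)
  obtain ⟨Φ, hΦ⟩ := exists_ind S hx hz B hB hB0
  exact sees_of_hom hl Φ hΦ

lemma latin_exts {k : ℕ} {r' c' : β → ℕ} {r c : γ → ℕ} (h' : Latin r' c') (h : Latin r c)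
    (h1 : ∀ j, cont c j ≤ k) (h2 : ∀ j, cont c' j ≠ 0 → cont c j = k) :
    Latin (exts k r' r) (Sum.elim c' c) := by
  have hr : ∀ a, r a < k := fun a => (h.lt_cont a).trans_le (h1 _)
  constructor
  · rintro (a | a) (b | b) e1 e2 <;> simp only [exts, Sum.elim_inl, Sum.elim_inr] at e1 e2
    · exact congrArg _ (h'.inj _ _ e1 (Nat.add_right_cancel e2))
    · have := hr b; omega
    · have := hr a; omega
    · exact congrArg _ (h.inj _ _ e1 e2)
  · rintro (a | a) i hi <;> simp only [exts, Sum.elim_inl, Sum.elim_inr] at hi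
    · by_cases hk : i < k
      · obtain ⟨b, e1, e2⟩ := h.exists_cell (j := c' a) (i := i)
          (by rw [h2 _ (cont_pos c' a).ne']; exact hk)
        exact ⟨Sum.inr b, e1, e2⟩
      · obtain ⟨b, e1, e2⟩ := h'.down a (i - k) (by omega)
        refine ⟨Sum.inl b, e1, ?_⟩
        simp only [exts, Sum.elim_inl, e2]
        omega
    · obtain ⟨b, e1, e2⟩ := h.down a i hi
      exact ⟨Sum.inr b, e1, e2⟩

lemma sum_top_exts {k : ℕ} {r' : β → ℕ} {r : γ → ℕ} (hr : ∀ a, r a < k) {C : β ⊕ γ → ℕ}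
    {w : β ⊕ γ → ℕ} (hw : poly (exts k r' r) C w ≠ 0) (F : ℕ → ℤ) :
    ∑ x, (if w x < k then F (C x) else 0) = ∑ a, F (C (Sum.inr a)) := by
  obtain ⟨g, hg, rfl⟩ := exists_of_poly_apply hw
  have := Equiv.sum_comp g fun x => if exts k r' r x < k then F (C x) else 0
  simp only [mem_stab.1 hg] at this
  refine this.trans ?_
  rw [Fintype.sum_sum_type]
  simp [exts, hr]

/-- Uniqueness of the support by the threshold on column sums. -/
lemma unique_support {k k' lo : ℕ} {r1' r2' : β → ℕ} {r1 r2 : γ → ℕ} (h1 : ∀ a, r1 a < k)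
    (h2 : ∀ a, r2 a < k') {C1 C2 : β ⊕ γ → ℕ} (hβ : ∀ b, C1 (Sum.inl b) + C2 (Sum.inl b) < lo)
    (hγ : ∀ a, lo ≤ C1 (Sum.inr a) + C2 (Sum.inr a)) (a b : β ⊕ γ → ℕ)
    (ha : poly (exts k r1' r1) C1 a ≠ 0) (hb : poly (exts k' r2' r2) C2 b ≠ 0)
    (hab : ∀ x, a x < k ↔ b x < k') (x : β ⊕ γ) : a x < k ↔ x.isRight := by
  have e1 := sum_top_exts h1 ha fun j => (j : ℤ) - lo
  have e2 := sum_top_exts h2 hb fun j => (j : ℤ)
  have e3 : ∑ x, (if a x < k then ((C1 x : ℤ) - lo + C2 x) else 0) =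
      ∑ y, ((C1 (Sum.inr y) : ℤ) - lo + C2 (Sum.inr y)) := by
    rw [sum_add_distrib, ← e1, ← e2, ← sum_add_distrib]
    refine sum_congr rfl fun x _ => ?_
    by_cases h : a x < k
    · rw [if_pos h, if_pos h, if_pos ((hab x).1 h)]
    · rw [if_neg h, if_neg h, if_neg (mt (hab x).2 h), add_zero]
  rw [Fintype.sum_sum_type] at e3
  have e4 : ∑ y, (if a (Sum.inr y) < k then ((C1 (Sum.inr y) : ℤ) - lo + C2 (Sum.inr y)) else 0) ≤
      ∑ y, ((C1 (Sum.inr y) : ℤ) - lo + C2 (Sum.inr y)) := sum_le_sum fun y _ => by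
    have := hγ y
    split_ifs <;> omega
  have e5 : ∀ y ∈ (univ : Finset β),
      (if a (Sum.inl y) < k then ((C1 (Sum.inl y) : ℤ) - lo + C2 (Sum.inl y)) else 0) ≤ 0 :=
    fun y _ => by
      have := hβ y
      split_ifs <;> omega
  have e6 := (sum_eq_zero_iff_of_nonpos e5).1 (le_antisymm (sum_nonpos e5) (by omega))
  have e7 : ∀ y, ¬ a (Sum.inl y) < k := fun y h => by
    have := e6 y (mem_univ y)
    have := hβ y
    rw [if_pos h] at *
    omega
  obtain ⟨g, -, rfl⟩ := exists_of_poly_apply ha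
  obtain ⟨g1, g2, rfl⟩ := exists_sumCongr' (g := g) fun y => by
    have := e7 y
    rcases h : g (Sum.inl y) with z | z
    · rfl
    · simp only [Function.comp, h, exts, Sum.elim_inr] at this
      exact absurd (h1 z) this
  rcases x with y | y
  · simpa using e7 y
  · simpa [exts] using h1 (g2 y)

theorem compStmt : CompStmt := by
  rintro lo hi e H k k' _ _ b _ _ c ⟨fb, n, r1, c1, r2, c2, l1, l2, rfl, rfl, hb, Hb⟩
    ⟨fc, n', r1', c1', r2', c2', l1', l2', rfl, rfl, hb', Hc⟩ h1 h2 h3 p1 p2 q1 q2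
  have hr1 : ∀ a, r1 a < k := fun a => (l1.lt_cont a).trans_le (p1 _)
  have hr2 : ∀ a, r2 a < k' := fun a => (l2.lt_cont a).trans_le (q1 _)
  refine band_of (fb.add fc) (latin_exts l1' l1 p1 p2) (latin_exts l2' l2 q1 q2)
    (by rw [cont_sum, add_comm]) (by rw [cont_sum, add_comm]) ?_ ?_
  · rintro (a | a)
    · have := hb' a
      simp only [Sum.elim_inl]
      omega
    · have := hb a
      simp only [Sum.elim_inr]
      omega
  · refine Sees.of_map (wfilter _ (fun p : ℕ × ℕ => p.1 < k ↔ p.2 < k')) ?_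
    rw [wfilter_poly2 r1' r2' hr1 hr2 _ _ (unique_support (lo := lo) hr1 hr2
      (fun y => (hb' y).2.trans_le h1) fun y => (hb y).1), add_comm b c]
    refine sees_wsum_add (fun p => k ≤ p.1) (fun w hw y => ?_)
      (fun w hw a => not_le.2 (poly2_lt hr1 hr2 hw a).1) fc fb
      (Hc.map_inj _ (wlab_injective (shift2_injective k k'))) Hb
    obtain ⟨u, rfl⟩ := wlab_ne_zero hw
    exact Nat.le_add_left _ _

end Crest.Agent.R195
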