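import Crest.Agent.R195.Defs2

/-! Row 195: the long rule and the criterion. -/

set_option autoImplicit false

namespace Crest.Agent.R195

open Finset

namespace Crit

lemma side {f : ℕ → ℕ} {a : ℕ} (h : ∀ q < a, 1 ≤ f q → f q + 2 * q + 2 ≤ 2 * a) (d : ℕ)
    (hd : 1 ≤ d) : ((range a).filter fun j => d ≤ min (f j) (f (a - 1 - j))).card ≤ a - d := by
  rcases ((range a).filter fun j => d ≤ f j).eq_empty_or_nonempty with h0 | h0
  · rw [filter_eq_empty_iff] at h0
    rw [filter_eq_empty_iff.2 fun j hj hh => h0 hj (le_trans hh (min_le_left _ _))]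
    simp
  · obtain ⟨q, hq, hmax⟩ := exists_max_image _ id h0
    rw [mem_filter, mem_range] at hq
    have h1 := h q hq.1 (hd.trans hq.2)
    refine (card_le_card (t := Icc (a - 1 - q) q) fun j hj => ?_).trans ?_
    · rw [mem_filter, mem_range, le_min_iff] at hj
      have h2 := hmax j (mem_filter.2 ⟨mem_range.2 hj.1, hj.2.1⟩)
      have h3 := hmax (a - 1 - j) (mem_filter.2 ⟨mem_range.2 (by omega), hj.2.2⟩)
      simp only [id] at h2 h3
      rw [mem_Icc]
      omega
    · rw [Nat.card_Icc]
      omega

lemma colv_map_succ (μ : List ℕ) (j : ℕ) : colv (μ.map (· + 1)) (j + 1) = colv μ j := by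
  simp [colv, List.countP_map, Function.comp_def]

lemma vec_tail (μ : List ℕ) {b : ℕ} (hb : μ.length ≤ b) (j : ℕ) :
    vec (μ.map (· + 1) ++ List.replicate (b - μ.length) 1) j = (if j < b then 1 else 0) + vec μ j := by
  by_cases h1 : j < μ.length
  · rw [vec_of_lt (by simp; omega), vec_of_lt h1, if_pos (by omega),
      List.getElem_append_left (by simpa using h1)]
    simp [add_comm]
  · rw [vec_of_le (l := μ) (by omega)]
    by_cases h2 : j < b
    · rw [vec_of_lt (by simp; omega), if_pos h2, List.getElem_append_right (by simpa using h1)]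
      simp
    · rw [vec_of_le (by simp; omega), if_neg h2]

lemma exc_anti (l : List ℕ) {k k' : ℕ} (h : k ≤ k') : exc l k' ≤ exc l k := by
  induction l with
  | nil => exact le_rfl
  | cons a l ih => rw [exc_cons, exc_cons]; omega

lemma exc_ge (l : List ℕ) (k : ℕ) : (vec l 0 - k) + (vec l 1 - k) ≤ exc l k := by
  rcases l with _ | ⟨x, _ | ⟨y, l⟩⟩
  · simp [vec]
  · simp [vec, exc]
  · rw [exc_cons, exc_cons]
    simp only [vec, List.getD_cons_zero, List.getD_cons_succ]
    omega

lemma exc_ones (m : ℕ) {k : ℕ} (hk : 1 ≤ k) : exc (List.replicate m 1) k = 0 := by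
  simp [exc, Nat.sub_eq_zero_of_le hk]

lemma dom_exc (hU : URules) {ν al lam : List ℕ} (h : UF ν al) (hs : lam.sum = ν.sum)
    (he : ∀ k, 1 ≤ k → exc al k ≤ exc lam k) : FJ ν (colv lam) := by
  have h0 := h.sum_eq
  refine hU.dom ν al lam h (by omega) fun k => ?_
  rcases Nat.eq_zero_or_pos k with rfl | hk
  · simp
  · have h1 := sum_min_add_exc lam k
    have h2 := sum_min_add_exc al k
    have h3 := he k hk
    omega

lemma dom_long (hU : URules) {a m : ℕ} {ν lam : List ℕ}
    (h : UF ν (a :: (a - 1) :: List.replicate m 1)) (hs : lam.sum = ν.sum)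
    (h1 : vec lam 1 ≤ vec lam 0) (h2 : 2 * a ≤ vec lam 0 + vec lam 1 + 1) : FJ ν (colv lam) := by
  refine dom_exc hU h hs fun k hk => ?_
  have := exc_ge lam k
  rw [exc_cons, exc_cons, exc_ones m hk]
  omega

lemma sum_le {r : List ℕ} {B : ℕ} (h : ∀ x ∈ r, x ≤ B) :
    r.sum + colv r 1 ≤ colv r 1 * B + r.length := by
  induction r with
  | nil => simp
  | cons x r ih =>
    have h1 := ih fun y hy => h y (List.mem_cons_of_mem _ hy)
    have h2 := h x List.mem_cons_self
    rw [colv_cons_apply, List.sum_cons, List.length_cons, add_mul]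
    split_ifs <;> omega

lemma sum_min_le (r : List ℕ) (k : ℕ) :
    (r.map fun x => min x (k + 1)).sum ≤ r.length + k * colv r 1 := by
  induction r with
  | nil => simp
  | cons x r ih =>
    rw [colv_cons_apply, List.map_cons, List.sum_cons, List.length_cons, mul_add]
    split_ifs <;> omega

lemma colv_zero {r : List ℕ} (h : ∀ x ∈ r, 1 ≤ x) : colv r 0 = r.length := by
  simpa [colv, List.countP_eq_length, Nat.lt_iff_add_one_le] using h

lemma arith {a n L l2 l y s : ℕ} (hy : 1 ≤ y) (hl2 : 1 ≤ l2) (hy' : y ≤ s) (hl2' : l2 ≤ s)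
    (h1 : L + l2 + 2 ≤ 2 * a) (h2 : l + y + 2 ≤ 2 * a) (h3 : n + y + l2 ≤ L + y * l2 + l)
    (h4 : 4 * a + 1 < n + 8) (h5 : 4 * a + (s - 2) ^ 2 < n + 8) : False := by
  rcases Nat.lt_or_ge y 2 with hy2 | hy2
  · obtain rfl : y = 1 := by omega
    omega
  rcases Nat.lt_or_ge l2 2 with hl | hl
  · obtain rfl : l2 = 1 := by omega
    omega
  obtain ⟨y, rfl⟩ := Nat.exists_eq_add_of_le' hy2
  obtain ⟨l2, rfl⟩ := Nat.exists_eq_add_of_le' hl
  have h6 : y * l2 ≤ (s - 2) ^ 2 := by
    rw [sq]
    exact Nat.mul_le_mul (by omega) (by omega)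
  nlinarith

/-- the positive parts of `al - k` -/
def pos (al : List ℕ) (k : ℕ) : List ℕ :=
  al.filterMap fun x => if x ≤ k then none else some (x - k)

lemma pos_sum (al : List ℕ) (k : ℕ) : (pos al k).sum = exc al k := by
  induction al with
  | nil => rfl
  | cons x al ih =>
    rw [exc_cons, ← ih, pos, pos, List.filterMap_cons]
    by_cases h : x ≤ k
    · simp [h]
    · simp [h]

lemma pos_succ (al : List ℕ) (k : ℕ) :
    ((pos al k).filterMap fun x => if x ≤ 1 then none else some (x - 1)) = pos al (k + 1) := by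
  rw [pos, pos, List.filterMap_filterMap]
  congr 1
  funext x
  by_cases h : x ≤ k
  · simp [h, h.trans (Nat.le_succ k)]
  · by_cases h' : x ≤ k + 1
    · simp [h, h', show x - k ≤ 1 by omega]
    · simp [h, h', show ¬ x - k ≤ 1 by omega, Nat.sub_sub]

lemma loop {a n : ℕ} (al : List ℕ) (f k : ℕ) (h : critLoop a n f k (pos al k) = true) :
    ∀ k', k ≤ k' → exc al k' = 0 ∨ k' * min (k' + exc al k' - 1) (a - 1) + exc al k' ≤ n := by
  have emp : ∀ k, (pos al k).isEmpty = true → ∀ k', k ≤ k' → exc al k' = 0 := by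
    intro k hk k' hk'
    have h1 := pos_sum al k
    rw [List.isEmpty_iff.1 hk] at h1
    have h2 := exc_anti al hk'
    simp only [List.sum_nil] at h1
    omega
  induction f generalizing k with
  | zero => exact fun k' hk' => Or.inl (emp k h k' hk')
  | succ f ih =>
    rw [critLoop, Bool.or_eq_true, Bool.and_eq_true, pos_succ, pos_sum, Nat.ble_eq] at h
    intro k' hk'
    rcases h with h | ⟨h1, h2⟩
    · exact Or.inl (emp k h k' hk')
    · rcases hk'.eq_or_lt with rfl | hk'
      · exact Or.inr h1
      · exact ih (k + 1) h2 k' hk'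

end Crit

open Crit

theorem longStmt_of (hU : URules) (_hH : HookFacts) : LongStmt := by
  intro a μ hG hF ha
  have hv := hG.sc.vec_eq
  have hle : ∀ x ∈ μ, x ≤ μ.length := colv_eq_zero.1 (by rw [← hv]; exact vec_of_le le_rfl)
  have hinv : ∀ q, 1 ≤ colv μ q → colv μ q + 2 * q ≤ 2 * μ.length := by
    intro q hq
    rw [← hv] at hq ⊢
    have h1 : q < μ.length := by
      by_contra h
      rw [vec_of_le (by omega)] at hq
      omega
    have := hG.inv q h1
    omega
  have h1 := hU.s1 (a - 1) μ _ (hU.full μ hF) (fun x hx => by have := hle x hx; omega)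
    (side fun q _ hq => by have := hinv q hq; omega)
  have h2 := hU.conj _ _ h1
  have e : colv (conjL ((a - 1) :: μ)) =
      colv (μ.map (· + 1) ++ List.replicate (a - 1 - μ.length) 1) := by
    rw [colv_conjL, ← rowsOf_vec (μ.map (· + 1) ++ List.replicate (a - 1 - μ.length) 1)]
    congr 1
    funext j
    rw [colv_cons_apply, vec_tail μ (by omega), hv]
  have h3 : UF (μ.map (· + 1) ++ List.replicate (a - 1 - μ.length) 1)
      ((a - 1) :: List.replicate μ.sum 1) := by
    intro c hc
    have := h2 c hc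
    unfold FJ at this ⊢
    rwa [e] at this
  refine hU.s1 a _ _ h3 (fun x hx => ?_) (side fun q _ hq => ?_)
  · rcases List.mem_append.1 hx with hx | hx
    · obtain ⟨y, hy, rfl⟩ := List.mem_map.1 hx
      have := hle y hy
      omega
    · rw [List.eq_of_mem_replicate hx]
      omega
  · rcases q with _ | q
    · have := colv_le_length (μ.map (· + 1) ++ List.replicate (a - 1 - μ.length) 1) 0
      simp only [List.length_append, List.length_map, List.length_replicate] at this
      omega
    · rw [colv_append, Pi.add_apply, colv_map_succ, colv_replicate, if_neg (by omega),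
        add_zero] at hq ⊢
      have := hinv q hq
      omega

theorem critStmt_of (hU : URules) : CritStmt := by
  intro a m μ al hs ha hL hal hC
  refine hU.full_of μ hs fun lam hsort hpos hsum hlen => ?_
  by_cases c1 : 2 * a ≤ vec lam 0 + vec lam 1 + 1
  · exact dom_long hU hL hsum (vec_anti hsort zero_le_one) c1
  by_cases c2 : 2 * a ≤ colv lam 0 + colv lam 1 + 1
  · refine hU.twist μ lam hs (dom_long hU hL (by rw [sum_conjL, hsum]) ?_ ?_)
    · rw [vec_conjL]; exact colv_anti lam zero_le_one
    · rwa [vec_conjL]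
  have hn := hL.sum_eq
  simp only [List.sum_cons, List.sum_replicate, smul_eq_mul, mul_one] at hn
  rw [colv_zero hpos] at c2
  have hyl := colv_le_length lam 1
  refine dom_exc hU hal hsum fun k hk => ?_
  have hme := sum_min_add_exc lam k
  obtain ⟨k, rfl⟩ := Nat.exists_eq_add_of_le' hk
  have hml := sum_min_le lam k
  rcases lam with _ | ⟨L, _ | ⟨l2, r⟩⟩
  · simp only [List.sum_nil] at hsum
    omega
  · simp only [vec, List.getD_cons_zero, List.sum_cons, List.sum_nil] at c1 hsum
    omega
  simp only [vec, List.getD_cons_zero, List.getD_cons_succ, List.headD_cons] at c1 hlen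
  have hl2 : 1 ≤ l2 := hpos l2 (by simp)
  have hL2 : 2 ≤ L := by
    simp only [List.length_cons] at hlen
    omega
  have hy : colv (L :: l2 :: r) 1 = 1 + colv (l2 :: r) 1 := by
    rw [colv_cons_apply, if_pos (by omega)]
  rcases Nat.eq_zero_or_pos k with rfl | hk0
  · rw [zero_mul, add_zero] at hml
    rw [zero_add] at hme hml ⊢
    by_contra hcon
    rcases hC.1 with h1 | ⟨h1, h2⟩
    · omega
    have h3 := sum_le (r := l2 :: r) (B := l2) fun x hx => by
      rcases List.mem_cons.1 hx with rfl | hx
      · exact le_rfl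
      · exact List.rel_of_pairwise_cons (List.Pairwise.of_cons hsort) hx
    rw [hsum] at hme
    rw [List.sum_cons] at hsum
    rw [List.length_cons] at hml hlen c2 hyl
    refine arith (a := a) (n := μ.sum) (L := L) (l2 := l2) (l := (l2 :: r).length + 1)
      (y := colv (L :: l2 :: r) 1) (s := 2 * a + exc al 1 - μ.sum - 3) (by omega) hl2 (by omega)
      (by omega) (by omega) (by omega) ?_ h1 (by rwa [Nat.sub_sub _ 3 2])
    rw [hy, add_mul]
    omega
  · rcases hC.2 (k + 1) (by omega) with h1 | h1
    · omega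
    by_cases h2 : k + 1 + exc al (k + 1) ≤ L
    · rw [exc_cons]
      omega
    have h3 : (L :: l2 :: r).length + k * colv (L :: l2 :: r) 1 ≤
        (k + 1) * min (k + 1 + exc al (k + 1) - 1) (a - 1) := by
      rw [mul_min, le_min_iff]
      constructor
      · have : k * colv (L :: l2 :: r) 1 ≤ k * (k + 1 + exc al (k + 1) - 1) :=
          Nat.mul_le_mul_left _ (by omega)
        rw [add_mul]
        omega
      · obtain ⟨k, rfl⟩ := Nat.exists_eq_add_of_le' hk0
        have : k * colv (L :: l2 :: r) 1 ≤ k * (a - 1) := Nat.mul_le_mul_left _ (by omega)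
        rw [add_mul, add_mul, add_mul]
        omega
    omega

theorem critBStmt : CritBStmt := by
  intro a n al h
  rw [critB, Bool.and_eq_true, Bool.or_eq_true, Bool.and_eq_true, decide_eq_true_eq,
    decide_eq_true_eq, decide_eq_true_eq] at h
  exact ⟨h.1, loop al n 2 h.2⟩

end Crest.Agent.R195
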