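import Crest.Agent.R195.RepKron

/-!
Row 195: interface. Shapes are recorded by their COLUMN-LENGTH vectors `p q c : ℕ → ℕ`
(any order, finitely supported); `rowsOf c` is the row shape of a column vector.
-/

set_option autoImplicit false

namespace Crest.Agent.R195

open Finset

/-- The row shape of a vector of column lengths. -/
noncomputable def rowsOf (c : ℕ → ℕ) (i : ℕ) : ℕ := Set.ncard {j | i < c j}

/-- Finite support. -/
def FS (c : ℕ → ℕ) : Prop := ∃ N, ∀ j, N ≤ j → c j = 0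

/-- Finite support with total `m`. -/
def Sz (m : ℕ) (c : ℕ → ℕ) : Prop := ∃ N, (∀ j, N ≤ j → c j = 0) ∧ ∑ j ∈ range N, c j = m

/-- Two tableaux with column lengths `p`, `q` on the same letters, every letter has
`lo ≤ col₁ + col₂ < hi`, and the product of the polytabloids sees the shape with columns `c`. -/
def Band (lo hi : ℕ) (p q c : ℕ → ℕ) : Prop :=
  FS c ∧ ∃ (n : ℕ) (r1 c1 r2 c2 : Fin n → ℕ), Latin r1 c1 ∧ Latin r2 c2 ∧ cont c1 = p ∧
    cont c2 = q ∧ (∀ a, lo ≤ c1 a + c2 a ∧ c1 a + c2 a < hi) ∧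
    Sees (pairRep (Fin n)) (poly2 r1 c1 r2 c2) (rowsOf c)

/-- Positivity of a Kronecker coefficient, by column vectors. -/
def Free (p q c : ℕ → ℕ) : Prop := ∃ hi, Band 0 hi p q c

/-- Indicator vector. -/
def ind (S : Finset ℕ) : ℕ → ℕ := fun j => if j ∈ S then 1 else 0

/-- A list as a vector. -/
def vec (l : List ℕ) : ℕ → ℕ := fun j => l.getD j 0

/-- The column lengths of the shape with rows `l`. -/
def colv (l : List ℕ) : ℕ → ℕ := fun j => l.countP fun x => decide (j < x)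

/-- The conjugate partition as a list. -/
def conjL (l : List ℕ) : List ℕ := (List.range (l.foldr max 0)).map (colv l)

/-- `c` is a sum of `0/1` vectors with the sizes listed in `l` ("labels"). -/
def Lab : List ℕ → (ℕ → ℕ) → Prop
  | [], c => c = 0
  | a :: l, c => ∃ (S : Finset ℕ) (c' : ℕ → ℕ), S.card = a ∧ Lab l c' ∧ c = ind S + c'

/-- Column vectors of even partitions of `2b` with at most four rows: the nonzero columns come
in equal pairs. -/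
inductive Paired : ℕ → (ℕ → ℕ) → Prop
  | zero : Paired 0 0
  | add {b : ℕ} {β : ℕ → ℕ} (h j k : ℕ) : h ≤ 4 → j ≠ k → β j = 0 → β k = 0 → Paired b β →
      Paired (b + h) (β + (Pi.single j h + Pi.single k h))

/-- Chain judgement: both tableaux have the shape with rows `ν`, column sums below `e`. -/
def XJ (e : ℕ) (ν : List ℕ) (c : ℕ → ℕ) : Prop := Band 0 e (colv ν) (colv ν) c

/-- Free judgement: `S^ν ⊗ S^ν` contains the shape with columns `c`. -/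
def FJ (ν : List ℕ) (c : ℕ → ℕ) : Prop := Free (colv ν) (colv ν) c

/-- `S^ν ⊗ S^ν` contains everything. -/
def Full (ν : List ℕ) : Prop := ∀ c, Sz ν.sum c → FJ ν c

/-- Universal chain judgement. -/
def UX (e : ℕ) (ν al : List ℕ) : Prop := ∀ c, Lab al c → XJ e ν c

/-- Universal free judgement. -/
def UF (ν al : List ℕ) : Prop := ∀ c, Lab al c → FJ ν c

/-- Self-conjugate sorted list without zeros. -/
def SC (μ : List ℕ) : Prop := conjL μ = μ

/-! ### Representation-theoretic rules -/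

/-- Stacking a piece (all column sums `≥ lo`) on top of an inner pair (all column sums `< lo`). -/
def CompStmt : Prop := ∀ (lo hi e H k k' : ℕ) (p q b p' q' c : ℕ → ℕ),
  Band lo hi p q b → Band 0 e p' q' c → e ≤ lo → hi ≤ H → e ≤ H →
  (∀ j, p j ≤ k) → (∀ j, p' j ≠ 0 → p j = k) → (∀ j, q j ≤ k') → (∀ j, q' j ≠ 0 → q j = k') →
  Band 0 H (p + p') (q + q') (b + c)

/-- Horizontal sum (disjoint columns). -/
def HsumStmt : Prop := ∀ (lo hi : ℕ) (p q b p' q' c : ℕ → ℕ),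
  Band lo hi p q b → Band lo hi p' q' c → (∀ j, p j = 0 ∨ p' j = 0) → (∀ j, q j = 0 ∨ q' j = 0) →
  (∀ j, b j = 0 ∨ c j = 0) → Band lo hi (p + p') (q + q') (b + c)

/-- A new first row of length `a` over a free inner pair. -/
def S1Stmt : Prop := ∀ (a : ℕ) (p q c : ℕ → ℕ) (S : Finset ℕ), Free p q c → Antitone p →
  Antitone q → p a = 0 → q a = 0 →
  (∀ d, 1 ≤ d → ((range a).filter fun j => d ≤ min (p j) (q (a - 1 - j))).card ≤ a - d) →
  S.card = a → Free (ind (range a) + p) (ind (range a) + q) (ind S + c)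

/-- The zigzag path with `2m+1` letters sees every shape with at most four rows. Column `i` of
the first tableau has label `ft i` (length 1 for `i = 0`, else 2), column `i` of the second one
has label `fs i` (length 1 for `i = m`, else 2); letter `2i` lies in columns `(i, i)`, letter
`2i+1` in columns `(i+1, i)`. -/
def PathStmt : Prop := ∀ (m lo hi : ℕ) (ft fs β : ℕ → ℕ),
  (∀ i ≤ m, ∀ i' ≤ m, ft i = ft i' → i = i') → (∀ i ≤ m, ∀ i' ≤ m, fs i = fs i' → i = i') →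
  (∀ i ≤ m, lo ≤ ft i + fs i ∧ ft i + fs i < hi) →
  (∀ i < m, lo ≤ ft (i + 1) + fs i ∧ ft (i + 1) + fs i < hi) →
  Sz (2 * m + 1) β → (∀ j, β j ≤ 4) →
  Band lo hi (fun j => ∑ i ∈ range (m + 1), if ft i = j then (if i = 0 then 1 else 2) else 0)
    (fun j => ∑ i ∈ range (m + 1), if fs i = j then (if i = m then 1 else 2) else 0) β

/-- `k` equal rows see the trivial shape. -/
def TrivStmt : Prop := ∀ (k b : ℕ) (S : Finset ℕ), S.card = k * b →
  Band (b - 1) b (colv (List.replicate k b)) (colv (List.replicate k b)) (ind S)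

/-- Rows `b, b-1`. -/
def ZStmt : Prop := ∀ (b : ℕ) (β : ℕ → ℕ), 2 ≤ b → Sz (2 * b - 1) β → (∀ j, β j ≤ 4) →
  Band (b - 2) b (colv [b, b - 1]) (colv [b, b - 1]) β

/-- Rows `b, b-2`: two paths. -/
def PStmt : Prop := ∀ (b : ℕ) (p1 p2 : ℕ → ℕ), 3 ≤ b → Sz (2 * ((b - 2) / 2) + 1) p1 →
  Sz (2 * ((b - 1) / 2) + 1) p2 → (∀ j, p1 j ≤ 4) → (∀ j, p2 j ≤ 4) →
  (∀ j, p1 j = 0 ∨ p2 j = 0) → Band (b - 3) b (colv [b, b - 2]) (colv [b, b - 2]) (p1 + p2)

/-- Rows `b, b`. -/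
def DStmt : Prop := ∀ (b : ℕ) (β : ℕ → ℕ), Paired b β →
  Band (b - 1) b (colv [b, b]) (colv [b, b]) β

/-! ### Combinatorics of labels -/

/-- Gale–Ryser. -/
def GRStmt : Prop := ∀ (al : List ℕ) (c : ℕ → ℕ), Sz al.sum c →
  (∀ S : Finset ℕ, ∑ j ∈ S, c j ≤ (al.map fun x => min x S.card).sum) → Lab al c

/-- Two labels of total size `2b+1`: an even vector and one cell. -/
def DSplitStmt : Prop := ∀ (b x y : ℕ) (c : ℕ → ℕ), x + y = 2 * b + 1 → Lab [x, y] c →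
  ∃ d w, Paired b d ∧ Lab [1] w ∧ c = d + w

/-- A vector with entries `≤ 4` and total `l1 + l2 + 3` splits into disjoint columns of totals
`l1`, `l2` and three cells. -/
def PSplitStmt : Prop := ∀ (l1 l2 : ℕ) (c : ℕ → ℕ) (dl : List ℕ), Sz (l1 + l2 + 3) c →
  (∀ j, c j ≤ 4) → (dl = [3] ∧ 9 ≤ l1 ∧ 9 ≤ l2 ∨ dl = [2, 1] ∧ 5 ≤ l1 ∧ 5 ≤ l2) →
  ∃ p1 p2 w, Sz l1 p1 ∧ Sz l2 p2 ∧ (∀ j, p1 j = 0 ∨ p2 j = 0) ∧ Lab dl w ∧ c = p1 + p2 + w

/-! ### The rules on lists -/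

/-- Rules for the judgements on a fixed third shape. -/
structure JRules : Prop where
  nil : ∀ e, XJ e [] 0
  mono : ∀ e e' ν c, XJ e ν c → e ≤ e' → XJ e' ν c
  x2f : ∀ e ν c, XJ e ν c → FJ ν c
  f2x : ∀ e ν c, FJ ν c → (∀ x ∈ ν, 2 * x ≤ e + 1) → XJ e ν c
  triv : ∀ e k b ν c (S : Finset ℕ), XJ e ν c → e + 1 ≤ b → (∀ x ∈ ν, x ≤ b) → S.card = k * b →
    XJ b (List.replicate k b ++ ν) (ind S + c)
  zz : ∀ e b ν c β, XJ e ν c → e + 2 ≤ b → (∀ x ∈ ν, x + 1 ≤ b) → Sz (2 * b - 1) β →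
    (∀ j, β j ≤ 4) → XJ b (b :: (b - 1) :: ν) (β + c)
  pp : ∀ e b ν c p1 p2, XJ e ν c → e + 3 ≤ b → (∀ x ∈ ν, x + 2 ≤ b) →
    Sz (2 * ((b - 2) / 2) + 1) p1 → Sz (2 * ((b - 1) / 2) + 1) p2 → (∀ j, p1 j ≤ 4) →
    (∀ j, p2 j ≤ 4) → (∀ j, p1 j = 0 ∨ p2 j = 0) → XJ b (b :: (b - 2) :: ν) (p1 + p2 + c)
  dd : ∀ e b ν c β, XJ e ν c → e + 1 ≤ b → (∀ x ∈ ν, x ≤ b) → Paired b β →
    XJ b (b :: b :: ν) (β + c)
  s1 : ∀ a ν c (S : Finset ℕ), FJ ν c → (∀ x ∈ ν, x ≤ a) →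
    (∀ d, 1 ≤ d → ((range a).filter fun j => d ≤ min (colv ν j) (colv ν (a - 1 - j))).card
      ≤ a - d) → S.card = a → FJ (a :: ν) (ind S + c)
  conj : ∀ ν c, FJ ν c → FJ (conjL ν) c
  twist : ∀ ν l, SC ν → FJ ν (vec l) → FJ ν (colv l)
  vs : ∀ ν ν' c c', FJ ν c → FJ ν' c' → (∀ j, c j = 0 ∨ c' j = 0) → FJ (ν ++ ν') (c + c')
  perm : ∀ ν ν' c, ν.Perm ν' → FJ ν c → FJ ν' c
  recol : ∀ e ν c c', FS c' → rowsOf c = rowsOf c' → XJ e ν c → XJ e ν c'
  recolF : ∀ ν c c', FS c' → rowsOf c = rowsOf c' → FJ ν c → FJ ν c'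
  hook : FJ [4, 1, 1] (vec [3, 3])

/-- Rules for the universal judgements. -/
structure URules : Prop where
  nil : ∀ e, UX e [] []
  mono : ∀ e e' ν al, UX e ν al → e ≤ e' → UX e' ν al
  permX : ∀ e ν al al', al.Perm al' → UX e ν al → UX e ν al'
  permF : ∀ ν al al', al.Perm al' → UF ν al → UF ν al'
  x2f : ∀ e ν al, UX e ν al → UF ν al
  f2x : ∀ e ν al, UF ν al → (∀ x ∈ ν, 2 * x ≤ e + 1) → UX e ν al
  triv : ∀ e k b ν al, UX e ν al → e + 1 ≤ b → (∀ x ∈ ν, x ≤ b) →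
    UX b (List.replicate k b ++ ν) (k * b :: al)
  zz : ∀ e b ν al z, UX e ν al → e + 2 ≤ b → (∀ x ∈ ν, x + 1 ≤ b) → z.length ≤ 4 →
    z.sum = 2 * b - 1 → UX b (b :: (b - 1) :: ν) (z ++ al)
  pp : ∀ e b ν al dl z, UX e ν (dl ++ al) → e + 3 ≤ b → (∀ x ∈ ν, x + 2 ≤ b) → z.length ≤ 4 →
    z.sum = 2 * b + 1 → (dl = [3] ∧ 10 ≤ b ∨ dl = [2, 1] ∧ 6 ≤ b) →
    UX b (b :: (b - 2) :: ν) (z ++ al)
  dd : ∀ e b ν al x y, UX e ν (1 :: al) → e + 1 ≤ b → (∀ x ∈ ν, x ≤ b) → x + y = 2 * b + 1 →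
    UX b (b :: b :: ν) (x :: y :: al)
  s1 : ∀ a ν al, UF ν al → (∀ x ∈ ν, x ≤ a) →
    (∀ d, 1 ≤ d → ((range a).filter fun j => d ≤ min (colv ν j) (colv ν (a - 1 - j))).card
      ≤ a - d) → UF (a :: ν) (a :: al)
  conj : ∀ ν al, UF ν al → UF (conjL ν) al
  full : ∀ ν, Full ν → UF ν (List.replicate ν.sum 1)
  /-- Gale–Ryser for a shape given by its rows. -/
  dom : ∀ ν al lam, UF ν al → lam.sum = al.sum →
    (∀ k, (lam.map fun x => min x k).sum ≤ (al.map fun x => min x k).sum) → FJ ν (colv lam)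
  /-- It suffices to see the sorted shapes with at most as many rows as columns. -/
  full_of : ∀ ν, SC ν → (∀ lam : List ℕ, lam.Pairwise (· ≥ ·) → (∀ x ∈ lam, 1 ≤ x) →
    lam.sum = ν.sum → lam.length ≤ lam.headD 0 → FJ ν (colv lam)) → Full ν
  /-- Twisting for a shape given by its rows. -/
  twist : ∀ ν lam, SC ν → FJ ν (colv (conjL lam)) → FJ ν (colv lam)

end Crest.Agent.R195
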