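import Crest.Agent.R195.Basic

/-!
Row 195: interface, part 2. Hooks, the family of shapes, the criterion, plans, certificates,
branch and bound.
-/

set_option autoImplicit false

namespace Crest.Agent.R195

/-! ### Shapes -/

/-- Add an outer hook with first row `a`. -/
def addHook (a : ℕ) (μ : List ℕ) : List ℕ :=
  a :: (μ.map (· + 1) ++ List.replicate (a - 1 - μ.length) 1)

/-- The self-conjugate shape with principal hooks of sizes `2 a - 1`, outermost first. -/
def hookL : List ℕ → List ℕ
  | [] => []
  | a :: h => addHook a (hookL h)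

/-- Invariant of the shapes of the family. -/
structure Good (μ : List ℕ) : Prop where
  sc : SC μ
  inv : ∀ q < μ.length, vec μ q + q ≤ μ.length + 1

/-- The innermost hook. -/
def baseZ (z : ℕ) : ℕ := if z ≤ 1 then 1 else if z = 2 then 2 else 3

/-- The hooks of the member `(d, z, i)` of the family: `d` hooks, level `z ≤ 4`, the `i` outer
hooks are raised by one. -/
def harms (z : ℕ) : ℕ → ℕ → List ℕ
  | 0, _ => []
  | 1, _ => [baseZ z]
  | d + 2, i => (2 * (d + 1) + z + (if i = 0 then 0 else 1)) :: harms z (d + 1) (i - 1)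

/-- The member `(d, z, i)` of the family. -/
def fam (d z i : ℕ) : List ℕ := hookL (harms z d i)

/-- The range of the parameters. -/
def InR (d z i : ℕ) : Prop :=
  1 ≤ d ∧ z ≤ 4 ∧ (i = 0 ∨ ((z = 1 ∨ z = 2) ∧ i + 1 ≤ d) ∨ (i + 2 ≤ d ∧ (z = 4 → i ≤ 2)))

instance (d z i : ℕ) : Decidable (InR d z i) := by unfold InR; infer_instance

/-- `b, b - 1, …` (`l` terms). -/
def run : ℕ → ℕ → List ℕ
  | _, 0 => []
  | b, l + 1 => b :: run (b - 1) l

/-- The middle rows. -/
def mid (z d : ℕ) : List ℕ :=
  if z = 0 then [d, d] else if z = 1 then [d] else if z = 2 then [d + 1, d]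
  else if z = 3 then [d + 2, d, d] else [d + 2, d, d, d - 1, d - 1]

/-- The rows `p, …, 1` with `i` repeated. -/
def low (p i : ℕ) : List ℕ :=
  if i = 0 then run p p else run p (p - i) ++ i :: i :: run (i - 1) (i - 1)

/-- The explicit rows of `fam d z i`. -/
def famE (d z i : ℕ) : List ℕ :=
  run (2 * d + z - 1) i ++ (run (2 * d + z - 2 - i) ((if z = 0 then d - 2 else d - 1) - i) ++
    (mid z d ++ low (if z = 0 ∨ z = 4 then d - 2 else d - 1) i))

/-- Hooks. -/
structure HookFacts : Prop where
  good : ∀ a μ, Good μ → μ.length + 2 ≤ a → Good (addHook a μ)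
  length : ∀ a μ, μ.length + 1 ≤ a → (addHook a μ).length = a
  sum : ∀ a μ, μ.length + 1 ≤ a → (addHook a μ).sum + 1 = μ.sum + 2 * a
  sorted : ∀ μ, SC μ → μ.Pairwise (· ≥ ·)
  head : ∀ μ, SC μ → μ.headD 0 = μ.length
  famGood : ∀ d z i, InR d z i → Good (fam d z i)
  famLen : ∀ d z i, InR d z i → 2 ≤ d →
    (fam d z i).length = 2 * d + z - 2 + (if i = 0 then 0 else 1)
  famStep : ∀ d z i, InR (d + 1) z i → 2 ≤ d → InR d z (i - 1) ∧
    fam (d + 1) z i = addHook (2 * d + z + (if i = 0 then 0 else 1)) (fam d z (i - 1)) ∧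
    (fam d z (i - 1)).length + 2 ≤ 2 * d + z + (if i = 0 then 0 else 1)
  famSum : ∀ d z i, InR d z i → 2 ≤ d → 2 * (fam d z i).sum + (if z = 3 then 2 else if z = 4
    then 10 else 0) = (2 * d + z - 2) * (2 * d + z - 1) + 4 * i + (if z = 0 then 2 else 0)
  famE : ∀ d z i, InR d z i → 2 ≤ d → fam d z i = famE d z i
  stair : ∀ m, 1 ≤ m → vec (fam ((m + 1) / 2) (2 - m % 2) 0) = stair m
  cover : ∀ n, 36 ≤ n → ∃ d z i, InR d z i ∧ 2 ≤ d ∧ (fam d z i).sum = n

/-- The long rule. -/
def LongStmt : Prop := ∀ a μ, Good μ → Full μ → μ.length + 2 ≤ a →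
  UF (addHook a μ) (a :: (a - 1) :: List.replicate μ.sum 1)

/-! ### The criterion -/

/-- The part of the labels beyond column `k`. -/
def exc (al : List ℕ) (k : ℕ) : ℕ := (al.map (· - k)).sum

/-- The criterion for labels `al`, first row `a`, size `n`. -/
def CritP (a n : ℕ) (al : List ℕ) : Prop :=
  (2 * a + exc al 1 ≤ n + 3 ∨
    (4 * a + 1 < n + 8 ∧ 4 * a + (2 * a + exc al 1 - n - 5) ^ 2 < n + 8)) ∧
  ∀ k, 2 ≤ k → exc al k = 0 ∨ k * min (k + exc al k - 1) (a - 1) + exc al k ≤ n

/-- The criterion suffices. -/
def CritStmt : Prop := ∀ (a m : ℕ) (μ al : List ℕ), SC μ → 1 ≤ a →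
  UF μ (a :: (a - 1) :: List.replicate m 1) → UF μ al → CritP a μ.sum al → Full μ

/-- Loop of the criterion: `l` is the list of positive parts of `al - k`. -/
def critLoop (a n : ℕ) : ℕ → ℕ → List ℕ → Bool
  | 0, _, l => l.isEmpty
  | f + 1, k, l => l.isEmpty || ((k * min (k + l.sum - 1) (a - 1) + l.sum).ble n &&
      critLoop a n f (k + 1) (l.filterMap fun x => if x ≤ 1 then none else some (x - 1)))

/-- Boolean criterion. -/
def critB (a n : ℕ) (al : List ℕ) : Bool :=
  (decide (2 * a + exc al 1 ≤ n + 3) ||
    (decide (4 * a + 1 < n + 8) && decide (4 * a + (2 * a + exc al 1 - n - 5) ^ 2 < n + 8))) &&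
  critLoop a n n 2 (al.filterMap fun x => if x ≤ 2 then none else some (x - 2))

def CritBStmt : Prop := ∀ a n al, critB a n al = true → CritP a n al

/-- The large members of the family. -/
def BigStmt : Prop := ∀ d z i, InR d z i → 37 ≤ d →
  ∃ al, UF (famE d z i) al ∧
    CritP (2 * d + z - 2 + (if i = 0 then 0 else 1)) (famE d z i).sum al

/-! ### Plans -/

/-- Plans produce universal judgements. -/
inductive Plan
  | nil
  | full
  | t (k : ℕ) (p : Plan)
  | z (lab : List ℕ) (p : Plan)
  | pp (two : Bool) (lab : List ℕ) (p : Plan)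
  | d (x y : ℕ) (p : Plan)
  | free (p : Plan)
  | s1 (p : Plan)
  | cj (p : Plan)

/-- The mode allows a piece with first row `b`. -/
def okM (m : Option ℕ) (b : ℕ) : Bool :=
  match m with
  | none => true
  | some e => b.ble e

/-- The mode allows to free the shape. -/
def okF (m : Option ℕ) (ν : List ℕ) : Bool :=
  match m with
  | none => true
  | some e => (2 * ν.headD 0).ble (e + 1)

/-- The side condition of the rule `s1`. -/
def s1B (a : ℕ) (ν : List ℕ) : Bool :=
  (List.range (ν.length + 1)).all fun d => d == 0 ||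
    (((List.range a).filter fun j => d.ble (min (colv ν j) (colv ν (a - 1 - j)))).length).ble (a - d)

/-- Remove one label. -/
def remL (x : ℕ) (al : List ℕ) : Option (List ℕ) := if x ∈ al then some (al.erase x) else none

/-- Run a plan on the sorted shape `ν` in mode `m` (`none`: free, `some e`: column sums `< e`);
`K` lists shapes known to be full. -/
def runP (K : List (List ℕ)) : Plan → Option ℕ → List ℕ → Option (List ℕ)
  | .nil, _, ν => if ν.isEmpty then some [] else none
  | .full, m, ν => if m.isNone && K.contains ν then some (List.replicate ν.sum 1) else none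
  | .t k p, m, ν =>
      let b := ν.headD 0
      if okM m b && (1 : ℕ).ble b && ν.take k == List.replicate k b then
        (runP K p (some (b - 1)) (ν.drop k)).map fun al => k * b :: al else none
  | .z lab p, m, ν =>
      match ν with
      | b :: c :: ν' =>
        if okM m b && (2 : ℕ).ble b && c + 1 == b && lab.length.ble 4 && lab.sum + 1 == 2 * b then
          (runP K p (some (b - 2)) ν').map fun al => lab ++ al else none
      | _ => none
  | .pp two lab p, m, ν =>
      match ν with
      | b :: c :: ν' =>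
        if okM m b && (if two then 6 else 10 : ℕ).ble b && c + 2 == b && lab.length.ble 4 &&
            lab.sum == 2 * b + 1 then
          ((runP K p (some (b - 3)) ν').bind fun al =>
            if two then (remL 2 al).bind (remL 1) else remL 3 al).map fun al => lab ++ al
        else none
      | _ => none
  | .d x y p, m, ν =>
      match ν with
      | b :: c :: ν' =>
        if okM m b && (1 : ℕ).ble b && c == b && x + y == 2 * b + 1 then
          ((runP K p (some (b - 1)) ν').bind (remL 1)).map fun al => x :: y :: al else none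
      | _ => none
  | .free p, m, ν => if okF m ν then runP K p none ν else none
  | .s1 p, m, ν =>
      match ν with
      | a :: ν' => if m.isNone && s1B a ν' then (runP K p none ν').map fun al => a :: al else none
      | _ => none
  | .cj p, m, ν => if m.isNone then runP K p none (conjL ν) else none

/-- The universal judgement of a mode. -/
def UJ : Option ℕ → List ℕ → List ℕ → Prop
  | none, ν, al => UF ν al
  | some e, ν, al => UX e ν al

def PlanStmt : Prop := ∀ (K : List (List ℕ)), (∀ ν ∈ K, Full ν) → ∀ (p : Plan) (m : Option ℕ)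
  (ν al : List ℕ), ν.Pairwise (· ≥ ·) → runP K p m ν = some al → UJ m ν al

/-! ### Certificates for a single third shape -/

/-- Dominance test: `lam` (rows) against the labels `al`. -/
def domB (lam al : List ℕ) : Bool :=
  lam.sum == al.sum && (List.range (al.foldr max 0)).all fun k =>
    ((lam.map fun x => min x k).sum).ble (al.map fun x => min x k).sum

/-- Entrywise sum of lists. -/
def addL : List ℕ → List ℕ → List ℕ
  | [], l => l
  | l, [] => l
  | a :: l, b :: l' => (a + b) :: addL l l'

/-- Insertion into a decreasing list; zeros are dropped. -/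
def insD (x : ℕ) : List ℕ → List ℕ
  | [] => if x == 0 then [] else [x]
  | y :: l => if x.ble y then y :: insD x l else x :: y :: l

/-- Normal form: the nonzero entries in decreasing order. -/
def nf (l : List ℕ) : List ℕ := l.foldr insD []

/-- Every entry twice. -/
def dup : List ℕ → List ℕ
  | [] => []
  | h :: l => h :: h :: dup l

/-- Disjoint supports. -/
def disjB : List ℕ → List ℕ → Bool
  | a :: l, b :: l' => (a == 0 || b == 0) && disjB l l'
  | _, _ => true

/-- Certificates; `β` are the columns of the piece, `κ` those left for the inner shape. -/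
inductive Cert
  | plan (p : Plan)
  | t (k : ℕ) (β κ : List ℕ) (c : Cert)
  | z (β κ : List ℕ) (c : Cert)
  | pp (β1 β2 κ : List ℕ) (c : Cert)
  | d (hs κ : List ℕ) (c : Cert)
  | free (c : Cert)
  | s1 (β κ : List ℕ) (c : Cert)
  | cj (c : Cert)
  | tw (c : Cert)
  | vs (ν1 ν2 C1 C2 : List ℕ) (c1 c2 : Cert)
  | hook

/-- Check a certificate for the sorted shape `ν` in mode `m` and the third shape with columns
`C`. -/
def chkC (K : List (List ℕ)) : Cert → Option ℕ → List ℕ → List ℕ → Bool
  | .plan p, m, ν, C =>
      match runP K p m ν with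
      | some al => domB (conjL C) al
      | none => false
  | .t k β κ c, m, ν, C =>
      let b := ν.headD 0
      okM m b && (1 : ℕ).ble b && ν.take k == List.replicate k b && β.all (·.ble 1) &&
        β.sum == k * b && nf (addL β κ) == nf C && chkC K c (some (b - 1)) (ν.drop k) κ
  | .z β κ c, m, ν, C =>
      match ν with
      | b :: b' :: ν' => okM m b && (2 : ℕ).ble b && b' + 1 == b && β.all (·.ble 4) &&
          β.sum + 1 == 2 * b && nf (addL β κ) == nf C && chkC K c (some (b - 2)) ν' κ
      | _ => false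
  | .pp β1 β2 κ c, m, ν, C =>
      match ν with
      | b :: b' :: ν' => okM m b && (3 : ℕ).ble b && b' + 2 == b && β1.all (·.ble 4) &&
          β2.all (·.ble 4) && β1.sum == 2 * ((b - 2) / 2) + 1 && β2.sum == 2 * ((b - 1) / 2) + 1 &&
          disjB β1 β2 && nf (addL (addL β1 β2) κ) == nf C && chkC K c (some (b - 3)) ν' κ
      | _ => false
  | .d hs κ c, m, ν, C =>
      match ν with
      | b :: b' :: ν' => okM m b && (1 : ℕ).ble b && b' == b && hs.all (·.ble 4) && hs.sum == b &&
          nf (addL (dup hs) κ) == nf C && chkC K c (some (b - 1)) ν' κ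
      | _ => false
  | .free c, m, ν, C => okF m ν && chkC K c none ν C
  | .s1 β κ c, m, ν, C =>
      match ν with
      | a :: ν' => m.isNone && s1B a ν' && β.all (·.ble 1) && β.sum == a &&
          nf (addL β κ) == nf C && chkC K c none ν' κ
      | _ => false
  | .cj c, m, ν, C => m.isNone && chkC K c none (conjL ν) C
  | .tw c, m, ν, C => m.isNone && conjL ν == ν && chkC K c none ν (conjL C)
  | .vs ν1 ν2 C1 C2 c1 c2, m, ν, C => m.isNone && nf (ν1 ++ ν2) == nf ν &&
      nf (C1 ++ C2) == nf C && chkC K c1 none (nf ν1) C1 && chkC K c2 none (nf ν2) C2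
  | .hook, m, ν, C => m.isNone && ν == [4, 1, 1] && nf C == [3, 3]

/-- The judgement of a mode. -/
def JJ : Option ℕ → List ℕ → (ℕ → ℕ) → Prop
  | none, ν, c => FJ ν c
  | some e, ν, c => XJ e ν c

def CertStmt : Prop := ∀ (K : List (List ℕ)), (∀ ν ∈ K, Full ν) → ∀ (c : Cert) (m : Option ℕ)
  (ν C : List ℕ), ν.Pairwise (· ≥ ·) → chkC K c m ν C = true → JJ m ν (vec C)

/-! ### Branch and bound -/

/-- `[A 0, A 1, …]` with `A k = ∑ min (al i) k`, for `k` below the largest label. -/
def capL (al : List ℕ) : List ℕ :=
  (List.range (al.foldr max 0)).map fun k => (al.map fun x => min x k).sum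

/-- `f k ≤ A k` for all entries of the list `A`, starting at index `k`. -/
def allLe (f : ℕ → ℕ) : ℕ → List ℕ → Bool
  | _, [] => true
  | k, x :: A => (f k).ble x && allLe f (k + 1) A

/-- A node: the rows `p` (reversed) are known, `cnt` more rows `≥ 2` of total `rem` follow, then
`t` rows `1`. Some list of capacities works, directly or after the twist. -/
def nodeB (As : List (List ℕ)) (n t : ℕ) (p : List ℕ) (cnt rem : ℕ) : Bool :=
  As.any fun A =>
    allLe (fun k => (p.map fun x => min x k).sum + min rem (cnt * k) + min 1 k * t) 0 A ||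
    allLe (fun k => n - (p.length + cnt + t - k) - (p.length + cnt - k)) 1 A.tail

/-- Branch on the next row. -/
def bbRec (node : List ℕ → ℕ → ℕ → Bool) (leaf : List ℕ → Bool) : ℕ → List ℕ → ℕ → Bool
  | 0, p, rem => rem != 0 || node p 0 0 || leaf p
  | cnt + 1, p, rem => node p (cnt + 1) rem ||
      (List.range (p.headD 0 + 1)).all fun v =>
        !((2 : ℕ).ble v && rem.ble (v * (cnt + 1)) && (v + 2 * cnt).ble rem) ||
          bbRec node leaf cnt (v :: p) (rem - v)

/-- Look a shape (rows) up in the table of certificates. -/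
def leafB (K : List (List ℕ)) (μ : List ℕ) (certs : List (List ℕ × Cert)) (lam : List ℕ) : Bool :=
  match certs.lookup lam with
  | some c => chkC K c none μ (conjL lam)
  | none => false

/-- The whole check for the shape `μ`; first rows `≥ L0` are covered at once. -/
def bbChk (K : List (List ℕ)) (μ : List ℕ) (plans : List Plan) (certs : List (List ℕ × Cert))
    (L0 : ℕ) : Bool :=
  let n := μ.sum
  let As := (plans.filterMap fun p => runP K p none μ).map capL
  conjL μ == μ && (2 : ℕ).ble n && As.any (fun A => allLe (fun k => n - (L0 - k)) 1 A.tail) &&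
    (List.range L0).all fun L => (List.range L).all fun cnt => (List.range (L - cnt)).all fun t =>
      !((2 : ℕ).ble L && (L + t + 2 * cnt).ble n && n.ble (L + t + L * cnt)) ||
        bbRec (nodeB As n t) (fun p => leafB K μ certs (p.reverse ++ List.replicate t 1)) cnt [L]
          (n - L - t)

def BBStmt : Prop := ∀ (K : List (List ℕ)), (∀ ν ∈ K, Full ν) → ∀ (μ : List ℕ) (plans : List Plan)
  (certs : List (List ℕ × Cert)) (L0 : ℕ), bbChk K μ plans certs L0 = true → Full μ

/-! ### Small lemmas -/

lemma UF.sum_eq {ν al : List ℕ} (h : UF ν al) : al.sum = ν.sum := by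
  obtain ⟨hi, hb⟩ := h _ (lab_colv al)
  obtain ⟨n, h1, -, h2⟩ := hb.sz
  rw [(sz_colv al).unique h2, (sz_colv ν).unique h1]

lemma UX.sum_eq {e : ℕ} {ν al : List ℕ} (h : UX e ν al) : al.sum = ν.sum :=
  UF.sum_eq fun c hc => ⟨e, h c hc⟩

lemma sum_min_add_exc (l : List ℕ) (k : ℕ) : (l.map fun x => min x k).sum + exc l k = l.sum := by
  induction l with
  | nil => rfl
  | cons a l ih => simp only [exc, List.map_cons, List.sum_cons] at ih ⊢; omega

lemma exc_cons (a : ℕ) (l : List ℕ) (k : ℕ) : exc (a :: l) k = (a - k) + exc l k := rfl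

lemma exc_append (l l' : List ℕ) (k : ℕ) : exc (l ++ l') k = exc l k + exc l' k := by
  simp [exc]

lemma exc_perm {l l' : List ℕ} (h : l.Perm l') (k : ℕ) : exc l k = exc l' k :=
  (h.map _).sum_eq

lemma conjL_sorted (l : List ℕ) : (conjL l).Pairwise (· ≥ ·) := by
  rw [conjL, List.pairwise_map]
  exact List.pairwise_lt_range.imp fun h => colv_anti l h.le

lemma FJ.of_conjL_conjL {ν : List ℕ} {c : ℕ → ℕ} (h : FJ (conjL (conjL ν)) c) : FJ ν c := by
  unfold FJ at h ⊢
  rwa [colv_conjL_conjL] at h

end Crest.Agent.R195
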