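import Crest.Agent.R195.Basic

/-! Row 195: Gale–Ryser and the two splitting lemmas. -/

set_option autoImplicit false

namespace Crest.Agent.R195

open Finset

namespace GR

/-- The support of a finitely supported vector as a finset. -/
lemma exists_supp {m : ℕ} {c : ℕ → ℕ} (h : Sz m c) :
    ∃ T : Finset ℕ, (∀ j, j ∈ T ↔ c j ≠ 0) ∧ ∑ j ∈ T, c j = m := by
  obtain ⟨N, hN, rfl⟩ := h
  refine ⟨(range N).filter fun j => c j ≠ 0, fun j => ?_, ?_⟩
  · simp only [mem_filter, mem_range, and_iff_right_iff_imp]
    intro hj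
    by_contra hlt
    exact hj (hN j (not_lt.1 hlt))
  · exact sum_filter_ne_zero _

lemma concave (l : List ℕ) (s : ℕ) :
    (l.map fun x => min x s).sum + (l.map fun x => min x (s + 2)).sum ≤
      2 * (l.map fun x => min x (s + 1)).sum := by
  induction l with
  | nil => simp
  | cons a l ih =>
    simp only [List.map_cons, List.sum_cons]
    omega

lemma min_sum_le (l : List ℕ) (s : ℕ) : (l.map fun x => min x s).sum ≤ l.sum := by
  induction l with
  | nil => simp
  | cons a l ih =>
    simp only [List.map_cons, List.sum_cons]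
    omega

lemma sum_ind (S0 S : Finset ℕ) : ∑ j ∈ S, ind S0 j = (S ∩ S0).card := by
  simp only [ind]
  rw [← card_filter, filter_mem_eq_inter]

/-- Removing one cell from each column of a set of nonzero columns. -/
lemma eq_ind_add {c : ℕ → ℕ} {S : Finset ℕ} (h : ∀ j ∈ S, c j ≠ 0) :
    c = ind S + fun j => c j - ind S j := funext fun j => by
  simp only [Pi.add_apply, ind]
  split_ifs with hj
  · have := h j hj
    omega
  · omega

/-- The `a` largest columns. -/
lemma exists_top {c : ℕ → ℕ} {T : Finset ℕ} (hT : ∀ j, j ∈ T ↔ c j ≠ 0) {a : ℕ}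
    (ha : a ≤ T.card) :
    ∃ S0 : Finset ℕ, S0.card = a ∧ (∀ j ∈ S0, c j ≠ 0) ∧ ∀ j ∈ S0, ∀ k, k ∉ S0 → c k ≤ c j := by
  obtain ⟨S0, hS0, hmax⟩ := exists_max_image (powersetCard a T) (fun S => ∑ j ∈ S, c j)
    (powersetCard_nonempty.2 ha)
  rw [mem_powersetCard] at hS0
  refine ⟨S0, hS0.2, fun j hj => (hT j).1 (hS0.1 hj), fun j hj k hk => ?_⟩
  by_cases hk0 : c k = 0
  · omega
  have hk' : k ∉ S0.erase j := fun h => hk (mem_of_mem_erase h)
  have hpos : 0 < S0.card := card_pos.2 ⟨j, hj⟩
  have := hmax (insert k (S0.erase j)) (mem_powersetCard.2 ⟨?_, ?_⟩)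
  · rw [sum_insert hk', ← add_sum_erase S0 c hj] at this
    omega
  · exact insert_subset ((hT k).2 hk0) ((erase_subset _ _).trans hS0.1)
  · rw [card_insert_of_notMem hk', card_erase_of_mem hj]
    omega

lemma step {l : List ℕ} {c' : ℕ → ℕ} {S0 : Finset ℕ}
    (htop : ∀ j ∈ S0, ∀ k, k ∉ S0 → c' k ≤ c' j + 1)
    (h : ∀ S : Finset ℕ, ∑ j ∈ S, (ind S0 + c') j ≤
      min S0.card S.card + (l.map fun x => min x S.card).sum) :
    ∀ (n : ℕ) (S : Finset ℕ), (S0 \ S).card + (S \ S0).card = n →
      ∑ j ∈ S, c' j ≤ (l.map fun x => min x S.card).sum := by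
  intro n
  induction n using Nat.strong_induction_on with
  | _ n ih =>
    intro S hn
    have hS := h S
    simp only [Pi.add_apply, sum_add_distrib, sum_ind] at hS
    by_cases hA : S0 ⊆ S
    · rw [inter_eq_right.2 hA] at hS
      omega
    by_cases hB : S ⊆ S0
    · rw [inter_eq_left.2 hB] at hS
      omega
    obtain ⟨j, hj0, hjS⟩ := not_subset.1 hA
    obtain ⟨k, hkS, hk0⟩ := not_subset.1 hB
    have e1 : S0 \ insert j S = (S0 \ S).erase j := by
      ext i; simp only [mem_sdiff, mem_insert, mem_erase]; tauto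
    have e2 : insert j S \ S0 = S \ S0 := by
      ext i; simp only [mem_sdiff, mem_insert]
      constructor
      · rintro ⟨rfl | h1, h2⟩
        · exact absurd hj0 h2
        · exact ⟨h1, h2⟩
      · exact fun h => ⟨Or.inr h.1, h.2⟩
    have e3 : S0 \ S.erase k = S0 \ S := by
      ext i; simp only [mem_sdiff, mem_erase]
      constructor
      · rintro ⟨h1, h2⟩
        exact ⟨h1, fun h3 => h2 ⟨fun h4 => hk0 (h4 ▸ h1), h3⟩⟩
      · exact fun h => ⟨h.1, fun h3 => h.2 h3.2⟩
    have e4 : S.erase k \ S0 = (S \ S0).erase k := by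
      ext i; simp only [mem_sdiff, mem_erase]; tauto
    have hjm : j ∈ S0 \ S := mem_sdiff.2 ⟨hj0, hjS⟩
    have hkm : k ∈ S \ S0 := mem_sdiff.2 ⟨hkS, hk0⟩
    have p1 : 0 < (S0 \ S).card := card_pos.2 ⟨j, hjm⟩
    have p2 : 0 < (S \ S0).card := card_pos.2 ⟨k, hkm⟩
    have i1 := ih _ (by rw [e1, e2, card_erase_of_mem hjm]; omega) (insert j S) rfl
    have i2 := ih _ (by rw [e3, e4, card_erase_of_mem hkm]; omega) (S.erase k) rfl
    obtain ⟨s, hs⟩ : ∃ s, S.card = s + 1 := ⟨S.card - 1, by
      have : 0 < S.card := card_pos.2 ⟨k, hkS⟩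
      omega⟩
    rw [sum_insert hjS, card_insert_of_notMem hjS, hs] at i1
    rw [card_erase_of_mem hkS, hs, Nat.add_sub_cancel] at i2
    have i3 := add_sum_erase S c' hkS
    have i4 := concave l s
    have i5 := htop j hj0 k hk0
    rw [hs]
    have e5 : s + 1 + 1 = s + 2 := rfl
    rw [e5] at i1
    omega

/-- Peeling `r` cells off distinct columns of a vector with entries at most four. -/
lemma peel {m r : ℕ} {g : ℕ → ℕ} (hg : Sz (r + m) g) (h4 : ∀ j, g j ≤ 4)
    (hr : 4 * r < r + m + 4) :
    ∃ (S : Finset ℕ) (g' : ℕ → ℕ), S.card = r ∧ Sz m g' ∧ g = ind S + g' := by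
  obtain ⟨T, hT, hsum⟩ := exists_supp hg
  have h1 : ∑ j ∈ T, g j ≤ T.card * 4 := by
    simpa using sum_le_card_nsmul T g 4 fun j _ => h4 j
  obtain ⟨S, hST, hS⟩ := exists_subset_card_eq (s := T) (n := r) (by omega)
  have hc := eq_ind_add (c := g) (S := S) fun j hj => (hT j).1 (hST hj)
  refine ⟨S, _, hS, ?_, hc⟩
  rw [hc] at hg
  exact hg.of_add (hS ▸ sz_ind S)

lemma dsplit_aux : ∀ (b : ℕ) (c : ℕ → ℕ), Sz (2 * b + 1) c → (∀ j, c j ≤ 2) →
    ∃ d w, Paired b d ∧ Lab [1] w ∧ c = d + w := by
  intro b
  induction b using Nat.strong_induction_on with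
  | _ b ih =>
    intro c hc h2
    by_cases hp : ∃ j k, j ≠ k ∧ c j ≠ 0 ∧ c j = c k
    · obtain ⟨j, k, hjk, hj0, hck⟩ := hp
      set c' : ℕ → ℕ := fun i => if i = j ∨ i = k then 0 else c i with hc'
      have hdec : c = (Pi.single j (c j) + Pi.single k (c j)) + c' := funext fun i => by
        simp only [Pi.add_apply, Pi.single_apply, hc']
        by_cases h1 : i = j
        · subst h1; simp [hjk]
        · by_cases h3 : i = k
          · subst h3; simp [h1, hck]
          · simp [h1, h3]
      have hle : c j + c k ≤ 2 * b + 1 := by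
        have := hc.sum_le {j, k}
        rwa [sum_pair hjk] at this
      have hs : Sz (2 * (b - c j) + 1) c' := by
        have e : 2 * b + 1 = (c j + c j) + (2 * (b - c j) + 1) := by omega
        have hc2 := hc
        rw [e] at hc2
        rw [hdec] at hc2
        have := (sz_single j (c j)).add (sz_single k (c j))
        refine Sz.of_add ?_ this
        convert hc2 using 2 <;> rw [← hdec]
      obtain ⟨d, w, hd, hw, hdw⟩ := ih (b - c j) (by omega) c' hs fun i => by
        have := h2 i
        simp only [hc']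
        split_ifs <;> omega
      have hdj : d j = 0 := by
        have := congrFun hdw j
        simp only [hc', Pi.add_apply, true_or, if_true] at this
        omega
      have hdk : d k = 0 := by
        have := congrFun hdw k
        simp only [hc', Pi.add_apply, or_true, if_true] at this
        omega
      have hP := Paired.add (c j) j k (by have := h2 j; omega) hjk hdj hdk hd
      rw [show b - c j + c j = b by omega] at hP
      refine ⟨_, w, hP, hw, ?_⟩
      rw [add_right_comm, ← hdw, add_comm]
      exact hdec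
    · push Not at hp
      obtain ⟨j, hj⟩ : ∃ j, c j = 1 := by
        by_contra hne
        push Not at hne
        obtain ⟨N, -, hN⟩ := hc
        have : 2 ∣ ∑ i ∈ range N, c i := dvd_sum fun i _ => by
          have := h2 i
          have := hne i
          omega
        omega
      by_cases hk : ∃ k, k ≠ j ∧ c k ≠ 0
      · obtain ⟨k, hkj, hk0⟩ := hk
        have hk2 : c k = 2 := by
          have := hp k j hkj hk0
          have := h2 k
          omega
        have hdec : c = (0 + (Pi.single j 1 + Pi.single k 1)) + ind {k} := funext fun i => by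
          simp only [Pi.add_apply, Pi.single_apply, Pi.zero_apply, ind, mem_singleton]
          by_cases h1 : i = j
          · subst h1; simp [hkj.symm, hj]
          · by_cases h3 : i = k
            · subst h3; simp [h1, hk2]
            · simp only [h1, h3, if_false]
              by_contra h0
              have a1 := hp i j h1 h0
              have a2 := hp i k h3 h0
              have := h2 i
              omega
        have hP := Paired.add 1 j k (by omega) hkj.symm rfl rfl Paired.zero
        have hb : b = 0 + 1 := by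
          have h3 := hP.sz.add (sz_ind {k})
          rw [← hdec, card_singleton] at h3
          have := hc.unique h3
          omega
        exact ⟨_, _, hb ▸ hP, lab_single.2 ⟨{k}, card_singleton k, rfl⟩, hdec⟩
      · push Not at hk
        have hdec : c = 0 + ind {j} := funext fun i => by
          simp only [Pi.add_apply, Pi.zero_apply, ind, mem_singleton]
          by_cases h1 : i = j
          · subst h1; simp [hj]
          · simp [h1, hk i h1]
        have hb : b = 0 := by
          have h3 := Sz.zero.add (sz_ind {j})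
          rw [← hdec, card_singleton] at h3
          have := hc.unique h3
          omega
        exact ⟨_, _, hb ▸ Paired.zero, lab_single.2 ⟨{j}, card_singleton j, rfl⟩, hdec⟩

/-- Cutting the columns into two groups. -/
lemma cut {l1 l2 : ℕ} {c : ℕ → ℕ} (hc : Sz (l1 + l2 + 3) c) (h4 : ∀ j, c j ≤ 4) :
    ∃ (t : ℕ) (g1 g2 : ℕ → ℕ), t ≤ 3 ∧ Sz (t + l1) g1 ∧ Sz (3 - t + l2) g2 ∧
      (∀ j, g1 j = 0 ∨ g2 j = 0) ∧ c = g1 + g2 := by
  classical
  have hex : ∃ N, l1 ≤ ∑ j ∈ range N, c j := by
    obtain ⟨N, -, hN⟩ := hc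
    exact ⟨N, by omega⟩
  set N0 := Nat.find hex with hN0
  have h1 : l1 ≤ ∑ j ∈ range N0, c j := Nat.find_spec hex
  have h2 : ∑ j ∈ range N0, c j ≤ l1 + 3 := by
    rcases Nat.eq_zero_or_pos N0 with h0 | h0
    · rw [h0]; simp
    · have := Nat.find_min hex (m := N0 - 1) (by omega)
      have e : N0 = N0 - 1 + 1 := by omega
      rw [e, sum_range_succ]
      have := h4 (N0 - 1)
      omega
  set g1 : ℕ → ℕ := fun j => if j < N0 then c j else 0 with hg1
  set g2 : ℕ → ℕ := fun j => if j < N0 then 0 else c j with hg2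
  have hdec : c = g1 + g2 := funext fun j => by
    simp only [Pi.add_apply, hg1, hg2]
    split_ifs <;> omega
  have hs1 : Sz ((∑ j ∈ range N0, c j - l1) + l1) g1 := by
    refine ⟨N0, fun j hj => if_neg (not_lt.2 hj), ?_⟩
    rw [Nat.sub_add_cancel h1]
    exact sum_congr rfl fun j hj => if_pos (mem_range.1 hj)
  refine ⟨∑ j ∈ range N0, c j - l1, g1, g2, by omega, hs1, ?_, fun j => ?_, hdec⟩
  · refine Sz.of_add ?_ hs1
    rw [← hdec]
    convert hc using 1
    omega
  · simp only [hg1, hg2]
    split_ifs <;> simp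

end GR

open GR

theorem grStmt : GRStmt := by
  intro al
  induction al with
  | nil => exact fun c hc _ => hc.eq_zero
  | cons a l ih =>
    intro c hc h
    simp only [List.map_cons, List.sum_cons] at hc h
    obtain ⟨T, hT, hsum⟩ := exists_supp hc
    have ha : a ≤ T.card := by
      have h1 := h T
      have h2 := min_sum_le l T.card
      omega
    obtain ⟨S0, hS0, hpos, htop⟩ := exists_top hT ha
    have hdec := eq_ind_add hpos
    refine ⟨S0, _, hS0, ih _ ?_ fun S => ?_, hdec⟩
    · rw [hdec] at hc
      exact hc.of_add (hS0 ▸ sz_ind S0)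
    · refine step (S0 := S0) (fun j hj k hk => ?_) (fun S => ?_) _ S rfl
      · have := htop j hj k hk
        have := hpos j hj
        simp only [ind, if_pos hj, if_neg hk]
        omega
      · rw [← hdec, hS0]
        exact h S

theorem dSplitStmt : DSplitStmt := by
  intro b x y c hxy hc
  refine dsplit_aux b c ?_ fun j => by simpa using hc.le_length j
  have := hc.sz
  simp only [List.sum_cons, List.sum_nil, add_zero] at this
  rwa [← hxy]

theorem pSplitStmt : PSplitStmt := by
  intro l1 l2 c dl hc h4 hdl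
  obtain ⟨t, g1, g2, ht, hs1, hs2, hdisj, rfl⟩ := cut hc h4
  have h41 : ∀ j, g1 j ≤ 4 := fun j => by have := h4 j; simp only [Pi.add_apply] at this; omega
  have h42 : ∀ j, g2 j ≤ 4 := fun j => by have := h4 j; simp only [Pi.add_apply] at this; omega
  have lab21 : ∀ S S' : Finset ℕ, S.card = 2 → S'.card = 1 → Lab [2, 1] (ind S + ind S') :=
    fun S S' h h' => ⟨S, ind S', h, lab_single.2 ⟨S', h', rfl⟩, rfl⟩
  rcases hdl with ⟨rfl, hl1, hl2⟩ | ⟨rfl, hl1, hl2⟩
  · obtain ⟨S1, p1, hS1, hp1, rfl⟩ := peel hs1 h41 (by omega)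
    obtain ⟨S2, p2, hS2, hp2, rfl⟩ := peel hs2 h42 (by omega)
    refine ⟨p1, p2, ind S1 + ind S2, hp1, hp2, fun j => ?_, ?_, by abel⟩
    · have := hdisj j
      simp only [Pi.add_apply] at this
      omega
    · refine lab_single.2 (Sz.exists_ind ?_ fun j => ?_)
      · have := (sz_ind S1).add (sz_ind S2)
        rwa [hS1, hS2, show t + (3 - t) = 3 by omega] at this
      · have := hdisj j
        have := ind_le_one S1 j
        have := ind_le_one S2 j
        simp only [Pi.add_apply] at *
        omega
  · have ht' : t = 0 ∨ t = 1 ∨ t = 2 ∨ t = 3 := by omega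
    rcases ht' with rfl | rfl | rfl | rfl
    · rw [show 3 - 0 + l2 = 2 + (1 + l2) by omega] at hs2
      obtain ⟨S, q, hS, hq, rfl⟩ := peel hs2 h42 (by omega)
      obtain ⟨S', p2, hS', hp2, rfl⟩ := peel hq
        (fun j => by have := h42 j; simp only [Pi.add_apply] at this; omega) (by omega)
      refine ⟨g1, p2, _, by simpa using hs1, hp2, fun j => ?_, lab21 S S' hS hS', by abel⟩
      have := hdisj j
      simp only [Pi.add_apply] at this
      omega
    · obtain ⟨S', p1, hS', hp1, rfl⟩ := peel hs1 h41 (by omega)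
      obtain ⟨S, p2, hS, hp2, rfl⟩ := peel hs2 h42 (by omega)
      refine ⟨p1, p2, _, hp1, hp2, fun j => ?_, lab21 S S' hS hS', by abel⟩
      have := hdisj j
      simp only [Pi.add_apply] at this
      omega
    · obtain ⟨S, p1, hS, hp1, rfl⟩ := peel hs1 h41 (by omega)
      obtain ⟨S', p2, hS', hp2, rfl⟩ := peel hs2 h42 (by omega)
      refine ⟨p1, p2, _, hp1, hp2, fun j => ?_, lab21 S S' hS hS', by abel⟩
      have := hdisj j
      simp only [Pi.add_apply] at this
      omega
    · rw [show 3 + l1 = 2 + (1 + l1) by omega] at hs1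
      obtain ⟨S, q, hS, hq, rfl⟩ := peel hs1 h41 (by omega)
      obtain ⟨S', p1, hS', hp1, rfl⟩ := peel hq
        (fun j => by have := h41 j; simp only [Pi.add_apply] at this; omega) (by omega)
      refine ⟨p1, g2, _, hp1, by simpa using hs2, fun j => ?_, lab21 S S' hS hS', by abel⟩
      have := hdisj j
      simp only [Pi.add_apply] at this
      omega

end Crest.Agent.R195
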