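import Crest.Agent.R195.Defs2

/-! Row 195: the greedy plan for the members of the family, decoding of certificates. -/

set_option autoImplicit false

namespace Crest.Agent.R195

/-- Four balanced labels. -/
def bal4 (m : ℕ) : List ℕ := [(m + 3) / 4, (m + 2) / 4, (m + 1) / 4, m / 4]

/-- The greedy plan. -/
def greedy (a : ℕ) : ℕ → List ℕ → Plan
  | 0, _ => .nil
  | _ + 1, [] => .nil
  | f + 1, b :: ν =>
    if b.ble 5 && ν == [2, 1] && b == 3 then .z [3, 1, 1] (.t 1 .nil)
    else if b.ble 5 && ν == [2, 1, 1] && b == 3 then .z [3, 1, 1] (.t 2 .nil)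
    else if b.ble 5 && ν == [3, 2, 2, 1] && b == 4 then .z [3, 1, 1, 2] (.d 3 2 (.t 1 .nil))
    else if b.ble 5 && ν == [4, 3, 3, 2, 1] && b == 5 then
      .z [3, 1, 1, 4] (.d 4 3 (.z [1, 1, 1] .nil))
    else if b == 4 && ν == [3, 2, 1] then .t 1 (greedy a f ν)
    else if b == 5 && ν == [4, 3, 2, 2, 1] then .t 1 (greedy a f ν)
    else if b == 4 && ν == [3, 2, 1, 1] then .t 1 (greedy a f ν)
    else if b == 6 && ν == [5, 4, 3, 3, 2, 1] then .t 1 (greedy a f ν)
    else
      let c := ν.headD 0
      let c' := ν.tail.headD 0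
      if c == b then .d (b + 1) b (greedy a f ν.tail)
      else if c + 1 == b && c' != c then .z (bal4 (2 * b - 1)) (greedy a f ν.tail)
      else if c + 2 == b && c' != c && (a + 7).ble (2 * b) && (10 : ℕ).ble b then
        .pp false (bal4 (2 * b + 1)) (greedy a f ν.tail)
      else .t 1 (greedy a f ν)

/-- The check for one member of the family. -/
def l2B (d z i : ℕ) : Bool :=
  let μ := famE d z i
  let a := μ.headD 0
  match runP [] (greedy a a μ) none μ with
  | some al => critB a μ.sum al
  | none => false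

/-- The check for all members with `d` hooks. -/
def l2D (d : ℕ) : Bool :=
  (List.range 5).all fun z => (List.range d).all fun i => !decide (InR d z i) || l2B d z i

/-! ### Decoding of certificates (no correctness is needed) -/

/-- Digits in base 64 below the leading digit `1`. -/
def digs : ℕ → ℕ → List ℕ
  | 0, _ => []
  | f + 1, x => if x.ble 1 then [] else (x % 64) :: digs f (x / 64)

/-- Read a plan. -/
def rdP : ℕ → List ℕ → Plan
  | f + 1, 1 :: _ => .full
  | f + 1, 2 :: k :: l => .t k (rdP f l)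
  | f + 1, 3 :: n :: l => .z (l.take n) (rdP f (l.drop n))
  | f + 1, 4 :: b :: n :: l => .pp (b == 1) (l.take n) (rdP f (l.drop n))
  | f + 1, 5 :: x :: y :: l => .d x y (rdP f l)
  | f + 1, 6 :: l => .free (rdP f l)
  | f + 1, 7 :: l => .s1 (rdP f l)
  | f + 1, 8 :: l => .cj (rdP f l)
  | _, _ => .nil

/-- Read a certificate. -/
def rdC : ℕ → List ℕ → Cert
  | _ + 1, 0 :: l => .plan (rdP 64 l)
  | f + 1, 1 :: k :: n :: l => .t k (l.take n) ((l.drop n).take n) (rdC f (l.drop (2 * n)))
  | f + 1, 2 :: n :: l => .z (l.take n) ((l.drop n).take n) (rdC f (l.drop (2 * n)))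
  | f + 1, 3 :: n :: l => .pp (l.take n) ((l.drop n).take n) ((l.drop (2 * n)).take n)
      (rdC f (l.drop (3 * n)))
  | f + 1, 4 :: m :: n :: l => .d (l.take m) ((l.drop m).take n) (rdC f (l.drop (m + n)))
  | f + 1, 5 :: l => .free (rdC f l)
  | f + 1, 6 :: n :: l => .s1 (l.take n) ((l.drop n).take n) (rdC f (l.drop (2 * n)))
  | f + 1, 7 :: l => .cj (rdC f l)
  | f + 1, 8 :: l => .tw (rdC f l)
  | f + 1, 9 :: a :: b :: c :: d :: e :: e' :: l => .vs (l.take a) ((l.drop a).take b)
      ((l.drop (a + b)).take c) ((l.drop (a + b + c)).take d) (rdC f (l.drop (a + b + c + d)))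
      (rdC f (l.drop (a + b + c + d + (64 * e + e'))))
  | _, _ => .hook

/-- Search trees of encoded certificates. -/
inductive Tr
  | l
  | n (a : Tr) (k v : ℕ) (b : Tr)

/-- Search. -/
def Tr.get : Tr → ℕ → ℕ
  | .l, _ => 0
  | .n a k v b, x => if x.ble k then (if k.ble x then v else a.get x) else b.get x

/-- The certificate of a shape. -/
def Tr.find (T : Tr) (lam : List ℕ) : Cert :=
  rdC 64 (digs 4000 (T.get (lam.foldl (fun h x => 32 * h + x) 0)))

/-- A plan from its code. -/
def planOf (x : ℕ) : Plan := rdP 64 (digs 4000 x)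

end Crest.Agent.R195
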