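import Crest.Agent.R195.Basic

/-!
Row 195: the zigzag path sees every shape with at most four rows (Clifford transfer matrices).
-/

set_option autoImplicit false
set_option linter.unusedSectionVars false

namespace Crest.Agent.R195

open Equiv Finset

namespace Zig

/-! ### Pairing of a function with a vector -/

section pr
variable {A B C : Type*}

/-- The pairing of a function with a finitely supported vector. -/
noncomputable def pr (f : A → ℂ) : (A →₀ ℂ) →ₗ[ℂ] ℂ := Finsupp.linearCombination ℂ f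

lemma pr_single (f : A → ℂ) (a : A) (z : ℂ) : pr f (Finsupp.single a z) = z * f a := by
  simp [pr]

lemma pr_lin (f g : A → ℂ) (p q : ℂ) (x : A →₀ ℂ) :
    pr (fun a => p * f a - q * g a) x = p * pr f x - q * pr g x := by
  induction x using Finsupp.induction_linear with
  | zero => simp
  | add x y hx hy => simp only [map_add, hx, hy]; ring
  | single a z => simp only [pr_single]; ring

lemma pr_mul (f : A → ℂ) (p : ℂ) (x : A →₀ ℂ) : pr (fun a => p * f a) x = p * pr f x := by
  simpa using pr_lin f f p 0 x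

lemma pr_add (f g : A → ℂ) (x : A →₀ ℂ) : pr (fun a => f a + g a) x = pr f x + pr g x := by
  simpa using pr_lin f g 1 (-1) x

lemma pr_zero (x : A →₀ ℂ) : pr (fun _ => 0) x = 0 := by
  simpa using pr_mul (fun _ => 0) 0 x

lemma pr_comm (h : A → B → ℂ) (x : A →₀ ℂ) (y : B →₀ ℂ) :
    pr (fun a => pr (fun b => h a b) y) x = pr (fun b => pr (fun a => h a b) x) y := by
  induction x using Finsupp.induction_linear with
  | zero => simp [pr_zero]
  | add x x' hx hx' => simp only [map_add, hx, hx', pr_add]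
  | single a z => simp only [pr_single, pr_mul]

lemma pr_fmul (g : A → B → C) (f : C → ℂ) (x : A →₀ ℂ) (y : B →₀ ℂ) :
    pr f (fmul g x y) = pr (fun a => pr (fun b => f (g a b)) y) x := by
  refine bilin_ind (p := fun x y => pr f (fmul g x y) = pr (fun a => pr (fun b => f (g a b)) y) x)
    (by simp) (by simp [pr_zero]) (fun x x' y h h' => by simp [h, h'])
    (fun x y y' h h' => by simp [h, h', pr_add]) (fun a b y z => ?_) x y
  simp only [fmul_single, pr_single, mul_assoc]

end pr

variable {α β γ : Type*} [Fintype α] [DecidableEq α] [Fintype β] [DecidableEq β] [Fintype γ]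
  [DecidableEq γ] {κ κ' κ'' L : Type*}

lemma pr_wcomp (e : β ≃ α) (f : (β → L) → ℂ) (x : (α → L) →₀ ℂ) :
    pr f (wcomp e x) = pr (fun w => f (w ∘ e)) x := by
  induction x using Finsupp.induction_linear with
  | zero => simp
  | add x y hx hy => simp only [map_add, hx, hy]
  | single a z => simp only [wcomp_single, pr_single]

lemma eval_toPoly (X : L → ℂ) (x : (α → L) →₀ ℂ) :
    MvPolynomial.eval X (toPoly x) = pr (fun w => ∏ a, X (w a)) x := by
  induction x using Finsupp.induction_linear with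
  | zero => simp
  | add x y hx hy => simp only [map_add, hx, hy]
  | single a z => simp [toPoly_single, pr_single]

lemma pr_poly (f : (α → ℕ) → ℂ) (r : α → ℕ) (c : α → κ) :
    pr f (poly r c) = ∑ g ∈ stab c, sg g * f (r ∘ g) := by
  simp only [poly_eq', map_sum, map_smul, pr_single, one_mul, smul_eq_mul]

lemma pr_split (e : α ≃ β ⊕ γ) (f : (α → ℕ) → ℂ) {r : α → ℕ} {c : α → κ} (r' : β → ℕ)
    (c' : β → κ') (r'' : γ → ℕ) (c'' : γ → κ'') (hr : r = Sum.elim r' r'' ∘ e)
    (hc : ∀ x y, c x = c y ↔ Sum.map c' c'' (e x) = Sum.map c' c'' (e y)) :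
    pr f (poly r c) =
      pr (fun a => pr (fun b => f (Sum.elim a b ∘ e)) (poly r'' c'')) (poly r' c') := by
  rw [poly_congr r (c' := Sum.map c' c'' ∘ e) hc, hr, poly_comp, pr_wcomp, poly_sum, wsum, pr_fmul]

/-! ### Peeling columns -/

/-- Splitting off the first letter. -/
def e1 (n : ℕ) : Fin (n + 1) ≃ Unit ⊕ Fin n where
  toFun := Fin.cons (Sum.inl ()) Sum.inr
  invFun := Sum.elim (fun _ => 0) Fin.succ
  left_inv x := by refine Fin.cases rfl (fun _ => rfl) x
  right_inv x := by rcases x with _ | _ <;> rfl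

/-- Splitting off the first two letters. -/
def e2 (n : ℕ) : Fin (n + 2) ≃ Bool ⊕ Fin n where
  toFun := Fin.cons (Sum.inl false) (Fin.cons (Sum.inl true) Sum.inr)
  invFun := Sum.elim (fun b => if b then (0 : Fin (n + 1)).succ else 0) fun j => j.succ.succ
  left_inv x := by refine Fin.cases rfl (fun y => Fin.cases rfl (fun _ => rfl) y) x
  right_inv x := by rcases x with (_ | _) | _ <;> rfl

/-- The polytabloid with columns `{0, 1}, {2, 3}, …`. -/
noncomputable def P (n : ℕ) : (Fin n → ℕ) →₀ ℂ := poly (fun x => x.1 % 2) fun x => x.1 / 2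

lemma pr_unique [Subsingleton α] (f : (α → ℕ) → ℂ) (r : α → ℕ) (c : α → κ) :
    pr f (poly r c) = f r := by
  have : stab c = {1} := by
    ext g
    simp only [mem_singleton, Subsingleton.elim g 1, one_mem_stab]
  rw [pr_poly, this, sum_singleton, sg_one, one_mul]
  rfl

lemma pr_bool (f : (Bool → ℕ) → ℂ) :
    pr f (poly (fun b => if b then 1 else 0) fun _ => ()) =
      f (fun b => if b then 1 else 0) - f fun b => if b then 0 else 1 := by
  have h : (univ : Finset (Perm Bool)) = {1, swap false true} := by decide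
  rw [pr_poly, stab_const, h, sum_pair (by decide), sg_one, sg_swap (by decide), one_mul,
    neg_one_mul, sub_eq_add_neg]
  congr 3
  funext b
  cases b <;> rfl

lemma pr_P_succ (n : ℕ) (f : (Fin (n + 2) → ℕ) → ℂ) :
    pr f (P (n + 2)) = pr (fun b => f (Fin.cons 0 (Fin.cons 1 b))) (P n) -
      pr (fun b => f (Fin.cons 1 (Fin.cons 0 b))) (P n) := by
  rw [P, pr_split (e2 n) f (fun b => if b then 1 else 0) (fun _ => ()) (fun x => x.1 % 2)
    (fun x => x.1 / 2), pr_bool]
  · congr 3
    · funext b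
      congr 1
      funext x
      exact Fin.cases rfl (fun y => Fin.cases rfl (fun _ => rfl) y) x
    · funext b
      congr 1
      funext x
      exact Fin.cases rfl (fun y => Fin.cases rfl (fun _ => rfl) y) x
  · funext x
    refine Fin.cases rfl (fun y => Fin.cases rfl (fun j => ?_) y) x
    show (j.1 + 1 + 1) % 2 = j.1 % 2
    omega
  · intro x y
    refine Fin.cases ?_ (fun x => Fin.cases ?_ (fun i => ?_) x) x <;>
      refine Fin.cases ?_ (fun y => Fin.cases ?_ (fun j => ?_) y) y <;>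
      simp [e2] <;> omega

lemma pr_first (n : ℕ) (f : (Fin (n + 1) → ℕ) → ℂ) :
    pr f (poly (fun x => (x.1 - 1) % 2) fun x => (x.1 + 1) / 2) =
      pr (fun a => f (Fin.cons 0 a)) (P n) := by
  rw [pr_split (e1 n) f (fun _ => 0) (fun _ => ()) (fun x => x.1 % 2) (fun x => x.1 / 2),
    pr_unique]
  · congr 2
    funext b
    congr 1
    funext x
    exact Fin.cases rfl (fun _ => rfl) x
  · funext x
    exact Fin.cases rfl (fun _ => rfl) x
  · intro x y
    refine Fin.cases ?_ (fun i => ?_) x <;> refine Fin.cases ?_ (fun j => ?_) y <;>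
      simp [e1] <;> omega

/-! ### The transfer recursion -/

/-- The path functional with prescribed first index. -/
noncomputable def T (n : ℕ) (A : Fin (n + 1) → ℕ → ℕ → ℂ) (u : ℕ) : ℂ :=
  pr (fun a => pr (fun b => ∏ x, A x ((Fin.cons u a : Fin (n + 1) → ℕ) x) (b x)) (P (n + 1))) (P n)

lemma T_zero (A : Fin 1 → ℕ → ℕ → ℂ) (u : ℕ) : T 0 A u = A 0 u 0 := by
  haveI : Subsingleton (Fin (0 + 1)) := Fin.subsingleton_one
  simp only [T, P, pr_unique]
  simp

lemma T_succ (n : ℕ) (A : Fin (n + 2) → ℕ → ℕ → ℂ) (u : ℕ) :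
    T (n + 1) A u = A 0 u 0 * T n (fun x p q => A x.succ q p) 1 -
      A 0 u 1 * T n (fun x p q => A x.succ q p) 0 := by
  simp only [T]
  rw [pr_comm _ (P n), pr_comm _ (P n), ← pr_lin]
  congr 2
  funext a
  rw [pr_P_succ, ← pr_mul, ← pr_mul]
  congr 3 <;> funext b <;> rw [Fin.prod_univ_succ] <;> rfl

/-! ### Clifford matrices -/

/-- An orthogonal basis of `(M₂, det)` with nonzero corner entries. -/
def M : ℕ → ℕ → ℕ → ℤ
  | 0, 0, 0 => 1
  | 0, 1, 1 => 1
  | 1, 0, 0 => 1
  | 1, 0, 1 => 1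
  | 1, 1, 1 => -1
  | 2, 0, 0 => 1
  | 2, 1, 0 => -2
  | 2, 1, 1 => -1
  | 3, 0, 0 => 1
  | 3, 0, 1 => 1
  | 3, 1, 0 => -2
  | 3, 1, 1 => -1
  | _, _, _ => 0

/-- `M` or its transpose. -/
def N (p : Bool) (i u v : ℕ) : ℤ := if p then M i u v else M i v u

lemma N_not (p : Bool) (i u v : ℕ) : N (!p) i u v = N p i v u := by cases p <;> rfl

/-- The transfer vector of a word. -/
def V : Bool → List ℕ → ℕ → ℤ
  | _, [], u => if u = 1 then 1 else 0
  | p, i :: l, u => N p i u 0 * V (!p) l 1 - N p i u 1 * V (!p) l 0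

lemma T_eq (n : ℕ) : ∀ (p : Bool) (w : Fin (n + 1) → ℕ) (u : ℕ),
    T n (fun x a b => (N p (w x) a b : ℂ)) u = V p (List.ofFn w) u := by
  induction n with
  | zero =>
    intro p w u
    rw [T_zero]
    simp [V]
  | succ n ih =>
    intro p w u
    rw [T_succ, List.ofFn_succ, V]
    simp only [← N_not p (w (Fin.succ _)), ih]
    push_cast
    rfl

/-- Comparison sign. -/
def e (a b : ℕ) : ℤ := if a ≤ b then 1 else -1

/-- The inversion sign of a word. -/
def sgn : List ℕ → ℤ
  | [] => 1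
  | a :: l => (l.map (e a)).prod * sgn l

lemma e_ne (a b : ℕ) : e a b ≠ 0 := by unfold e; split_ifs <;> decide

lemma sgn_ne : ∀ l : List ℕ, sgn l ≠ 0
  | [] => one_ne_zero
  | a :: l => mul_ne_zero (List.prod_ne_zero fun h => by
      obtain ⟨b, -, hb⟩ := List.mem_map.1 h
      exact e_ne a b hb) (sgn_ne l)

lemma clifford : ∀ p : Bool, ∀ i < 4, ∀ j < 4, ∀ u < 2, ∀ v < 2,
    e i j * (N p i u 0 * N (!p) j 1 v - N p i u 1 * N (!p) j 0 v) =
      e j i * (N p j u 0 * N (!p) i 1 v - N p j u 1 * N (!p) i 0 v) := by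
  decide

lemma V_perm {l l' : List ℕ} (h : l.Perm l') : (∀ x ∈ l, x < 4) → ∀ p, ∀ u < 2,
    sgn l * V p l u = sgn l' * V p l' u := by
  induction h with
  | nil => intros; rfl
  | @cons a l l' h ih =>
    intro hl p u _
    have h0 := ih (fun x hx => hl x (List.mem_cons_of_mem _ hx)) (!p) 0 (by norm_num)
    have h1 := ih (fun x hx => hl x (List.mem_cons_of_mem _ hx)) (!p) 1 (by norm_num)
    simp only [sgn, V, ← (h.map (e a)).prod_eq]
    linear_combination (List.map (e a) l).prod * (N p a u 0 * h1 - N p a u 1 * h0)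
  | swap a b l =>
    intro hl p u hu
    have ha : a < 4 := hl a (by simp)
    have hb : b < 4 := hl b (by simp)
    have h0 := clifford p b hb a ha u hu 0 (by norm_num)
    have h1 := clifford p b hb a ha u hu 1 (by norm_num)
    simp only [sgn, V, List.map_cons, List.prod_cons, Bool.not_not]
    linear_combination ((List.map (e a) l).prod * (List.map (e b) l).prod * sgn l) *
      (V p l 1 * h0 - V p l 0 * h1)
  | trans h _ ih ih' =>
    intro hl p u hu
    rw [ih hl p u hu, ih' (fun x hx => hl x (h.mem_iff.2 hx)) p u hu]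

/-- The invariant of the transfer vectors. -/
def Good : Bool → ℤ → ℤ → Prop
  | true, y0, y1 => (y0 = 1 ∨ y0 = -1) ∧ (y1 = 0 ∨ y1 = -2 * y0)
  | false, y0, y1 => (y1 = 1 ∨ y1 = -1) ∧ (y0 = 0 ∨ y0 = 2 * y1)

lemma good_V : ∀ (l : List ℕ), (∀ x ∈ l, x < 4) → ∀ p : Bool, (p = true ↔ l.length % 2 = 1) →
    Good p (V p l 0) (V p l 1)
  | [], _, p, hp => by
    cases p
    · simp [Good, V]
    · simp at hp
  | i :: l, hl, p, hp => by
    have hi : i < 4 := hl i (by simp)
    have ih := good_V l (fun x hx => hl x (List.mem_cons_of_mem _ hx)) (!p) (by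
      rw [List.length_cons] at hp
      cases p
      · simp at hp ⊢; omega
      · simp at hp ⊢; omega)
    simp only [V]
    generalize V (!p) l 0 = y0 at ih ⊢
    generalize V (!p) l 1 = y1 at ih ⊢
    cases p <;> interval_cases i <;> simp only [Good, N, M, Bool.not_false, Bool.not_true,
      Bool.false_eq_true, if_true, if_false] at ih ⊢ <;> omega

lemma V_ne {l : List ℕ} (hl : ∀ x ∈ l, x < 4) (h : l.length % 2 = 1) : V true l 0 ≠ 0 := by
  have := (good_V l hl true (by simp [h])).1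
  omega

lemma sgn_ofFn : ∀ (n : ℕ) (w : Fin n → ℕ),
    sgn (List.ofFn w) = ∏ i, ∏ j ∈ Ioi i, e (w i) (w j)
  | 0, _ => by simp [sgn]
  | n + 1, w => by
    rw [List.ofFn_succ, sgn, sgn_ofFn n, Fin.prod_univ_succ, Fin.prod_Ioi_zero, List.map_ofFn,
      List.prod_ofFn]
    simp only [Fin.prod_Ioi_succ, Function.comp]

lemma sgn_comp {n : ℕ} {r c : Fin n → ℕ} (h : Latin r c) (hc : Monotone c) {s : Perm (Fin n)}
    (hs : s ∈ stab c) : sgn (List.ofFn (r ∘ s)) = Perm.sign s * sgn (List.ofFn r) := by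
  let f : Fin n → Fin n → ℤ := fun i j =>
    if i = j then 0 else if c i ≤ c j then e (r i) (r j) else -e (r j) (r i)
  have hf : ∀ i j, f i j = -f j i := by
    intro i j
    simp only [f]
    by_cases hij : i = j
    · simp [hij]
    · rw [if_neg hij, if_neg (Ne.symm hij)]
      rcases lt_trichotomy (c i) (c j) with h1 | h1 | h1
      · rw [if_pos h1.le, if_neg (not_le.2 h1), neg_neg]
      · have h2 : r i ≠ r j := fun h2 => hij (h.inj i j h1 h2)
        rw [if_pos h1.le, if_pos h1.ge]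
        unfold e
        split_ifs <;> first | rfl | omega
      · rw [if_neg (not_le.2 h1), if_pos h1.le]
  have key := s.prod_Ioi_comp_eq_sign_mul_prod hf
  rw [sgn_ofFn, sgn_ofFn]
  have k1 : ∏ i, ∏ j ∈ Ioi i, e ((r ∘ s) i) ((r ∘ s) j) = ∏ i, ∏ j ∈ Ioi i, f (s i) (s j) := by
    refine prod_congr rfl fun i _ => prod_congr rfl fun j hj => ?_
    have hj := mem_Ioi.1 hj
    simp only [f]
    rw [if_neg (s.injective.ne hj.ne), mem_stab.1 hs, mem_stab.1 hs, if_pos (hc hj.le)]
    rfl
  have k2 : ∏ i, ∏ j ∈ Ioi i, e (r i) (r j) = ∏ i, ∏ j ∈ Ioi i, f i j := by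
    refine prod_congr rfl fun i _ => prod_congr rfl fun j hj => ?_
    have hj := mem_Ioi.1 hj
    simp only [f]
    rw [if_neg hj.ne, if_pos (hc hj.le)]
  rw [k1, k2, key]
  rfl

lemma V_comp {n : ℕ} {r c : Fin n → ℕ} (h : Latin r c) (hc : Monotone c) (hr : ∀ x, r x < 4)
    {s : Perm (Fin n)} (hs : s ∈ stab c) :
    sg s * (V true (List.ofFn (r ∘ s)) 0 : ℂ) = V true (List.ofFn r) 0 := by
  have h1 := V_perm (s.ofFn_comp_perm r) (fun x hx => by
    obtain ⟨i, rfl⟩ := List.mem_ofFn.1 hx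
    exact hr _) true 0 (by norm_num)
  rw [sgn_comp h hc hs, mul_comm (Perm.sign s : ℤ), mul_assoc] at h1
  have h2 := mul_left_cancel₀ (sgn_ne _) h1
  rw [← h2, sg]
  push_cast
  rfl

/-- The evaluation of the triple product does not vanish. -/
lemma main (m : ℕ) {r c : Fin (2 * m + 1) → ℕ} (h : Latin r c) (hc : Monotone c)
    (hr : ∀ x, r x < 4) :
    toPoly (wmul (wmul (poly (fun x : Fin (2 * m + 1) => (x.1 - 1) % 2) fun x => (x.1 + 1) / 2)
      (P (2 * m + 1))) (poly r c)) ≠ 0 := by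
  intro h0
  have h1 := congrArg (MvPolynomial.eval fun t : (ℕ × ℕ) × ℕ => (M t.2 t.1.1 t.1.2 : ℂ)) h0
  rw [map_zero, eval_toPoly, wmul, pr_fmul, pr_comm, pr_poly] at h1
  have h2 : ∀ w : Fin (2 * m + 1) → ℕ,
      pr (fun a : Fin (2 * m + 1) → ℕ × ℕ => ∏ x, (M (w x) (a x).1 (a x).2 : ℂ))
        (wmul (poly (fun x : Fin (2 * m + 1) => (x.1 - 1) % 2) fun x => (x.1 + 1) / 2)
          (P (2 * m + 1))) = V true (List.ofFn w) 0 := by
    intro w
    rw [wmul, pr_fmul, pr_first, ← T_eq]
    rfl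
  simp only [h2] at h1
  rw [sum_congr rfl fun s hs => V_comp h hc hr hs, sum_const, nsmul_eq_mul] at h1
  refine mul_ne_zero (card_stab_ne c) (Int.cast_ne_zero.2 (V_ne (fun x hx => ?_) ?_)) h1
  · obtain ⟨i, rfl⟩ := List.mem_ofFn.1 hx
    exact hr _
  · rw [List.length_ofFn]; omega

/-! ### The third tableau -/

lemma cont_eq_rowsOf' {r c : α → ℕ} (h : Latin r c) : cont r = rowsOf (cont c) := by
  funext i
  rw [rowsOf, cont, ← Set.ncard_coe_finset,
    ← Set.InjOn.ncard_image (f := c) (fun a ha b hb hab => h.inj a b hab (by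
      simp only [coe_filter, mem_univ, true_and, Set.mem_ofPred_eq] at ha hb
      rw [ha, hb]))]
  congr 1
  ext j
  simp only [coe_filter, mem_univ, true_and, Set.mem_image, Set.mem_ofPred_eq]
  constructor
  · rintro ⟨a, rfl, rfl⟩
    have : range (r a + 1) ⊆ (univ.filter fun b => c b = c a).image r := by
      intro k hk
      rcases (Nat.lt_succ_iff.1 (mem_range.1 hk)).lt_or_eq with hk | rfl
      · obtain ⟨b, hb, rfl⟩ := h.down a k hk
        exact mem_image_of_mem _ (by simpa using hb)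
      · exact mem_image_of_mem _ (by simp)
    have h2 := (card_le_card this).trans card_image_le
    rw [card_range] at h2
    exact h2
  · intro hj
    obtain ⟨a, ha⟩ := card_pos.1 (show 0 < (univ.filter fun a => c a = j).card from
      (Nat.zero_le i).trans_lt hj)
    have ha : c a = j := by simpa using ha
    subst ha
    obtain ⟨b, hb, hb'⟩ := h.exists_of_lt a (i := i) (by convert hj; simp [cont]; congr)
    exact ⟨b, hb', hb⟩

lemma exists_third {n : ℕ} {b : ℕ → ℕ} (h : Sz n b) :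
    ∃ r c : Fin n → ℕ, Latin r c ∧ Monotone c ∧ cont c = b ∧ ∀ x, r x < b (c x) := by
  obtain ⟨N, hN, hs⟩ := h
  have hc : Fintype.card (Fin n) = Fintype.card (Σ j : Fin N, Fin (b j)) := by
    rw [Fintype.card_sigma, Fintype.card_fin, ← hs, ← Fin.sum_univ_eq_sum_range]; simp
  obtain ⟨E⟩ := Fintype.card_eq.1 hc
  let r0 : (Σ j : Fin N, Fin (b j)) → ℕ := fun x => x.2.1
  let c0 : (Σ j : Fin N, Fin (b j)) → ℕ := fun x => x.1.1
  have hL : Latin r0 c0 := by
    constructor
    · rintro ⟨j, k⟩ ⟨j', k'⟩ h1 h2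
      obtain rfl : j = j' := Fin.ext h1
      obtain rfl : k = k' := Fin.ext h2
      rfl
    · rintro ⟨j, k⟩ i hi
      exact ⟨⟨j, ⟨i, hi.trans k.2⟩⟩, rfl, rfl⟩
  have hcont : cont c0 = b := by
    funext j
    rw [cont, card_filter, Fintype.sum_sigma]
    by_cases hj : j < N
    · rw [sum_eq_single (⟨j, hj⟩ : Fin N)]
      · simp [c0]
      · intro k _ hk
        exact sum_eq_zero fun x _ => if_neg fun h => hk (Fin.ext h)
      · simp
    · rw [hN j (not_lt.1 hj)]
      exact sum_eq_zero fun k _ => sum_eq_zero fun x _ => if_neg fun h : k.1 = j => hj (h ▸ k.2)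
  refine ⟨(r0 ∘ E) ∘ Tuple.sort (c0 ∘ E), (c0 ∘ E) ∘ Tuple.sort (c0 ∘ E), (hL.comp E).comp _,
    Tuple.monotone_sort _, by rw [cont_comp, cont_comp, hcont], fun x => (E _).2.2⟩

lemma sum_half (g : ℕ → ℕ) (m : ℕ) :
    ∑ x ∈ range (2 * m), g (x / 2) = ∑ i ∈ range m, 2 * g i := by
  induction m with
  | zero => simp
  | succ m ih =>
    rw [show 2 * (m + 1) = 2 * m + 1 + 1 by ring, sum_range_succ, sum_range_succ, ih,
      sum_range_succ, show 2 * m / 2 = m by omega, show (2 * m + 1) / 2 = m by omega]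
    ring

lemma cont_fin {n : ℕ} (g : ℕ → ℕ) (j : ℕ) :
    cont (fun x : Fin n => g x.1) j = ∑ x ∈ range n, if g x = j then 1 else 0 := by
  rw [cont, card_filter, Fin.sum_univ_eq_sum_range (fun x => if g x = j then 1 else 0)]

end Zig

open Zig in
theorem pathStmt : PathStmt := by
  intro m lo hi ft fs β hft hfs h1 h2 hβ h4
  obtain ⟨r, c, hL, hc, hcont, hr⟩ := exists_third hβ
  have i1 : ∀ a b : Fin (2 * m + 1),
      ft ((a.1 + 1) / 2) = ft ((b.1 + 1) / 2) ↔ (a.1 + 1) / 2 = (b.1 + 1) / 2 := fun a b =>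
    ⟨hft _ (by omega) _ (by omega), fun h => by rw [h]⟩
  have i2 : ∀ a b : Fin (2 * m + 1), fs (a.1 / 2) = fs (b.1 / 2) ↔ a.1 / 2 = b.1 / 2 := fun a b =>
    ⟨hfs _ (by omega) _ (by omega), fun h => by rw [h]⟩
  refine ⟨⟨hβ.choose, hβ.choose_spec.1⟩, 2 * m + 1, fun x => (x.1 - 1) % 2,
    fun x => ft ((x.1 + 1) / 2), fun x => x.1 % 2, fun x => fs (x.1 / 2), ?_, ?_, ?_, ?_, ?_, ?_⟩
  · constructor
    · intro a b hab h
      rw [i1] at hab
      exact Fin.ext (by omega)
    · intro a i hi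
      refine ⟨⟨a.1 - 1, by omega⟩, ?_, ?_⟩
      · rw [i1]; simp only; omega
      · simp only; omega
  · constructor
    · intro a b hab h
      rw [i2] at hab
      exact Fin.ext (by omega)
    · intro a i hi
      refine ⟨⟨a.1 - 1, by omega⟩, ?_, ?_⟩
      · rw [i2]; simp only; omega
      · simp only; omega
  · funext j
    rw [cont_fin (fun x => ft ((x + 1) / 2)), sum_range_succ', sum_range_succ']
    congr 1
    rw [show (∑ k ∈ range (2 * m), if ft ((k + 1 + 1) / 2) = j then 1 else 0) =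
      ∑ k ∈ range (2 * m), (fun i => if ft (i + 1) = j then 1 else 0) (k / 2) from
      sum_congr rfl fun k _ => by rw [show (k + 1 + 1) / 2 = k / 2 + 1 by omega],
      sum_half (fun i => if ft (i + 1) = j then 1 else 0)]
    refine sum_congr rfl fun i _ => ?_
    simp
  · funext j
    rw [cont_fin (fun x => fs (x / 2)), sum_range_succ, sum_range_succ,
      sum_half (fun i => if fs i = j then 1 else 0), show 2 * m / 2 = m by omega]
    congr 1
    · refine sum_congr rfl fun i hi => ?_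
      simp [(mem_range.1 hi).ne]
    · simp
  · intro a
    have ha := a.2
    simp only
    rcases Nat.mod_two_eq_zero_or_one a.1 with h | h
    · have := h1 (a.1 / 2) (by omega)
      rwa [show (a.1 + 1) / 2 = a.1 / 2 by omega]
    · have := h2 (a.1 / 2) (by omega)
      rwa [show (a.1 + 1) / 2 = a.1 / 2 + 1 by omega]
  · rw [poly2_congr _ _ i1 i2, pairRep, sees_iff_toPoly]
    exact ⟨r, c, hL, by rw [cont_eq_rowsOf' hL, hcont],
      main m hL hc fun x => (hr x).trans_le (h4 _)⟩

end Crest.Agent.R195
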