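import Crest.Agent.R195.Basic
import Crest.Agent.R195.Path

/-!
Row 195: horizontal sums, equal rows, and two equal rows of length `b`.
-/

set_option autoImplicit false
set_option linter.unusedSectionVars false

namespace Crest.Agent.R195

open Equiv Finset

namespace HTD

variable {α β : Type*} [Fintype α] [DecidableEq α] [Fintype β] [DecidableEq β]

lemma elim_iff {c : α → ℕ} {d : β → ℕ} (h : ∀ j, cont c j = 0 ∨ cont d j = 0) (x y : α ⊕ β) :
    Sum.map c d x = Sum.map c d y ↔ Sum.elim c d x = Sum.elim c d y := by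
  have key : ∀ a b, c a ≠ d b := fun a b hab => by
    have h1 := cont_pos c a
    have h2 := cont_pos d b
    rw [← hab] at h2
    have := h (c a)
    omega
  rcases x with a | a <;> rcases y with b | b
  · simp
  · simpa using key a b
  · simpa using (key b a).symm
  · simp

lemma sees_triv {κ : Type*} {r : α → ℕ} {c : α → κ} (hL : Latin r c) :
    Sees (pairRep α) (poly2 r c r c) (rowShape (Fintype.card α)) := by
  refine sees_row_iff fun h0 => ?_
  have h1 := congrArg (fun x : (α → ℕ × ℕ) →₀ ℂ => x fun a => (r a, r a)) h0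
  simp only [Finsupp.finsetSum_apply, lwordRep_apply, poly2_apply, Finsupp.zero_apply] at h1
  have h2 : ∀ g : Perm α, poly r c (Prod.fst ∘ (fun a => (r a, r a)) ∘ g) *
      poly r c (Prod.snd ∘ (fun a => (r a, r a)) ∘ g) = (Complex.normSq (poly r c (r ∘ g)) : ℝ) :=
    fun g => by
      rw [← Complex.mul_conj]
      exact congrArg _ (star_poly_apply r (r ∘ g) c).symm
  simp only [h2] at h1
  rw [← Complex.ofReal_sum, Complex.ofReal_eq_zero,
    sum_eq_zero_iff_of_nonneg fun g _ => Complex.normSq_nonneg _] at h1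
  have h3 := h1 1 (mem_univ _)
  rw [Complex.normSq_eq_zero] at h3
  exact one_ne_zero ((poly_apply_self hL).symm.trans h3)

lemma cont_snd (k b : ℕ) (f : Fin b → ℕ) (j : ℕ) :
    cont (fun x : Fin k × Fin b => f x.2) j = k * cont f j := by
  rw [cont, cont, card_filter, card_filter, Fintype.sum_prod_type]
  refine (sum_congr rfl (g := fun _ => ∑ y, if f y = j then 1 else 0) fun _ _ => rfl).trans ?_
  rw [sum_const, card_univ, Fintype.card_fin, smul_eq_mul]

lemma cont_of_inj {f : α → ℕ} (hf : Function.Injective f) (j : ℕ) :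
    cont f j = if ∃ a, f a = j then 1 else 0 := by
  split_ifs with h
  · obtain ⟨a, rfl⟩ := h
    rw [cont, card_eq_one]
    exact ⟨a, by ext x; simp [hf.eq_iff]⟩
  · exact cont_eq_zero fun a ha => h ⟨a, ha⟩

/-! ### Parallel pairs -/

open Zig

/-- Splitting off the first pair. -/
def e3 (h : ℕ) : Fin (h + 1) ⊕ Fin (h + 1) ≃ Bool ⊕ (Fin h ⊕ Fin h) where
  toFun := Sum.elim (Fin.cons (Sum.inl false) fun i => Sum.inr (Sum.inl i))
    (Fin.cons (Sum.inl true) fun i => Sum.inr (Sum.inr i))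
  invFun := Sum.elim (fun b => if b then Sum.inr 0 else Sum.inl 0)
    (Sum.elim (fun i => Sum.inl i.succ) fun i => Sum.inr i.succ)
  left_inv x := by
    rcases x with x | x <;> exact Fin.cases rfl (fun _ => rfl) x
  right_inv x := by rcases x with (_ | _) | _ | _ <;> rfl

/-- The polytabloid with `h` columns of length two. -/
noncomputable def Q (h : ℕ) : (Fin h ⊕ Fin h → ℕ) →₀ ℂ :=
  poly (Sum.elim (fun _ => 0) fun _ => 1) (Sum.elim id id : Fin h ⊕ Fin h → Fin h)

lemma pr_Q : ∀ (h : ℕ) (D : Fin h → ℕ → ℕ → ℂ),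
    pr (fun b => ∏ i, D i (b (Sum.inl i)) (b (Sum.inr i))) (Q h) = ∏ i, (D i 0 1 - D i 1 0)
  | 0, D => by
    rw [Q, pr_unique]
    simp
  | h + 1, D => by
    rw [Q, pr_split (e3 h) _ (fun b => if b then 1 else 0) (fun _ => ())
      (Sum.elim (fun _ => 0) fun _ => 1) (Sum.elim id id : Fin h ⊕ Fin h → Fin h), pr_bool,
      Fin.prod_univ_succ, ← pr_Q h, sub_mul, ← pr_mul, ← pr_mul]
    · congr 3 <;> funext b <;> rw [Fin.prod_univ_succ] <;> rfl
    · funext x
      rcases x with x | x <;> exact Fin.cases rfl (fun _ => rfl) x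
    · intro x y
      rcases x with x | x <;> rcases y with y | y <;>
        refine Fin.cases ?_ (fun i => ?_) x <;> refine Fin.cases ?_ (fun j => ?_) y <;>
        simp [e3, Fin.succ_ne_zero, (Fin.succ_ne_zero _).symm]

/-- The polarised determinant of two of the Clifford matrices. -/
def q (i j : ℕ) : ℤ :=
  (M i 0 0 * M j 1 1 - M i 1 0 * M j 0 1) - (M i 0 1 * M j 1 0 - M i 1 1 * M j 0 0)

lemma q_ne : ∀ i < 4, q i i ≠ 0 := by decide

lemma q_eq : ∀ i < 4, ∀ j < 4, i ≠ j → q i j = 0 := by decide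

lemma pr_QQ (h : ℕ) (w : Fin h ⊕ Fin h → ℕ) :
    pr (fun a : Fin h ⊕ Fin h → ℕ × ℕ => ∏ x, (M (w x) (a x).1 (a x).2 : ℂ)) (wmul (Q h) (Q h)) =
      ∏ i, (q (w (Sum.inl i)) (w (Sum.inr i)) : ℂ) := by
  rw [wmul, pr_fmul, pr_comm]
  simp only [Fintype.prod_sum_type, ← prod_mul_distrib]
  have h1 : ∀ b : Fin h ⊕ Fin h → ℕ, pr (fun a : Fin h ⊕ Fin h → ℕ => ∏ i,
      ((M (w (Sum.inl i)) (a (Sum.inl i)) (b (Sum.inl i)) : ℂ) *
        M (w (Sum.inr i)) (a (Sum.inr i)) (b (Sum.inr i)))) (Q h) = _ := fun b =>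
    pr_Q h fun i u v => (M (w (Sum.inl i)) u (b (Sum.inl i)) : ℂ) *
      M (w (Sum.inr i)) v (b (Sum.inr i))
  simp only [h1]
  rw [pr_Q h fun i u v => (M (w (Sum.inl i)) 0 u : ℂ) * M (w (Sum.inr i)) 1 v -
    (M (w (Sum.inl i)) 1 u : ℂ) * M (w (Sum.inr i)) 0 v]
  refine prod_congr rfl fun i _ => ?_
  simp only [q]
  push_cast
  ring

lemma block_ne {h : ℕ} (hh : h ≤ 4) :
    toPoly (wmul (wmul (Q h) (Q h)) (poly (Sum.elim Fin.val Fin.val : Fin h ⊕ Fin h → ℕ)
      (Sum.map (fun _ => ()) fun _ => ()))) ≠ 0 := by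
  intro h0
  have h1 := congrArg (MvPolynomial.eval fun t : (ℕ × ℕ) × ℕ => (M t.2 t.1.1 t.1.2 : ℂ)) h0
  rw [map_zero, eval_toPoly, wmul, pr_fmul, pr_comm, pr_poly, sum_stab_sum, stab_const] at h1
  simp only [pr_QQ] at h1
  have h2 : ∀ g1 : Perm (Fin h), ∑ g2 : Perm (Fin h), sg (Perm.sumCongr g1 g2) *
      ∏ i, (q (((Sum.elim Fin.val Fin.val : Fin h ⊕ Fin h → ℕ) ∘ Perm.sumCongr g1 g2) (Sum.inl i))
        (((Sum.elim Fin.val Fin.val : Fin h ⊕ Fin h → ℕ) ∘ Perm.sumCongr g1 g2) (Sum.inr i)) : ℂ) =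
      ∏ i : Fin h, (q i i : ℂ) := by
    intro g1
    rw [sum_eq_single g1]
    · rw [sg_sumCongr, sg_mul_self, one_mul]
      exact Equiv.prod_comp g1 fun i : Fin h => (q i i : ℂ)
    · intro g2 _ hne
      obtain ⟨i, hi⟩ : ∃ i, g1 i ≠ g2 i := by
        by_contra hcon
        push Not at hcon
        exact hne (Equiv.ext fun i => (hcon i).symm)
      rw [prod_eq_zero (mem_univ i), mul_zero]
      exact Int.cast_eq_zero.2 (q_eq _ ((g1 i).2.trans_le hh) _ ((g2 i).2.trans_le hh)
        fun h => hi (Fin.ext h))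
    · simp
  simp only [h2, sum_const, nsmul_eq_mul] at h1
  exact mul_ne_zero (Nat.cast_ne_zero.2 (card_pos.2 univ_nonempty).ne')
    (prod_ne_zero_iff.2 fun i _ => Int.cast_ne_zero.2 (q_ne _ (i.2.trans_le hh))) h1

lemma cont_const (h j : ℕ) : cont (fun _ : Fin h => j) = Pi.single j h := by
  funext i
  by_cases hi : i = j
  · subst hi; simp [cont]
  · rw [Pi.single_eq_of_ne hi]
    exact cont_eq_zero fun _ h => hi h.symm

lemma block {h B j k : ℕ} (hh : h ≤ 4) (hjk : j ≠ k) {J : Finset ℕ} (hJ : ∀ x ∈ J, x < B)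
    (hc : J.card = h) :
    Band (B - 1) B (fun x => if x ∈ J then 2 else 0)
      (fun x => if x < B ∧ B - 1 - x ∈ J then 2 else 0) (Pi.single j h + Pi.single k h) := by
  let f : Fin h → ℕ := J.orderEmbOfFin hc
  have hf : Function.Injective f := (J.orderEmbOfFin hc).injective
  have hfJ : ∀ i, f i ∈ J := fun i => J.orderEmbOfFin_mem hc i
  have hsur : ∀ x ∈ J, ∃ i, f i = x := fun x hx => by
    have : x ∈ Set.range (J.orderEmbOfFin hc) := by rw [J.range_orderEmbOfFin hc]; exact hx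
    exact this
  let g : Fin h → ℕ := fun i => B - 1 - f i
  have hg : Function.Injective g := fun i i' hi => hf (by
    have h1 := hJ _ (hfJ i)
    have h2 := hJ _ (hfJ i')
    simp only [g] at hi
    omega)
  have hL : Latin (Sum.elim (fun _ => 0) fun _ => 1 : Fin h ⊕ Fin h → ℕ)
      (Sum.elim id id : Fin h ⊕ Fin h → Fin h) := by
    constructor
    · rintro (a | a) (b | b) h1 h2 <;> simp_all
    · rintro (a | a) i hi
      · simp at hi
      · exact ⟨Sum.inl a, rfl, by simp at hi ⊢; omega⟩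
  have i1 : ∀ {f : Fin h → ℕ}, Function.Injective f → ∀ a b : Fin h ⊕ Fin h,
      (Sum.elim id id : Fin h ⊕ Fin h → Fin h) a = Sum.elim id id b ↔
        Sum.elim f f a = Sum.elim f f b := by
    intro f hf a b
    rcases a with a | a <;> rcases b with b | b <;> simp [hf.eq_iff]
  have hL3 : Latin (Sum.elim Fin.val Fin.val : Fin h ⊕ Fin h → ℕ)
      (Sum.elim (fun _ => j) fun _ => k : Fin h ⊕ Fin h → ℕ) := by
    constructor
    · rintro (a | a) (b | b) h1 h2
      · exact congrArg _ (Fin.ext h2)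
      · exact absurd h1 hjk
      · exact absurd h1.symm hjk
      · exact congrArg _ (Fin.ext h2)
    · rintro (a | a) i hi
      · exact ⟨Sum.inl ⟨i, hi.trans a.2⟩, rfl, rfl⟩
      · exact ⟨Sum.inr ⟨i, hi.trans a.2⟩, rfl, rfl⟩
  refine band_of (α := Fin h ⊕ Fin h) ((sz_single j h).add (sz_single k h)).fs
    (hL.congr (i1 hf)) (hL.congr (i1 hg)) ?_ ?_ ?_ ?_
  · funext x
    rw [cont_sum, Pi.add_apply, cont_of_inj hf]
    by_cases hx : x ∈ J
    · rw [if_pos (hsur x hx), if_pos hx]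
    · rw [if_neg hx, if_neg]
      rintro ⟨i, rfl⟩
      exact hx (hfJ i)
  · funext x
    rw [cont_sum, Pi.add_apply, cont_of_inj hg]
    by_cases hx : x < B ∧ B - 1 - x ∈ J
    · obtain ⟨i, hi⟩ := hsur _ hx.2
      rw [if_pos hx, if_pos ⟨i, by simp only [g]; omega⟩]
    · rw [if_neg hx, if_neg]
      rintro ⟨i, rfl⟩
      have h1 := hJ _ (hfJ i)
      refine hx ⟨by simp only [g]; omega, ?_⟩
      rw [show B - 1 - g i = f i by simp only [g]; omega]
      exact hfJ i
  · rintro (i | i) <;>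
    · have h1 := hJ _ (hfJ i)
      simp only [Sum.elim_inl, Sum.elim_inr, g]
      omega
  · rw [← poly2_congr _ _ (i1 hf) (i1 hg), pairRep, sees_iff_toPoly]
    refine ⟨_, _, hL3, by rw [cont_eq_rowsOf hL3, cont_sum, cont_const, cont_const], ?_⟩
    rw [poly_congr _ (c' := Sum.map (fun _ => ()) fun _ => ())]
    · exact block_ne hh
    · rintro (a | a) (b | b) <;> simp [hjk, hjk.symm]

end HTD

open HTD

theorem hsumStmt : HsumStmt := by
  rintro lo hi _ _ b _ _ c ⟨hb, n, r1, c1, r2, c2, l1, l2, rfl, rfl, hB, H⟩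
    ⟨hc, n', s1, d1, s2, d2, m1, m2, rfl, rfl, hB', H'⟩ h1 h2 h3
  refine band_of (α := Fin n ⊕ Fin n') (hb.add hc) ((l1.sum m1).congr (elim_iff h1))
    ((l2.sum m2).congr (elim_iff h2)) (cont_sum _ _) (cont_sum _ _) ?_ ?_
  · rintro (a | a)
    exacts [hB a, hB' a]
  · rw [← poly2_congr _ _ (elim_iff h1) (elim_iff h2), poly2_sum, rowsOf_add_disj hb hc h3]
    exact H.wsum H'

theorem trivStmt : TrivStmt := by
  intro k b S hS
  have hL : Latin (fun x : Fin k × Fin b => x.1.1) (fun x => x.2.1) := by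
    constructor
    · rintro ⟨i, j⟩ ⟨i', j'⟩ h1 h2
      exact Prod.ext (Fin.ext h2) (Fin.ext h1)
    · rintro ⟨i, j⟩ t ht
      exact ⟨(⟨t, ht.trans i.2⟩, j), rfl, rfl⟩
  have i2 : ∀ x y : Fin k × Fin b, x.2.1 = y.2.1 ↔ b - 1 - x.2.1 = b - 1 - y.2.1 := fun x y => by
    have := x.2.2
    have := y.2.2
    omega
  refine band_of (α := Fin k × Fin b) (sz_ind S).fs hL (hL.congr i2) ?_ ?_ ?_ ?_
  · funext j
    rw [cont_snd k b Fin.val, cont_of_inj Fin.val_injective, colv_replicate]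
    by_cases hj : j < b
    · rw [if_pos ⟨⟨j, hj⟩, rfl⟩, if_pos hj, mul_one]
    · rw [if_neg hj, if_neg, mul_zero]
      rintro ⟨a, rfl⟩
      exact hj a.2
  · funext j
    rw [cont_snd k b fun x => b - 1 - x.1, cont_of_inj fun x y h => Fin.ext (by
      have := x.2
      have := y.2
      omega), colv_replicate]
    by_cases hj : j < b
    · rw [if_pos ⟨⟨b - 1 - j, by omega⟩, by simp only; omega⟩, if_pos hj, mul_one]
    · rw [if_neg hj, if_neg, mul_zero]
      rintro ⟨a, rfl⟩
      have := a.2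
      omega
  · intro x
    have := x.2.2
    omega
  · rw [← poly2_congr _ _ (fun _ _ => Iff.rfl) i2, rowsOf_ind, hS]
    simpa using sees_triv hL

lemma HTD.paired {b : ℕ} {β : ℕ → ℕ} (h : Paired b β) (B : ℕ) : ∀ J : Finset ℕ,
    (∀ x ∈ J, x < B) → J.card = b → Band (B - 1) B (fun x => if x ∈ J then 2 else 0)
      (fun x => if x < B ∧ B - 1 - x ∈ J then 2 else 0) β := by
  induction h with
  | zero =>
    intro J _ hc
    rw [card_eq_zero.1 hc]
    simpa [← Pi.zero_def] using trivStmt 0 B ∅ (by simp)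
  | @add b β h j k hh hjk hj hk _ ih =>
    intro J hJ hc
    obtain ⟨J1, hJ1, hc1⟩ := exists_subset_card_eq (s := J) (n := h) (by omega)
    have H := hsumStmt _ _ _ _ _ _ _ _
      (ih (J \ J1) (fun x hx => hJ x (mem_sdiff.1 hx).1) (by rw [card_sdiff_of_subset hJ1]; omega))
      (block hh hjk (fun x hx => hJ x (hJ1 hx)) hc1)
      (fun x => by by_cases hx : x ∈ J1 <;> simp [hx])
      (fun x => by by_cases hx : B - 1 - x ∈ J1 <;> simp [hx])
      (fun x => by
        by_cases h1 : x = j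
        · left; rw [h1, hj]
        by_cases h2 : x = k
        · left; rw [h2, hk]
        · right; simp [Pi.single_eq_of_ne h1, Pi.single_eq_of_ne h2])
    convert H using 1
    · funext x
      by_cases h1 : x ∈ J1
      · simp [h1, hJ1 h1]
      · simp [h1]
    · funext x
      by_cases h1 : B - 1 - x ∈ J1
      · simp [h1, hJ1 h1]
      · simp [h1]

theorem dStmt : DStmt := by
  intro b β h
  have H := paired h b (range b) (fun x hx => mem_range.1 hx) (card_range b)
  convert H using 1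
  · funext x
    rw [colv_cons_apply, colv_cons_apply]
    simp only [colv_nil, Pi.zero_apply, mem_range]
    split_ifs <;> rfl
  · funext x
    rw [colv_cons_apply, colv_cons_apply]
    simp only [colv_nil, Pi.zero_apply, mem_range]
    split_ifs <;> omega

end Crest.Agent.R195
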