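import Crest.Agent.R195.Big

/-! Row 195: hooks and the family of shapes. -/

set_option autoImplicit false

namespace Crest.Agent.R195
namespace Hook

theorem vec_ext {l l' : List ℕ} (hl : l.length = l'.length) (h : vec l = vec l') : l = l' :=
  List.ext_getElem hl fun j h1 h2 => by rw [← vec_of_lt h1, ← vec_of_lt h2, h]

theorem sc_max {μ : List ℕ} (h : SC μ) : μ.foldr max 0 = μ.length := by
  conv_rhs => rw [← h]
  simp [conjL]

theorem sc_of {μ : List ℕ} (h : vec μ = colv μ) (h' : μ.foldr max 0 = μ.length) : SC μ :=
  vec_ext (by simp [conjL, h']) (by rw [vec_conjL, h])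

theorem foldr_max_le {l : List ℕ} {a : ℕ} (h : ∀ x ∈ l, x ≤ a) : l.foldr max 0 ≤ a := by
  induction l with
  | nil => exact Nat.zero_le _
  | cons b l ih =>
    exact max_le (h b List.mem_cons_self) (ih fun x hx => h x (List.mem_cons_of_mem _ hx))

theorem sc_sorted {μ : List ℕ} (h : SC μ) : μ.Pairwise (· ≥ ·) := by
  rw [List.pairwise_iff_getElem]
  intro i j hi hj hij
  rw [← vec_of_lt hi, ← vec_of_lt hj, h.vec_eq]
  exact colv_anti μ hij.le

theorem sc_head {μ : List ℕ} (h : SC μ) : μ.headD 0 = μ.length := by
  have e : μ.headD 0 = vec μ 0 := by cases μ <;> rfl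
  rw [e, h.vec_eq, colv, List.countP_eq_length]
  intro x hx
  obtain ⟨j, hj, rfl⟩ := List.getElem_of_mem hx
  rw [← vec_of_lt hj, h.vec_eq, decide_eq_true_eq, Nat.pos_iff_ne_zero, Ne, colv_eq_zero]
  intro hc
  have := foldr_max_le hc
  rw [sc_max h] at this
  omega

theorem length_addHook {a : ℕ} {μ : List ℕ} (h : μ.length + 1 ≤ a) : (addHook a μ).length = a := by
  simp only [addHook, List.length_cons, List.length_append, List.length_map,
    List.length_replicate]
  omega

theorem sum_map_succ (μ : List ℕ) : (μ.map (· + 1)).sum = μ.sum + μ.length := by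
  induction μ with
  | nil => rfl
  | cons b l ih => simp only [List.map_cons, List.sum_cons, ih, List.length_cons]; omega

theorem sum_addHook {a : ℕ} {μ : List ℕ} (h : μ.length + 1 ≤ a) :
    (addHook a μ).sum + 1 = μ.sum + 2 * a := by
  simp only [addHook, List.sum_cons, List.sum_append, sum_map_succ, List.sum_replicate,
    smul_eq_mul, mul_one]
  omega

theorem vec_addHook {a : ℕ} {μ : List ℕ} (h : μ.length + 1 ≤ a) (j : ℕ) :
    vec (addHook a μ) (j + 1) = if j + 1 < a then vec μ j + 1 else 0 := by
  split_ifs with hj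
  · rw [vec_of_lt (by rw [length_addHook h]; exact hj)]
    simp only [addHook, List.getElem_cons_succ]
    by_cases hl : j < μ.length
    · rw [List.getElem_append_left (by simpa using hl), vec_of_lt hl]
      simp
    · rw [List.getElem_append_right (by simpa using hl), vec_of_le (not_lt.1 hl)]
      simp
  · exact vec_of_le (by rw [length_addHook h]; omega)

theorem colv_map_zero (μ : List ℕ) : colv (μ.map (· + 1)) 0 = μ.length := by
  simp [colv, List.countP_map, List.countP_eq_length]

theorem colv_map_succ (μ : List ℕ) (j : ℕ) : colv (μ.map (· + 1)) (j + 1) = colv μ j := by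
  simp only [colv, List.countP_map]
  congr 1
  funext x
  simp

theorem good_addHook {a : ℕ} {μ : List ℕ} (hg : Good μ) (h : μ.length + 2 ≤ a) :
    Good (addHook a μ) := by
  have h1 : μ.length + 1 ≤ a := by omega
  refine ⟨sc_of (funext fun j => ?_) ?_, fun q hq => ?_⟩
  · cases j with
    | zero =>
      rw [addHook, vec_cons_zero, colv_cons_apply, colv_append, Pi.add_apply, colv_map_zero,
        colv_replicate]
      split_ifs <;> omega
    | succ j =>
      rw [vec_addHook h1, addHook, colv_cons_apply, colv_append, Pi.add_apply, colv_map_succ,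
        colv_replicate, ← hg.sc.vec_eq]
      have := @vec_of_le μ j
      split_ifs <;> omega
  · rw [length_addHook h1, addHook, List.foldr_cons]
    refine max_eq_left (foldr_max_le fun x hx => ?_)
    rcases List.mem_append.1 hx with hx | hx
    · obtain ⟨y, hy, rfl⟩ := List.mem_map.1 hx
      have := le_foldr_max hy
      rw [sc_max hg.sc] at this
      omega
    · rw [List.eq_of_mem_replicate hx]
      omega
  · rw [length_addHook h1] at hq ⊢
    cases q with
    | zero => rw [addHook, vec_cons_zero]; omega
    | succ j =>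
      rw [vec_addHook h1, if_pos hq]
      have h2 := hg.inv j
      have h3 := @vec_of_le μ j
      omega

theorem fam_succ (d z i : ℕ) : fam (d + 2) z i =
    addHook (2 * (d + 1) + z + (if i = 0 then 0 else 1)) (fam (d + 1) z (i - 1)) := rfl

theorem len_one (z i : ℕ) : (fam 1 z i).length = baseZ z :=
  length_addHook (a := baseZ z) (μ := []) (by unfold baseZ; split_ifs <;> simp)

theorem len_fam (d z i : ℕ) :
    (fam (d + 2) z i).length = 2 * (d + 1) + z + (if i = 0 then 0 else 1) := by
  induction d generalizing i with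
  | zero =>
    rw [fam_succ, length_addHook]
    rw [len_one]
    unfold baseZ
    split_ifs <;> omega
  | succ d ih =>
    rw [fam_succ, length_addHook]
    rw [ih]
    split_ifs <;> omega

theorem len_le (d z i : ℕ) :
    (fam (d + 1) z (i - 1)).length + 1 ≤ 2 * (d + 1) + z + (if i = 0 then 0 else 1) := by
  cases d with
  | zero => rw [len_one]; unfold baseZ; split_ifs <;> omega
  | succ d => rw [len_fam]; split_ifs <;> omega

theorem inR_pred {d z i : ℕ} (h : InR (d + 1) z i) (hd : 1 ≤ d) : InR d z (i - 1) := by
  unfold InR at *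
  omega

theorem fam_good (d z i : ℕ) (h : InR d z i) : Good (fam d z i) := by
  induction d generalizing i with
  | zero => exact absurd h.1 (by omega)
  | succ d ih =>
    rcases d with _ | d
    · have hz := h.2.1
      show Good (addHook (baseZ z) [])
      interval_cases z <;> exact ⟨by unfold SC; decide, by decide⟩
    · by_cases h0 : d = 0 ∧ z = 0
      · obtain ⟨rfl, rfl⟩ := h0
        obtain rfl : i = 0 := by unfold InR at h; omega
        exact ⟨by unfold SC; decide, by decide⟩
      rw [fam_succ]
      refine good_addHook (ih _ (inR_pred h (by omega))) ?_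
      rcases d with _ | d
      · rw [len_one]; unfold baseZ; split_ifs <;> omega
      · rw [len_fam]; split_ifs <;> omega

theorem fam_sum (d z i : ℕ) (h : InR (d + 2) z i) :
    2 * (fam (d + 2) z i).sum + (if z = 3 then 2 else if z = 4 then 10 else 0) =
      (2 * d + z + 2) * (2 * d + z + 3) + 4 * i + (if z = 0 then 2 else 0) := by
  induction d generalizing i with
  | zero =>
    have hz := h.2.1
    have hi : i ≤ 1 := by unfold InR at h; omega
    interval_cases z <;> interval_cases i <;> first | decide | exact absurd h (by decide)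
  | succ d ih =>
    have e1 := ih _ (inR_pred h (by omega))
    have e2 : (fam (d + 1 + 2) z i).sum + 1 = (fam (d + 2) z (i - 1)).sum +
        2 * (2 * (d + 1 + 1) + z + (if i = 0 then 0 else 1)) := sum_addHook (len_le (d + 1) z i)
    have e3 : (2 * (d + 1) + z + 2) * (2 * (d + 1) + z + 3) =
        (2 * d + z + 2) * (2 * d + z + 3) + (4 * (2 * d + z) + 14) := by ring
    rw [e3]
    generalize (2 * d + z + 2) * (2 * d + z + 3) = t at *
    generalize (if z = 3 then 2 else if z = 4 then 10 else 0) = u at *
    generalize (if z = 0 then 2 else 0) = v at *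
    split_ifs at e2 <;> omega

theorem map_run (b l : ℕ) (h : l ≤ b) : (run b l).map (· + 1) = run (b + 1) l := by
  induction l generalizing b with
  | zero => rfl
  | succ l ih =>
    rw [run, run, List.map_cons, ih _ (by omega)]
    congr 2
    omega

theorem run_snoc (p : ℕ) : run (p + 1) p ++ [1] = run (p + 1) (p + 1) := by
  induction p with
  | zero => rfl
  | succ p ih =>
    show (p + 1 + 1) :: (run (p + 1) p ++ [1]) = (p + 1 + 1) :: run (p + 1) (p + 1)
    rw [ih]

theorem stepE (b e p i : ℕ) (M : List ℕ) (hi : i ≤ b) (he : e ≤ b) :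
    (b + 2 + (if i = 0 then 0 else 1)) :: ((run (b + 1) (i - 1) ++ (run (b - (i - 1)) (e - (i - 1)) ++
      (M ++ low p (i - 1)))).map (· + 1) ++ List.replicate (if i = 1 then 2 else 1) 1) =
    run (b + 3) i ++ (run (b + 2 - i) (e + 1 - i) ++ (M.map (· + 1) ++ low (p + 1) i)) := by
  simp only [List.map_append, List.append_assoc]
  rw [map_run _ _ (by omega), map_run _ _ (by omega)]
  rcases i with _ | _ | j
  · simp only [low, if_true, Nat.zero_sub, Nat.sub_zero, map_run _ _ le_rfl, run,
      List.nil_append, zero_ne_one, if_false, List.replicate, run_snoc]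
    rfl
  · simp only [low, if_true, Nat.sub_zero, map_run _ _ le_rfl, run, List.nil_append, zero_add,
      one_ne_zero, if_false, List.replicate, Nat.sub_self, Nat.add_sub_cancel]
    rfl
  · have e1 : b - (j + 1) + 1 = b + 2 - (j + 1 + 1) := by omega
    have e2 : e - (j + 1) = e + 1 - (j + 1 + 1) := by omega
    have e3 : p - (j + 1) = p + 1 - (j + 1 + 1) := by omega
    simp only [low, Nat.add_sub_cancel, Nat.add_one_ne_zero, if_false, List.map_append,
      List.map_cons, map_run _ _ le_rfl, map_run _ _ (Nat.sub_le _ _), Nat.add_eq_right,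
      List.replicate, List.append_assoc, List.cons_append, run_snoc]
    rw [e1, e2, e3]
    rfl

theorem map_mid (z d : ℕ) : (mid z (d + 1)).map (· + 1) = mid z (d + 2) := by
  unfold mid
  split_ifs <;> rfl

theorem fam_famE (d z i : ℕ) (h : InR (d + 2) z i) : fam (d + 2) z i = famE (d + 2) z i := by
  induction d generalizing i with
  | zero =>
    have hz := h.2.1
    have hi : i ≤ 1 := by unfold InR at h; omega
    interval_cases z <;> interval_cases i <;> first | decide | exact absurd h (by decide)
  | succ d ih =>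
    have e1 := ih _ (inR_pred h (by omega))
    have e2 := len_fam d z (i - 1)
    have hi : i ≤ d + 2 := by unfold InR at h; omega
    have e3 := stepE (2 * d + z + 2) (if z = 0 then d else d + 1)
      (if z = 0 ∨ z = 4 then d else d + 1) i (mid z (d + 2)) (by omega) (by split_ifs <;> omega)
    rw [map_mid] at e3
    rw [fam_succ, addHook, e2, e1]
    unfold famE
    have a1 : 2 * (d + 1 + 1) + z = 2 * d + z + 2 + 2 := by omega
    have a2 : 2 * d + z + 2 + 2 + (if i = 0 then 0 else 1) - 1 -
        (2 * (d + 1) + z + (if i - 1 = 0 then 0 else 1)) = if i = 1 then 2 else 1 := by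
      split_ifs <;> omega
    have a7 : 2 * (d + 1 + 2) + z - 1 = 2 * d + z + 2 + 3 := by omega
    have a8 : 2 * (d + 1 + 2) + z - 2 = 2 * d + z + 2 + 2 := by omega
    have a9 : (if z = 0 then d + 1 + 2 - 2 else d + 1 + 2 - 1) =
        (if z = 0 then d else d + 1) + 1 := by split_ifs <;> rfl
    have a10 : (if z = 0 ∨ z = 4 then d + 1 + 2 - 2 else d + 1 + 2 - 1) =
        (if z = 0 ∨ z = 4 then d else d + 1) + 1 := by split_ifs <;> rfl
    rw [a1, a2, a7, a8, a9, a10]
    exact e3

theorem vec_stair (d z : ℕ) (hz : z = 1 ∨ z = 2) :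
    vec (fam (d + 1) z 0) = stair (2 * d + z) := by
  induction d with
  | zero =>
    funext j
    rcases hz with rfl | rfl
    · rcases j with _ | j
      · rfl
      · exact (vec_of_le (l := [1]) (by simp)).trans (by simp [stair])
    · rcases j with _ | _ | j
      · rfl
      · rfl
      · exact (vec_of_le (l := [2, 1]) (by simp)).trans (by simp only [stair]; omega)
  | succ d ih =>
    funext j
    rw [fam_succ]
    cases j with
    | zero => rfl
    | succ j =>
      rw [vec_addHook (len_le d z 0), Nat.zero_sub, ih]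
      simp only [stair]
      split_ifs <;> omega

theorem cover_step {d z i : ℕ} (h : InR (d + 4) z i) :
    ∃ d' z' i', InR (d' + 4) z' i' ∧ (fam (d' + 4) z' i').sum = (fam (d + 4) z i).sum + 2 := by
  have e0 := fam_sum (d + 2) z i h
  by_cases h1 : InR (d + 4) z (i + 1)
  · have e1 := fam_sum (d + 2) z (i + 1) h1
    refine ⟨d, z, i + 1, h1, ?_⟩
    show (fam (d + 2 + 2) z (i + 1)).sum = (fam (d + 2 + 2) z i).sum + 2
    omega
  by_cases h4 : z = 4
  · subst h4
    obtain rfl : i = 2 := by unfold InR at h h1; omega
    have h2 : InR (d + 2 + 4) 0 0 := by unfold InR; omega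
    have e1 := fam_sum (d + 4) 0 0 h2
    refine ⟨d + 2, 0, 0, h2, ?_⟩
    have e2 : (2 * (d + 4) + 0 + 2) * (2 * (d + 4) + 0 + 3) =
        (2 * (d + 2) + 4 + 2) * (2 * (d + 2) + 4 + 3) := by ring
    rw [e2] at e1
    simp only [OfNat.ofNat_ne_zero, if_true, if_false, Nat.reduceEqDiff] at e0 e1
    show (fam (d + 4 + 2) 0 0).sum = (fam (d + 2 + 2) 4 2).sum + 2
    omega
  · have h2 : InR (d + 4) (z + 1) 0 := by unfold InR at h ⊢; omega
    have e1 := fam_sum (d + 2) (z + 1) 0 h2
    refine ⟨d, z + 1, 0, h2, ?_⟩
    have e2 : (2 * (d + 2) + (z + 1) + 2) * (2 * (d + 2) + (z + 1) + 3) =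
        (2 * (d + 2) + z + 2) * (2 * (d + 2) + z + 3) + (4 * d + 2 * z + 14) := by ring
    rw [e2] at e1
    generalize (2 * (d + 2) + z + 2) * (2 * (d + 2) + z + 3) = t at *
    show (fam (d + 2 + 2) (z + 1) 0).sum = (fam (d + 2 + 2) z i).sum + 2
    generalize (fam (d + 2 + 2) (z + 1) 0).sum = A at *
    generalize (fam (d + 2 + 2) z i).sum = B at *
    have hz : z = 0 ∨ z = 1 ∨ z = 2 ∨ z = 3 := by unfold InR at h; omega
    unfold InR at h h1
    rcases hz with rfl | rfl | rfl | rfl <;> simp at e0 e1 <;> omega

theorem cover (k : ℕ) : ∃ d z i, InR (d + 4) z i ∧ (fam (d + 4) z i).sum = k + 36 := by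
  induction k using Nat.twoStepInduction with
  | zero => exact ⟨0, 2, 0, by decide, by decide⟩
  | one => exact ⟨1, 0, 0, by decide, by decide⟩
  | more k ih _ =>
    obtain ⟨d, z, i, h, hs⟩ := ih
    obtain ⟨d', z', i', h', hs'⟩ := cover_step h
    exact ⟨d', z', i', h', by omega⟩

end Hook

open Hook in
theorem hookFacts : HookFacts where
  good := fun _ _ => good_addHook
  length := fun _ _ => length_addHook
  sum := fun _ _ => sum_addHook
  sorted := fun _ => sc_sorted
  head := fun _ => sc_head
  famGood := fam_good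
  famLen := by
    intro d z i _ hd
    obtain ⟨d, rfl⟩ := Nat.exists_eq_add_of_le' hd
    rw [len_fam]
    omega
  famStep := by
    intro d z i h hd
    obtain ⟨d, rfl⟩ := Nat.exists_eq_add_of_le' hd
    refine ⟨inR_pred h (by omega), rfl, ?_⟩
    rw [len_fam]
    split_ifs <;> omega
  famSum := by
    intro d z i h hd
    obtain ⟨d, rfl⟩ := Nat.exists_eq_add_of_le' hd
    rw [fam_sum d z i h]
    congr 3 <;> omega
  famE := by
    intro d z i h hd
    obtain ⟨d, rfl⟩ := Nat.exists_eq_add_of_le' hd
    exact fam_famE d z i h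
  stair := by
    intro m hm
    have e1 : (m + 1) / 2 = (m - 1) / 2 + 1 := by omega
    rw [e1, vec_stair _ _ (by omega)]
    congr 1
    omega
  cover := by
    intro n hn
    obtain ⟨k, rfl⟩ := Nat.exists_eq_add_of_le' hn
    obtain ⟨d, z, i, h, hs⟩ := cover k
    exact ⟨d + 4, z, i, h, by omega, hs⟩

end Crest.Agent.R195
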