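import Crest.Agent.R195.Basic

/-! Row 195: the rules for the judgements on a fixed third shape. -/

set_option autoImplicit false

namespace Crest.Agent.R195

open Finset

namespace JR

lemma exists_lt {ν : List ℕ} {j : ℕ} (h : colv ν j ≠ 0) : ∃ x ∈ ν, j < x := by
  by_contra hn
  exact h (colv_eq_zero.2 fun x hx => not_lt.1 fun hj => hn ⟨x, hx, hj⟩)

lemma fj_iff {ν : List ℕ} {c : ℕ → ℕ} :
    FJ ν c ↔ FS c ∧ Kron (colv ν) (colv ν) (rowsOf c) := by
  rw [FJ, free_iff_kron]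
  exact ⟨fun h => ⟨h.2.2.1, h.2.2.2.conj12 (isConj_colv ν).symm (isConj_colv ν).symm⟩,
    fun h => ⟨fs_colv ν, fs_colv ν, h.1, h.2.conj12 (isConj_colv ν) (isConj_colv ν)⟩⟩

/-- stacking the rows `μ` on top of `ν` -/
lemma stack (hC : CompStmt) {lo e b m : ℕ} {μ ν : List ℕ} {β c : ℕ → ℕ}
    (hb : Band lo b (colv μ) (colv μ) β) (h : XJ e ν c) (h1 : e ≤ lo) (h2 : e ≤ b)
    (hμ : ∀ y ∈ μ, m ≤ y) (hν : ∀ x ∈ ν, x ≤ m) : XJ b (μ ++ ν) (β + c) := by
  have key : ∀ j, colv ν j ≠ 0 → colv μ j = μ.length := fun j hj => by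
    obtain ⟨x, hx, hjx⟩ := exists_lt hj
    refine List.countP_eq_length.2 fun y hy => ?_
    have := hμ y hy
    have := hν x hx
    simp only [decide_eq_true_eq]
    omega
  rw [XJ, colv_append]
  exact hC lo b e b μ.length μ.length _ _ _ _ _ _ hb h h1 le_rfl h2 (colv_le_length μ) key
    (colv_le_length μ) key

lemma hook : FJ [4, 1, 1] (vec [3, 3]) := by
  have h0 : Kron (colv [3]) (colv [3]) (rowShape 3) :=
    kron_triv (colv_anti _) (N := 3) (by decide) (by decide)
  have h1 := h0.swap23.add h0.swap13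
  have e : vec [4, 1, 1] = colv [3] + rowShape 3 := by
    funext j
    rcases j with _ | _ | _ | j
    · decide
    · decide
    · decide
    · rw [vec_of_le (by simp), Pi.add_apply, colv_eq_zero.2 (by simp)]
      simp [rowShape]
  rw [FJ, free_iff_kron]
  refine ⟨fs_colv _, fs_colv _, fs_vec _, ?_⟩
  rw [rowsOf_colv (by decide), rowsOf_vec, show [3, 3] = [3] ++ [3] from rfl, colv_append, e]
  rwa [add_comm (rowShape 3)] at h1

end JR

set_option linter.unusedVariables false in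
theorem jRules_of (hC : CompStmt) (hH : HsumStmt) (hS : S1Stmt) (hT : TrivStmt) (hZ : ZStmt)
    (hP : PStmt) (hD : DStmt) : JRules where
  nil e := by
    have := hT 0 0 ∅ rfl
    rw [ind_empty] at this
    exact this.mono le_rfl (Nat.zero_le e)
  mono e e' ν c h he := Band.mono h le_rfl he
  x2f e ν c h := Band.free h
  f2x e ν c h hx := by
    obtain ⟨hi, hc, n, r1, c1, r2, c2, l1, l2, hp, hq, -, H⟩ := h
    refine ⟨hc, n, r1, c1, r2, c2, l1, l2, hp, hq, fun a => ⟨Nat.zero_le _, ?_⟩, H⟩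
    obtain ⟨x, hx1, h1⟩ := JR.exists_lt (hp ▸ (cont_pos c1 a).ne' : colv ν (c1 a) ≠ 0)
    obtain ⟨y, hy1, h2⟩ := JR.exists_lt (hq ▸ (cont_pos c2 a).ne' : colv ν (c2 a) ≠ 0)
    have := hx x hx1
    have := hx y hy1
    omega
  triv e k b ν c S h he hx hS :=
    JR.stack hC (hT k b S hS) h (by omega) (by omega)
      (fun y hy => (List.eq_of_mem_replicate hy).ge) hx
  zz e b ν c β h he hx hβ h4 :=
    JR.stack hC (m := b - 1) (hZ b β (by omega) hβ h4) h (by omega) (by omega)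
      (by simp; omega) (fun x h => by have := hx x h; omega)
  pp e b ν c p1 p2 h he hx h1 h2 h3 h4 h5 :=
    JR.stack hC (m := b - 2) (hP b p1 p2 (by omega) h1 h2 h3 h4 h5) h (by omega) (by omega)
      (by simp; omega) (fun x h => by have := hx x h; omega)
  dd e b ν c β h he hx hβ :=
    JR.stack hC (m := b) (hD b β hβ) h (by omega) (by omega) (by simp) hx
  s1 a ν c S h hx hd hS' := by
    rw [FJ, colv_cons]
    exact hS a _ _ c S h (colv_anti ν) (colv_anti ν) (colv_eq_zero.2 hx) (colv_eq_zero.2 hx) hd hS'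
  conj ν c h := by
    rw [FJ, free_iff_kron, rowsOf_colv_conjL]
    exact ⟨fs_colv _, fs_colv _, JR.fj_iff.1 h⟩
  twist ν l hν h := by
    obtain ⟨-, h⟩ := JR.fj_iff.1 h
    rw [rowsOf_vec] at h
    refine JR.fj_iff.2 ⟨fs_colv l, h.conj13 ?_ (isConj_colv l)⟩
    have := isConj_colv ν
    rwa [hν.rowsOf_colv] at this
  vs ν ν' c c' h h' hd := by
    obtain ⟨f, h⟩ := JR.fj_iff.1 h
    obtain ⟨f', h'⟩ := JR.fj_iff.1 h'
    refine JR.fj_iff.2 ⟨f.add f', ?_⟩
    rw [colv_append, rowsOf_add_disj f f' hd]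
    exact h.add h'
  perm ν ν' c hp h := by
    rw [FJ, ← colv_perm hp]; exact h
  recol e ν c c' hc he h := Band.recol h hc he
  recolF ν c c' hc he h := h.imp fun _ h => h.recol hc he
  hook := JR.hook

end Crest.Agent.R195
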