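import Crest.Agent.R195.Greedy

/-! Row 195: the criterion for the members of the family with at most 36 hooks. -/

set_option autoImplicit false
set_option maxRecDepth 100000
set_option Elab.async false

namespace Crest.Agent.R195

theorem l2_35_0 : ((List.range 35).all fun i => !decide (InR 35 0 i) || l2B 35 0 i) = true := by
  decide +kernel

theorem l2_35_1 : ((List.range 35).all fun i => !decide (InR 35 1 i) || l2B 35 1 i) = true := by
  decide +kernel

theorem l2_35_2 : ((List.range 35).all fun i => !decide (InR 35 2 i) || l2B 35 2 i) = true := by
  decide +kernel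

theorem l2_35_3 : ((List.range 35).all fun i => !decide (InR 35 3 i) || l2B 35 3 i) = true := by
  decide +kernel

theorem l2_35_4 : ((List.range 35).all fun i => !decide (InR 35 4 i) || l2B 35 4 i) = true := by
  decide +kernel

theorem l2_7_0 : ((List.range 7).all fun i => !decide (InR 7 0 i) || l2B 7 0 i) = true := by
  decide +kernel

theorem l2_7_1 : ((List.range 7).all fun i => !decide (InR 7 1 i) || l2B 7 1 i) = true := by
  decide +kernel

theorem l2_7_2 : ((List.range 7).all fun i => !decide (InR 7 2 i) || l2B 7 2 i) = true := by
  decide +kernel

theorem l2_7_3 : ((List.range 7).all fun i => !decide (InR 7 3 i) || l2B 7 3 i) = true := by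
  decide +kernel

theorem l2_7_4 : ((List.range 7).all fun i => !decide (InR 7 4 i) || l2B 7 4 i) = true := by
  decide +kernel

theorem l2_8_0 : ((List.range 8).all fun i => !decide (InR 8 0 i) || l2B 8 0 i) = true := by
  decide +kernel

theorem l2_8_1 : ((List.range 8).all fun i => !decide (InR 8 1 i) || l2B 8 1 i) = true := by
  decide +kernel

theorem l2_8_2 : ((List.range 8).all fun i => !decide (InR 8 2 i) || l2B 8 2 i) = true := by
  decide +kernel

theorem l2_8_3 : ((List.range 8).all fun i => !decide (InR 8 3 i) || l2B 8 3 i) = true := by
  decide +kernel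

theorem l2_8_4 : ((List.range 8).all fun i => !decide (InR 8 4 i) || l2B 8 4 i) = true := by
  decide +kernel

theorem l2_9_0 : ((List.range 9).all fun i => !decide (InR 9 0 i) || l2B 9 0 i) = true := by
  decide +kernel

theorem l2_9_1 : ((List.range 9).all fun i => !decide (InR 9 1 i) || l2B 9 1 i) = true := by
  decide +kernel

theorem l2_9_2 : ((List.range 9).all fun i => !decide (InR 9 2 i) || l2B 9 2 i) = true := by
  decide +kernel

theorem l2_9_3 : ((List.range 9).all fun i => !decide (InR 9 3 i) || l2B 9 3 i) = true := by
  decide +kernel

theorem l2_9_4 : ((List.range 9).all fun i => !decide (InR 9 4 i) || l2B 9 4 i) = true := by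
  decide +kernel

theorem l2_10_0 : ((List.range 10).all fun i => !decide (InR 10 0 i) || l2B 10 0 i) = true := by
  decide +kernel

theorem l2_10_1 : ((List.range 10).all fun i => !decide (InR 10 1 i) || l2B 10 1 i) = true := by
  decide +kernel

theorem l2_10_2 : ((List.range 10).all fun i => !decide (InR 10 2 i) || l2B 10 2 i) = true := by
  decide +kernel

theorem l2_10_3 : ((List.range 10).all fun i => !decide (InR 10 3 i) || l2B 10 3 i) = true := by
  decide +kernel

theorem l2_10_4 : ((List.range 10).all fun i => !decide (InR 10 4 i) || l2B 10 4 i) = true := by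
  decide +kernel

theorem l2_11_0 : ((List.range 11).all fun i => !decide (InR 11 0 i) || l2B 11 0 i) = true := by
  decide +kernel

theorem l2_11_1 : ((List.range 11).all fun i => !decide (InR 11 1 i) || l2B 11 1 i) = true := by
  decide +kernel

theorem l2_11_2 : ((List.range 11).all fun i => !decide (InR 11 2 i) || l2B 11 2 i) = true := by
  decide +kernel

theorem l2_11_3 : ((List.range 11).all fun i => !decide (InR 11 3 i) || l2B 11 3 i) = true := by
  decide +kernel

theorem l2_11_4 : ((List.range 11).all fun i => !decide (InR 11 4 i) || l2B 11 4 i) = true := by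
  decide +kernel

end Crest.Agent.R195
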