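import Crest.Agent.R195.Greedy

/-! Row 195: the criterion for the members of the family with at most 36 hooks. -/

set_option autoImplicit false
set_option maxRecDepth 100000
set_option Elab.async false

namespace Crest.Agent.R195

theorem l2_34_0 : ((List.range 34).all fun i => !decide (InR 34 0 i) || l2B 34 0 i) = true := by
  decide +kernel

theorem l2_34_1 : ((List.range 34).all fun i => !decide (InR 34 1 i) || l2B 34 1 i) = true := by
  decide +kernel

theorem l2_34_2 : ((List.range 34).all fun i => !decide (InR 34 2 i) || l2B 34 2 i) = true := by
  decide +kernel

theorem l2_34_3 : ((List.range 34).all fun i => !decide (InR 34 3 i) || l2B 34 3 i) = true := by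
  decide +kernel

theorem l2_34_4 : ((List.range 34).all fun i => !decide (InR 34 4 i) || l2B 34 4 i) = true := by
  decide +kernel

theorem l2_12_0 : ((List.range 12).all fun i => !decide (InR 12 0 i) || l2B 12 0 i) = true := by
  decide +kernel

theorem l2_12_1 : ((List.range 12).all fun i => !decide (InR 12 1 i) || l2B 12 1 i) = true := by
  decide +kernel

theorem l2_12_2 : ((List.range 12).all fun i => !decide (InR 12 2 i) || l2B 12 2 i) = true := by
  decide +kernel

theorem l2_12_3 : ((List.range 12).all fun i => !decide (InR 12 3 i) || l2B 12 3 i) = true := by
  decide +kernel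

theorem l2_12_4 : ((List.range 12).all fun i => !decide (InR 12 4 i) || l2B 12 4 i) = true := by
  decide +kernel

theorem l2_13_0 : ((List.range 13).all fun i => !decide (InR 13 0 i) || l2B 13 0 i) = true := by
  decide +kernel

theorem l2_13_1 : ((List.range 13).all fun i => !decide (InR 13 1 i) || l2B 13 1 i) = true := by
  decide +kernel

theorem l2_13_2 : ((List.range 13).all fun i => !decide (InR 13 2 i) || l2B 13 2 i) = true := by
  decide +kernel

theorem l2_13_3 : ((List.range 13).all fun i => !decide (InR 13 3 i) || l2B 13 3 i) = true := by
  decide +kernel

theorem l2_13_4 : ((List.range 13).all fun i => !decide (InR 13 4 i) || l2B 13 4 i) = true := by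
  decide +kernel

theorem l2_14_0 : ((List.range 14).all fun i => !decide (InR 14 0 i) || l2B 14 0 i) = true := by
  decide +kernel

theorem l2_14_1 : ((List.range 14).all fun i => !decide (InR 14 1 i) || l2B 14 1 i) = true := by
  decide +kernel

theorem l2_14_2 : ((List.range 14).all fun i => !decide (InR 14 2 i) || l2B 14 2 i) = true := by
  decide +kernel

theorem l2_14_3 : ((List.range 14).all fun i => !decide (InR 14 3 i) || l2B 14 3 i) = true := by
  decide +kernel

theorem l2_14_4 : ((List.range 14).all fun i => !decide (InR 14 4 i) || l2B 14 4 i) = true := by
  decide +kernel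

end Crest.Agent.R195
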