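import Crest.Agent.R195.Greedy

/-! Row 195: the criterion for the members of the family with at most 36 hooks. -/

set_option autoImplicit false
set_option maxRecDepth 100000
set_option Elab.async false

namespace Crest.Agent.R195

theorem l2_33_0 : ((List.range 33).all fun i => !decide (InR 33 0 i) || l2B 33 0 i) = true := by
  decide +kernel

theorem l2_33_1 : ((List.range 33).all fun i => !decide (InR 33 1 i) || l2B 33 1 i) = true := by
  decide +kernel

theorem l2_33_2 : ((List.range 33).all fun i => !decide (InR 33 2 i) || l2B 33 2 i) = true := by
  decide +kernel

theorem l2_33_3 : ((List.range 33).all fun i => !decide (InR 33 3 i) || l2B 33 3 i) = true := by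
  decide +kernel

theorem l2_33_4 : ((List.range 33).all fun i => !decide (InR 33 4 i) || l2B 33 4 i) = true := by
  decide +kernel

theorem l2_15_0 : ((List.range 15).all fun i => !decide (InR 15 0 i) || l2B 15 0 i) = true := by
  decide +kernel

theorem l2_15_1 : ((List.range 15).all fun i => !decide (InR 15 1 i) || l2B 15 1 i) = true := by
  decide +kernel

theorem l2_15_2 : ((List.range 15).all fun i => !decide (InR 15 2 i) || l2B 15 2 i) = true := by
  decide +kernel

theorem l2_15_3 : ((List.range 15).all fun i => !decide (InR 15 3 i) || l2B 15 3 i) = true := by
  decide +kernel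

theorem l2_15_4 : ((List.range 15).all fun i => !decide (InR 15 4 i) || l2B 15 4 i) = true := by
  decide +kernel

theorem l2_16_0 : ((List.range 16).all fun i => !decide (InR 16 0 i) || l2B 16 0 i) = true := by
  decide +kernel

theorem l2_16_1 : ((List.range 16).all fun i => !decide (InR 16 1 i) || l2B 16 1 i) = true := by
  decide +kernel

theorem l2_16_2 : ((List.range 16).all fun i => !decide (InR 16 2 i) || l2B 16 2 i) = true := by
  decide +kernel

theorem l2_16_3 : ((List.range 16).all fun i => !decide (InR 16 3 i) || l2B 16 3 i) = true := by
  decide +kernel

theorem l2_16_4 : ((List.range 16).all fun i => !decide (InR 16 4 i) || l2B 16 4 i) = true := by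
  decide +kernel

theorem l2_17_0 : ((List.range 17).all fun i => !decide (InR 17 0 i) || l2B 17 0 i) = true := by
  decide +kernel

theorem l2_17_1 : ((List.range 17).all fun i => !decide (InR 17 1 i) || l2B 17 1 i) = true := by
  decide +kernel

theorem l2_17_2 : ((List.range 17).all fun i => !decide (InR 17 2 i) || l2B 17 2 i) = true := by
  decide +kernel

theorem l2_17_3 : ((List.range 17).all fun i => !decide (InR 17 3 i) || l2B 17 3 i) = true := by
  decide +kernel

theorem l2_17_4 : ((List.range 17).all fun i => !decide (InR 17 4 i) || l2B 17 4 i) = true := by
  decide +kernel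

end Crest.Agent.R195
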