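import Crest.Agent.R195.Greedy

/-! Row 195: the criterion for the members of the family with at most 36 hooks. -/

set_option autoImplicit false
set_option maxRecDepth 100000
set_option Elab.async false

namespace Crest.Agent.R195

theorem l2_32_0 : ((List.range 32).all fun i => !decide (InR 32 0 i) || l2B 32 0 i) = true := by
  decide +kernel

theorem l2_32_1 : ((List.range 32).all fun i => !decide (InR 32 1 i) || l2B 32 1 i) = true := by
  decide +kernel

theorem l2_32_2 : ((List.range 32).all fun i => !decide (InR 32 2 i) || l2B 32 2 i) = true := by
  decide +kernel

theorem l2_32_3 : ((List.range 32).all fun i => !decide (InR 32 3 i) || l2B 32 3 i) = true := by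
  decide +kernel

theorem l2_32_4 : ((List.range 32).all fun i => !decide (InR 32 4 i) || l2B 32 4 i) = true := by
  decide +kernel

theorem l2_18_0 : ((List.range 18).all fun i => !decide (InR 18 0 i) || l2B 18 0 i) = true := by
  decide +kernel

theorem l2_18_1 : ((List.range 18).all fun i => !decide (InR 18 1 i) || l2B 18 1 i) = true := by
  decide +kernel

theorem l2_18_2 : ((List.range 18).all fun i => !decide (InR 18 2 i) || l2B 18 2 i) = true := by
  decide +kernel

theorem l2_18_3 : ((List.range 18).all fun i => !decide (InR 18 3 i) || l2B 18 3 i) = true := by
  decide +kernel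

theorem l2_18_4 : ((List.range 18).all fun i => !decide (InR 18 4 i) || l2B 18 4 i) = true := by
  decide +kernel

theorem l2_19_0 : ((List.range 19).all fun i => !decide (InR 19 0 i) || l2B 19 0 i) = true := by
  decide +kernel

theorem l2_19_1 : ((List.range 19).all fun i => !decide (InR 19 1 i) || l2B 19 1 i) = true := by
  decide +kernel

theorem l2_19_2 : ((List.range 19).all fun i => !decide (InR 19 2 i) || l2B 19 2 i) = true := by
  decide +kernel

theorem l2_19_3 : ((List.range 19).all fun i => !decide (InR 19 3 i) || l2B 19 3 i) = true := by
  decide +kernel

theorem l2_19_4 : ((List.range 19).all fun i => !decide (InR 19 4 i) || l2B 19 4 i) = true := by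
  decide +kernel

end Crest.Agent.R195
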