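import Crest.Agent.R195.Greedy

/-! Row 195: the criterion for the members of the family with at most 36 hooks. -/

set_option autoImplicit false
set_option maxRecDepth 100000
set_option Elab.async false

namespace Crest.Agent.R195

theorem l2_31_0 : ((List.range 31).all fun i => !decide (InR 31 0 i) || l2B 31 0 i) = true := by
  decide +kernel

theorem l2_31_1 : ((List.range 31).all fun i => !decide (InR 31 1 i) || l2B 31 1 i) = true := by
  decide +kernel

theorem l2_31_2 : ((List.range 31).all fun i => !decide (InR 31 2 i) || l2B 31 2 i) = true := by
  decide +kernel

theorem l2_31_3 : ((List.range 31).all fun i => !decide (InR 31 3 i) || l2B 31 3 i) = true := by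
  decide +kernel

theorem l2_31_4 : ((List.range 31).all fun i => !decide (InR 31 4 i) || l2B 31 4 i) = true := by
  decide +kernel

theorem l2_20_0 : ((List.range 20).all fun i => !decide (InR 20 0 i) || l2B 20 0 i) = true := by
  decide +kernel

theorem l2_20_1 : ((List.range 20).all fun i => !decide (InR 20 1 i) || l2B 20 1 i) = true := by
  decide +kernel

theorem l2_20_2 : ((List.range 20).all fun i => !decide (InR 20 2 i) || l2B 20 2 i) = true := by
  decide +kernel

theorem l2_20_3 : ((List.range 20).all fun i => !decide (InR 20 3 i) || l2B 20 3 i) = true := by
  decide +kernel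

theorem l2_20_4 : ((List.range 20).all fun i => !decide (InR 20 4 i) || l2B 20 4 i) = true := by
  decide +kernel

theorem l2_21_0 : ((List.range 21).all fun i => !decide (InR 21 0 i) || l2B 21 0 i) = true := by
  decide +kernel

theorem l2_21_1 : ((List.range 21).all fun i => !decide (InR 21 1 i) || l2B 21 1 i) = true := by
  decide +kernel

theorem l2_21_2 : ((List.range 21).all fun i => !decide (InR 21 2 i) || l2B 21 2 i) = true := by
  decide +kernel

theorem l2_21_3 : ((List.range 21).all fun i => !decide (InR 21 3 i) || l2B 21 3 i) = true := by
  decide +kernel

theorem l2_21_4 : ((List.range 21).all fun i => !decide (InR 21 4 i) || l2B 21 4 i) = true := by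
  decide +kernel

end Crest.Agent.R195
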