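import Crest.Agent.R195.Greedy

/-! Row 195: the criterion for the members of the family with at most 36 hooks. -/

set_option autoImplicit false
set_option maxRecDepth 100000
set_option Elab.async false

namespace Crest.Agent.R195

theorem l2_30_0 : ((List.range 30).all fun i => !decide (InR 30 0 i) || l2B 30 0 i) = true := by
  decide +kernel

theorem l2_30_1 : ((List.range 30).all fun i => !decide (InR 30 1 i) || l2B 30 1 i) = true := by
  decide +kernel

theorem l2_30_2 : ((List.range 30).all fun i => !decide (InR 30 2 i) || l2B 30 2 i) = true := by
  decide +kernel

theorem l2_30_3 : ((List.range 30).all fun i => !decide (InR 30 3 i) || l2B 30 3 i) = true := by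
  decide +kernel

theorem l2_30_4 : ((List.range 30).all fun i => !decide (InR 30 4 i) || l2B 30 4 i) = true := by
  decide +kernel

theorem l2_22_0 : ((List.range 22).all fun i => !decide (InR 22 0 i) || l2B 22 0 i) = true := by
  decide +kernel

theorem l2_22_1 : ((List.range 22).all fun i => !decide (InR 22 1 i) || l2B 22 1 i) = true := by
  decide +kernel

theorem l2_22_2 : ((List.range 22).all fun i => !decide (InR 22 2 i) || l2B 22 2 i) = true := by
  decide +kernel

theorem l2_22_3 : ((List.range 22).all fun i => !decide (InR 22 3 i) || l2B 22 3 i) = true := by
  decide +kernel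

theorem l2_22_4 : ((List.range 22).all fun i => !decide (InR 22 4 i) || l2B 22 4 i) = true := by
  decide +kernel

theorem l2_23_0 : ((List.range 23).all fun i => !decide (InR 23 0 i) || l2B 23 0 i) = true := by
  decide +kernel

theorem l2_23_1 : ((List.range 23).all fun i => !decide (InR 23 1 i) || l2B 23 1 i) = true := by
  decide +kernel

theorem l2_23_2 : ((List.range 23).all fun i => !decide (InR 23 2 i) || l2B 23 2 i) = true := by
  decide +kernel

theorem l2_23_3 : ((List.range 23).all fun i => !decide (InR 23 3 i) || l2B 23 3 i) = true := by
  decide +kernel

theorem l2_23_4 : ((List.range 23).all fun i => !decide (InR 23 4 i) || l2B 23 4 i) = true := by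
  decide +kernel

end Crest.Agent.R195
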