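import Crest.Agent.R195.Greedy

/-! Row 195: the criterion for the members of the family with at most 36 hooks. -/

set_option autoImplicit false
set_option maxRecDepth 100000
set_option Elab.async false

namespace Crest.Agent.R195

theorem l2_28_0 : ((List.range 28).all fun i => !decide (InR 28 0 i) || l2B 28 0 i) = true := by
  decide +kernel

theorem l2_28_1 : ((List.range 28).all fun i => !decide (InR 28 1 i) || l2B 28 1 i) = true := by
  decide +kernel

theorem l2_28_2 : ((List.range 28).all fun i => !decide (InR 28 2 i) || l2B 28 2 i) = true := by
  decide +kernel

theorem l2_28_3 : ((List.range 28).all fun i => !decide (InR 28 3 i) || l2B 28 3 i) = true := by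
  decide +kernel

theorem l2_28_4 : ((List.range 28).all fun i => !decide (InR 28 4 i) || l2B 28 4 i) = true := by
  decide +kernel

theorem l2_25_0 : ((List.range 25).all fun i => !decide (InR 25 0 i) || l2B 25 0 i) = true := by
  decide +kernel

theorem l2_25_1 : ((List.range 25).all fun i => !decide (InR 25 1 i) || l2B 25 1 i) = true := by
  decide +kernel

theorem l2_25_2 : ((List.range 25).all fun i => !decide (InR 25 2 i) || l2B 25 2 i) = true := by
  decide +kernel

theorem l2_25_3 : ((List.range 25).all fun i => !decide (InR 25 3 i) || l2B 25 3 i) = true := by
  decide +kernel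

theorem l2_25_4 : ((List.range 25).all fun i => !decide (InR 25 4 i) || l2B 25 4 i) = true := by
  decide +kernel

end Crest.Agent.R195
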