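import Crest.Agent.R195.L2x0
import Crest.Agent.R195.L2x1
import Crest.Agent.R195.L2x2
import Crest.Agent.R195.L2x3
import Crest.Agent.R195.L2x4
import Crest.Agent.R195.L2x5
import Crest.Agent.R195.L2x6
import Crest.Agent.R195.L2x7
import Crest.Agent.R195.L2x8
import Crest.Agent.R195.L2x9
import Crest.Agent.R195.Small

/-! Row 195: assembly. -/

set_option autoImplicit false
set_option maxRecDepth 100000

namespace Crest.Agent.R195

theorem l2_all {d z i : ℕ} (h : InR d z i) (h1 : 7 ≤ d) (h2 : d ≤ 36) : l2B d z i = true := by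
  have key : ((List.range d).all fun i => !decide (InR d z i) || l2B d z i) = true := by
    have hz : z ≤ 4 := h.2.1
    interval_cases d <;> interval_cases z
    · exact l2_7_0
    · exact l2_7_1
    · exact l2_7_2
    · exact l2_7_3
    · exact l2_7_4
    · exact l2_8_0
    · exact l2_8_1
    · exact l2_8_2
    · exact l2_8_3
    · exact l2_8_4
    · exact l2_9_0
    · exact l2_9_1
    · exact l2_9_2
    · exact l2_9_3
    · exact l2_9_4
    · exact l2_10_0
    · exact l2_10_1
    · exact l2_10_2
    · exact l2_10_3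
    · exact l2_10_4
    · exact l2_11_0
    · exact l2_11_1
    · exact l2_11_2
    · exact l2_11_3
    · exact l2_11_4
    · exact l2_12_0
    · exact l2_12_1
    · exact l2_12_2
    · exact l2_12_3
    · exact l2_12_4
    · exact l2_13_0
    · exact l2_13_1
    · exact l2_13_2
    · exact l2_13_3
    · exact l2_13_4
    · exact l2_14_0
    · exact l2_14_1
    · exact l2_14_2
    · exact l2_14_3
    · exact l2_14_4
    · exact l2_15_0
    · exact l2_15_1
    · exact l2_15_2
    · exact l2_15_3
    · exact l2_15_4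
    · exact l2_16_0
    · exact l2_16_1
    · exact l2_16_2
    · exact l2_16_3
    · exact l2_16_4
    · exact l2_17_0
    · exact l2_17_1
    · exact l2_17_2
    · exact l2_17_3
    · exact l2_17_4
    · exact l2_18_0
    · exact l2_18_1
    · exact l2_18_2
    · exact l2_18_3
    · exact l2_18_4
    · exact l2_19_0
    · exact l2_19_1
    · exact l2_19_2
    · exact l2_19_3
    · exact l2_19_4
    · exact l2_20_0
    · exact l2_20_1
    · exact l2_20_2
    · exact l2_20_3
    · exact l2_20_4
    · exact l2_21_0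
    · exact l2_21_1
    · exact l2_21_2
    · exact l2_21_3
    · exact l2_21_4
    · exact l2_22_0
    · exact l2_22_1
    · exact l2_22_2
    · exact l2_22_3
    · exact l2_22_4
    · exact l2_23_0
    · exact l2_23_1
    · exact l2_23_2
    · exact l2_23_3
    · exact l2_23_4
    · exact l2_24_0
    · exact l2_24_1
    · exact l2_24_2
    · exact l2_24_3
    · exact l2_24_4
    · exact l2_25_0
    · exact l2_25_1
    · exact l2_25_2
    · exact l2_25_3
    · exact l2_25_4
    · exact l2_26_0
    · exact l2_26_1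
    · exact l2_26_2
    · exact l2_26_3
    · exact l2_26_4
    · exact l2_27_0
    · exact l2_27_1
    · exact l2_27_2
    · exact l2_27_3
    · exact l2_27_4
    · exact l2_28_0
    · exact l2_28_1
    · exact l2_28_2
    · exact l2_28_3
    · exact l2_28_4
    · exact l2_29_0
    · exact l2_29_1
    · exact l2_29_2
    · exact l2_29_3
    · exact l2_29_4
    · exact l2_30_0
    · exact l2_30_1
    · exact l2_30_2
    · exact l2_30_3
    · exact l2_30_4
    · exact l2_31_0
    · exact l2_31_1
    · exact l2_31_2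
    · exact l2_31_3
    · exact l2_31_4
    · exact l2_32_0
    · exact l2_32_1
    · exact l2_32_2
    · exact l2_32_3
    · exact l2_32_4
    · exact l2_33_0
    · exact l2_33_1
    · exact l2_33_2
    · exact l2_33_3
    · exact l2_33_4
    · exact l2_34_0
    · exact l2_34_1
    · exact l2_34_2
    · exact l2_34_3
    · exact l2_34_4
    · exact l2_35_0
    · exact l2_35_1
    · exact l2_35_2
    · exact l2_35_3
    · exact l2_35_4
    · exact l2_36_0
    · exact l2_36_1
    · exact l2_36_2
    · exact l2_36_3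
    · exact l2_36_4
  have hi : i < d := by
    have := h.2.2
    omega
  simpa [h] using List.all_eq_true.1 key i (List.mem_range.2 hi)

theorem small_fam' : ((List.range 7).all fun d => (List.range 5).all fun z =>
    (List.range 7).all fun i => !decide (InR d z i) || (fam d z i).sum == 4 ||
      (fam d z i).sum == 13 || smallK.contains (fam d z i)) = true := by decide +kernel

theorem small_fam (d : ℕ) (hd : d < 7) (z : ℕ) (hz : z < 5) (i : ℕ) (hi : i < 7) (h : InR d z i)
    (h4 : (fam d z i).sum ≠ 4) (h13 : (fam d z i).sum ≠ 13) : fam d z i ∈ smallK := by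
  have := List.all_eq_true.1 (List.all_eq_true.1 (List.all_eq_true.1 small_fam' d
    (List.mem_range.2 hd)) z (List.mem_range.2 hz)) i (List.mem_range.2 hi)
  simpa [h, h4, h13] using this

theorem small_n' : ((List.range 36).all fun n => n == 0 || n == 2 || n == 4 || n == 9 ||
    smallK.any fun μ => μ.sum == n && conjL μ == μ) = true := by decide +kernel

theorem small_n (n : ℕ) (hn : n < 36) (h0 : n ≠ 0) (h2 : n ≠ 2) (h4 : n ≠ 4) (h9 : n ≠ 9) :
    ∃ μ ∈ smallK, μ.sum = n ∧ conjL μ = μ := by
  have := List.all_eq_true.1 small_n' n (List.mem_range.2 hn)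
  simpa [h0, h2, h4, h9] using this

theorem fam_full (d : ℕ) : ∀ z i, InR d z i → (fam d z i).sum ≠ 4 → (fam d z i).sum ≠ 13 →
    Full (fam d z i) := by
  induction d with
  | zero => intro z i h; exact absurd h.1 (by omega)
  | succ d ih =>
    intro z i h h4 h13
    by_cases hd : d + 1 < 7
    · have := h.2
      exact smallK_full _ (small_fam _ hd z (by omega) i (by omega) h h4 h13)
    · have h1 := (hookFacts.famStep d z i h (by omega)).1
      have h2 := hookFacts.famSum d z (i - 1) h1 (by omega)
      have h3 : 10 * 11 ≤ (2 * d + z - 2) * (2 * d + z - 1) :=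
        Nat.mul_le_mul (by omega) (by omega)
      have h5 : 50 ≤ (fam d z (i - 1)).sum := by split_ifs at h2 <;> omega
      refine fam_step h (by omega) (ih z _ h1 (by omega) (by omega)) ?_
      by_cases h36 : 36 ≤ d
      · exact Or.inl h36
      · exact Or.inr (l2_all h (by omega) (by omega))

theorem exists_full (n : ℕ) (hn : 0 < n) (h2 : n ≠ 2) (h4 : n ≠ 4) (h9 : n ≠ 9) :
    ∃ μ : List ℕ, μ.sum = n ∧ SC μ ∧ Full μ := by
  by_cases h : n < 36
  · obtain ⟨μ, hμ, h1, h3⟩ := small_n n h hn.ne' h2 h4 h9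
    exact ⟨μ, h1, h3, smallK_full μ hμ⟩
  · obtain ⟨d, z, i, hR, -, hs⟩ := hookFacts.cover n (by omega)
    exact ⟨_, hs, (hookFacts.famGood d z i hR).sc, fam_full d z i hR (by omega) (by omega)⟩

theorem stair_kron (m : ℕ) (hm : 1 ≤ m) {α : Type} [Fintype α] [DecidableEq α]
    (hα : IsShape α (stair m)) (C : ℕ → ℕ) (hC : IsShape α C) : Kron (stair m) (stair m) C := by
  have hR : InR ((m + 1) / 2) (2 - m % 2) 0 := ⟨by omega, by omega, Or.inl rfl⟩
  have hv := hookFacts.stair m hm
  have hs : Fintype.card α = (fam ((m + 1) / 2) (2 - m % 2) 0).sum :=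
    hα.sz.unique (hv ▸ sz_vec _)
  have ht : Sz (∑ j ∈ Finset.range m, (m - j)) (stair m) :=
    ⟨m, fun j hj => Nat.sub_eq_zero_of_le hj, rfl⟩
  have hn : (fam ((m + 1) / 2) (2 - m % 2) 0).sum = ∑ j ∈ Finset.range m, (m - j) :=
    Sz.unique (hv ▸ sz_vec _) ht
  have key : ∑ j ∈ Finset.range m, (m - j) ≠ 4 ∧ ∑ j ∈ Finset.range m, (m - j) ≠ 13 := by
    by_cases h5 : m < 5
    · interval_cases m <;> decide
    · have h6 : ∑ j ∈ Finset.range 5, (5 - j) ≤ ∑ j ∈ Finset.range m, (m - j) :=
        (Finset.sum_le_sum fun j _ => Nat.sub_le_sub_right (not_lt.1 h5) j).trans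
          (Finset.sum_le_sum_of_subset (Finset.range_mono (not_lt.1 h5)))
      have h7 : ∑ j ∈ Finset.range 5, (5 - j) = 15 := by decide
      omega
  rw [← hv]
  exact (fam_full _ _ _ hR (hn ▸ key.1) (hn ▸ key.2)).kron (hookFacts.famGood _ _ _ hR).sc hC hs

theorem exists_kron (n : ℕ) (hn : 0 < n) (h2 : n ≠ 2) (h4 : n ≠ 4) (h9 : n ≠ 9) :
    ∃ A, IsShape (Fin n) A ∧ ∀ C, IsShape (Fin n) C → Kron A A C := by
  obtain ⟨μ, h1, hs, hf⟩ := exists_full n hn h2 h4 h9
  have hc : Fintype.card (Fin n) = μ.sum := by rw [Fintype.card_fin, h1]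
  refine ⟨vec μ, ?_, fun C hC => hf.kron hs hC hc⟩
  rw [hs.vec_eq, ← hs.rowsOf_colv]
  exact isShape_rowsOf (hc ▸ sz_colv μ)

end Crest.Agent.R195
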