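import Mathlib

/-!
Symmetrisers and antisymmetrisers of labellings, Latin pairs, James' lemma.
-/

set_option autoImplicit false
set_option linter.unusedSectionVars false

namespace Crest.Agent.R195

open Equiv Finset

section Basic

variable {α : Type*} [Fintype α] [DecidableEq α] {κ κ' : Type*}

open Classical in
/-- Permutations preserving a labelling. -/
noncomputable def stab (r : α → κ) : Finset (Perm α) := univ.filter fun g => ∀ a, r (g a) = r a

lemma mem_stab {r : α → κ} {g : Perm α} : g ∈ stab r ↔ ∀ a, r (g a) = r a := by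
  simp [stab]

lemma one_mem_stab (r : α → κ) : (1 : Perm α) ∈ stab r := mem_stab.2 fun _ => rfl

lemma mul_mem_stab {r : α → κ} {g h : Perm α} (hg : g ∈ stab r) (hh : h ∈ stab r) :
    g * h ∈ stab r := mem_stab.2 fun a => by
  rw [Perm.mul_apply, mem_stab.1 hg, mem_stab.1 hh]

lemma inv_mem_stab {r : α → κ} {g : Perm α} (hg : g ∈ stab r) : g⁻¹ ∈ stab r :=
  mem_stab.2 fun a => by
    have := mem_stab.1 hg (g⁻¹ a)
    simpa using this.symm

lemma inv_mem_stab_iff {r : α → κ} {g : Perm α} : g⁻¹ ∈ stab r ↔ g ∈ stab r :=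
  ⟨fun h => by simpa using inv_mem_stab h, inv_mem_stab⟩

lemma mul_mem_stab_left {r : α → κ} {g h : Perm α} (hg : g ∈ stab r) :
    g * h ∈ stab r ↔ h ∈ stab r :=
  ⟨fun H => by simpa using mul_mem_stab (inv_mem_stab hg) H, mul_mem_stab hg⟩

lemma mul_mem_stab_right {r : α → κ} {g h : Perm α} (hg : g ∈ stab r) :
    h * g ∈ stab r ↔ h ∈ stab r :=
  ⟨fun H => by simpa using mul_mem_stab H (inv_mem_stab hg), fun H => mul_mem_stab H hg⟩

lemma swap_mem_stab {r : α → κ} {a b : α} (h : r a = r b) : swap a b ∈ stab r :=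
  mem_stab.2 fun x => by
    rcases eq_or_ne x a with rfl | hxa
    · simp [h]
    rcases eq_or_ne x b with rfl | hxb
    · simp [h]
    rw [swap_apply_of_ne_of_ne hxa hxb]

lemma stab_congr {r : α → κ} {r' : α → κ'} (h : ∀ a b, r a = r b ↔ r' a = r' b) :
    stab r = stab r' := by
  ext g; simp only [mem_stab, h]

lemma card_stab_pos (r : α → κ) : 0 < (stab r).card := card_pos.2 ⟨1, one_mem_stab r⟩

lemma card_stab_ne (r : α → κ) : ((stab r).card : ℂ) ≠ 0 :=
  Nat.cast_ne_zero.2 (card_stab_pos r).ne'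

lemma conj_mem_stab {r : α → κ} {g h : Perm α} :
    g * h * g⁻¹ ∈ stab (r ∘ g.symm) ↔ h ∈ stab r := by
  simp only [mem_stab, Function.comp, Perm.mul_apply, Perm.coe_inv, symm_apply_apply]
  exact ⟨fun H a => by simpa using H (g a), fun H a => H _⟩

/-- The sign of a permutation as a complex number. -/
noncomputable def sg (g : Perm α) : ℂ := (((Perm.sign g : ℤˣ) : ℤ) : ℂ)

@[simp] lemma sg_one : sg (1 : Perm α) = 1 := by simp [sg]

lemma sg_mul (g h : Perm α) : sg (g * h) = sg g * sg h := by simp [sg]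

@[simp] lemma sg_inv (g : Perm α) : sg g⁻¹ = sg g := by simp [sg]

@[simp] lemma sg_symm (g : Perm α) : sg g.symm = sg g := sg_inv g

@[simp] lemma sg_mul_self (g : Perm α) : sg g * sg g = 1 := by
  rw [← sg_inv g, sg_inv, ← sg_inv g]
  nth_rewrite 2 [sg_inv]
  rw [← sg_mul]; simp

lemma sg_ne_zero (g : Perm α) : sg g ≠ 0 := fun h => by
  have := sg_mul_self g; rw [h] at this; simp at this

lemma sg_swap {a b : α} (h : a ≠ b) : sg (swap a b) = -1 := by simp [sg, Perm.sign_swap h]

lemma sg_eq (g : Perm α) : sg g = 1 ∨ sg g = -1 := by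
  rcases Int.units_eq_one_or (Perm.sign g) with h | h <;> simp [sg, h]

@[simp] lemma star_sg (g : Perm α) : star (sg g) = sg g := by simp [sg]

@[simp] lemma conj_sg (g : Perm α) : (starRingEnd ℂ) (sg g) = sg g := by simp [sg]

variable {W W' : Type*} [AddCommGroup W] [Module ℂ W] [AddCommGroup W'] [Module ℂ W']

/-- The sign twist of a representation. -/
noncomputable def twist (σ : Representation ℂ (Perm α) W) : Representation ℂ (Perm α) W where
  toFun g := sg g • σ g
  map_one' := by simp
  map_mul' g h := by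
    rw [sg_mul, map_mul, smul_mul_smul_comm]

lemma twist_apply (σ : Representation ℂ (Perm α) W) (g : Perm α) : twist σ g = sg g • σ g := rfl

@[simp] lemma twist_twist (σ : Representation ℂ (Perm α) W) : twist (twist σ) = σ := by
  ext g v
  simp [twist_apply, smul_smul]

/-- The symmetriser of a labelling. -/
noncomputable def symOp (σ : Representation ℂ (Perm α) W) (r : α → κ) : Module.End ℂ W :=
  ∑ g ∈ stab r, σ g

/-- The antisymmetriser of a labelling. -/
noncomputable def altOp (σ : Representation ℂ (Perm α) W) (c : α → κ) : Module.End ℂ W :=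
  ∑ g ∈ stab c, sg g • σ g

variable (σ : Representation ℂ (Perm α) W)

lemma symOp_twist (r : α → κ) : symOp (twist σ) r = altOp σ r := rfl

lemma altOp_twist (r : α → κ) : altOp (twist σ) r = symOp σ r := by
  rw [← symOp_twist, twist_twist]

lemma symOp_apply (r : α → κ) (v : W) : symOp σ r v = ∑ g ∈ stab r, σ g v := by
  simp [symOp, LinearMap.sum_apply]

lemma altOp_apply (r : α → κ) (v : W) : altOp σ r v = ∑ g ∈ stab r, sg g • σ g v := by
  simp [altOp, LinearMap.sum_apply]

lemma symOp_congr {r : α → κ} {r' : α → κ'} (h : ∀ a b, r a = r b ↔ r' a = r' b) :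
    symOp σ r = symOp σ r' := by rw [symOp, symOp, stab_congr h]

lemma altOp_congr {r : α → κ} {r' : α → κ'} (h : ∀ a b, r a = r b ↔ r' a = r' b) :
    altOp σ r = altOp σ r' := by rw [altOp, altOp, stab_congr h]

lemma mul_symOp {r : α → κ} {g : Perm α} (hg : g ∈ stab r) : σ g * symOp σ r = symOp σ r := by
  rw [symOp, mul_sum]
  refine sum_bij (fun h _ => g * h) (fun h hh => mul_mem_stab hg hh)
    (fun a _ b _ h => mul_left_cancel h)
    (fun h hh => ⟨g⁻¹ * h, mul_mem_stab (inv_mem_stab hg) hh, by simp⟩) (fun h _ => by simp)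

lemma symOp_mul {r : α → κ} {g : Perm α} (hg : g ∈ stab r) : symOp σ r * σ g = symOp σ r := by
  rw [symOp, sum_mul]
  refine sum_bij (fun h _ => h * g) (fun h hh => mul_mem_stab hh hg)
    (fun a _ b _ h => mul_right_cancel h)
    (fun h hh => ⟨h * g⁻¹, mul_mem_stab hh (inv_mem_stab hg), by simp⟩) (fun h _ => by simp)

lemma mul_altOp {c : α → κ} {g : Perm α} (hg : g ∈ stab c) :
    σ g * altOp σ c = sg g • altOp σ c := by
  have := mul_symOp (twist σ) hg
  rw [symOp_twist, twist_apply, smul_mul_assoc] at this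
  rw [← this, smul_smul, sg_mul_self, one_smul, this]

lemma altOp_mul {c : α → κ} {g : Perm α} (hg : g ∈ stab c) :
    altOp σ c * σ g = sg g • altOp σ c := by
  have := symOp_mul (twist σ) hg
  rw [symOp_twist, twist_apply, mul_smul_comm] at this
  rw [← this, smul_smul, sg_mul_self, one_smul, this]

lemma conj_symOp (r : α → κ) (g : Perm α) :
    σ g * symOp σ r = symOp σ (r ∘ g.symm) * σ g := by
  rw [symOp, symOp, mul_sum, sum_mul]
  refine sum_bij (fun h _ => g * h * g⁻¹) (fun h hh => conj_mem_stab.2 hh)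
    (fun a _ b _ h => by simpa using h)
    (fun h hh => ⟨g⁻¹ * h * g, (conj_mem_stab (g := g)).1 (by simpa [mul_assoc] using hh), by
      simp [mul_assoc]⟩) (fun h _ => by rw [← map_mul, ← map_mul]; simp)

lemma conj_altOp (c : α → κ) (g : Perm α) :
    σ g * altOp σ c = altOp σ (c ∘ g.symm) * σ g := by
  have := conj_symOp (twist σ) c g
  rw [symOp_twist, symOp_twist, twist_apply, smul_mul_assoc, mul_smul_comm] at this
  exact smul_right_injective _ (sg_ne_zero g) this

lemma symOp_of_inv {r : α → κ} {v : W} (hv : ∀ g ∈ stab r, σ g v = v) :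
    symOp σ r v = ((stab r).card : ℂ) • v := by
  rw [symOp_apply, sum_congr rfl hv, sum_const, Nat.cast_smul_eq_nsmul]

lemma altOp_of_inv {c : α → κ} {v : W} (hv : ∀ g ∈ stab c, σ g v = sg g • v) :
    altOp σ c v = ((stab c).card : ℂ) • v := by
  rw [← symOp_twist]
  exact symOp_of_inv _ fun g hg => by simp [twist_apply, hv g hg, smul_smul]

lemma rep_symOp {r : α → κ} {g : Perm α} (hg : g ∈ stab r) (v : W) :
    σ g (symOp σ r v) = symOp σ r v := by
  rw [← Module.End.mul_apply, mul_symOp σ hg]

lemma rep_altOp {c : α → κ} {g : Perm α} (hg : g ∈ stab c) (v : W) :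
    σ g (altOp σ c v) = sg g • altOp σ c v := by
  rw [← Module.End.mul_apply, mul_altOp σ hg]; rfl

lemma symOp_rep {r : α → κ} {g : Perm α} (hg : g ∈ stab r) (v : W) :
    symOp σ r (σ g v) = symOp σ r v := by
  rw [← Module.End.mul_apply, symOp_mul σ hg]

lemma altOp_rep {c : α → κ} {g : Perm α} (hg : g ∈ stab c) (v : W) :
    altOp σ c (σ g v) = sg g • altOp σ c v := by
  rw [← Module.End.mul_apply, altOp_mul σ hg]; rfl

lemma rep_symOp_conj (r : α → κ) (g : Perm α) (v : W) :
    σ g (symOp σ r v) = symOp σ (r ∘ g.symm) (σ g v) := by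
  rw [← Module.End.mul_apply, conj_symOp]; rfl

lemma rep_altOp_conj (c : α → κ) (g : Perm α) (v : W) :
    σ g (altOp σ c v) = altOp σ (c ∘ g.symm) (σ g v) := by
  rw [← Module.End.mul_apply, conj_altOp]; rfl

lemma symOp_symOp (r : α → κ) (v : W) :
    symOp σ r (symOp σ r v) = ((stab r).card : ℂ) • symOp σ r v :=
  symOp_of_inv σ fun _ hg => rep_symOp σ hg v

lemma altOp_altOp (c : α → κ) (v : W) :
    altOp σ c (altOp σ c v) = ((stab c).card : ℂ) • altOp σ c v :=
  altOp_of_inv σ fun _ hg => rep_altOp σ hg v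

/-- An antisymmetriser kills a vector fixed by one of its transpositions. -/
lemma altOp_eq_zero {c : α → κ} {a b : α} (hab : a ≠ b) (hc : c a = c b) {v : W}
    (hv : σ (swap a b) v = v) : altOp σ c v = 0 := by
  have := altOp_rep σ (swap_mem_stab hc) v
  rw [hv, sg_swap hab, neg_smul, one_smul] at this
  have h2 : (2 : ℂ) • altOp σ c v = 0 := by
    rw [two_smul]; nth_rewrite 1 [this]; simp
  simpa using h2

/-- A symmetriser kills a vector negated by one of its transpositions. -/
lemma symOp_eq_zero {r : α → κ} {a b : α} (hab : a ≠ b) (hr : r a = r b) {v : W}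
    (hv : σ (swap a b) v = -v) : symOp σ r v = 0 := by
  rw [← altOp_twist]
  exact altOp_eq_zero _ hab hr (by simp [twist_apply, hv, sg_swap hab])

lemma altOp_symOp_eq_zero {c : α → κ} {r : α → κ'} {a b : α} (hab : a ≠ b) (hc : c a = c b)
    (hr : r a = r b) (v : W) : altOp σ c (symOp σ r v) = 0 :=
  altOp_eq_zero σ hab hc (rep_symOp σ (swap_mem_stab hr) v)

lemma symOp_altOp_eq_zero {c : α → κ} {r : α → κ'} {a b : α} (hab : a ≠ b) (hc : c a = c b)
    (hr : r a = r b) (v : W) : symOp σ r (altOp σ c v) = 0 := by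
  rw [← altOp_twist, ← symOp_twist]
  exact altOp_symOp_eq_zero _ hab hr hc v

variable {σ} {τ : Representation ℂ (Perm α) W'}

lemma map_symOp (φ : σ.IntertwiningMap τ) (r : α → κ) (v : W) :
    φ (symOp σ r v) = symOp τ r (φ v) := by
  simp [symOp_apply, map_sum, φ.isIntertwining]

lemma map_altOp (φ : σ.IntertwiningMap τ) (c : α → κ) (v : W) :
    φ (altOp σ c v) = altOp τ c (φ v) := by
  simp [altOp_apply, map_sum, φ.isIntertwining]

lemma symOp_mem (U : Subrepresentation σ) (r : α → κ) {v : W} (hv : v ∈ U.toSubmodule) :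
    symOp σ r v ∈ U.toSubmodule := by
  rw [symOp_apply]
  exact Submodule.sum_mem _ fun g _ => U.apply_mem_toSubmodule g hv

lemma altOp_mem (U : Subrepresentation σ) (c : α → κ) {v : W} (hv : v ∈ U.toSubmodule) :
    altOp σ c v ∈ U.toSubmodule := by
  rw [altOp_apply]
  exact Submodule.sum_mem _ fun g _ => Submodule.smul_mem _ _ (U.apply_mem_toSubmodule g hv)

/-- The inclusion of a subrepresentation. -/
def subIncl {G : Type*} [Monoid G] {σ : Representation ℂ G W} (U : Subrepresentation σ) :
    U.toRepresentation.IntertwiningMap σ where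
  toLinearMap := U.toSubmodule.subtype
  isIntertwining' _ := rfl

@[simp] lemma subIncl_apply {G : Type*} [Monoid G] {σ : Representation ℂ G W}
    (U : Subrepresentation σ) (v : U.toSubmodule) : subIncl U v = v.1 := rfl

lemma coe_symOp (U : Subrepresentation σ) (r : α → κ) (v : U.toSubmodule) :
    (symOp U.toRepresentation r v).1 = symOp σ r v.1 := map_symOp (subIncl U) r v

lemma coe_altOp (U : Subrepresentation σ) (c : α → κ) (v : U.toSubmodule) :
    (altOp U.toRepresentation c v).1 = altOp σ c v.1 := map_altOp (subIncl U) c v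

end Basic

section Latin

variable {α : Type*} [Fintype α] [DecidableEq α] {κ κ' : Type*}

/-- `r` is Latin on the blocks of `c`: on every block of size `s` it takes each of the values
`0, …, s - 1` once. -/
structure Latin (r : α → ℕ) (c : α → κ) : Prop where
  inj : ∀ a b, c a = c b → r a = r b → a = b
  down : ∀ a i, i < r a → ∃ b, c b = c a ∧ r b = i

/-- The content of a word: the number of letters with a given value. -/
def cont (r : α → ℕ) (i : ℕ) : ℕ := (univ.filter fun a => r a = i).card

lemma Latin.congr {r : α → ℕ} {c : α → κ} {c' : α → κ'} (h : Latin r c)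
    (hc : ∀ a b, c a = c b ↔ c' a = c' b) : Latin r c' :=
  ⟨fun a b h1 => h.inj a b ((hc a b).2 h1), fun a i hi => by
    obtain ⟨b, hb, hb'⟩ := h.down a i hi
    exact ⟨b, (hc _ _).1 hb, hb'⟩⟩

lemma Latin.comp {β : Type*} {r : α → ℕ} {c : α → κ} (h : Latin r c) (e : β ≃ α) :
    Latin (r ∘ e) (c ∘ e) :=
  ⟨fun a b h1 h2 => e.injective (h.inj _ _ h1 h2), fun a i hi => by
    obtain ⟨b, hb, hb'⟩ := h.down (e a) i hi
    exact ⟨e.symm b, by simpa using hb, by simpa using hb'⟩⟩

lemma cont_comp {β : Type*} [Fintype β] (r : α → ℕ) (e : β ≃ α) : cont (r ∘ e) = cont r := by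
  funext i
  unfold cont
  refine card_bij (fun b _ => e b) (by simp) (fun a _ b _ h => e.injective h)
    (fun a ha => ⟨e.symm a, by simpa using ha, by simp⟩)

open Classical in
/-- In a Latin pair every value below the block size is taken. -/
lemma Latin.exists_of_lt {r : α → ℕ} {c : α → κ} (h : Latin r c) (a : α) {i : ℕ}
    (hi : i < (univ.filter fun b => c b = c a).card) : ∃ b, c b = c a ∧ r b = i := by
  by_contra hne
  push Not at hne
  have : ∀ b ∈ univ.filter (fun b => c b = c a), r b ∈ range i := by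
    intro b hb
    have hb' := (mem_filter.1 hb).2
    rw [mem_range]
    by_contra hlt
    rcases (not_lt.1 hlt).eq_or_lt with h1 | h1
    · exact hne b hb' h1.symm
    · obtain ⟨b', h2, h3⟩ := h.down b i h1
      exact hne b' (h2.trans hb') h3
  have := card_le_card_of_injOn r this (fun x hx y hy hxy => h.inj x y
    (by rw [(mem_filter.1 (mem_coe.1 hx)).2, (mem_filter.1 (mem_coe.1 hy)).2]) hxy)
  rw [card_range] at this
  omega

/-- Key lemma: a word injective on the blocks dominates a column permutation of the Latin word. -/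
lemma Latin.exists_le {r : α → ℕ} {c : α → κ} (h : Latin r c) {w : α → ℕ}
    (hw : ∀ a b, c a = c b → w a = w b → a = b) : ∃ g ∈ stab c, ∀ a, r (g a) ≤ w a := by
  classical
  set ρ : α → ℕ := fun a => (univ.filter fun b => c b = c a ∧ w b < w a).card with hρ
  have h1 : ∀ a, ρ a ≤ w a := fun a => by
    have := card_le_card_of_injOn (s := univ.filter fun b => c b = c a ∧ w b < w a)
      (t := range (w a)) w (fun b hb => mem_range.2 (mem_filter.1 hb).2.2)
      (fun x hx y hy hxy => hw x y
        (by rw [(mem_filter.1 (mem_coe.1 hx)).2.1, (mem_filter.1 (mem_coe.1 hy)).2.1]) hxy)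
    rwa [card_range] at this
  have h2 : ∀ a, ρ a < (univ.filter fun b => c b = c a).card := fun a => by
    refine card_lt_card ⟨fun b hb => ?_, fun hs => ?_⟩
    · simp only [mem_filter, mem_univ, true_and] at hb ⊢; exact hb.1
    · have := hs (show a ∈ _ by simp)
      simp at this
  have h3 : ∀ a a', c a = c a' → w a < w a' → ρ a < ρ a' := fun a a' hc hlt => by
    refine card_lt_card ⟨fun b hb => ?_, fun hs => ?_⟩
    · simp only [mem_filter, mem_univ, true_and] at hb ⊢
      exact ⟨hb.1.trans hc, hb.2.trans hlt⟩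
    · have := hs (show a ∈ _ by simp [hc, hlt])
      simp at this
  choose f hf1 hf2 using fun a => h.exists_of_lt a (h2 a)
  have hinj : Function.Injective f := fun a a' he => by
    have hc : c a = c a' := by rw [← hf1 a, he, hf1]
    have hr : ρ a = ρ a' := by rw [← hf2 a, he, hf2]
    refine hw a a' hc ?_
    rcases lt_trichotomy (w a) (w a') with hlt | heq | hlt
    · exact absurd hr (h3 a a' hc hlt).ne
    · exact heq
    · exact absurd hr (h3 a' a hc.symm hlt).ne'
  refine ⟨Equiv.ofBijective f (Finite.injective_iff_bijective.1 hinj), mem_stab.2 hf1,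
    fun a => ?_⟩
  show r (f a) ≤ w a
  rw [hf2]; exact h1 a

lemma Latin.sum_le {r : α → ℕ} {c : α → κ} (h : Latin r c) {w : α → ℕ}
    (hw : ∀ a b, c a = c b → w a = w b → a = b) : ∑ a, r a ≤ ∑ a, w a := by
  obtain ⟨g, -, hg⟩ := h.exists_le hw
  rw [← Equiv.sum_comp g r]
  exact sum_le_sum fun a _ => hg a

/-- James' lemma for words. -/
lemma Latin.exists_eq {r : α → ℕ} {c : α → κ} (h : Latin r c) {w : α → ℕ}
    (hw : ∀ a b, c a = c b → w a = w b → a = b) (hs : ∑ a, w a ≤ ∑ a, r a) :
    ∃ g ∈ stab c, w = r ∘ g := by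
  obtain ⟨g, hg, hle⟩ := h.exists_le hw
  refine ⟨g, hg, funext fun a => ?_⟩
  rw [← Equiv.sum_comp g r] at hs
  have := (sum_eq_sum_iff_of_le (s := univ) (fun a _ => hle a)).1
    (le_antisymm (sum_le_sum fun a _ => hle a) hs) a (mem_univ a)
  exact this.symm

/-- Dominance (Gale–Ryser direction). -/
lemma Latin.card_lt_le {r : α → ℕ} {c : α → κ} (h : Latin r c) {w : α → ℕ}
    (hw : ∀ a b, c a = c b → w a = w b → a = b) (k : ℕ) :
    (univ.filter fun a => w a < k).card ≤ (univ.filter fun a => r a < k).card := by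
  obtain ⟨g, -, hle⟩ := h.exists_le hw
  refine card_le_card_of_injOn g (fun a ha => ?_) (fun a _ b _ h => g.injective h)
  simp only [coe_filter, mem_univ, true_and, Set.mem_ofPred_eq] at ha ⊢
  exact (hle a).trans_lt ha

/-- Two Latin words on the same blocks differ by a block permutation. -/
lemma Latin.exists_eq_of_latin {r r' : α → ℕ} {c : α → κ} (h : Latin r c) (h' : Latin r' c) :
    ∃ g ∈ stab c, r' = r ∘ g :=
  h.exists_eq h'.inj (h'.sum_le h.inj)

lemma Latin.eq_one {r : α → ℕ} {c : α → κ} (h : Latin r c) {g : Perm α} (hg : g ∈ stab c)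
    (hr : g ∈ stab r) : g = 1 :=
  Equiv.ext fun a => h.inj _ _ (mem_stab.1 hg a) (mem_stab.1 hr a)

lemma sum_eq_of_cont {β : Type*} [Fintype β] {r : α → ℕ} {w : β → ℕ} (h : cont r = cont w)
    (F : ℕ → ℕ) : ∑ a, F (r a) = ∑ b, F (w b) := by
  classical
  set s : Finset ℕ := univ.image r ∪ univ.image w
  rw [← sum_fiberwise_of_maps_to (s := univ) (t := s) (g := r)
      (fun a _ => mem_union_left _ (mem_image_of_mem _ (mem_univ a))),
    ← sum_fiberwise_of_maps_to (s := univ) (t := s) (g := w)
      (fun a _ => mem_union_right _ (mem_image_of_mem _ (mem_univ a)))]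
  refine sum_congr rfl fun i _ => ?_
  have e1 : ∑ a with r a = i, F (r a) = ∑ a with r a = i, F i :=
    sum_congr rfl fun a ha => by rw [(mem_filter.1 ha).2]
  have e2 : ∑ a with w a = i, F (w a) = ∑ a with w a = i, F i :=
    sum_congr rfl fun a ha => by rw [(mem_filter.1 ha).2]
  rw [e1, e2, sum_const, sum_const]
  exact congrArg (· • F i) (congrFun h i)

/-- Words with equal content differ by a bijection. -/
lemma exists_equiv_of_cont {β : Type*} [Fintype β] {r : α → ℕ} {w : β → ℕ}
    (h : cont r = cont w) : ∃ e : β ≃ α, w = r ∘ e := by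
  classical
  have : ∀ i, Nonempty ({b // w b = i} ≃ {a // r a = i}) := fun i =>
    Fintype.card_eq.1 (by rw [Fintype.card_subtype, Fintype.card_subtype]; exact (congrFun h i).symm)
  refine ⟨Equiv.ofFiberEquiv (fun i => (this i).some), funext fun b => ?_⟩
  exact (Equiv.ofFiberEquiv_map _ b).symm

variable {W : Type*} [AddCommGroup W] [Module ℂ W] (σ : Representation ℂ (Perm α) W)

/-- James' lemma: `alt ∘ g` on an `r`-invariant vector gives a multiple of `alt`. -/
lemma Latin.james {r : α → ℕ} {c : α → κ} (h : Latin r c) {v : W}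
    (hv : ∀ g ∈ stab r, σ g v = v) (g : Perm α) :
    ∃ z : ℂ, altOp σ c (σ g v) = z • altOp σ c v := by
  by_cases hw : ∀ a b, c a = c b → (r ∘ g.symm) a = (r ∘ g.symm) b → a = b
  · obtain ⟨k, hk, he⟩ := h.exists_eq hw (le_of_eq (Equiv.sum_comp g.symm r))
    have hkg : k * g ∈ stab r := mem_stab.2 fun a => by
      have := congrFun he (g a)
      simpa using this.symm
    refine ⟨sg k, ?_⟩
    have : σ g v = σ k⁻¹ v := by
      conv_rhs => rw [← hv _ hkg, ← Module.End.mul_apply, ← map_mul]
      simp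
    rw [this, altOp_rep σ (inv_mem_stab hk), sg_inv]
  · push Not at hw
    obtain ⟨a, b, hc, hr, hab⟩ := hw
    refine ⟨0, ?_⟩
    rw [zero_smul]
    refine altOp_eq_zero σ hab hc ?_
    have hs : g⁻¹ * swap a b * g ∈ stab r := by
      rw [← conj_mem_stab (g := g)]
      simpa [mul_assoc] using swap_mem_stab hr
    conv_rhs => rw [← hv _ hs, ← Module.End.mul_apply, ← map_mul]
    rw [← Module.End.mul_apply, ← map_mul]
    simp [← mul_assoc]

end Latin

end Crest.Agent.R195
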