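import Crest.Agent.R195.RepSpecht

/-!
Classification of the irreducible representations of the symmetric groups.
-/

set_option autoImplicit false
set_option linter.unusedSectionVars false

namespace Crest.Agent.R195

open Equiv Finset

variable {α : Type*} [Fintype α] [DecidableEq α]

/-- The conjugate shape of a partition. -/
def pshape {n : ℕ} (p : n.Partition) (i : ℕ) : ℕ := (p.parts.filter fun x => i < x).card

lemma sum_card_filter_lt (s : Multiset ℕ) (N : ℕ) (hN : ∀ x ∈ s, x ≤ N) :
    ∑ i ∈ range N, (s.filter fun x => i < x).card = s.sum := by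
  induction s using Multiset.induction_on with
  | empty => simp
  | cons a s ih =>
    have ha : a ≤ N := hN a (Multiset.mem_cons_self a s)
    have h1 : ∀ i, ((a ::ₘ s).filter fun x => i < x).card =
        (if i < a then 1 else 0) + (s.filter fun x => i < x).card := fun i => by
      rw [Multiset.filter_cons]
      split_ifs <;> simp [add_comm]
    simp only [h1, sum_add_distrib, Multiset.sum_cons]
    rw [ih fun x hx => hN x (Multiset.mem_cons_of_mem hx)]
    congr 1
    rw [← sum_filter, sum_const, smul_eq_mul, mul_one]
    have : (range N).filter (fun i => i < a) = range a := by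
      ext i; simp only [mem_filter, mem_range]; omega
    rw [this, card_range]

lemma isShape_pshape (p : (Fintype.card α).Partition) : IsShape α (pshape p) := by
  have hle : ∀ x ∈ p.parts, x ≤ Fintype.card α := fun x hx => by
    rw [← p.parts_sum]; exact Multiset.le_sum_of_mem hx
  refine isShape_of_sum (fun i j hij => Multiset.card_le_card
    (Multiset.monotone_filter_right _ fun x hx => hij.trans_lt hx)) (N := Fintype.card α) ?_ ?_
  · rw [pshape, Multiset.card_eq_zero, Multiset.filter_eq_nil]
    exact fun x hx => not_lt.2 (hle x hx)
  · exact (sum_card_filter_lt _ _ hle).trans p.parts_sum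

lemma card_filter_lt_succ (s : Multiset ℕ) (k : ℕ) :
    (s.filter fun x => k < x).card = s.count (k + 1) + (s.filter fun x => k + 1 < x).card := by
  induction s using Multiset.induction_on with
  | empty => simp
  | cons a s ih =>
    rw [Multiset.filter_cons, Multiset.filter_cons, Multiset.count_cons, Multiset.card_add,
      Multiset.card_add, ih]
    split_ifs <;> simp <;> omega

lemma pshape_injective {n : ℕ} : Function.Injective (pshape : n.Partition → ℕ → ℕ) := by
  intro p q h
  ext k
  rcases k with _ | k
  · rw [Multiset.count_eq_zero.2 fun h => lt_irrefl 0 (p.parts_pos h),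
      Multiset.count_eq_zero.2 fun h => lt_irrefl 0 (q.parts_pos h)]
  · have h1 := card_filter_lt_succ p.parts k
    have h2 := card_filter_lt_succ q.parts k
    have h3 := congrFun h k
    have h4 := congrFun h (k + 1)
    simp only [pshape] at h3 h4
    omega

variable {W : Type*} [AddCommGroup W] [Module ℂ W] [FiniteDimensional ℂ W]

lemma character_congr (σ : Representation ℂ (Perm α) W) {g h : Perm α}
    (hp : g.partition = h.partition) : σ.character g = σ.character h := by
  obtain ⟨c, hc⟩ := isConj_iff.1 (Perm.partition_eq_of_isConj.2 hp)
  rw [← hc, Representation.char_conj]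

/-- An orthonormal family of class functions has at most as many members as there are
partitions. -/
lemma card_le_of_orth {ι : Type*} [Fintype ι] [DecidableEq ι] (χ : ι → Perm α → ℂ)
    (hc : ∀ i g h, g.partition = h.partition → χ i g = χ i h)
    (ho : ∀ i j, (Nat.card (Perm α) : ℂ)⁻¹ * ∑ g, χ i g * χ j g⁻¹ = if i = j then 1 else 0) :
    Fintype.card ι ≤ Fintype.card (Fintype.card α).Partition := by
  classical
  have hli : LinearIndependent ℂ χ := by
    rw [Fintype.linearIndependent_iff]
    intro z hz j
    have h1 : ∀ g, ∑ i, z i * χ i g = 0 := fun g => by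
      simpa [Finset.sum_apply] using congrFun hz g
    have h2 : ∑ i, z i * ((Nat.card (Perm α) : ℂ)⁻¹ * ∑ g, χ i g * χ j g⁻¹) = 0 := by
      simp only [mul_sum]
      rw [sum_comm]
      refine sum_eq_zero fun g _ => ?_
      have : ∑ i, z i * ((Nat.card (Perm α) : ℂ)⁻¹ * (χ i g * χ j g⁻¹)) =
          (∑ i, z i * χ i g) * ((Nat.card (Perm α) : ℂ)⁻¹ * χ j g⁻¹) := by
        rw [sum_mul]; exact sum_congr rfl fun i _ => by ring
      rw [this, h1, zero_mul]
    simp only [ho] at h2
    simpa using h2
  let L : ((Fintype.card α).Partition → ℂ) →ₗ[ℂ] (Perm α → ℂ) :=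
    LinearMap.funLeft ℂ ℂ Perm.partition
  let F : ι → (Fintype.card α).Partition → ℂ := fun i p =>
    if h : ∃ g : Perm α, g.partition = p then χ i h.choose else 0
  have hF : L ∘ F = χ := by
    funext i g
    have h : ∃ g' : Perm α, g'.partition = g.partition := ⟨g, rfl⟩
    show F i g.partition = χ i g
    simp only [F, dif_pos h]
    exact hc i _ _ h.choose_spec
  rw [← hF] at hli
  have := (hli.of_comp L).fintype_card_le_finrank
  rwa [Module.finrank_fintype_fun_eq_card] at this

/-- Every irreducible representation of a symmetric group has a shape. -/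
theorem exists_hasShape_of_irreducible (σ : Representation ℂ (Perm α) W) [σ.IsIrreducible] :
    ∃ lam, HasShape σ lam := by
  classical
  by_contra hne
  push Not at hne
  have hirr := fun p : (Fintype.card α).Partition => specht_irreducible (isShape_pshape p)
  have := card_le_of_orth (α := α) (ι := Option (Fintype.card α).Partition)
    (fun i => i.elim σ.character fun p => (spechtR α (pshape p)).character) ?_ ?_
  · simp at this
  · rintro (_ | p) g h hp
    · exact character_congr _ hp
    · exact character_congr _ hp
  · rintro (_ | p) (_ | q)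
    · simp only [Option.elim]
      rw [Representation.char_orthonormal, if_pos ⟨Representation.Equiv.refl σ⟩, if_pos trivial]
    · simp only [Option.elim]
      have := hirr q
      rw [Representation.char_orthonormal, if_neg, if_neg (by simp)]
      rintro ⟨φ⟩
      exact hne _ ((hasShape_specht (isShape_pshape q)).map_inj φ.toIntertwiningMap
        φ.toLinearEquiv.injective)
    · simp only [Option.elim]
      have := hirr p
      rw [Representation.char_orthonormal, if_neg, if_neg (by simp)]
      rintro ⟨φ⟩
      exact hne _ ((hasShape_specht (isShape_pshape p)).of_surj φ.toIntertwiningMap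
        φ.toLinearEquiv.surjective)
    · simp only [Option.elim]
      have := hirr p
      have := hirr q
      rw [Representation.char_orthonormal]
      by_cases hpq : p = q
      · subst hpq
        rw [if_pos ⟨Representation.Equiv.refl _⟩, if_pos rfl]
      · rw [if_neg, if_neg (by simpa using hpq)]
        rintro ⟨φ⟩
        exact hpq (pshape_injective ((hasShape_specht (isShape_pshape p)).unique
          ((hasShape_specht (isShape_pshape q)).map_inj φ.toIntertwiningMap
            φ.toLinearEquiv.injective)))

/-- The underlying space of a subrepresentation (type synonym with group instances). -/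
def SubT {G V : Type*} [Monoid G] [AddCommGroup V] [Module ℂ V] {ρ : Representation ℂ G V}
    (U : Subrepresentation ρ) : Type _ := U.toSubmodule

section SubT

variable {G V : Type*} [Monoid G] [AddCommGroup V] [Module ℂ V] {ρ : Representation ℂ G V}
    (U : Subrepresentation ρ)

instance : AddCommGroup (SubT U) := inferInstanceAs (AddCommGroup U.toSubmodule)
instance : Module ℂ (SubT U) := inferInstanceAs (Module ℂ U.toSubmodule)
instance [FiniteDimensional ℂ V] : FiniteDimensional ℂ (SubT U) :=
  inferInstanceAs (FiniteDimensional ℂ U.toSubmodule)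

/-- The representation on a subrepresentation. -/
def subR : Representation ℂ G (SubT U) := U.toRepresentation

/-- The inclusion of a subrepresentation. -/
def subI : (subR U).IntertwiningMap ρ := subIncl U

lemma subI_injective : Function.Injective (subI U) := fun _ _ h => Subtype.ext h

lemma subI_mem (x : SubT U) : subI U x ∈ U.toSubmodule := x.2

/-- An element of the subrepresentation. -/
def SubT.mk (x : V) (hx : x ∈ U.toSubmodule) : SubT U := ⟨x, hx⟩

@[simp] lemma subI_mk (x : V) (hx : x ∈ U.toSubmodule) : subI U (SubT.mk U x hx) = x := rfl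

lemma subR_irreducible (hU : IsAtom U) : (subR U).IsIrreducible := by
  have hne : ∃ x : SubT U, x ≠ 0 := by
    by_contra h
    push Not at h
    apply hU.1
    apply Subrepresentation.toSubmodule_injective
    refine eq_bot_iff.2 fun x hx => ?_
    exact congrArg (subI U) (h (SubT.mk U x hx))
  obtain ⟨x, hx⟩ := hne
  have hnt : (⊥ : Subrepresentation (subR U)) ≠ ⊤ := fun he => by
    have : x ∈ (⊥ : Subrepresentation (subR U)).toSubmodule := by
      rw [he]; trivial
    exact hx this
  have : Nontrivial (Subrepresentation (subR U)) := ⟨⊥, ⊤, hnt⟩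
  refine ⟨fun T => ?_⟩
  let T' : Subrepresentation ρ := ⟨T.toSubmodule.map (subI U).toLinearMap, by
    rintro g _ ⟨y, hy, rfl⟩
    exact ⟨_, T.apply_mem_toSubmodule g hy, rfl⟩⟩
  have hle : T' ≤ U := by
    rintro _ ⟨y, -, rfl⟩
    exact subI_mem U y
  rcases hle.eq_or_lt with h | h
  · right
    apply Subrepresentation.toSubmodule_injective
    refine eq_top_iff.2 fun y _ => ?_
    have : subI U y ∈ T'.toSubmodule := by rw [h]; exact subI_mem U y
    obtain ⟨z, hz, he⟩ := this
    rwa [← subI_injective U he]
  · left
    apply Subrepresentation.toSubmodule_injective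
    refine eq_bot_iff.2 fun y hy => ?_
    have : subI U y ∈ T'.toSubmodule := ⟨y, hy, rfl⟩
    rw [hU.2 _ h] at this
    exact subI_injective U (this.trans (map_zero _).symm)

lemma exists_atom_le [FiniteDimensional ℂ V] (hU : U ≠ ⊥) :
    ∃ T : Subrepresentation ρ, IsAtom T ∧ T ≤ U := by
  have : WellFoundedLT (Subrepresentation ρ) :=
    (show StrictMono (Subrepresentation.toSubmodule : Subrepresentation ρ → Submodule ℂ V) from
      fun _ _ h => h).wellFoundedLT
  exact (eq_bot_or_exists_atom_le U).resolve_left hU

end SubT

/-- Every nonzero subrepresentation contains a Specht module. -/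
theorem exists_hasShape_sub (σ : Representation ℂ (Perm α) W) (U : Subrepresentation σ)
    (hU : U ≠ ⊥) : ∃ lam, ∃ φ : (spechtR α lam).IntertwiningMap σ, IsShape α lam ∧
      Function.Injective φ ∧ ∀ x, φ x ∈ U.toSubmodule := by
  obtain ⟨T, hT, hle⟩ := exists_atom_le U hU
  have := subR_irreducible T hT
  obtain ⟨lam, H⟩ := exists_hasShape_of_irreducible (subR T)
  obtain ⟨φ, hφ⟩ := H.exists_inj
  exact ⟨lam, (subI T).comp φ, H.isShape, (subI_injective T).comp hφ,
    fun x => hle (subI_mem T _)⟩

/-- Every nonzero finite-dimensional representation of a symmetric group has a shape. -/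
theorem exists_hasShape (σ : Representation ℂ (Perm α) W) [Nontrivial W] :
    ∃ lam, HasShape σ lam := by
  obtain ⟨lam, φ, hl, hφ, -⟩ := exists_hasShape_sub σ ⊤ (fun h => by
    obtain ⟨x, hx⟩ := exists_ne (0 : W)
    have : x ∈ (⊥ : Subrepresentation σ).toSubmodule := by rw [← h]; trivial
    exact hx this)
  exact ⟨lam, (hasShape_specht hl).map_inj φ hφ⟩

end Crest.Agent.R195
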