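import Crest.Agent.R195.RepWord
import Crest.Prelude.Def_SpechtModule

/-!
Positivity of Kronecker coefficients: definition, symmetries, semigroup property and the bridge
to the final statements.
-/

set_option autoImplicit false
set_option linter.unusedSectionVars false

namespace Crest.Agent.R195

open Equiv Finset
open scoped TensorProduct

variable {α β : Type*} [Fintype α] [DecidableEq α] [Fintype β] [DecidableEq β]
  {κ κ' κ'' : Type*}

/-- The module of pairs of words. -/
noncomputable abbrev pairRep (α : Type*) : Representation ℂ (Perm α) ((α → ℕ × ℕ) →₀ ℂ) :=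
  lwordRep α (ℕ × ℕ)

/-- The tensor product of two polytabloids as a vector of the pair module. -/
noncomputable def poly2 (r1 : α → ℕ) (c1 : α → κ) (r2 : α → ℕ) (c2 : α → κ') :
    (α → ℕ × ℕ) →₀ ℂ := wmul (poly r1 c1) (poly r2 c2)

/-- `S^A ⊗ S^B` contains `S^C`, on the alphabet `α`. -/
def KronOn (α : Type*) [Fintype α] [DecidableEq α] (A B C : ℕ → ℕ) : Prop :=
  ∃ r1 c1 r2 c2 : α → ℕ, Latin r1 c1 ∧ cont r1 = A ∧ Latin r2 c2 ∧ cont r2 = B ∧
    Sees (pairRep α) (poly2 r1 c1 r2 c2) C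

/-- Positivity of the Kronecker coefficient `g(A, B, C)`. -/
def Kron (A B C : ℕ → ℕ) : Prop := ∃ n, KronOn (Fin n) A B C

lemma poly2_congr (r1 r2 : α → ℕ) {c1 : α → κ} {c2 : α → κ'} {ι ι' : Type*} {d1 : α → ι}
    {d2 : α → ι'} (h1 : ∀ a b, c1 a = c1 b ↔ d1 a = d1 b) (h2 : ∀ a b, c2 a = c2 b ↔ d2 a = d2 b) :
    poly2 r1 c1 r2 c2 = poly2 r1 d1 r2 d2 := by
  rw [poly2, poly2, poly_congr r1 h1, poly_congr r2 h2]

lemma poly2_apply (r1 : α → ℕ) (c1 : α → κ) (r2 : α → ℕ) (c2 : α → κ') (w : α → ℕ × ℕ) :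
    poly2 r1 c1 r2 c2 w = poly r1 c1 (Prod.fst ∘ w) * poly r2 c2 (Prod.snd ∘ w) :=
  wmul_apply _ _ _

lemma rep_poly2 (g : Perm α) (r1 : α → ℕ) (c1 : α → κ) (r2 : α → ℕ) (c2 : α → κ') :
    pairRep α g (poly2 r1 c1 r2 c2) =
      poly2 (r1 ∘ g.symm) (c1 ∘ g.symm) (r2 ∘ g.symm) (c2 ∘ g.symm) := by
  rw [poly2, rep_wmul, ← wordRep_eq, rep_poly, rep_poly, poly2]

lemma poly2_comp (e : β ≃ α) (r1 : α → ℕ) (c1 : α → κ) (r2 : α → ℕ) (c2 : α → κ') :
    poly2 (r1 ∘ e) (c1 ∘ e) (r2 ∘ e) (c2 ∘ e) = wcomp e (poly2 r1 c1 r2 c2) := by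
  rw [poly2, poly2, poly_comp, poly_comp, wcomp_wmul]

lemma poly2_sum {ι ι' : Type*} (r1 : α → ℕ) (c1 : α → κ) (r2 : α → ℕ) (c2 : α → κ')
    (s1 : β → ℕ) (d1 : β → ι) (s2 : β → ℕ) (d2 : β → ι') :
    poly2 (Sum.elim r1 s1) (Sum.map c1 d1) (Sum.elim r2 s2) (Sum.map c2 d2) =
      wsum (poly2 r1 c1 r2 c2) (poly2 s1 d1 s2 d2) := by
  rw [poly2, poly_sum, poly_sum, wmul_wsum, poly2, poly2]

lemma kronOn_of_sees {r1 r2 : α → ℕ} {c1 : α → κ} {c2 : α → κ'} (h1 : Latin r1 c1)
    (h2 : Latin r2 c2) {A B C : ℕ → ℕ} (hA : cont r1 = A) (hB : cont r2 = B)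
    (H : Sees (pairRep α) (poly2 r1 c1 r2 c2) C) : KronOn α A B C := by
  obtain ⟨d1, hd1⟩ := exists_nat_label c1
  obtain ⟨d2, hd2⟩ := exists_nat_label c2
  exact ⟨r1, d1, r2, d2, h1.congr hd1, hA, h2.congr hd2, hB, by rwa [← poly2_congr r1 r2 hd1 hd2]⟩

lemma KronOn.congr {A B C : ℕ → ℕ} (H : KronOn α A B C) (e : β ≃ α) : KronOn β A B C := by
  obtain ⟨r1, c1, r2, c2, h1, hA, h2, hB, H⟩ := H
  exact ⟨_, _, _, _, h1.comp e, by rw [cont_comp, hA], h2.comp e, by rw [cont_comp, hB], by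
    rw [poly2_comp]; exact H.wcomp e⟩

lemma KronOn.kron {A B C : ℕ → ℕ} (H : KronOn α A B C) : Kron A B C :=
  ⟨_, H.congr (Fintype.equivFin α).symm⟩

lemma kron_of_sees {r1 r2 : α → ℕ} {c1 : α → κ} {c2 : α → κ'} (h1 : Latin r1 c1)
    (h2 : Latin r2 c2) {A B C : ℕ → ℕ} (hA : cont r1 = A) (hB : cont r2 = B)
    (H : Sees (pairRep α) (poly2 r1 c1 r2 c2) C) : Kron A B C :=
  (kronOn_of_sees h1 h2 hA hB H).kron

lemma KronOn.isShape {A B C : ℕ → ℕ} (H : KronOn α A B C) :
    IsShape α A ∧ IsShape α B ∧ IsShape α C := by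
  obtain ⟨r1, c1, r2, c2, h1, rfl, h2, rfl, H⟩ := H
  exact ⟨h1.isShape, h2.isShape, H.isShape⟩

lemma IsShape.card_eq {A : ℕ → ℕ} (h : IsShape α A) (h' : IsShape β A) :
    Fintype.card α = Fintype.card β := by
  obtain ⟨r, c, h⟩ := h
  obtain ⟨r', c', h'⟩ := h'
  obtain ⟨e, -⟩ := h.exists_equiv h'
  exact (Fintype.card_congr e).symm

lemma IsShape.nonempty_equiv {A : ℕ → ℕ} (h : IsShape α A) (h' : IsShape β A) :
    Nonempty (β ≃ α) := Fintype.card_eq.1 (h.card_eq h').symm

lemma Kron.on_left {A B C : ℕ → ℕ} (H : Kron A B C) (hA : IsShape α A) : KronOn α A B C := by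
  obtain ⟨n, H⟩ := H
  obtain ⟨e⟩ := H.isShape.1.nonempty_equiv hA
  exact H.congr e

lemma Kron.on_right {A B C : ℕ → ℕ} (H : Kron A B C) (hC : IsShape α C) : KronOn α A B C := by
  obtain ⟨n, H⟩ := H
  obtain ⟨e⟩ := H.isShape.2.2.nonempty_equiv hC
  exact H.congr e

/-- The symmetric polynomial form of `KronOn`. -/
theorem kronOn_iff {A B C : ℕ → ℕ} : KronOn α A B C ↔
    ∃ r1 c1 r2 c2 r3 c3 : α → ℕ, Latin r1 c1 ∧ cont r1 = A ∧ Latin r2 c2 ∧ cont r2 = B ∧
      Latin r3 c3 ∧ cont r3 = C ∧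
      toPoly (wmul (wmul (poly r1 c1) (poly r2 c2)) (poly r3 c3)) ≠ 0 := by
  simp only [KronOn, sees_iff_toPoly, poly2]
  constructor
  · rintro ⟨r1, c1, r2, c2, h1, hA, h2, hB, r3, c3, h3, hC, H⟩
    exact ⟨r1, c1, r2, c2, r3, c3, h1, hA, h2, hB, h3, hC, H⟩
  · rintro ⟨r1, c1, r2, c2, r3, c3, h1, hA, h2, hB, h3, hC, H⟩
    exact ⟨r1, c1, r2, c2, h1, hA, h2, hB, r3, c3, h3, hC, H⟩

lemma toPoly_wlab_ne_iff {L L' : Type*} {f : L → L'} (hf : Function.Injective f)
    (x : (α → L) →₀ ℂ) : toPoly (wlab α f x) ≠ 0 ↔ toPoly x ≠ 0 := by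
  rw [toPoly_wlab, ne_eq, ne_eq, ← (MvPolynomial.rename_injective f hf).eq_iff, map_zero]

lemma toPoly_wmul_comm {L L' : Type*} (x : (α → L) →₀ ℂ) (y : (α → L') →₀ ℂ) :
    toPoly (wmul x y) ≠ 0 ↔ toPoly (wmul y x) ≠ 0 := by
  rw [← wlab_swap_wmul x y, toPoly_wlab_ne_iff Prod.swap_injective]

lemma toPoly_wmul_assoc {L L' L'' : Type*} (x : (α → L) →₀ ℂ) (y : (α → L') →₀ ℂ)
    (z : (α → L'') →₀ ℂ) :
    toPoly (wmul (wmul x y) z) ≠ 0 ↔ toPoly (wmul x (wmul y z)) ≠ 0 := by
  rw [← wlab_assoc_wmul x y z, toPoly_wlab_ne_iff (Equiv.injective _)]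

theorem KronOn.swap12 {A B C : ℕ → ℕ} (H : KronOn α A B C) : KronOn α B A C := by
  obtain ⟨r1, c1, r2, c2, h1, hA, h2, hB, H⟩ := H
  refine ⟨r2, c2, r1, c1, h2, hB, h1, hA, ?_⟩
  rw [poly2, ← wlab_swap_wmul]
  exact H.map_inj _ (wlab_injective Prod.swap_injective)

theorem KronOn.rotate {A B C : ℕ → ℕ} (H : KronOn α A B C) : KronOn α B C A := by
  rw [kronOn_iff] at H ⊢
  obtain ⟨r1, c1, r2, c2, r3, c3, h1, hA, h2, hB, h3, hC, H⟩ := H
  refine ⟨r2, c2, r3, c3, r1, c1, h2, hB, h3, hC, h1, hA, ?_⟩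
  rwa [toPoly_wmul_comm, ← toPoly_wmul_assoc]

theorem KronOn.swap23 {A B C : ℕ → ℕ} (H : KronOn α A B C) : KronOn α A C B :=
  H.swap12.rotate

theorem KronOn.swap13 {A B C : ℕ → ℕ} (H : KronOn α A B C) : KronOn α C B A :=
  H.rotate.swap12

theorem Kron.swap12 {A B C : ℕ → ℕ} (H : Kron A B C) : Kron B A C := H.imp fun _ h => h.swap12
theorem Kron.rotate {A B C : ℕ → ℕ} (H : Kron A B C) : Kron B C A := H.imp fun _ h => h.rotate
theorem Kron.swap23 {A B C : ℕ → ℕ} (H : Kron A B C) : Kron A C B := H.imp fun _ h => h.swap23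
theorem Kron.swap13 {A B C : ℕ → ℕ} (H : Kron A B C) : Kron C B A := H.imp fun _ h => h.swap13

/-- The semigroup property of Kronecker coefficients. -/
theorem KronOn.add {A B C A' B' C' : ℕ → ℕ} (H : KronOn α A B C) (H' : KronOn β A' B' C') :
    KronOn (α ⊕ β) (A + A') (B + B') (C + C') := by
  obtain ⟨r1, c1, r2, c2, h1, hA, h2, hB, H⟩ := H
  obtain ⟨s1, d1, s2, d2, h1', hA', h2', hB', H'⟩ := H'
  refine kronOn_of_sees (h1.sum h1') (h2.sum h2') (by rw [cont_sum, hA, hA'])
    (by rw [cont_sum, hB, hB']) ?_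
  rw [poly2_sum]
  exact H.wsum H'

theorem Kron.add {A B C A' B' C' : ℕ → ℕ} (H : Kron A B C) (H' : Kron A' B' C') :
    Kron (A + A') (B + B') (C + C') := by
  obtain ⟨n, H⟩ := H
  obtain ⟨m, H'⟩ := H'
  exact (H.add H').kron

/-- The one-row shape. -/
def rowShape (n : ℕ) : ℕ → ℕ := fun i => if i = 0 then n else 0

lemma latin_zero : Latin (fun _ : α => 0) (id : α → α) :=
  ⟨fun _ _ h _ => h, fun _ _ h => absurd h (Nat.not_lt_zero _)⟩

lemma cont_zero : cont (fun _ : α => 0) = rowShape (Fintype.card α) := by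
  funext i
  simp only [cont, rowShape]
  split_ifs with h
  · simp [h]
  · simp [Ne.symm h]

lemma stab_id : stab (id : α → α) = {1} := by
  ext g
  simp only [mem_stab, id, mem_singleton]
  exact ⟨fun h => Equiv.ext h, fun h a => by simp [h]⟩

lemma stab_const (k : κ) : stab (fun _ : α => k) = univ := by
  ext g; simp [mem_stab]

lemma sees_row_iff {W : Type*} [AddCommGroup W] [Module ℂ W] {σ : Representation ℂ (Perm α) W}
    {u : W} (h : ∑ g, σ g u ≠ 0) : Sees σ u (rowShape (Fintype.card α)) := by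
  refine sees_of_symOp_altOp latin_zero cont_zero ?_
  rwa [altOp_apply, stab_id, sum_singleton, sg_one, map_one, one_smul, Module.End.one_apply,
    symOp_apply, stab_const]

theorem kronOn_triv {A : ℕ → ℕ} (hA : IsShape α A) :
    KronOn α A A (rowShape (Fintype.card α)) := by
  obtain ⟨r, c, ht⟩ := hA
  refine ⟨r, c, r, c, ht.latin, ht.cont_eq, ht.latin, ht.cont_eq, sees_row_iff fun h0 => ?_⟩
  have h1 := congrArg (fun x : (α → ℕ × ℕ) →₀ ℂ => x fun a => (r a, r a)) h0
  simp only [Finsupp.finsetSum_apply, lwordRep_apply, poly2_apply, Finsupp.zero_apply] at h1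
  have h2 : ∀ g : Perm α, poly r c (Prod.fst ∘ (fun a => (r a, r a)) ∘ g) *
      poly r c (Prod.snd ∘ (fun a => (r a, r a)) ∘ g) = (Complex.normSq (poly r c (r ∘ g)) : ℝ) :=
    fun g => by
      rw [← Complex.mul_conj]
      exact congrArg _ (star_poly_apply r (r ∘ g) c).symm
  simp only [h2] at h1
  rw [← Complex.ofReal_sum, Complex.ofReal_eq_zero,
    sum_eq_zero_iff_of_nonneg fun g _ => Complex.normSq_nonneg _] at h1
  have h3 := h1 1 (mem_univ _)
  rw [Complex.normSq_eq_zero] at h3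
  exact one_ne_zero ((poly_apply_self ht.latin).symm.trans h3)

theorem kron_triv {A : ℕ → ℕ} (ha : Antitone A) {N n : ℕ} (hN : A N = 0)
    (hs : ∑ i ∈ range N, A i = n) : Kron A A (rowShape n) := by
  have := kronOn_triv (α := Fin n) (isShape_of_sum ha hN (by simpa using hs))
  rw [Fintype.card_fin] at this
  exact ⟨n, this⟩

section Tensor

variable {L L' : Type*}

/-- The tensor product of word modules maps to words with pairs of labels. -/
noncomputable def wtensor (α L L' : Type*) [Fintype α] [DecidableEq α] :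
    ((lwordRep α L).tprod (lwordRep α L')).IntertwiningMap (lwordRep α (L × L')) where
  toLinearMap := TensorProduct.lift wmul
  isIntertwining' g := by
    refine TensorProduct.ext' fun x y => ?_
    simp only [Representation.tprod_apply, LinearMap.coe_comp, Function.comp_apply,
      TensorProduct.map_tmul, TensorProduct.lift.tmul, rep_wmul]

lemma wtensor_tmul (x : (α → L) →₀ ℂ) (y : (α → L') →₀ ℂ) : wtensor α L L' (x ⊗ₜ y) = wmul x y :=
  TensorProduct.lift.tmul _ _

lemma wtensor_injective : Function.Injective (wtensor α L L') := by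
  have : ⇑(wtensor α L L') = Finsupp.mapDomain (Equiv.arrowProdEquivProdArrow α (fun _ => L)
      (fun _ => L')).symm ∘ finsuppTensorFinsupp' ℂ (α → L) (α → L') := by
    funext v
    induction v using TensorProduct.induction_on with
    | zero => simp
    | add x y hx hy => simp only [map_add, hx, hy, Function.comp_apply, Finsupp.mapDomain_add]
    | tmul x y =>
      rw [wtensor_tmul]
      refine bilin_ind (p := fun x y => wmul x y = (Finsupp.mapDomain
        (Equiv.arrowProdEquivProdArrow α (fun _ => L) (fun _ => L')).symm ∘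
          finsuppTensorFinsupp' ℂ (α → L) (α → L')) (x ⊗ₜ y)) (by simp) (by simp)
        (fun x x' y h h' => ?_) (fun x y y' h h' => ?_) (fun a b s t => ?_) x y
      · simp only [map_add, LinearMap.add_apply, h, h', Function.comp_apply, TensorProduct.add_tmul,
          Finsupp.mapDomain_add]
      · simp only [map_add, h, h', Function.comp_apply, TensorProduct.tmul_add,
          Finsupp.mapDomain_add]
      · simp only [wmul_single, Function.comp_apply, finsuppTensorFinsupp'_single_tmul_single,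
          Finsupp.mapDomain_single]
        rfl
  rw [this]
  exact (Finsupp.mapDomain_injective (Equiv.injective _)).comp (LinearEquiv.injective _)

variable {W W' U U' : Type*} [AddCommGroup W] [Module ℂ W] [AddCommGroup W'] [Module ℂ W']
  [AddCommGroup U] [Module ℂ U] [AddCommGroup U'] [Module ℂ U']

lemma tensor_injective {G : Type*} [Monoid G] {σ : Representation ℂ G W} {τ : Representation ℂ G W'}
    {σ' : Representation ℂ G U} {τ' : Representation ℂ G U'} (φ : σ.IntertwiningMap σ')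
    (ψ : τ.IntertwiningMap τ') (hφ : Function.Injective φ) (hψ : Function.Injective ψ) :
    Function.Injective (φ.tensor ψ) :=
  TensorProduct.map_injective_of_flat_flat φ.toLinearMap ψ.toLinearMap hφ hψ

/-- `S^A ⊗ S^B` inside the pair module. -/
noncomputable def spTensor (α : Type*) [Fintype α] [DecidableEq α] (A B : ℕ → ℕ) :
    ((spechtR α A).tprod (spechtR α B)).IntertwiningMap (pairRep α) :=
  (wtensor α ℕ ℕ).comp ((spIncl α A).tensor (spIncl α B))

lemma spTensor_tmul {A B : ℕ → ℕ} (x : Sp α A) (y : Sp α B) :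
    spTensor α A B (x ⊗ₜ y) = wmul (spIncl α A x) (spIncl α B y) := wtensor_tmul _ _

lemma spTensor_injective (A B : ℕ → ℕ) : Function.Injective (spTensor α A B) :=
  wtensor_injective.comp (tensor_injective _ _ (spIncl_injective A) (spIncl_injective B))

theorem KronOn.hasShape {A B C : ℕ → ℕ} (H : KronOn α A B C) :
    HasShape ((spechtR α A).tprod (spechtR α B)) C := by
  obtain ⟨r1, c1, r2, c2, h1, hA, h2, hB, H⟩ := H
  exact (Sees.of_map (u := polyS h1 hA ⊗ₜ polyS h2 hB) (spTensor α A B)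
    (by rw [spTensor_tmul]; exact H)).hasShape

/-- If `x ⊗ y` sees `C` for vectors of the Specht modules then `g(A, B, C) > 0`. -/
theorem kronOn_of_sees_wmul {A B C : ℕ → ℕ} {x y : (α → ℕ) →₀ ℂ}
    (hx : x ∈ (specht α A).toSubmodule) (hy : y ∈ (specht α B).toSubmodule)
    (H : Sees (pairRep α) (wmul x y) C) : KronOn α A B C := by
  set S : Set ((α → ℕ × ℕ) →₀ ℂ) := {v | ∃ r1 c1 r2 c2 : α → ℕ, Latin r1 c1 ∧ cont r1 = A ∧
      Latin r2 c2 ∧ cont r2 = B ∧ v = poly2 r1 c1 r2 c2} with hS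
  have h1 : wmul x y ∈ Submodule.span ℂ S := by
    refine specht_induction (p := fun x => wmul x y ∈ Submodule.span ℂ S)
      (fun r1 c1 h1 hA => ?_) (by simp)
      (fun x x' h h' => by rw [map_add]; exact Submodule.add_mem _ h h')
      (fun a x h => by rw [map_smul]; exact Submodule.smul_mem _ _ h) hx
    exact specht_induction (p := fun y => wmul (poly r1 c1) y ∈ Submodule.span ℂ S)
      (fun r2 c2 h2 hB => Submodule.subset_span ⟨r1, c1, r2, c2, h1, hA, h2, hB, rfl⟩) (by simp)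
      (fun x x' h h' => by rw [map_add]; exact Submodule.add_mem _ h h')
      (fun a x h => by rw [map_smul]; exact Submodule.smul_mem _ _ h) hy
  obtain ⟨_, ⟨r1, c1, r2, c2, h1, hA, h2, hB, rfl⟩, H⟩ := H.of_span h1
  exact ⟨r1, c1, r2, c2, h1, hA, h2, hB, H⟩

theorem kronOn_of_hasShape {A B C : ℕ → ℕ}
    (H : HasShape ((spechtR α A).tprod (spechtR α B)) C) : KronOn α A B C := by
  obtain ⟨u, hu⟩ := H.exists_sees
  obtain ⟨_, ⟨x, y, rfl⟩, H⟩ := hu.of_span (s := {t | ∃ x y, x ⊗ₜ y = t})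
    (by rw [TensorProduct.span_tmul_eq_top]; trivial)
  have := H.map_inj _ (spTensor_injective A B)
  rw [spTensor_tmul] at this
  exact kronOn_of_sees_wmul (spIncl_mem x) (spIncl_mem y) this

theorem kronOn_iff_hasShape {A B C : ℕ → ℕ} :
    KronOn α A B C ↔ HasShape ((spechtR α A).tprod (spechtR α B)) C :=
  ⟨KronOn.hasShape, kronOn_of_hasShape⟩

/-- The tensor product of representations with shapes `A` and `B` has every shape of
`S^A ⊗ S^B`. -/
theorem KronOn.hasShape_tprod {A B C : ℕ → ℕ} (H : KronOn α A B C)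
    {σ : Representation ℂ (Perm α) W} {τ : Representation ℂ (Perm α) W'} (hσ : HasShape σ A)
    (hτ : HasShape τ B) : HasShape (σ.tprod τ) C := by
  obtain ⟨φ, hφ⟩ := hσ.exists_inj
  obtain ⟨ψ, hψ⟩ := hτ.exists_inj
  exact H.hasShape.map_inj _ (tensor_injective φ ψ hφ hψ)

lemma tprod_twist_twist (σ : Representation ℂ (Perm α) W) (τ : Representation ℂ (Perm α) W') :
    (twist σ).tprod (twist τ) = σ.tprod τ := by
  ext g x y
  simp [twist_apply, TensorProduct.smul_tmul', smul_smul]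

/-- Double conjugation. -/
theorem KronOn.conj12 {A B C A' B' : ℕ → ℕ} (H : KronOn α A B C) (hA : IsConjShape A A')
    (hB : IsConjShape B B') : KronOn α A' B' C := by
  have := H.hasShape_tprod ((hasShape_specht (H.isShape.1.conj hA)).twist hA.symm)
    ((hasShape_specht (H.isShape.2.1.conj hB)).twist hB.symm)
  rw [tprod_twist_twist] at this
  exact kronOn_of_hasShape this

theorem Kron.conj12 {A B C A' B' : ℕ → ℕ} (H : Kron A B C) (hA : IsConjShape A A')
    (hB : IsConjShape B B') : Kron A' B' C := H.imp fun _ h => h.conj12 hA hB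

theorem Kron.conj13 {A B C A' C' : ℕ → ℕ} (H : Kron A B C) (hA : IsConjShape A A')
    (hC : IsConjShape C C') : Kron A' B C' := (H.swap23.conj12 hA hC).swap23

theorem Kron.conj23 {A B C B' C' : ℕ → ℕ} (H : Kron A B C) (hB : IsConjShape B B')
    (hC : IsConjShape C C') : Kron A B' C' := (H.swap13.conj12 hC hB).swap13

/-- For a self-conjugate shape the third shape may be conjugated. -/
theorem Kron.conj3 {A C C' : ℕ → ℕ} (H : Kron A A C) (hA : IsConjShape A A)
    (hC : IsConjShape C C') : Kron A A C' := H.conj13 hA hC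

/-- An irreducible representation embeds in the tensor square of `S^A`. -/
theorem exists_inj_of_kron {A : ℕ → ℕ} (h : ∀ C, IsShape α C → Kron A A C)
    [FiniteDimensional ℂ W] (σ : Representation ℂ (Perm α) W) [σ.IsIrreducible] :
    ∃ φ : σ.IntertwiningMap ((spechtR α A).tprod (spechtR α A)),
      Function.Injective φ ∧ Nontrivial W := by
  obtain ⟨C, hC⟩ := exists_hasShape_of_irreducible σ
  obtain ⟨e⟩ := hC.equiv
  obtain ⟨ψ, hψ⟩ := ((h C hC.isShape).on_right hC.isShape).hasShape.exists_inj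
  obtain ⟨u, hu⟩ := hC.exists_sees
  exact ⟨ψ.comp e.symm.toIntertwiningMap, hψ.comp e.symm.toLinearEquiv.injective,
    ⟨u, 0, hu.ne_zero⟩⟩

end Tensor

/-- Bridge to statement S0298. -/
theorem final298 (n : ℕ) (A : ℕ → ℕ) (hA : IsShape (Fin n) A)
    (h : ∀ C, IsShape (Fin n) C → Kron A A C) :
    ∃ (V : Type) (_ : AddCommGroup V) (_ : Module ℂ V) (_ : FiniteDimensional ℂ V)
      (ρ : Representation ℂ (Equiv.Perm (Fin n)) V), Representation.IsIrreducible ρ ∧
      ∀ (W : Type) [AddCommGroup W] [Module ℂ W] [FiniteDimensional ℂ W]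
        (σ : Representation ℂ (Equiv.Perm (Fin n)) W), Representation.IsIrreducible σ →
        Nontrivial (Representation.IntertwiningMap σ (Representation.tprod ρ ρ)) := by
  refine ⟨Sp (Fin n) A, inferInstance, inferInstance, inferInstance, spechtR (Fin n) A,
    specht_irreducible hA, fun W _ _ _ σ hσ => ?_⟩
  obtain ⟨φ, hφ, hW⟩ := exists_inj_of_kron h σ
  refine ⟨φ, 0, fun h0 => ?_⟩
  obtain ⟨x, hx⟩ := exists_ne (0 : W)
  exact hx (hφ (by rw [h0]; rfl))

/-- The staircase shape `(m, m - 1, …, 1)`. -/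
def stair (m : ℕ) : ℕ → ℕ := fun i => m - i

lemma stair_conj (m : ℕ) : IsConjShape (stair m) (stair m) := fun i j => by
  simp only [stair]; omega

open Crest.AlgebraR.Specht in
lemma isTab_of_equiv {D : Finset (ℕ × ℕ)} {A : ℕ → ℕ} (hA : Antitone A)
    (hD : ∀ i j, (i, j) ∈ D ↔ j < A i) (t : D ≃ α) :
    IsTab A (fun a => (t.symm a).1.1) (fun a => (t.symm a).1.2) :=
  ⟨hA, fun a b h1 h2 => t.symm.injective (Subtype.ext (Prod.ext h1 h2)), fun i j => by
    rw [← hD]
    exact ⟨fun h => ⟨t ⟨_, h⟩, by simp⟩, by rintro ⟨a, rfl, rfl⟩; exact (t.symm a).2⟩⟩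

open Crest.AlgebraR.Specht in
lemma polytabloid_eq {D : Finset (ℕ × ℕ)} (t : D ≃ Fin D.card) :
    polytabloid t = poly (fun a => (t.symm a).1.1) (fun a => (t.symm a).1.2) := by
  rw [poly_eq, polytabloid]
  refine sum_congr ?_ fun g _ => rfl
  ext g
  simp [columnGroup, mem_stab]

open Crest.AlgebraR.Specht in
lemma specht_le {D : Finset (ℕ × ℕ)} {A : ℕ → ℕ} (hA : Antitone A)
    (hD : ∀ i j, (i, j) ∈ D ↔ j < A i) {x : (Fin D.card → ℕ) →₀ ℂ}
    (hx : x ∈ (specht (Fin D.card) A).toSubmodule) : x ∈ (spechtSubrep D).toSubmodule := by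
  have ht := isTab_of_equiv hA hD D.equivFin
  rw [specht_eq_span ht.latin ht.cont_eq] at hx
  refine (Submodule.span_le (p := (spechtSubrep D).toSubmodule)).2 ?_ hx
  rintro _ ⟨g, rfl⟩
  refine (spechtSubrep D).apply_mem_toSubmodule g ?_
  rw [← polytabloid_eq]
  exact Submodule.mem_sInf.2 fun p hp => hp.1 ⟨_, rfl⟩

open Crest.AlgebraR.Specht in
/-- Bridge to the Specht modules of the prelude. -/
theorem final_specht {D : Finset (ℕ × ℕ)} {A : ℕ → ℕ} (hA : Antitone A)
    (hD : ∀ i j, (i, j) ∈ D ↔ j < A i) (h : ∀ C, IsShape (Fin D.card) C → Kron A A C)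
    (W : Type) [AddCommGroup W] [Module ℂ W] [FiniteDimensional ℂ W]
    (σ : Representation ℂ (Equiv.Perm (Fin D.card)) W) (hσ : Representation.IsIrreducible σ) :
    Nontrivial (Representation.IntertwiningMap σ
      (Representation.tprod (spechtRep D) (spechtRep D))) := by
  obtain ⟨φ, hφ, hW⟩ := exists_inj_of_kron h σ
  let ι : (spechtR (Fin D.card) A).IntertwiningMap (subR (spechtSubrep D)) :=
    { toFun := fun x => SubT.mk _ (spIncl _ _ x) (specht_le hA hD (spIncl_mem x))
      map_add' := fun _ _ => rfl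
      map_smul' := fun _ _ => rfl
      isIntertwining' := fun _ => rfl }
  have hι : Function.Injective ι := fun x y h =>
    Sp.ext (congrArg (subI (spechtSubrep D)) h)
  have : Nontrivial (Representation.IntertwiningMap σ
      (Representation.tprod (subR (spechtSubrep D)) (subR (spechtSubrep D)))) := by
    refine ⟨(ι.tensor ι).comp φ, 0, fun h0 => ?_⟩
    obtain ⟨x, hx⟩ := exists_ne (0 : W)
    refine hx (hφ (tensor_injective ι ι hι hι ?_))
    rw [map_zero, map_zero]
    exact congrArg (fun f : Representation.IntertwiningMap σ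
      (Representation.tprod (subR (spechtSubrep D)) (subR (spechtSubrep D))) => f x) h0
  exact this

open Crest.AlgebraR.Specht in
lemma mem_staircaseShape (m i j : ℕ) : (i, j) ∈ staircaseShape m ↔ j < stair m i := by
  simp only [staircaseShape, mem_filter, mem_product, mem_range, stair]
  omega

lemma stair_anti (m : ℕ) : Antitone (stair m) := (stair_conj m).anti

open Crest.AlgebraR.Specht in
lemma isShape_stair (m : ℕ) : IsShape (Fin (staircaseShape m).card) (stair m) :=
  ⟨_, _, isTab_of_equiv (stair_anti m) (mem_staircaseShape m) (staircaseShape m).equivFin⟩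

open Crest.AlgebraR.Specht in
/-- Bridge to statement S0297. -/
theorem final297 (m : ℕ)
    (h : ∀ C, IsShape (Fin (staircaseShape m).card) C → Kron (stair m) (stair m) C)
    (W : Type) [AddCommGroup W] [Module ℂ W] [FiniteDimensional ℂ W]
    (σ : Representation ℂ (Equiv.Perm (Fin (staircaseShape m).card)) W)
    (hσ : Representation.IsIrreducible σ) :
    Nontrivial (Representation.IntertwiningMap σ
      (Representation.tprod (spechtRep (staircaseShape m)) (spechtRep (staircaseShape m)))) :=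
  final_specht (stair_anti m) (mem_staircaseShape m) h W σ hσ

end Crest.Agent.R195
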