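import Crest.Agent.R195.RepSL2

/-!
Restriction to Young subgroups: Pieri rule, outer products, the peeling lemma.
-/

set_option autoImplicit false
set_option linter.unusedSectionVars false

namespace Crest.Agent.R195

open Equiv Finset

variable {α β γ : Type*} [Fintype α] [DecidableEq α] [Fintype β] [DecidableEq β] [Fintype γ]
  [DecidableEq γ] {κ κ' : Type*}
variable {W V V' : Type*} [AddCommGroup W] [Module ℂ W] [AddCommGroup V] [Module ℂ V]
  [AddCommGroup V'] [Module ℂ V']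

/-- Restriction to the permutations of the left summand. -/
noncomputable def resL (σ : Representation ℂ (Perm (β ⊕ γ)) W) : Representation ℂ (Perm β) W where
  toFun g := σ (Perm.sumCongr g 1)
  map_one' := by simp
  map_mul' g h := by rw [← map_mul, Perm.sumCongr_mul, mul_one]

/-- Restriction to the permutations of the right summand. -/
noncomputable def resR (σ : Representation ℂ (Perm (β ⊕ γ)) W) : Representation ℂ (Perm γ) W where
  toFun g := σ (Perm.sumCongr 1 g)
  map_one' := by simp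
  map_mul' g h := by rw [← map_mul, Perm.sumCongr_mul, mul_one]

lemma resL_apply (σ : Representation ℂ (Perm (β ⊕ γ)) W) (g : Perm β) :
    resL σ g = σ (Perm.sumCongr g 1) := rfl

lemma resR_apply (σ : Representation ℂ (Perm (β ⊕ γ)) W) (g : Perm γ) :
    resR σ g = σ (Perm.sumCongr 1 g) := rfl

lemma resL_resR (σ : Representation ℂ (Perm (β ⊕ γ)) W) (g : Perm β) (k : Perm γ) (v : W) :
    resL σ g (resR σ k v) = σ (Perm.sumCongr g k) v := by
  rw [resL_apply, resR_apply, ← Module.End.mul_apply, ← map_mul, Perm.sumCongr_mul, mul_one, one_mul]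

lemma resR_resL (σ : Representation ℂ (Perm (β ⊕ γ)) W) (g : Perm β) (k : Perm γ) (v : W) :
    resR σ k (resL σ g v) = σ (Perm.sumCongr g k) v := by
  rw [resL_apply, resR_apply, ← Module.End.mul_apply, ← map_mul, Perm.sumCongr_mul, mul_one, one_mul]

/-- The right factor acts by intertwiners of the left restriction. -/
noncomputable def resRHom (σ : Representation ℂ (Perm (β ⊕ γ)) W) (k : Perm γ) :
    (resL σ).IntertwiningMap (resL σ) where
  toLinearMap := resR σ k
  isIntertwining' g := by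
    ext v
    simp only [LinearMap.coe_comp, Function.comp_apply, resL_resR, resR_resL]

lemma resRHom_apply (σ : Representation ℂ (Perm (β ⊕ γ)) W) (k : Perm γ) (v : W) :
    resRHom σ k v = resR σ k v := rfl

lemma symOp_sum (σ : Representation ℂ (Perm (β ⊕ γ)) W) (p : β → κ) (q : γ → κ') (v : W) :
    symOp σ (Sum.map p q) v = symOp (resL σ) p (symOp (resR σ) q v) := by
  rw [symOp_apply, symOp_apply, symOp_apply, sum_stab_sum]
  simp only [map_sum, resL_resR]

lemma altOp_sum (σ : Representation ℂ (Perm (β ⊕ γ)) W) (p : β → κ) (q : γ → κ') (v : W) :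
    altOp σ (Sum.map p q) v = altOp (resL σ) p (altOp (resR σ) q v) := by
  rw [altOp_apply, altOp_apply, altOp_apply, sum_stab_sum]
  simp only [map_sum, map_smul, resL_resR, smul_sum, smul_smul, sg_sumCongr]

lemma altOp_resL_symOp_resR (σ : Representation ℂ (Perm (β ⊕ γ)) W) (p : β → κ) (q : γ → κ')
    (v : W) : altOp (resL σ) p (symOp (resR σ) q v) = symOp (resR σ) q (altOp (resL σ) p v) := by
  rw [symOp_apply, symOp_apply, map_sum]
  exact sum_congr rfl fun k _ => (map_altOp (resRHom σ k) p v).symm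

/-- An intertwiner restricted to the left factor. -/
def homL {σ : Representation ℂ (Perm (β ⊕ γ)) W} {τ : Representation ℂ (Perm (β ⊕ γ)) V}
    (φ : σ.IntertwiningMap τ) : (resL σ).IntertwiningMap (resL τ) :=
  ⟨φ.toLinearMap, fun _ => φ.isIntertwining' _⟩

/-- An intertwiner restricted to the right factor. -/
def homR {σ : Representation ℂ (Perm (β ⊕ γ)) W} {τ : Representation ℂ (Perm (β ⊕ γ)) V}
    (φ : σ.IntertwiningMap τ) : (resR σ).IntertwiningMap (resR τ) :=
  ⟨φ.toLinearMap, fun _ => φ.isIntertwining' _⟩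

/-- A column permutation that looks like a `q`-preserving permutation is trivial when `q` is
column strict. -/
lemma Latin.eq_one_of_strict {r : α → ℕ} {c : α → κ} (h : Latin r c) {q : α → ℕ}
    (hq : ∀ a b, c a = c b → r a < r b → q a < q b) {g k : Perm α} (hg : g ∈ stab q)
    (hk : k ∈ stab c) (he : r ∘ g = r ∘ k) : k = 1 := by
  classical
  have h1 : ∀ a, q (k a) ≤ q a := fun a => by
    have hL : Latin (r ∘ Subtype.val : {b // q b ≤ q a} → ℕ) (c ∘ Subtype.val) :=
      ⟨fun x y h1 h2 => Subtype.ext (h.inj _ _ h1 h2), fun x i hi => by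
        obtain ⟨b, h1, h2⟩ := h.down x.1 i hi
        exact ⟨⟨b, (hq b x.1 h1 (by rw [h2]; exact hi)).le.trans x.2⟩, h1, h2⟩⟩
    obtain ⟨e, he1, he2⟩ := hL.exists_eq (w := fun x => r (k x.1)) (fun x y h1 h2 =>
      Subtype.ext (k.injective (h.inj _ _ (by rw [mem_stab.1 hk, mem_stab.1 hk]; exact h1) h2)))
      (le_of_eq (by
        have : ∀ x : {b // q b ≤ q a}, r (k x.1) = r (g x.1) := fun x => (congrFun he x.1).symm
        simp only [this]
        exact Equiv.sum_comp (g.subtypePerm (p := fun b => q b ≤ q a)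
          fun b => by rw [mem_stab.1 hg]) (r ∘ Subtype.val)))
    have h2 : k a = (e ⟨a, le_rfl⟩).1 := h.inj _ _
      ((mem_stab.1 hk a).trans (mem_stab.1 he1 ⟨a, le_rfl⟩).symm) (congrFun he2 ⟨a, le_rfl⟩)
    rw [h2]
    exact (e ⟨a, le_rfl⟩).2
  have h2 := (sum_eq_sum_iff_of_le (s := univ) (fun a _ => h1 a)).1 (Equiv.sum_comp k q)
  refine Equiv.ext fun a => h.inj _ _ (mem_stab.1 hk a) ?_
  have h3 := h2 a (mem_univ a)
  rcases lt_trichotomy (r (k a)) (r a) with h4 | h4 | h4
  · exact absurd h3 (hq _ _ (mem_stab.1 hk a) h4).ne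
  · exact h4
  · exact absurd h3 (hq _ _ (mem_stab.1 hk a).symm h4).ne'

/-- A column strict labelling gives a nonzero invariant of the Specht module. -/
lemma symOp_poly_ne_zero {r : α → ℕ} {c : α → κ} (h : Latin r c) {q : α → ℕ}
    (hq : ∀ a b, c a = c b → r a < r b → q a < q b) : symOp (wordRep α) q (poly r c) ≠ 0 := by
  classical
  intro h0
  have h1 := congrArg (fun x : (α → ℕ) →₀ ℂ => x r) h0
  simp only [symOp_apply_word, Finsupp.zero_apply] at h1
  have h2 : ∀ g ∈ stab q, poly r c (r ∘ g) = if r ∘ g = r then 1 else 0 := fun g hg => by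
    split_ifs with h3
    · rw [h3, poly_apply_self h]
    · by_contra h4
      obtain ⟨k, hk, he⟩ := exists_of_poly_apply h4
      rw [h.eq_one_of_strict hq hg hk he] at he
      exact h3 he
  rw [sum_congr rfl h2, sum_boole, Nat.cast_eq_zero, card_eq_zero] at h1
  have : (1 : Perm α) ∈ (stab q).filter fun g : Perm α => r ∘ g = r :=
    mem_filter.2 ⟨one_mem_stab q, rfl⟩
  rw [h1] at this
  simp at this

/-- Pieri rule (iterated): `γ` fills the skew shape column strictly with labels `q`. -/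
theorem pieri {R : β ⊕ γ → ℕ} {C : β ⊕ γ → κ} (h : Latin R C)
    (hβ : Latin (R ∘ Sum.inl) (C ∘ Sum.inl)) {q : γ → ℕ}
    (hq : ∀ a b, C (Sum.inr a) = C (Sum.inr b) → R (Sum.inr a) < R (Sum.inr b) → q a < q b)
    {σ : Representation ℂ (Perm (β ⊕ γ)) W} (H : HasShape σ (cont R)) :
    ∃ v, (∀ g ∈ stab q, resR σ g v = v) ∧ Sees (resL σ) v (cont (R ∘ Sum.inl)) := by
  obtain ⟨φ, hφ⟩ := H.exists_inj
  refine ⟨symOp (resR σ) q (φ (polyS h rfl)), fun g hg => rep_symOp _ hg _,
    sees_of_symOp_altOp hβ rfl ?_⟩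
  have h1 : altOp (resL σ) (C ∘ Sum.inl) (φ (polyS h rfl)) =
      ((stab (C ∘ Sum.inl)).card : ℂ) • φ (polyS h rfl) := by
    refine altOp_of_inv _ fun g hg => ?_
    rw [resL_apply, ← φ.isIntertwining, ← map_smul]
    congr 1
    apply Sp.ext
    rw [(spIncl _ _).isIntertwining, map_smul, spIncl_polyS, rep_poly_of_mem, sg_sumCongr, sg_one,
      mul_one]
    exact mem_stab.2 fun x => by
      rcases x with b | b
      · exact mem_stab.1 hg b
      · rfl
  rw [altOp_resL_symOp_resR, h1, map_smul, map_smul, ← symOp_sum, ← map_symOp]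
  refine smul_ne_zero (card_stab_ne _) fun h0 => ?_
  have h2 := congrArg (spIncl _ _) (hφ (h0.trans (map_zero φ).symm))
  rw [map_symOp, spIncl_polyS, map_zero] at h2
  set N := Fintype.card (β ⊕ γ)
  have hN : ∀ x, R x < N := lt_of_cont fun i hi => by
    have : cont R N = 0 := h.isShape.eq_zero
    have := h.cont_anti hi
    omega
  refine symOp_poly_ne_zero h (q := Sum.elim (R ∘ Sum.inl) fun a => N + q a) ?_ ?_
  · rintro (a | a) (b | b) hc hr
    · exact hr
    · exact (hN _).trans_le (Nat.le_add_right _ _)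
    · obtain ⟨x, h3, h4⟩ := hβ.down b _ hr
      have := h.inj _ _ (h3.trans hc.symm) h4
      simp at this
    · exact Nat.add_lt_add_left (hq a b hc hr) N
  · rw [← h2]
    refine LinearMap.congr_fun (symOp_congr _ ?_) _
    rintro (a | a) (b | b)
    · simp
    · have := hN (Sum.inl a)
      simp only [Sum.elim_inl, Sum.elim_inr, Function.comp, Sum.map_inl, Sum.map_inr, reduceCtorEq,
        iff_false]
      omega
    · have := hN (Sum.inl b)
      simp only [Sum.elim_inl, Sum.elim_inr, Function.comp, Sum.map_inl, Sum.map_inr, reduceCtorEq,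
        iff_false]
      omega
    · simp

/-- A tableau of shape `lam` whose left letters fill the smaller shape `ka`. -/
lemma exists_skew_tab {lam ka : ℕ → ℕ} (hle : ∀ i, ka i ≤ lam i) (hl : IsShape (β ⊕ γ) lam)
    (hk : IsShape β ka) : ∃ R C : β ⊕ γ → ℕ, IsTab lam R C ∧
      IsTab ka (R ∘ Sum.inl) (C ∘ Sum.inl) ∧ ∀ a, ka (R (Sum.inr a)) ≤ C (Sum.inr a) := by
  classical
  obtain ⟨R, C, ht⟩ := hl
  obtain ⟨r, c, hs⟩ := hk
  have hS : IsTab ka (R ∘ Subtype.val : {x // C x < ka (R x)} → ℕ) (C ∘ Subtype.val) :=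
    ⟨hs.anti, fun a b h1 h2 => Subtype.ext (ht.inj _ _ h1 h2), fun i j => by
      constructor
      · intro hj
        obtain ⟨a, rfl, rfl⟩ := (ht.mem i j).1 (hj.trans_le (hle i))
        exact ⟨⟨a, hj⟩, rfl, rfl⟩
      · rintro ⟨a, rfl, rfl⟩
        exact a.2⟩
  obtain ⟨e1, -, -⟩ := hS.exists_equiv hs
  obtain ⟨e2⟩ : Nonempty (γ ≃ {x // ¬ C x < ka (R x)}) := by
    refine Fintype.card_eq.1 ?_
    rw [Fintype.card_subtype_compl, ← Fintype.card_congr e1, Fintype.card_sum]
    omega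
  refine ⟨_, _, ht.comp ((e1.sumCongr e2).trans (Equiv.sumCompl _)), hS.comp e1, fun a => ?_⟩
  exact not_lt.1 (e2 a).2

/-- The vectors fixed by a Young subgroup of the right factor. -/
noncomputable def invR (σ : Representation ℂ (Perm (β ⊕ γ)) W) (q : γ → κ) :
    Subrepresentation (resL σ) where
  toSubmodule :=
    { carrier := {v | ∀ g ∈ stab q, resR σ g v = v}
      add_mem' := fun ha hb g hg => by rw [map_add, ha g hg, hb g hg]
      zero_mem' := fun g _ => map_zero _
      smul_mem' := fun z v hv g hg => by rw [map_smul, hv g hg] }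
  apply_mem_toSubmodule k v hv g hg := by
    rw [resR_resL, ← resL_resR, hv g hg]

lemma hasShape_invR {σ : Representation ℂ (Perm (β ⊕ γ)) W} {q : γ → κ} {v : W} {ka : ℕ → ℕ}
    (hv : ∀ g ∈ stab q, resR σ g v = v) (H : Sees (resL σ) v ka) :
    HasShape (subR (invR σ q)) ka := by
  obtain ⟨r, c, h, hl, hu⟩ := H
  refine hasShape_of_symOp_altOp h hl (v := SubT.mk _ v hv) fun h0 => hu ?_
  have := congrArg (subI (invR σ q)) h0
  rwa [map_symOp, map_altOp, subI_mk, map_zero] at this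

/-- An intertwiner into the invariants that does not kill `x`. -/
lemma exists_hom_inv {σ : Representation ℂ (Perm (β ⊕ γ)) W} {q : γ → κ} {v : W} {ka : ℕ → ℕ}
    (hv : ∀ g ∈ stab q, resR σ g v = v) (H : Sees (resL σ) v ka)
    {ρ : Representation ℂ (Perm β) V} {x : V} (hx : Sees ρ x ka) :
    ∃ ψ : ρ.IntertwiningMap (resL σ), ψ x ≠ 0 ∧ ∀ y, ∀ g ∈ stab q, resR σ g (ψ y) = ψ y := by
  obtain ⟨φ, hφ⟩ := hx.exists_hom' (hasShape_invR hv H)
  exact ⟨(subI _).comp φ, fun h0 => hφ (subI_injective _ (h0.trans (map_zero _).symm)),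
    fun y => subI_mem (invR σ q) (φ y)⟩

/-- `lam / ka` is a horizontal strip. -/
def HStrip (lam ka : ℕ → ℕ) : Prop := ∀ i, lam (i + 1) ≤ ka i ∧ ka i ≤ lam i

/-- Pieri rule for one horizontal strip. -/
theorem pieri_hstrip {lam ka : ℕ → ℕ} (hs : HStrip lam ka) (hk : IsShape β ka)
    {σ : Representation ℂ (Perm (β ⊕ γ)) W} (H : HasShape σ lam) :
    ∃ v, (∀ g, resR σ g v = v) ∧ Sees (resL σ) v ka := by
  obtain ⟨R, C, ht, hb, hg⟩ := exists_skew_tab (fun i => (hs i).2) H.isShape hk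
  obtain ⟨v, h1, h2⟩ := pieri ht.latin hb.latin (q := fun _ => 0) (fun a b hc hr => by
    have h1 := hg a
    have h2 := ht.lt (Sum.inr b)
    have h3 := ht.anti (Nat.succ_le_of_lt hr)
    have h4 := (hs (R (Sum.inr a))).1
    simp only [Nat.succ_eq_add_one] at h3
    omega) (σ := σ) (by rw [ht.cont_eq]; exact H)
  exact ⟨v, fun g => h1 g (by rw [stab_const]; exact mem_univ g), hb.cont_eq ▸ h2⟩

/-- Pieri rule for a chain `l 0 ⊆ l 1 ⊆ … ⊆ l k` of horizontal strips. -/
theorem pieri_chain {k : ℕ} {l : ℕ → ℕ → ℕ} (hs : ∀ j < k, HStrip (l (j + 1)) (l j))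
    (hk : IsShape β (l 0)) {σ : Representation ℂ (Perm (β ⊕ γ)) W} (H : HasShape σ (l k)) :
    ∃ (q : γ → ℕ) (v : W), (∀ a, q a < k) ∧
      (∀ j < k, ∀ N, l k N = 0 → cont q j + ∑ i ∈ range N, l j i = ∑ i ∈ range N, l (j + 1) i) ∧
      (∀ g ∈ stab q, resR σ g v = v) ∧ Sees (resL σ) v (l 0) := by
  classical
  have hmono : ∀ j j', j ≤ j' → j' ≤ k → ∀ i, l j i ≤ l j' i := fun j j' h1 h2 i => by
    induction j', h1 using Nat.le_induction with
    | base => exact le_rfl
    | succ n hn ih => exact (ih (by omega)).trans (hs n (by omega) i).2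
  obtain ⟨R, C, ht, hb, hg⟩ := exists_skew_tab (hmono 0 k (Nat.zero_le _) le_rfl) H.isShape hk
  have hex : ∀ a, ∃ j, j < k ∧ C (Sum.inr a) < l (j + 1) (R (Sum.inr a)) := fun a => by
    have h1 := ht.lt (Sum.inr a)
    have h2 := hg a
    rcases k with _ | k
    · omega
    · exact ⟨k, Nat.lt_succ_self k, h1⟩
  set q : γ → ℕ := fun a => Nat.find (hex a) with hq
  have hq1 : ∀ a, q a < k ∧ C (Sum.inr a) < l (q a + 1) (R (Sum.inr a)) := fun a =>
    Nat.find_spec (hex a)
  have hq2 : ∀ a, l (q a) (R (Sum.inr a)) ≤ C (Sum.inr a) := fun a => by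
    rcases h : q a with _ | j
    · exact hg a
    · have := Nat.find_min (hex a) (m := j) (by simp only [hq] at h; omega)
      have h3 := (hq1 a).1
      by_contra h4
      exact this ⟨by omega, not_le.1 h4⟩
  have hq3 : ∀ a j, j < k → l j (R (Sum.inr a)) ≤ C (Sum.inr a) →
      C (Sum.inr a) < l (j + 1) (R (Sum.inr a)) → q a = j := fun a j h1 h2 h3 => by
    have h4 : q a ≤ j := Nat.find_min' (hex a) ⟨h1, h3⟩
    by_contra h5
    have := hmono (q a + 1) j (by omega) h1.le (R (Sum.inr a))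
    have := (hq1 a).2
    omega
  obtain ⟨v, h1, h2⟩ := pieri ht.latin hb.latin (q := q) (fun a b hc hr => by
    by_contra hle
    have h1 := hq2 a
    have h2 := (hq1 b).2
    have h3 := hmono (q b) (q a) (not_lt.1 hle) (hq1 a).1.le (R (Sum.inr a))
    obtain ⟨i, hi⟩ : ∃ i, R (Sum.inr b) = i + 1 := ⟨R (Sum.inr b) - 1, by omega⟩
    have h4 := (hs (q b) (hq1 b).1 i).1
    have h5 : ∀ i i', i ≤ i' → l (q b) i' ≤ l (q b) i := fun i i' h => by
      induction i', h using Nat.le_induction with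
      | base => exact le_rfl
      | succ n hn ih =>
        exact (((hs (q b) (hq1 b).1 (n + 1)).2.trans (hs (q b) (hq1 b).1 n).1)).trans ih
    have h6 := h5 (R (Sum.inr a)) i (by omega)
    rw [hi] at h2
    omega) (σ := σ) (by rw [ht.cont_eq]; exact H)
  refine ⟨q, v, fun a => (hq1 a).1, fun j hj N hN => ?_, h1, hb.cont_eq ▸ h2⟩
  have hRN : ∀ x, R x < N := fun x => by
    by_contra hx
    have := ht.anti (not_lt.1 hx)
    have := ht.lt x
    omega
  have e1 : cont q j = ∑ i ∈ range N, (l (j + 1) i - l j i) := by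
    rw [cont, card_eq_sum_card_fiberwise (f := fun a => R (Sum.inr a)) (t := range N)
      (fun a _ => by simpa using hRN _)]
    refine sum_congr rfl fun i _ => ?_
    rw [← Nat.card_Ico]
    refine card_bij (fun a _ => C (Sum.inr a)) (fun a ha => ?_) (fun a ha b hb hab => ?_)
      (fun c hc => ?_)
    · simp only [mem_filter, mem_univ, true_and] at ha
      rw [mem_Ico, ← ha.1, ← ha.2]
      exact ⟨hq2 a, (hq1 a).2⟩
    · simp only [mem_filter, mem_univ, true_and] at ha hb
      exact Sum.inr_injective (ht.inj _ _ (ha.2.trans hb.2.symm) hab)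
    · rw [mem_Ico] at hc
      obtain ⟨x, h3, h4⟩ := (ht.mem i c).1 (hc.2.trans_le (hmono _ k hj le_rfl i))
      rcases x with b | a
      · have := hb.lt b
        have h5 := hmono 0 j (Nat.zero_le _) hj.le i
        simp only [Function.comp, h3, h4] at this
        omega
      · refine ⟨a, ?_, h4⟩
        simp only [mem_filter, mem_univ, true_and]
        exact ⟨hq3 a j hj (by rw [h3, h4]; exact hc.1) (by rw [h3, h4]; exact hc.2), h3⟩
  rw [e1, ← sum_add_distrib]
  exact sum_congr rfl fun i _ => Nat.sub_add_cancel (hs j hj i).2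

/-- The right factor acts on the intertwiners into the left restriction. -/
noncomputable def homRep (ρ : Representation ℂ (Perm β) V) (σ : Representation ℂ (Perm (β ⊕ γ)) W) :
    Representation ℂ (Perm γ) (ρ.IntertwiningMap (resL σ)) where
  toFun k :=
    { toFun := fun ψ => (resRHom σ k).comp ψ
      map_add' := fun a b => by ext v; simp
      map_smul' := fun z a => by ext v; simp }
  map_one' := by ext ψ v; simp [resRHom_apply]
  map_mul' g h := by ext ψ v; simp [resRHom_apply]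

/-- Evaluation of intertwiners at a vector. -/
noncomputable def homEval (ρ : Representation ℂ (Perm β) V)
    (σ : Representation ℂ (Perm (β ⊕ γ)) W) (x : V) : (homRep ρ σ).IntertwiningMap (resR σ) where
  toFun ψ := ψ x
  map_add' _ _ := rfl
  map_smul' _ _ := rfl
  isIntertwining' _ := rfl

/-- A lift of a shape through an intertwiner. -/
lemma exists_lift {τ : Representation ℂ (Perm α) V} {σ : Representation ℂ (Perm α) W}
    (φ : τ.IntertwiningMap σ) {u : V} {C : ℕ → ℕ} (H : Sees σ (φ u) C) :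
    ∃ χ : (spechtR α C).IntertwiningMap τ, Function.Injective (φ.comp χ) := by
  obtain ⟨r, c, h, hl, hu⟩ := H
  obtain ⟨ψ, hψ⟩ := (show Sees σ (φ u) C from ⟨r, c, h, hl, hu⟩).exists_hom
  have := specht_irreducible (hl ▸ h.isShape)
  obtain ⟨s, hs⟩ := exists_section (ψ.comp φ)
    ((Representation.IsIrreducible.surjective_or_eq_zero _).resolve_right fun h0 =>
      hψ (congrArg (fun f : τ.IntertwiningMap (spechtR α C) => f u) h0))
  refine ⟨s, fun x y hxy => ?_⟩
  rw [← hs x, ← hs y]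
  exact congrArg ψ hxy

/-- Outer product: an equivariant bilinear map that does not kill `(x, z)`. -/
theorem exists_box {ρ : Representation ℂ (Perm β) V} {τ : Representation ℂ (Perm γ) V'}
    {σ : Representation ℂ (Perm (β ⊕ γ)) W} {x : V} {z : V'} (ψ : ρ.IntertwiningMap (resL σ))
    {ζ : ℕ → ℕ} (H : Sees (resR σ) (ψ x) ζ) (hz : Sees τ z ζ) :
    ∃ B : V →ₗ[ℂ] V' →ₗ[ℂ] W,
      (∀ g k a b, B (ρ g a) (τ k b) = σ (Perm.sumCongr g k) (B a b)) ∧ B x z ≠ 0 := by
  obtain ⟨χ, hχ⟩ := exists_lift (homEval ρ σ x) (u := ψ) H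
  obtain ⟨η, hη⟩ := hz.exists_hom
  refine ⟨LinearMap.mk₂ ℂ (fun a b => χ (η b) a) (fun _ _ _ => map_add _ _ _)
    (fun _ _ _ => map_smul _ _ _) (fun a b b' => by rw [map_add, map_add]; rfl)
    (fun s a b => by rw [map_smul, map_smul]; rfl), fun g k a b => ?_, fun h0 => hη (hχ ?_)⟩
  · simp only [LinearMap.mk₂_apply]
    rw [η.isIntertwining, χ.isIntertwining, (homRep ρ σ k _).isIntertwining, ← resL_resR]
    rfl
  · rw [map_zero]; exact h0

/-- The peeling lemma. -/
theorem peel {ρ : Representation ℂ (Perm α) V} {σ : Representation ℂ (Perm α) W} (f : V →ₗ[ℂ] W)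
    {u : V} {P : α → κ} (K : Perm α → Prop) (hK1 : K 1)
    (hK : ∀ k, K k → σ k (f (ρ k⁻¹ u)) = f u) (hu : ∀ h ∈ stab P, ρ h u = u)
    (h0 : ∀ g, f (ρ g⁻¹ u) ≠ 0 → ∃ h ∈ stab P, ∃ k, K k ∧ g = h * k)
    (hs : symOp σ P (f u) ≠ 0) : avgMap ρ σ f u ≠ 0 := by
  classical
  intro hz
  have h1 : ∀ g, symOp σ P (σ g (f (ρ g⁻¹ u))) =
      if ∃ h ∈ stab P, ∃ k, K k ∧ g = h * k then symOp σ P (f u) else 0 := fun g => by
    split_ifs with hg
    · obtain ⟨h, hh, k, hk, rfl⟩ := hg
      rw [mul_inv_rev, map_mul, map_mul, Module.End.mul_apply, Module.End.mul_apply,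
        symOp_rep σ hh, hu _ (inv_mem_stab hh), hK k hk]
    · by_contra hne
      exact hg (h0 g fun h => hne (by rw [h, map_zero, map_zero]))
  have h2 := congrArg (symOp σ P) hz
  rw [avgMap_apply, map_sum, map_zero, sum_congr rfl fun g _ => h1 g, ← sum_filter, sum_const,
    ← Nat.cast_smul_eq_nsmul ℂ] at h2
  refine smul_ne_zero (Nat.cast_ne_zero.2 (card_pos.2 ⟨1, ?_⟩).ne') hs h2
  exact mem_filter.2 ⟨mem_univ _, 1, one_mem_stab P, 1, hK1, by simp⟩

lemma exists_sumCongr' {g : Perm (β ⊕ γ)} (hg : ∀ b, (g (Sum.inl b)).isLeft) :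
    ∃ g1 g2, g = Perm.sumCongr g1 g2 := by
  have h1 : Set.MapsTo g (Set.range Sum.inl) (Set.range Sum.inl) := by
    rintro _ ⟨a, rfl⟩
    obtain ⟨x, hx⟩ := Sum.isLeft_iff.1 (hg a)
    exact ⟨x, hx.symm⟩
  obtain ⟨⟨g1, g2⟩, rfl⟩ := Perm.mem_sumCongrHom_range_of_perm_mapsTo_inl h1
  exact ⟨g1, g2, rfl⟩

/-- Induction: the concatenation of vectors with disjoint label sets maps onto the induced
module. -/
theorem exists_ind {L : Type*} (S : L → Prop) {x : (β → L) →₀ ℂ} {z : (γ → L) →₀ ℂ}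
    (hx : ∀ w, x w ≠ 0 → ∀ b, S (w b)) (hz : ∀ w, z w ≠ 0 → ∀ b, ¬ S (w b))
    {σ : Representation ℂ (Perm (β ⊕ γ)) W} (B : ((β → L) →₀ ℂ) →ₗ[ℂ] ((γ → L) →₀ ℂ) →ₗ[ℂ] W)
    (hB : ∀ g k a b, B (lwordRep β L g a) (lwordRep γ L k b) = σ (Perm.sumCongr g k) (B a b))
    (h0 : B x z ≠ 0) :
    ∃ Φ : (lwordRep (β ⊕ γ) L).IntertwiningMap σ, Φ (wsum x z) ≠ 0 := by
  classical
  let f : ((β ⊕ γ → L) →₀ ℂ) →ₗ[ℂ] W := Finsupp.linearCombination ℂ fun w =>
    if ∀ b, S (w (Sum.inl b)) then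
      B (Finsupp.single (w ∘ Sum.inl) 1) (Finsupp.single (w ∘ Sum.inr) 1) else 0
  have hf : ∀ (a : (β → L) →₀ ℂ) (b : (γ → L) →₀ ℂ), (∀ w, a w ≠ 0 → ∀ b, S (w b)) →
      f (wsum a b) = B a b := fun a b ha => by
    conv_lhs => rw [← Finsupp.sum_single a, ← Finsupp.sum_single b]
    conv_rhs => rw [← Finsupp.sum_single a, ← Finsupp.sum_single b]
    simp only [Finsupp.sum, map_sum, LinearMap.sum_apply, wsum_single]
    refine sum_congr rfl fun t _ => sum_congr rfl fun s hs => ?_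
    simp only [f, Finsupp.linearCombination_single]
    rw [if_pos (show ∀ b, S (Sum.elim s t (Sum.inl b)) from ha s (Finsupp.mem_support_iff.1 hs)),
      ← Finsupp.smul_single_one s,
      ← Finsupp.smul_single_one t, map_smul, map_smul, LinearMap.smul_apply, smul_smul, mul_comm]
    rfl
  refine ⟨avgMap _ σ f, peel f (P := id) (fun k => ∃ g1 g2, k = Perm.sumCongr g1 g2)
    ⟨1, 1, by simp⟩ ?_ ?_ ?_ ?_⟩
  · rintro _ ⟨g1, g2, rfl⟩
    rw [Perm.sumCongr_inv, rep_wsum, hf, hf x z hx, hB, ← Module.End.mul_apply, ← map_mul,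
      Perm.sumCongr_mul]
    · simp
    · intro w hw b
      rw [lwordRep_apply] at hw
      simpa using hx _ hw (g1 b)
  · intro h hh
    rw [stab_id, mem_singleton] at hh
    simp [hh]
  · intro g hg
    refine ⟨1, one_mem_stab _, g, ?_, (one_mul g).symm⟩
    simp only [f, Finsupp.linearCombination_apply, Finsupp.sum] at hg
    obtain ⟨w, hw, hg⟩ := exists_ne_zero_of_sum_ne_zero hg
    have h1 : ∀ b, S (w (Sum.inl b)) := by
      by_contra h1
      exact hg (by rw [if_neg h1, smul_zero])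
    rw [Finsupp.mem_support_iff, lwordRep_apply, wsum_apply] at hw
    refine exists_sumCongr' fun b => ?_
    rcases h : g (Sum.inl b) with a | a
    · rfl
    · refine absurd (h1 b) ?_
      have := hz _ (right_ne_zero_of_mul hw) a
      simp only [Function.comp] at this
      rw [← h] at this
      simpa using this
  · rw [symOp_apply, stab_id, sum_singleton, map_one, Module.End.one_apply, hf x z hx]
    exact h0

/-- Induction step for `Sees`: `x` sees `ka`, the restriction of `S^lam` contains a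
`q`-invariant vector seeing `ka`, and `z` sees every shape allowed by `q`. -/
theorem sees_wsum_of_inv {L : Type*} (S : L → Prop) {x : (β → L) →₀ ℂ} {z : (γ → L) →₀ ℂ}
    (hx : ∀ w, x w ≠ 0 → ∀ b, S (w b)) (hz : ∀ w, z w ≠ 0 → ∀ b, ¬ S (w b)) {lam ka : ℕ → ℕ}
    (hl : IsShape (β ⊕ γ) lam) (hk : Sees (lwordRep β L) x ka) {q : γ → κ} {v : Sp (β ⊕ γ) lam}
    (hv : ∀ g ∈ stab q, resR (spechtR (β ⊕ γ) lam) g v = v)
    (H : Sees (resL (spechtR (β ⊕ γ) lam)) v ka)
    (hq : ∀ ζ (y : Sp (β ⊕ γ) lam), (∀ g ∈ stab q, resR (spechtR (β ⊕ γ) lam) g y = y) →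
      Sees (resR (spechtR (β ⊕ γ) lam)) y ζ → Sees (lwordRep γ L) z ζ) :
    Sees (lwordRep (β ⊕ γ) L) (wsum x z) lam := by
  obtain ⟨ψ, h1, h2⟩ := exists_hom_inv hv H hk
  obtain ⟨ζ, hζ⟩ := exists_sees (σ := resR (spechtR (β ⊕ γ) lam)) h1
  obtain ⟨B, hB, hB0⟩ := exists_box ψ hζ (hq ζ _ (h2 x) hζ)
  obtain ⟨Φ, hΦ⟩ := exists_ind S hx hz B hB hB0
  exact sees_of_hom hl Φ hΦ

/-- `z` sees all shapes with at most `k` rows, `lam / ka` is a chain of `k` horizontal strips. -/
theorem sees_wsum_chain {L : Type*} (S : L → Prop) {x : (β → L) →₀ ℂ} {z : (γ → L) →₀ ℂ}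
    (hx : ∀ w, x w ≠ 0 → ∀ b, S (w b)) (hz : ∀ w, z w ≠ 0 → ∀ b, ¬ S (w b)) {k : ℕ}
    {l : ℕ → ℕ → ℕ} (hs : ∀ j < k, HStrip (l (j + 1)) (l j)) (hl : IsShape (β ⊕ γ) (l k))
    (hk : Sees (lwordRep β L) x (l 0))
    (hq : ∀ ζ, IsShape γ ζ → ζ k = 0 → Sees (lwordRep γ L) z ζ) :
    Sees (lwordRep (β ⊕ γ) L) (wsum x z) (l k) := by
  obtain ⟨q, v, h1, -, h2, h3⟩ := pieri_chain hs hk.isShape (hasShape_specht hl)
  exact sees_wsum_of_inv S hx hz hl hk h2 h3 fun ζ y hy hζ =>
    hq ζ hζ.isShape (hζ.eq_zero_of_inv h1 hy)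

end Crest.Agent.R195
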