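import Crest.Agent.R195.RepKron

/-!
The `sl₂` injectivity lemma and its iterated form.
-/

set_option autoImplicit false
set_option linter.unusedSectionVars false

namespace Crest.Agent.R195

open Equiv Finset

variable {α β : Type*} [Fintype α] [DecidableEq α] [Fintype β] [DecidableEq β] {κ κ' : Type*}
variable {W : Type*} [AddCommGroup W] [Module ℂ W]

namespace SL2

variable [DecidableEq κ]

/-- Sum over all ways of changing one label `x` to `y`. -/
noncomputable def mv (x y : κ) (F : (α → κ) → W) (w : α → κ) : W :=
  ∑ b ∈ univ.filter fun b => w b = x, F (Function.update w b y)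

/-- Number of letters with a given label. -/
def ct (w : α → κ) (x : κ) : ℕ := (univ.filter fun b => w b = x).card

lemma mv_mv {x y : κ} (hxy : x ≠ y) (F : (α → κ) → W) (w : α → κ) :
    mv x y (mv y x F) w = (ct w x : ℂ) • F w +
      ∑ b ∈ univ.filter fun b => w b = x, ∑ a ∈ univ.filter fun a => w a = y,
        F (Function.update (Function.update w b y) a x) := by
  rw [mv, ct, Nat.cast_smul_eq_nsmul, ← sum_const, ← sum_add_distrib]
  refine sum_congr rfl fun b hb => ?_
  have hb' := (mem_filter.1 hb).2
  have h1 : (univ.filter fun a => Function.update w b y a = y) =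
      insert b (univ.filter fun a => w a = y) := by
    ext a
    by_cases hab : a = b
    · simp [hab]
    · simp [hab]
  rw [mv, h1, sum_insert (by simp [hb', hxy]), Function.update_idem, ← hb', Function.update_eq_self]

lemma comm {x y : κ} (hxy : x ≠ y) (F : (α → κ) → W) (w : α → κ) :
    mv x y (mv y x F) w = mv y x (mv x y F) w + ((ct w x : ℂ) - ct w y) • F w := by
  rw [mv_mv hxy, mv_mv hxy.symm, sum_comm, sub_smul]
  have : ∑ a ∈ univ.filter fun a => w a = y, ∑ b ∈ univ.filter fun b => w b = x,
        F (Function.update (Function.update w b y) a x) =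
      ∑ a ∈ univ.filter fun a => w a = y, ∑ b ∈ univ.filter fun b => w b = x,
        F (Function.update (Function.update w a x) b y) :=
    sum_congr rfl fun a ha => sum_congr rfl fun b hb => by
      rw [Function.update_comm]
      rintro rfl
      exact hxy ((mem_filter.1 hb).2.symm.trans (mem_filter.1 ha).2)
  rw [this]
  abel

lemma ct_update_self {x y : κ} (hxy : x ≠ y) {w : α → κ} {b : α} (hb : w b = x) :
    ct (Function.update w b y) x + 1 = ct w x := by
  have h1 : (univ.filter fun a => w a = x) =
      insert b (univ.filter fun a => Function.update w b y a = x) := by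
    ext a
    by_cases hab : a = b
    · simp [hab, hb]
    · simp [hab]
  rw [ct, ct, h1, card_insert_of_notMem (by simp [hxy.symm])]

lemma ct_update_new {x y : κ} (hxy : x ≠ y) {w : α → κ} {b : α} (hb : w b = x) :
    ct (Function.update w b y) y = ct w y + 1 := by
  have := ct_update_self hxy.symm (w := Function.update w b y) (b := b) (by simp)
  rw [Function.update_idem, ← hb, Function.update_eq_self] at this
  exact this.symm

lemma ct_update_other {x y z : κ} (hx : x ≠ z) (hy : y ≠ z) {w : α → κ} {b : α} (hb : w b = x) :
    ct (Function.update w b y) z = ct w z := by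
  unfold ct
  congr 1
  ext a
  by_cases hab : a = b
  · simp [hab, hb, hx, hy]
  · simp [hab]

lemma mv_smul (x y : κ) (z : ℂ) (F : (α → κ) → W) : mv x y (z • F) = z • mv x y F := by
  funext w; simp [mv, smul_sum]

lemma mv_zero (x y : κ) : mv x y (0 : (α → κ) → W) = 0 := by
  funext w; simp [mv]

/-- Injectivity of the lowering operator above the middle level. -/
lemma eq_zero {x y : κ} (hxy : x ≠ y) (F : (α → κ) → W) {a b : ℕ} (hab : b < a)
    (hF : ∀ w, F w ≠ 0 → ct w y = a ∧ ct w x = b) (hD : mv x y F = 0) : F = 0 := by
  set G : ℕ → (α → κ) → W := fun m => (mv y x)^[m] F with hG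
  have hGs : ∀ m, G (m + 1) = mv y x (G m) := fun m => Function.iterate_succ_apply' _ _ _
  have h1 : ∀ m w, G m w ≠ 0 → ct w y = a + m ∧ ct w x + m = b := by
    intro m
    induction m with
    | zero => exact hF
    | succ m ih =>
      intro w hw
      rw [hGs, mv] at hw
      obtain ⟨c, hc, hw⟩ := exists_ne_zero_of_sum_ne_zero hw
      have h2 := ih _ hw
      have h3 := ct_update_self hxy.symm (mem_filter.1 hc).2
      have h4 := ct_update_new hxy.symm (mem_filter.1 hc).2
      omega
  have h2 : ∀ m, mv x y (G (m + 1)) = (-(((m + 1) * (a - b + m) : ℕ) : ℂ)) • G m := by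
    have hc : ∀ m, mv x y (G (m + 1)) =
        mv y x (mv x y (G m)) + (((b : ℂ) - m) - (a + m)) • G m := fun m => by
      funext w
      rw [hGs, comm hxy, Pi.add_apply, Pi.smul_apply]
      by_cases hw : G m w = 0
      · simp [hw]
      · obtain ⟨e1, e2⟩ := h1 m w hw
        rw [e1, ← e2]
        push_cast
        congr 2
        ring
    intro m
    induction m with
    | zero =>
      rw [hc, show G 0 = F from rfl, hD, mv_zero, zero_add]
      congr 1
      push_cast [Nat.cast_sub hab.le]
      ring
    | succ m ih =>
      rw [hc, ih, mv_smul, ← hGs, ← add_smul]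
      congr 1
      push_cast [Nat.cast_sub hab.le]
      ring
  have h3 : ∀ m, G (m + 1) = 0 → G m = 0 := fun m h => by
    have := h2 m
    rw [h, mv_zero] at this
    refine (smul_eq_zero.1 this.symm).resolve_left ?_
    rw [neg_eq_zero, Nat.cast_eq_zero]
    exact Nat.mul_ne_zero (by omega) (by omega)
  have h4 : ∀ m, G m = 0 → G 0 = 0 := fun m => by
    induction m with
    | zero => exact id
    | succ m ih => exact fun h => ih (h3 m h)
  refine h4 (b + 1) (funext fun w => ?_)
  by_contra hw
  have := h1 _ w hw
  omega

open Classical in
/-- The Frobenius function of a vector. -/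
noncomputable def fr (σ : Representation ℂ (Perm α) W) (p : α → κ) (v : W) (w : α → κ) : W :=
  ∑ g ∈ univ.filter fun g : Perm α => p ∘ g.symm = w, σ g v

lemma fr_comp (σ : Representation ℂ (Perm α) W) (p : α → κ) (v : W) (w : α → κ) (k : Perm α) :
    fr σ p v (w ∘ k.symm) = σ k (fr σ p v w) := by
  classical
  simp only [fr, map_sum]
  symm
  refine sum_bij (fun g _ => k * g) (fun g hg => ?_) (fun a _ b _ h => mul_left_cancel h)
    (fun g hg => ⟨k⁻¹ * g, ?_, by simp⟩) (fun g _ => by simp)
  · simp only [mem_filter, mem_univ, true_and] at hg ⊢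
    rw [← hg]; rfl
  · simp only [mem_filter, mem_univ, true_and] at hg ⊢
    funext a
    have := congrFun hg (k a)
    simpa [Perm.mul_def, Perm.inv_def] using this

lemma fr_self (σ : Representation ℂ (Perm α) W) (p : α → κ) (v : W) :
    fr σ p v p = symOp σ p v := by
  classical
  rw [fr, symOp_apply]
  refine sum_congr ?_ fun _ _ => rfl
  ext g
  simp only [mem_filter, mem_univ, true_and]
  rw [← inv_mem_stab_iff, mem_stab, funext_iff]
  rfl

lemma ct_comp (w : α → κ) (e : β ≃ α) (x : κ) : ct (w ∘ e) x = ct w x :=
  card_bij (fun b _ => e b) (by simp) (fun a _ b _ h => e.injective h)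
    (fun a ha => ⟨e.symm a, by simpa using ha, by simp⟩)

lemma mv_fr_comp (σ : Representation ℂ (Perm α) W) (p : α → κ) (v : W) (x y : κ) (w : α → κ)
    (k : Perm α) : mv x y (fr σ p v) (w ∘ k.symm) = σ k (mv x y (fr σ p v) w) := by
  simp only [mv, map_sum]
  symm
  refine sum_bij (fun b _ => k b) (fun b hb => by simpa using hb) (fun a _ b _ h => k.injective h)
    (fun b hb => ⟨k.symm b, by simpa using hb, by simp⟩) (fun b _ => ?_)
  rw [← fr_comp, Function.update_comp_equiv]
  rfl

end SL2

open SL2 in
/-- The `sl₂` lemma: moving a letter from a bigger block to a smaller block does not kill an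
invariant vector. -/
theorem sl2 [DecidableEq κ] (σ : Representation ℂ (Perm α) W) {p : α → κ} {v : W}
    (hv : ∀ g ∈ stab p, σ g v = v) (h0 : v ≠ 0) (t : α) {x : κ} (hlt : ct p x < ct p (p t)) :
    ∑ b ∈ insert t (univ.filter fun b => p b = x), σ (swap t b) v ≠ 0 := by
  intro hs
  have hxy : x ≠ p t := fun h => by rw [h] at hlt; exact lt_irrefl _ hlt
  have hF : fr σ p v = 0 := by
    refine SL2.eq_zero hxy _ hlt (fun w hw => ?_) (funext fun w => ?_)
    · obtain ⟨g, hg, -⟩ := exists_ne_zero_of_sum_ne_zero hw
      rw [← (mem_filter.1 hg).2, ct_comp, ct_comp]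
      exact ⟨rfl, rfl⟩
    · have key : mv x (p t) (fr σ p v) (Function.update p t x) = 0 := by
        have h1 : (univ.filter fun a => Function.update p t x a = x) =
            insert t (univ.filter fun a => p a = x) := by
          ext a
          by_cases hab : a = t
          · simp [hab]
          · simp [hab]
        rw [mv, h1, ← smul_zero ((stab p).card : ℂ), ← hs, smul_sum]
        refine sum_congr rfl fun b hb => ?_
        rw [← map_smul, ← symOp_of_inv σ hv, ← fr_self, ← fr_comp]
        congr 1
        funext a
        have hb' : b = t ∨ p b = x := by simpa using hb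
        simp only [Function.comp, symm_swap]
        by_cases h3 : a = b
        · simp [h3]
        · by_cases h2 : a = t
          · rcases hb' with h | h
            · exact absurd (h2.trans h.symm) h3
            · rw [Function.update_of_ne h3, h2]; simp [h]
          · rw [swap_apply_of_ne_of_ne h2 h3]; simp [h3, h2]
      by_contra hne
      obtain ⟨b, hb, hw⟩ := exists_ne_zero_of_sum_ne_zero hne
      obtain ⟨g, hg, -⟩ := exists_ne_zero_of_sum_ne_zero hw
      have hb' := (mem_filter.1 hb).2
      have hg' := (mem_filter.1 hg).2
      have ht : p (g.symm b) = p t := by simpa using congrFun hg' b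
      have hw' : w = Function.update p t x ∘ (g * swap t (g.symm b) : Perm α).symm := by
        funext a
        by_cases h1 : a = b
        · subst h1
          simp [hb', Perm.mul_def]
        · have h2 := congrFun hg' a
          simp only [Function.comp, Function.update_of_ne h1] at h2
          have h3 : swap t (g.symm b) (g.symm a) ≠ t := fun h => h1 (by
            have := congrArg (swap t (g.symm b)) h
            simpa using this)
          simp only [Function.comp, Perm.mul_def, symm_trans_apply, symm_swap,
            Function.update_of_ne h3]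
          rw [mem_stab.1 (swap_mem_stab ht.symm), h2]
      apply hne
      rw [hw', mv_fr_comp, key, map_zero]
      rfl
  have := congrFun hF p
  rw [fr_self, symOp_of_inv σ hv] at this
  exact smul_ne_zero (card_stab_ne p) h0 this

lemma inv_update [DecidableEq κ] (σ : Representation ℂ (Perm α) W) {p : α → κ} {v : W}
    (hv : ∀ g ∈ stab p, σ g v = v) (t : α) (x : κ) {g : Perm α}
    (hg : g ∈ stab (Function.update p t x)) :
    σ g (∑ b ∈ insert t (univ.filter fun b => p b = x), σ (swap t b) v) =
      ∑ b ∈ insert t (univ.filter fun b => p b = x), σ (swap t b) v := by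
  have h1 : insert t (univ.filter fun a => p a = x) =
      (univ.filter fun a => Function.update p t x a = x) := by
    ext a
    by_cases hab : a = t
    · simp [hab]
    · simp [hab]
  rw [h1, map_sum]
  refine sum_bij (fun b _ => g b) (fun b hb => by simpa [mem_stab.1 hg] using hb)
    (fun a _ b _ h => g.injective h)
    (fun b hb => ⟨g⁻¹ b, mem_filter.2 ⟨mem_univ _,
      (mem_stab.1 (inv_mem_stab hg) b).trans (mem_filter.1 hb).2⟩, by simp⟩)
    (fun b hb => ?_)
  have hb' := (mem_filter.1 hb).2
  have h2 : swap t (g b) * g * swap t b ∈ stab (Function.update p t x) :=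
    mul_mem_stab (mul_mem_stab (swap_mem_stab (by rw [mem_stab.1 hg, hb']; simp)) hg)
      (swap_mem_stab (by rw [hb']; simp))
  have h3 : (swap t (g b) * g * swap t b) t = t := by simp
  have h4 : swap t (g b) * g * swap t b ∈ stab p := mem_stab.2 fun a => by
    by_cases ha : a = t
    · rw [ha, h3]
    · have h5 := mem_stab.1 h2 a
      have h6 : (swap t (g b) * g * swap t b) a ≠ t := fun h => ha
        ((swap t (g b) * g * swap t b).injective (h.trans h3.symm))
      rwa [Function.update_of_ne h6, Function.update_of_ne ha] at h5
  conv_rhs => rw [← hv _ h4, ← Module.End.mul_apply, ← map_mul]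
  rw [← Module.End.mul_apply, ← map_mul]
  simp [← mul_assoc]

open SL2 in
/-- Iterated `sl₂` lemma. The letters labelled `none` form one block; they are moved to distinct
blocks `P t`. -/
theorem sl2_multi [DecidableEq κ] (σ : Representation ℂ (Perm α) W) (P : α → κ) (k : ℕ) :
    ∀ (p : α → Option κ) (v : W), ct p none = k → (∀ a j, p a = some j → P a = j) →
      (∀ a b, p a = none → p b = none → P a = P b → a = b) →
      (∀ d, 1 ≤ d → (univ.filter fun a => p a = none ∧ d ≤ ct p (some (P a))).card ≤ k - d) →
      (∀ g ∈ stab p, σ g v = v) → v ≠ 0 → symOp σ P v ≠ 0 := by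
  induction k with
  | zero =>
    intro p v hk hP _ _ hv h0
    have hn : ∀ a, p a = some (P a) := fun a => by
      rcases h : p a with _ | j
      · rw [ct, card_eq_zero] at hk
        have : a ∈ univ.filter fun b => p b = none := by simp [h]
        rw [hk] at this
        simp at this
      · rw [hP a j h]
    rw [symOp_of_inv σ fun g hg => hv g (mem_stab.2 fun a => by rw [hn, hn, mem_stab.1 hg])]
    exact smul_ne_zero (card_stab_ne P) h0
  | succ k ih =>
    intro p v hk hP hinj hc hv h0
    obtain ⟨t, ht, hmax⟩ := exists_max_image (univ.filter fun a => p a = none)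
      (fun a => ct p (some (P a))) (card_pos.1 (by rw [ct] at hk; omega))
    have ht' := (mem_filter.1 ht).2
    have hlt : ct p (some (P t)) < ct p (p t) := by
      rw [ht', hk]
      by_contra hle
      have h1 := hc (k + 1) (by omega)
      have h2 : t ∈ univ.filter fun a => p a = none ∧ k + 1 ≤ ct p (some (P a)) := by
        simp only [mem_filter, mem_univ, true_and]
        exact ⟨ht', not_lt.1 hle⟩
      have := card_pos.2 ⟨t, h2⟩
      omega
    have hupd : ∀ a, Function.update p t (some (P t)) a = none ↔ a ≠ t ∧ p a = none := fun a => by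
      by_cases ha : a = t
      · simp [ha]
      · simp [ha]
    have := ih (Function.update p t (some (P t))) _
      (by have := ct_update_self (x := none) (y := some (P t)) (by simp) ht'; omega)
      (fun a j h => by
        by_cases ha : a = t
        · subst ha; simpa using h
        · rw [Function.update_of_ne ha] at h; exact hP a j h)
      (fun a b ha hb => hinj a b ((hupd a).1 ha).2 ((hupd b).1 hb).2)
      (fun d hd => ?_) (fun g hg => inv_update σ hv t _ hg) (sl2 σ hv h0 t hlt)
    · intro hz
      apply this
      rw [map_sum]
      refine sum_eq_zero fun b hb => ?_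
      rw [symOp_rep σ (swap_mem_stab ?_), hz]
      rcases mem_insert.1 hb with rfl | hb
      · rfl
      · exact (hP b _ (mem_filter.1 hb).2).symm
    · have hsub : (univ.filter fun a => Function.update p t (some (P t)) a = none ∧
          d ≤ ct (Function.update p t (some (P t))) (some (P a))) ⊆
          (univ.filter fun a => p a = none ∧ d ≤ ct p (some (P a))).erase t := fun a ha => by
        obtain ⟨h1, h2⟩ := (mem_filter.1 ha).2
        obtain ⟨h3, h4⟩ := (hupd a).1 h1
        rw [ct_update_other (x := none) (by simp)
          (fun h => h3 (hinj a t h4 ht' (Option.some_injective _ h).symm)) ht'] at h2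
        simp [h3, h4, h2]
      by_cases hd' : d ≤ ct p (some (P t))
      · have h1 := card_le_card hsub
        rw [card_erase_of_mem (by simp [ht', hd'])] at h1
        have := hc d hd
        omega
      · have : (univ.filter fun a => p a = none ∧ d ≤ ct p (some (P a))) = ∅ :=
          filter_eq_empty_iff.2 fun a _ h => hd' (h.2.trans (hmax a (by simp [h.1])))
        rw [this, erase_empty, subset_empty] at hsub
        rw [hsub]
        simp

end Crest.Agent.R195
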