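import Crest.Agent.R195.RepClass

/-!
`Sees σ u C`: the cyclic module generated by `u` contains the Specht module of shape `C`.
Maschke retractions.
-/

set_option autoImplicit false
set_option linter.unusedSectionVars false

namespace Crest.Agent.R195

open Equiv Finset

variable {α β : Type*} [Fintype α] [DecidableEq α] [Fintype β] [DecidableEq β] {κ κ' : Type*}
variable {W W' : Type*} [AddCommGroup W] [Module ℂ W] [AddCommGroup W'] [Module ℂ W']

/-- Averaging a linear map gives an intertwiner. -/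
noncomputable def avgMap {G : Type*} [Group G] [Fintype G] (σ : Representation ℂ G W)
    (τ : Representation ℂ G W') (f : W →ₗ[ℂ] W') : σ.IntertwiningMap τ where
  toLinearMap := ∑ g, τ g ∘ₗ f ∘ₗ σ g⁻¹
  isIntertwining' k := by
    ext v
    simp only [LinearMap.coe_comp, Function.comp_apply, LinearMap.sum_apply, map_sum]
    symm
    refine Fintype.sum_equiv (Equiv.mulLeft k) _ _ fun g => ?_
    simp only [Equiv.coe_mulLeft, mul_inv_rev, map_mul, Module.End.mul_apply]
    rw [← Module.End.mul_apply (σ k⁻¹), ← map_mul, inv_mul_cancel, map_one, Module.End.one_apply]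

lemma avgMap_apply {G : Type*} [Group G] [Fintype G] (σ : Representation ℂ G W)
    (τ : Representation ℂ G W') (f : W →ₗ[ℂ] W') (v : W) :
    avgMap σ τ f v = ∑ g, τ g (f (σ g⁻¹ v)) := by
  change (∑ g, τ g ∘ₗ f ∘ₗ σ g⁻¹) v = _
  simp [LinearMap.sum_apply]

/-- Maschke: an injective intertwiner has a retraction. -/
theorem exists_retraction {G : Type*} [Group G] [Finite G] {σ : Representation ℂ G W}
    {τ : Representation ℂ G W'} (φ : σ.IntertwiningMap τ) (hφ : Function.Injective φ) :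
    ∃ π : τ.IntertwiningMap σ, ∀ v, π (φ v) = v := by
  have := Fintype.ofFinite G
  obtain ⟨p, hp⟩ := φ.toLinearMap.exists_leftInverse_of_injective (LinearMap.ker_eq_bot.2 hφ)
  have hp' : ∀ v, p (φ v) = v := fun v => LinearMap.congr_fun hp v
  have hc : (Fintype.card G : ℂ) ≠ 0 := Nat.cast_ne_zero.2 Fintype.card_ne_zero
  refine ⟨(Fintype.card G : ℂ)⁻¹ • avgMap τ σ p, fun v => ?_⟩
  rw [Representation.IntertwiningMap.smul_apply, avgMap_apply]
  have : ∀ g : G, σ g (p (τ g⁻¹ (φ v))) = v := fun g => by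
    rw [← φ.isIntertwining, hp', ← Module.End.mul_apply, ← map_mul, mul_inv_cancel, map_one,
      Module.End.one_apply]
  simp only [this, sum_const, card_univ]
  rw [← Nat.cast_smul_eq_nsmul ℂ, smul_smul, inv_mul_cancel₀ hc, one_smul]

/-- Maschke: a surjective intertwiner has a section. -/
theorem exists_section {G : Type*} [Group G] [Finite G] {σ : Representation ℂ G W}
    {τ : Representation ℂ G W'} (φ : σ.IntertwiningMap τ) (hφ : Function.Surjective φ) :
    ∃ s : τ.IntertwiningMap σ, ∀ v, φ (s v) = v := by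
  have := Fintype.ofFinite G
  obtain ⟨p, hp⟩ := φ.toLinearMap.exists_rightInverse_of_surjective (LinearMap.range_eq_top.2 hφ)
  have hp' : ∀ v, φ (p v) = v := fun v => LinearMap.congr_fun hp v
  have hc : (Fintype.card G : ℂ) ≠ 0 := Nat.cast_ne_zero.2 Fintype.card_ne_zero
  refine ⟨(Fintype.card G : ℂ)⁻¹ • avgMap τ σ p, fun v => ?_⟩
  rw [Representation.IntertwiningMap.smul_apply, avgMap_apply, map_smul, map_sum]
  have : ∀ g : G, φ (σ g (p (τ g⁻¹ v))) = v := fun g => by
    rw [φ.isIntertwining, hp', ← Module.End.mul_apply, ← map_mul, mul_inv_cancel, map_one,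
      Module.End.one_apply]
  simp only [this, sum_const, card_univ]
  rw [← Nat.cast_smul_eq_nsmul ℂ, smul_smul, inv_mul_cancel₀ hc, one_smul]

variable {σ : Representation ℂ (Perm α) W} {τ : Representation ℂ (Perm α) W'}

lemma rep_ne_zero {G : Type*} [Group G] (σ : Representation ℂ G W) (g : G) {v : W} (hv : v ≠ 0) :
    σ g v ≠ 0 := fun h => hv (by
  have := congrArg (σ g⁻¹) h
  rwa [map_zero, ← Module.End.mul_apply, ← map_mul, inv_mul_cancel, map_one,
    Module.End.one_apply] at this)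

/-- A shape is detected by any `stab r`-invariant linear map. -/
lemma symOp_ne_of_invariant {X : Type*} [AddCommGroup X] [Module ℂ X] {r : α → κ}
    (L : W →ₗ[ℂ] X) (hL : ∀ g ∈ stab r, ∀ v, L (σ g v) = L v) {v : W} (hv : L v ≠ 0) :
    symOp σ r v ≠ 0 := fun h0 => by
  have h1 : L (symOp σ r v) = ((stab r).card : ℂ) • L v := by
    rw [symOp_apply, map_sum, sum_congr rfl fun g hg => hL g hg v, sum_const,
      Nat.cast_smul_eq_nsmul]
  rw [h0, map_zero] at h1
  exact smul_ne_zero (card_stab_ne r) hv h1.symm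

/-- The cyclic module generated by `u` contains the Specht module of shape `C`. -/
def Sees (σ : Representation ℂ (Perm α) W) (u : W) (C : ℕ → ℕ) : Prop :=
  ∃ r c : α → ℕ, Latin r c ∧ cont r = C ∧ symOp σ r (altOp σ c u) ≠ 0

lemma sees_of_symOp_altOp {r : α → ℕ} {c : α → κ} (h : Latin r c) {C : ℕ → ℕ} (hl : cont r = C)
    {u : W} (hu : symOp σ r (altOp σ c u) ≠ 0) : Sees σ u C := by
  obtain ⟨d, hd⟩ := exists_nat_label c
  exact ⟨r, d, h.congr hd, hl, by rwa [← altOp_congr σ hd]⟩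

lemma Sees.hasShape {u : W} {C : ℕ → ℕ} (H : Sees σ u C) : HasShape σ C := by
  obtain ⟨r, c, h, hl, hu⟩ := H
  exact hasShape_of_symOp_altOp h hl hu

lemma Sees.isShape {u : W} {C : ℕ → ℕ} (H : Sees σ u C) : IsShape α C := H.hasShape.isShape

lemma Sees.ne_zero {u : W} {C : ℕ → ℕ} (H : Sees σ u C) : u ≠ 0 := by
  rintro rfl
  obtain ⟨r, c, -, -, hu⟩ := H
  simp at hu

lemma HasShape.exists_sees {C : ℕ → ℕ} (H : HasShape σ C) : ∃ u, Sees σ u C := by
  obtain ⟨r, c, ht⟩ := H.isShape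
  obtain ⟨v, hv⟩ := H.symOp_altOp ht.latin ht.cont_eq
  exact ⟨v, r, c, ht.latin, ht.cont_eq, hv⟩

lemma Sees.of_map {u : W} {C : ℕ → ℕ} (φ : σ.IntertwiningMap τ) (H : Sees τ (φ u) C) :
    Sees σ u C := by
  obtain ⟨r, c, h, hl, hu⟩ := H
  refine ⟨r, c, h, hl, fun h0 => hu ?_⟩
  rw [← map_altOp, ← map_symOp, h0, map_zero]

lemma Sees.map_inj {u : W} {C : ℕ → ℕ} (H : Sees σ u C) (φ : σ.IntertwiningMap τ)
    (hφ : Function.Injective φ) : Sees τ (φ u) C := by
  obtain ⟨r, c, h, hl, hu⟩ := H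
  refine ⟨r, c, h, hl, fun h0 => hu (hφ ?_)⟩
  rw [map_symOp, map_altOp, h0, map_zero]

lemma Sees.rep {u : W} {C : ℕ → ℕ} (H : Sees σ u C) (g : Perm α) : Sees σ (σ g u) C := by
  obtain ⟨r, c, h, hl, hu⟩ := H
  refine ⟨_, _, h.comp g.symm, by rw [cont_comp, hl], ?_⟩
  rw [← rep_altOp_conj, ← rep_symOp_conj]
  exact rep_ne_zero σ g hu

lemma sees_rep_iff {u : W} {C : ℕ → ℕ} (g : Perm α) : Sees σ (σ g u) C ↔ Sees σ u C :=
  ⟨fun H => by
    have := H.rep g⁻¹
    rwa [← Module.End.mul_apply, ← map_mul, inv_mul_cancel, map_one, Module.End.one_apply] at this,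
    fun H => H.rep g⟩

lemma Sees.smul {u : W} {C : ℕ → ℕ} (H : Sees σ u C) {z : ℂ} (hz : z ≠ 0) : Sees σ (z • u) C := by
  obtain ⟨r, c, h, hl, hu⟩ := H
  refine ⟨r, c, h, hl, ?_⟩
  rw [map_smul, map_smul]
  exact smul_ne_zero hz hu

lemma Sees.of_smul {u : W} {C : ℕ → ℕ} {z : ℂ} (H : Sees σ (z • u) C) : Sees σ u C := by
  obtain ⟨r, c, h, hl, hu⟩ := H
  refine ⟨r, c, h, hl, fun h0 => hu ?_⟩
  rw [map_smul, map_smul, h0, smul_zero]

lemma Sees.of_add {u v : W} {C : ℕ → ℕ} (H : Sees σ (u + v) C) : Sees σ u C ∨ Sees σ v C := by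
  obtain ⟨r, c, h, hl, hu⟩ := H
  by_contra hne
  push Not at hne
  apply hu
  have h1 : symOp σ r (altOp σ c u) = 0 := by
    by_contra h1; exact hne.1 ⟨r, c, h, hl, h1⟩
  have h2 : symOp σ r (altOp σ c v) = 0 := by
    by_contra h2; exact hne.2 ⟨r, c, h, hl, h2⟩
  rw [map_add, map_add, h1, h2, add_zero]

/-- If a vector of a span sees `C` then so does one of the spanning vectors. -/
lemma Sees.of_span {s : Set W} {u : W} {C : ℕ → ℕ} (H : Sees σ u C)
    (hu : u ∈ Submodule.span ℂ s) : ∃ v ∈ s, Sees σ v C := by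
  induction hu using Submodule.span_induction with
  | mem x hx => exact ⟨x, hx, H⟩
  | zero => exact absurd rfl H.ne_zero
  | add x y _ _ hx hy => exact H.of_add.elim hx hy
  | smul a x _ hx => exact hx H.of_smul

lemma Sees.of_sum {ι : Type*} {s : Finset ι} {f : ι → W} {C : ℕ → ℕ}
    (H : Sees σ (∑ i ∈ s, f i) C) : ∃ i ∈ s, Sees σ (f i) C := by
  obtain ⟨v, ⟨i, hi, rfl⟩, hv⟩ := H.of_span (s := f '' s)
    (Submodule.sum_mem _ fun i hi => Submodule.subset_span ⟨i, hi, rfl⟩)
  exact ⟨i, hi, hv⟩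

/-- The cyclic subrepresentation generated by a vector. -/
def cyc {G : Type*} [Monoid G] (σ : Representation ℂ G W) (u : W) : Subrepresentation σ where
  toSubmodule := Submodule.span ℂ (Set.range fun g => σ g u)
  apply_mem_toSubmodule g v hv := by
    induction hv using Submodule.span_induction with
    | mem x hx =>
      obtain ⟨k, rfl⟩ := hx
      exact Submodule.subset_span ⟨g * k, by simp⟩
    | zero => simp
    | add x y _ _ hx hy => rw [map_add]; exact Submodule.add_mem _ hx hy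
    | smul a x _ hx => rw [map_smul]; exact Submodule.smul_mem _ _ hx

lemma mem_cyc_self {G : Type*} [Monoid G] (σ : Representation ℂ G W) (u : W) :
    u ∈ (cyc σ u).toSubmodule := Submodule.subset_span ⟨1, by simp⟩

lemma Sees.of_mem_cyc {u v : W} {C : ℕ → ℕ} (H : Sees σ v C) (hv : v ∈ (cyc σ u).toSubmodule) :
    Sees σ u C := by
  obtain ⟨_, ⟨g, rfl⟩, h⟩ := H.of_span hv
  exact (sees_rep_iff g).1 h

lemma Sees.of_symOp {u : W} {C : ℕ → ℕ} {r : α → κ} (H : Sees σ (symOp σ r u) C) : Sees σ u C :=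
  H.of_mem_cyc (symOp_mem _ r (mem_cyc_self σ u))

lemma Sees.of_altOp {u : W} {C : ℕ → ℕ} {c : α → κ} (H : Sees σ (altOp σ c u) C) : Sees σ u C :=
  H.of_mem_cyc (altOp_mem _ c (mem_cyc_self σ u))

lemma HasShape.sees_of_irreducible [σ.IsIrreducible] {C : ℕ → ℕ} (H : HasShape σ C) {u : W}
    (hu : u ≠ 0) : Sees σ u C := by
  obtain ⟨v, hv⟩ := H.exists_sees
  rcases eq_bot_or_eq_top (cyc σ u) with h | h
  · exact absurd (by have := mem_cyc_self σ u; rw [h] at this; exact this) hu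
  · exact hv.of_mem_cyc (by rw [h]; trivial)

lemma sees_specht {C : ℕ → ℕ} (hC : IsShape α C) {x : Sp α C} (hx : x ≠ 0) :
    Sees (spechtR α C) x C := by
  have := specht_irreducible hC
  exact (hasShape_specht hC).sees_of_irreducible hx

lemma sees_of_hom {C : ℕ → ℕ} (hC : IsShape α C) {u : W} (φ : σ.IntertwiningMap (spechtR α C))
    (hu : φ u ≠ 0) : Sees σ u C := (sees_specht hC hu).of_map φ

lemma sees_of_hom' [τ.IsIrreducible] {C : ℕ → ℕ} (hC : HasShape τ C) {u : W}
    (φ : σ.IntertwiningMap τ) (hu : φ u ≠ 0) : Sees σ u C :=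
  (hC.sees_of_irreducible hu).of_map φ

lemma Sees.hasShape_cyc {u : W} {C : ℕ → ℕ} (H : Sees σ u C) : HasShape (subR (cyc σ u)) C := by
  obtain ⟨r, c, h, hl, hu⟩ := H
  refine hasShape_of_symOp_altOp h hl (v := SubT.mk _ u (mem_cyc_self σ u)) fun h0 => hu ?_
  have := congrArg (subI (cyc σ u)) h0
  rwa [map_symOp, map_altOp, subI_mk, map_zero] at this

/-- An intertwiner that kills the generator kills the cyclic module. -/
lemma eq_zero_of_mem_cyc {G : Type*} [Monoid G] {σ : Representation ℂ G W}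
    {τ : Representation ℂ G W'} (φ : σ.IntertwiningMap τ) {u v : W} (hu : φ u = 0)
    (hv : v ∈ (cyc σ u).toSubmodule) : φ v = 0 := by
  induction hv using Submodule.span_induction with
  | mem x hx => obtain ⟨g, rfl⟩ := hx; rw [φ.isIntertwining, hu, map_zero]
  | zero => exact map_zero _
  | add x y _ _ hx hy => rw [map_add, hx, hy, add_zero]
  | smul a x _ hx => rw [map_smul, hx, smul_zero]

theorem Sees.exists_hom {u : W} {C : ℕ → ℕ} (H : Sees σ u C) :
    ∃ φ : σ.IntertwiningMap (spechtR α C), φ u ≠ 0 := by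
  obtain ⟨ψ, hψ⟩ := H.hasShape_cyc.exists_inj
  obtain ⟨π, hπ⟩ := exists_retraction ((subI _).comp ψ) ((subI_injective _).comp hψ)
  refine ⟨π, fun h0 => ?_⟩
  obtain ⟨r, c, ht⟩ := H.isShape
  apply polyS_ne_zero ht.latin ht.cont_eq
  rw [← hπ (polyS _ _)]
  exact eq_zero_of_mem_cyc π h0 (subI_mem _ _)

theorem sees_iff_hom {u : W} {C : ℕ → ℕ} (hC : IsShape α C) :
    Sees σ u C ↔ ∃ φ : σ.IntertwiningMap (spechtR α C), φ u ≠ 0 :=
  ⟨fun H => H.exists_hom, fun ⟨φ, h⟩ => sees_of_hom hC φ h⟩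

/-- If `u` sees `C` and `τ` has shape `C`, some intertwiner to `τ` does not kill `u`. -/
theorem Sees.exists_hom' {u : W} {C : ℕ → ℕ} (H : Sees σ u C) (hτ : HasShape τ C) :
    ∃ φ : σ.IntertwiningMap τ, φ u ≠ 0 := by
  obtain ⟨φ, hφ⟩ := H.exists_hom
  obtain ⟨ψ, hψ⟩ := hτ.exists_inj
  exact ⟨ψ.comp φ, fun h0 => hφ (hψ (h0.trans (map_zero ψ).symm))⟩

/-- A nonzero vector of a finite-dimensional representation sees some shape. -/
theorem exists_sees [FiniteDimensional ℂ W] {u : W} (hu : u ≠ 0) : ∃ C, Sees σ u C := by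
  obtain ⟨C, φ, hC, hφ, hm⟩ := exists_hasShape_sub σ (cyc σ u) fun h =>
    hu (by have := mem_cyc_self σ u; rw [h] at this; exact this)
  obtain ⟨r, c, ht⟩ := id hC
  exact ⟨C, ((sees_specht hC (polyS_ne_zero ht.latin ht.cont_eq)).map_inj φ hφ).of_mem_cyc (hm _)⟩

/-- A nonzero vector (in any representation) sees some shape. -/
theorem exists_sees' {u : W} (hu : u ≠ 0) : ∃ C, Sees σ u C := by
  have : FiniteDimensional ℂ (SubT (cyc σ u)) :=
    FiniteDimensional.span_of_finite ℂ (Set.finite_range _)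
  obtain ⟨C, hC⟩ := exists_sees (σ := subR (cyc σ u)) (u := SubT.mk _ u (mem_cyc_self σ u))
    fun h => hu (congrArg (subI _) h)
  exact ⟨C, hC.map_inj (subI _) (subI_injective _)⟩

/-- If `φ u ≠ 0` then `u` and `φ u` see a common shape of the target. -/
theorem exists_sees_of_map {u : W} (φ : σ.IntertwiningMap τ) (hu : φ u ≠ 0) :
    ∃ C, Sees σ u C ∧ Sees τ (φ u) C := by
  obtain ⟨C, hC⟩ := exists_sees' (σ := τ) hu
  exact ⟨C, hC.of_map φ, hC⟩

theorem Sees.twist {u : W} {C C' : ℕ → ℕ} (H : Sees σ u C) (hc : IsConjShape C C') :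
    Sees (twist σ) u C' := by
  obtain ⟨r, c, h, hl, hu⟩ := H.hasShape_cyc.twist hc |>.exists_sees.choose_spec
  refine Sees.of_mem_cyc (u := u) (v := subI _ (H.hasShape_cyc.twist hc).exists_sees.choose)
    ⟨r, c, h, hl, fun h0 => hu (subI_injective _ ?_)⟩ ?_
  · rw [symOp_twist, altOp_twist] at h0 ⊢
    rw [map_altOp, map_symOp, h0, map_zero]
  · have := subI_mem _ (H.hasShape_cyc.twist hc).exists_sees.choose
    refine Submodule.span_le.2 ?_ this
    rintro _ ⟨g, rfl⟩
    have h1 : σ g u = sg g • R195.twist σ g u := by simp [twist_apply, smul_smul]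
    simp only [h1]
    exact Submodule.smul_mem _ _ (Submodule.subset_span ⟨g, rfl⟩)

/-- Dominance: a vector invariant under `stab w` only sees shapes dominating the content. -/
theorem Sees.exists_word {u : W} {C : ℕ → ℕ} (H : Sees σ u C) {w : α → κ}
    (hw : ∀ g ∈ stab w, σ g u = u) :
    ∃ r c : α → ℕ, IsTab C r c ∧ ∀ a b, c a = c b → w a = w b → a = b := by
  obtain ⟨r, c, h, hl, hu⟩ := H
  obtain ⟨d, hd, hd'⟩ := h.exists_isTab
  refine ⟨r, d, hl ▸ hd, fun a b h1 h2 => ?_⟩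
  by_contra hab
  exact hu (by rw [altOp_eq_zero σ hab ((hd' a b).2 h1) (hw _ (swap_mem_stab h2)), map_zero])

/-- A vector invariant under a labelling with values below `k` only sees shapes with at most `k`
rows. -/
theorem Sees.eq_zero_of_inv {u : W} {C : ℕ → ℕ} (H : Sees σ u C) {w : α → ℕ} {k : ℕ}
    (hk : ∀ a, w a < k) (hw : ∀ g ∈ stab w, σ g u = u) : C k = 0 := by
  obtain ⟨r, c, ht, h⟩ := H.exists_word hw
  obtain ⟨g, -, hg⟩ := ht.latin.exists_le h
  rw [← ht.cont_eq]
  refine cont_eq_zero fun a ha => ?_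
  have := hg (g.symm a)
  rw [apply_symm_apply] at this
  have := hk (g.symm a)
  omega

end Crest.Agent.R195
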