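import Crest.Agent.R195.RepTab

/-!
Specht modules: irreducibility, shapes of representations, the sign twist.
-/

set_option autoImplicit false
set_option linter.unusedSectionVars false

namespace Crest.Agent.R195

open Equiv Finset

variable {α β : Type*} [Fintype α] [DecidableEq α] [Fintype β] [DecidableEq β] {κ κ' : Type*}

/-- The permutation representation on words. -/
noncomputable def wordRep (α : Type*) : Representation ℂ (Perm α) ((α → ℕ) →₀ ℂ) where
  toFun g := Finsupp.lmapDomain ℂ ℂ (fun w i => w (g.symm i))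
  map_one' := by
    ext w : 2
    simp only [LinearMap.coe_comp, Function.comp, Finsupp.lsingle_apply, Finsupp.lmapDomain_apply,
      Finsupp.mapDomain_single, Module.End.one_apply]
    rfl
  map_mul' x y := by
    ext w : 2
    simp only [LinearMap.coe_comp, Function.comp, Finsupp.lsingle_apply, Finsupp.lmapDomain_apply,
      Finsupp.mapDomain_single, Module.End.mul_apply]
    rfl

lemma wordRep_single (g : Perm α) (w : α → ℕ) (z : ℂ) :
    wordRep α g (Finsupp.single w z) = Finsupp.single (w ∘ g.symm) z := by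
  simp only [wordRep, MonoidHom.coe_mk, OneHom.coe_mk, Finsupp.lmapDomain_apply,
    Finsupp.mapDomain_single]
  rfl

lemma wordRep_apply (g : Perm α) (x : (α → ℕ) →₀ ℂ) (w : α → ℕ) :
    wordRep α g x w = x (w ∘ g) := by
  classical
  induction x using Finsupp.induction_linear with
  | zero => simp
  | add x y hx hy => simp [hx, hy]
  | single u z =>
    rw [wordRep_single, Finsupp.single_apply, Finsupp.single_apply]
    congr 1
    apply propext
    constructor
    · rintro rfl; funext a; simp
    · rintro rfl; funext a; simp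

lemma wordRep_single_of_mem {g : Perm α} {r : α → ℕ} (hg : g ∈ stab r) (z : ℂ) :
    wordRep α g (Finsupp.single r z) = Finsupp.single r z := by
  rw [wordRep_single]
  congr 1
  funext a
  exact mem_stab.1 (inv_mem_stab hg) a

/-- The polytabloid of a row word `r` and a column labelling `c`. -/
noncomputable def poly (r : α → ℕ) (c : α → κ) : (α → ℕ) →₀ ℂ :=
  altOp (wordRep α) c (Finsupp.single r 1)

lemma poly_eq (r : α → ℕ) (c : α → κ) :
    poly r c = ∑ g ∈ stab c, sg g • Finsupp.single (r ∘ g.symm) (1 : ℂ) := by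
  simp only [poly, altOp_apply, wordRep_single]

lemma poly_eq' (r : α → ℕ) (c : α → κ) :
    poly r c = ∑ g ∈ stab c, sg g • Finsupp.single (r ∘ g) (1 : ℂ) := by
  rw [poly_eq]
  refine sum_bij (fun g _ => g⁻¹) (fun g hg => inv_mem_stab hg) (fun a _ b _ h => inv_injective h)
    (fun g hg => ⟨g⁻¹, inv_mem_stab hg, inv_inv g⟩) (fun g _ => by rw [sg_inv]; rfl)

lemma poly_congr (r : α → ℕ) {c : α → κ} {c' : α → κ'} (h : ∀ a b, c a = c b ↔ c' a = c' b) :
    poly r c = poly r c' := by rw [poly, poly, altOp_congr _ h]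

lemma rep_poly (g : Perm α) (r : α → ℕ) (c : α → κ) :
    wordRep α g (poly r c) = poly (r ∘ g.symm) (c ∘ g.symm) := by
  rw [poly, rep_altOp_conj, wordRep_single, poly]

lemma rep_poly_of_mem {g : Perm α} (r : α → ℕ) {c : α → κ} (hg : g ∈ stab c) :
    wordRep α g (poly r c) = sg g • poly r c := rep_altOp _ hg _

lemma poly_comp_of_mem {g : Perm α} (r : α → ℕ) {c : α → κ} (hg : g ∈ stab c) :
    poly (r ∘ g) c = sg g • poly r c := by
  have := altOp_rep (wordRep α) (inv_mem_stab hg) (Finsupp.single r 1)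
  rw [wordRep_single, sg_inv] at this
  exact this

lemma altOp_poly (r : α → ℕ) (c : α → κ) :
    altOp (wordRep α) c (poly r c) = ((stab c).card : ℂ) • poly r c := altOp_altOp _ _ _

lemma poly_apply_comp {r : α → ℕ} {c : α → κ} (h : Latin r c) {g : Perm α} (hg : g ∈ stab c) :
    poly r c (r ∘ g) = sg g := by
  classical
  rw [poly_eq', Finsupp.finsetSum_apply, sum_eq_single g]
  · simp
  · intro k hk hne
    rw [Finsupp.smul_apply, Finsupp.single_apply, if_neg, smul_zero]
    intro he
    apply hne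
    have : k * g⁻¹ = 1 := h.eq_one (mul_mem_stab hk (inv_mem_stab hg)) (mem_stab.2 fun a => by
      simpa using congrFun he (g⁻¹ a))
    exact mul_inv_eq_one.1 this
  · intro hn; exact absurd hg hn

lemma poly_apply_self {r : α → ℕ} {c : α → κ} (h : Latin r c) : poly r c r = 1 := by
  simpa using poly_apply_comp h (one_mem_stab c)

lemma poly_ne_zero {r : α → ℕ} {c : α → κ} (h : Latin r c) : poly r c ≠ 0 := fun h0 => by
  have := poly_apply_self h
  rw [h0] at this
  simp at this

/-- The support of a polytabloid. -/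
lemma exists_of_poly_apply {r w : α → ℕ} {c : α → κ} (h : poly r c w ≠ 0) :
    ∃ g ∈ stab c, w = r ∘ g := by
  classical
  rw [poly_eq', Finsupp.finsetSum_apply] at h
  obtain ⟨g, hg, h⟩ := exists_ne_zero_of_sum_ne_zero h
  refine ⟨g, hg, ?_⟩
  by_contra hne
  rw [Finsupp.smul_apply, Finsupp.single_apply, if_neg (Ne.symm hne), smul_zero] at h
  exact h rfl

lemma poly_apply_latin {r w : α → ℕ} {c : α → κ} (hr : Latin r c) (h : poly r c w ≠ 0) :
    Latin w c := by
  obtain ⟨g, hg, rfl⟩ := exists_of_poly_apply h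
  exact (hr.comp g).congr fun a b => by simp [mem_stab.1 hg]

lemma star_poly_apply (r w : α → ℕ) (c : α → κ) : star (poly r c w) = poly r c w := by
  classical
  rw [poly_eq', Finsupp.finsetSum_apply, star_sum]
  refine sum_congr rfl fun g _ => ?_
  rw [Finsupp.smul_apply, Finsupp.single_apply]
  split_ifs <;> simp

/-- The Specht module of shape `lam` inside the word module. -/
noncomputable def specht (α : Type*) [Fintype α] [DecidableEq α] (lam : ℕ → ℕ) :
    Subrepresentation (wordRep α) where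
  toSubmodule := Submodule.span ℂ {x | ∃ r c : α → ℕ, Latin r c ∧ cont r = lam ∧ x = poly r c}
  apply_mem_toSubmodule g v hv := by
    induction hv using Submodule.span_induction with
    | mem x hx =>
      obtain ⟨r, c, h1, h2, rfl⟩ := hx
      exact Submodule.subset_span ⟨_, _, h1.comp g.symm, by rw [cont_comp, h2], rep_poly g r c⟩
    | zero => simp
    | add x y _ _ hx hy => rw [map_add]; exact Submodule.add_mem _ hx hy
    | smul a x _ hx => rw [map_smul]; exact Submodule.smul_mem _ _ hx

/-- The underlying space of the Specht module. -/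
def Sp (α : Type*) [Fintype α] [DecidableEq α] (lam : ℕ → ℕ) : Type _ :=
  (specht α lam).toSubmodule

noncomputable instance (lam : ℕ → ℕ) : AddCommGroup (Sp α lam) :=
  inferInstanceAs (AddCommGroup (specht α lam).toSubmodule)

noncomputable instance (lam : ℕ → ℕ) : Module ℂ (Sp α lam) :=
  inferInstanceAs (Module ℂ (specht α lam).toSubmodule)

/-- The Specht representation of shape `lam`. -/
noncomputable def spechtR (α : Type*) [Fintype α] [DecidableEq α] (lam : ℕ → ℕ) :
    Representation ℂ (Perm α) (Sp α lam) := (specht α lam).toRepresentation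

/-- The inclusion of the Specht module in the word module. -/
noncomputable def spIncl (α : Type*) [Fintype α] [DecidableEq α] (lam : ℕ → ℕ) :
    (spechtR α lam).IntertwiningMap (wordRep α) := subIncl (specht α lam)

/-- An element of the Specht module from a vector of the word module. -/
def Sp.mk {lam : ℕ → ℕ} (x : (α → ℕ) →₀ ℂ) (hx : x ∈ (specht α lam).toSubmodule) : Sp α lam :=
  ⟨x, hx⟩

@[simp] lemma spIncl_mk {lam : ℕ → ℕ} (x : (α → ℕ) →₀ ℂ) (hx : x ∈ (specht α lam).toSubmodule) :
    spIncl α lam (Sp.mk x hx) = x := rfl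

lemma spIncl_mem {lam : ℕ → ℕ} (x : Sp α lam) : spIncl α lam x ∈ (specht α lam).toSubmodule := x.2

lemma spIncl_injective (lam : ℕ → ℕ) : Function.Injective (spIncl α lam) :=
  fun _ _ h => Subtype.ext h

lemma Sp.ext {lam : ℕ → ℕ} {x y : Sp α lam} (h : spIncl α lam x = spIncl α lam y) : x = y :=
  Subtype.ext h

lemma poly_mem_specht {r : α → ℕ} {c : α → κ} (h : Latin r c) {lam : ℕ → ℕ} (hl : cont r = lam) :
    poly r c ∈ (specht α lam).toSubmodule := by
  obtain ⟨d, hd⟩ := exists_nat_label c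
  exact Submodule.subset_span ⟨r, d, h.congr hd, hl, poly_congr r hd⟩

lemma exists_rep_poly {r r' : α → ℕ} {c : α → κ} {c' : α → κ'} (h : Latin r c) (h' : Latin r' c')
    (hc : cont r = cont r') : ∃ g : Perm α, poly r' c' = wordRep α g (poly r c) := by
  obtain ⟨e, h1, h2⟩ := h.exists_equiv h' hc
  refine ⟨e.symm, ?_⟩
  rw [rep_poly, h1]
  exact poly_congr _ h2

lemma specht_eq_span {r : α → ℕ} {c : α → κ} (h : Latin r c) {lam : ℕ → ℕ} (hl : cont r = lam) :
    (specht α lam).toSubmodule =
      Submodule.span ℂ (Set.range fun g : Perm α => wordRep α g (poly r c)) := by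
  apply le_antisymm
  · refine Submodule.span_le.2 ?_
    rintro x ⟨r', c', h1, h2, rfl⟩
    obtain ⟨g, hg⟩ := exists_rep_poly h h1 (hl.trans h2.symm)
    exact Submodule.subset_span ⟨g, hg.symm⟩
  · refine Submodule.span_le.2 ?_
    rintro x ⟨g, rfl⟩
    exact (specht α lam).apply_mem_toSubmodule g (poly_mem_specht h hl)

lemma specht_induction {lam : ℕ → ℕ} {p : ((α → ℕ) →₀ ℂ) → Prop}
    (mem : ∀ r c : α → ℕ, Latin r c → cont r = lam → p (poly r c)) (zero : p 0)
    (add : ∀ x y, p x → p y → p (x + y)) (smul : ∀ (a : ℂ) x, p x → p (a • x))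
    {x : (α → ℕ) →₀ ℂ} (hx : x ∈ (specht α lam).toSubmodule) : p x := by
  induction hx using Submodule.span_induction with
  | mem x hx => obtain ⟨r, c, h1, h2, rfl⟩ := hx; exact mem r c h1 h2
  | zero => exact zero
  | add x y _ _ hx hy => exact add x y hx hy
  | smul a x _ hx => exact smul a x hx

lemma cont_of_mem_specht {lam : ℕ → ℕ} {x : (α → ℕ) →₀ ℂ} (hx : x ∈ (specht α lam).toSubmodule)
    {w : α → ℕ} (hw : x w ≠ 0) : cont w = lam := by
  revert hw
  refine specht_induction (p := fun x => x w ≠ 0 → cont w = lam) ?_ ?_ ?_ ?_ hx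
  · intro r c _ h2 h
    obtain ⟨g, -, rfl⟩ := exists_of_poly_apply h
    rw [cont_comp, h2]
  · simp
  · intro x y hx hy h
    by_cases h1 : x w = 0
    · exact hy (by simpa [h1] using h)
    · exact hx h1
  · intro a x hx h
    exact hx fun h1 => h (by simp [h1])

instance finiteDimensional_specht (lam : ℕ → ℕ) :
    FiniteDimensional ℂ (specht α lam).toSubmodule := by
  by_cases h : ∃ r c : α → ℕ, Latin r c ∧ cont r = lam
  · obtain ⟨r, c, h1, h2⟩ := h
    rw [specht_eq_span h1 h2]
    exact FiniteDimensional.span_of_finite ℂ (Set.finite_range _)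
  · refine FiniteDimensional.span_of_finite ℂ ?_
    convert Set.finite_empty
    ext x
    simp only [Set.mem_ofPred_eq, Set.mem_empty_iff_false, iff_false]
    rintro ⟨r, c, h1, h2, -⟩
    exact h ⟨r, c, h1, h2⟩

instance (lam : ℕ → ℕ) : FiniteDimensional ℂ (Sp α lam) := finiteDimensional_specht lam

/-- James' lemma in the word module. -/
lemma altOp_word {r : α → ℕ} {c : α → κ} (h : Latin r c) {x : (α → ℕ) →₀ ℂ}
    (hx : ∀ w, x w ≠ 0 → cont w = cont r) :
    ∃ z : ℂ, altOp (wordRep α) c x = z • poly r c := by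
  classical
  have key : ∀ w, cont w = cont r →
      altOp (wordRep α) c (Finsupp.single w 1) ∈ Submodule.span ℂ {poly r c} := fun w hw => by
    obtain ⟨e, rfl⟩ := exists_equiv_of_cont hw.symm
    obtain ⟨z, hz⟩ := h.james (wordRep α) (v := Finsupp.single r 1)
      (fun g hg => wordRep_single_of_mem hg 1) e.symm
    rw [wordRep_single] at hz
    exact Submodule.mem_span_singleton.2 ⟨z, hz.symm⟩
  have : altOp (wordRep α) c x ∈ Submodule.span ℂ {poly r c} := by
    rw [← Finsupp.sum_single x, Finsupp.sum, map_sum]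
    refine Submodule.sum_mem _ fun w hw => ?_
    rw [← mul_one (x w), ← smul_eq_mul, ← Finsupp.smul_single, map_smul]
    exact Submodule.smul_mem _ _ (key w (hx w (Finsupp.mem_support_iff.1 hw)))
  obtain ⟨z, hz⟩ := Submodule.mem_span_singleton.1 this
  exact ⟨z, hz.symm⟩

/-- The generator of a Specht module as an element of the subtype. -/
noncomputable def polyS {r : α → ℕ} {c : α → κ} (h : Latin r c) {lam : ℕ → ℕ} (hl : cont r = lam) :
    Sp α lam := Sp.mk (poly r c) (poly_mem_specht h hl)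

@[simp] lemma spIncl_polyS {r : α → ℕ} {c : α → κ} (h : Latin r c) {lam : ℕ → ℕ}
    (hl : cont r = lam) : spIncl α lam (polyS h hl) = poly r c := rfl

lemma Sp.induction {lam : ℕ → ℕ} {r : α → ℕ} {c : α → κ} (h : Latin r c) (hl : cont r = lam)
    {p : Sp α lam → Prop} (mem : ∀ g, p (spechtR α lam g (polyS h hl))) (zero : p 0)
    (add : ∀ x y, p x → p y → p (x + y)) (smul : ∀ (a : ℂ) x, p x → p (a • x)) (x : Sp α lam) :
    p x := by
  obtain ⟨x, hx⟩ := x
  have hx' := hx
  rw [specht_eq_span h hl] at hx'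
  induction hx' using Submodule.span_induction with
  | mem x hx' => obtain ⟨g, rfl⟩ := hx'; exact mem g
  | zero => exact zero
  | add x y h1 h2 ihx ihy =>
    rw [← specht_eq_span h hl] at h1 h2
    exact add _ _ (ihx h1) (ihy h2)
  | smul a x h1 ih =>
    rw [← specht_eq_span h hl] at h1
    exact smul a _ (ih h1)

lemma eq_top_of_polyS_mem {r : α → ℕ} {c : α → κ} (h : Latin r c) {lam : ℕ → ℕ}
    (hl : cont r = lam) (U : Subrepresentation (spechtR α lam))
    (hU : polyS h hl ∈ U.toSubmodule) : U = ⊤ := by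
  apply Subrepresentation.toSubmodule_injective
  refine eq_top_iff.2 fun x _ => ?_
  exact Sp.induction h hl (p := fun x => x ∈ U.toSubmodule)
    (fun g => U.apply_mem_toSubmodule g hU) U.toSubmodule.zero_mem
    (fun _ _ => U.toSubmodule.add_mem) (fun a _ => U.toSubmodule.smul_mem a) x

lemma altOp_specht {r : α → ℕ} {c : α → κ} (h : Latin r c) {lam : ℕ → ℕ} (hl : cont r = lam)
    (x : Sp α lam) : ∃ z : ℂ, altOp (spechtR α lam) c x = z • polyS h hl := by
  obtain ⟨z, hz⟩ := altOp_word h (x := spIncl α lam x)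
    fun w hw => (cont_of_mem_specht (spIncl_mem x) hw).trans hl.symm
  exact ⟨z, Sp.ext (by rw [map_altOp, hz, map_smul, spIncl_polyS])⟩

lemma altOp_polyS {r : α → ℕ} {c : α → κ} (h : Latin r c) {lam : ℕ → ℕ} (hl : cont r = lam) :
    altOp (spechtR α lam) c (polyS h hl) = ((stab c).card : ℂ) • polyS h hl :=
  Sp.ext (by rw [map_altOp, map_smul, spIncl_polyS, altOp_poly])

lemma polyS_ne_zero {r : α → ℕ} {c : α → κ} (h : Latin r c) {lam : ℕ → ℕ} (hl : cont r = lam) :
    polyS h hl ≠ 0 := fun h0 => poly_ne_zero h (congrArg Subtype.val h0)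

instance natCard_perm_neZero : NeZero (Nat.card (Perm α) : ℂ) :=
  ⟨Nat.cast_ne_zero.2 Nat.card_pos.ne'⟩

noncomputable instance natCard_perm_invertible : Invertible (Nat.card (Perm α) : ℂ) :=
  invertibleOfNonzero (NeZero.ne _)

/-- Specht modules are irreducible. -/
theorem specht_irreducible {lam : ℕ → ℕ} (hl : IsShape α lam) :
    (spechtR α lam).IsIrreducible := by
  obtain ⟨r, c, ht⟩ := hl
  have h := ht.latin
  have hl := ht.cont_eq
  have hnt : (⊥ : Subrepresentation (spechtR α lam)) ≠ ⊤ := fun he => by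
    have : polyS h hl ∈ (⊥ : Subrepresentation (spechtR α lam)).toSubmodule := by
      rw [he]; trivial
    exact polyS_ne_zero h hl this
  have : Nontrivial (Subrepresentation (spechtR α lam)) := ⟨⊥, ⊤, hnt⟩
  refine ⟨fun U => ?_⟩
  obtain ⟨U', hU⟩ := exists_isCompl U
  have hmem : polyS h hl ∈ (U ⊔ U').toSubmodule := by rw [hU.sup_eq_top]; trivial
  obtain ⟨u, hu, u', hu', he⟩ := Submodule.mem_sup.1 hmem
  obtain ⟨z, hz⟩ := altOp_specht h hl u
  obtain ⟨z', hz'⟩ := altOp_specht h hl u'
  by_cases h0 : z = 0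
  · left
    have h1 := altOp_polyS h hl
    rw [← he, map_add, hz, hz', h0, zero_smul, zero_add, he] at h1
    have h2 : z' ≠ 0 := fun h2 => by
      rw [h2, zero_smul] at h1
      exact smul_ne_zero (card_stab_ne c) (polyS_ne_zero h hl) h1.symm
    have h3 : polyS h hl ∈ U'.toSubmodule := by
      rw [← Submodule.smul_mem_iff _ h2, ← hz']; exact altOp_mem U' c hu'
    have h4 := eq_top_of_polyS_mem h hl U' h3
    rw [h4] at hU
    exact eq_bot_of_isCompl_top hU
  · right
    refine eq_top_of_polyS_mem h hl U ?_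
    rw [← Submodule.smul_mem_iff _ h0, ← hz]; exact altOp_mem U c hu

variable {W W' : Type*} [AddCommGroup W] [Module ℂ W] [AddCommGroup W'] [Module ℂ W']
  {σ : Representation ℂ (Perm α) W} {τ : Representation ℂ (Perm α) W'}

/-- An intertwiner out of a Specht module is injective as soon as one generator survives. -/
lemma injective_of_polyS {r : α → ℕ} {c : α → κ} (h : Latin r c) {lam : ℕ → ℕ} (hl : cont r = lam)
    (φ : (spechtR α lam).IntertwiningMap σ) (hφ : φ ≠ 0) : Function.Injective φ := by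
  have := specht_irreducible (hl ▸ h.isShape)
  exact (Representation.IsIrreducible.injective_or_eq_zero φ).resolve_right hφ

/-- `σ` contains the Specht module of shape `lam`. -/
def HasShape (σ : Representation ℂ (Perm α) W) (lam : ℕ → ℕ) : Prop :=
  ∃ r c : α → ℕ, Latin r c ∧ cont r = lam ∧ ∃ v, altOp σ c (symOp σ r v) ≠ 0

lemma hasShape_of_symOp {r : α → ℕ} {c : α → κ} (h : Latin r c) {lam : ℕ → ℕ} (hl : cont r = lam)
    {v : W} (hv : altOp σ c (symOp σ r v) ≠ 0) : HasShape σ lam := by
  obtain ⟨d, hd⟩ := exists_nat_label c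
  exact ⟨r, d, h.congr hd, hl, v, by rwa [← altOp_congr σ hd]⟩

lemma hasShape_of_inv {r : α → ℕ} {c : α → κ} (h : Latin r c) {lam : ℕ → ℕ} (hl : cont r = lam)
    {v : W} (hi : ∀ g ∈ stab r, σ g v = v) (hv : altOp σ c v ≠ 0) : HasShape σ lam :=
  hasShape_of_symOp h hl (v := v) (by
    rw [symOp_of_inv σ hi, map_smul]; exact smul_ne_zero (card_stab_ne r) hv)

lemma HasShape.isShape {lam : ℕ → ℕ} (h : HasShape σ lam) : IsShape α lam := by
  obtain ⟨r, c, h1, rfl, -⟩ := h; exact h1.isShape

lemma HasShape.forall_symOp {lam : ℕ → ℕ} (H : HasShape σ lam) {r : α → ℕ} {c : α → κ}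
    (h : Latin r c) (hl : cont r = lam) : ∃ v, altOp σ c (symOp σ r v) ≠ 0 := by
  obtain ⟨r', c', h', hl', v, hv⟩ := H
  obtain ⟨e, h1, h2⟩ := h'.exists_equiv h (hl'.trans hl.symm)
  refine ⟨σ e.symm v, fun h0 => hv ?_⟩
  have h3 : altOp σ c = altOp σ (c' ∘ e.symm.symm) := altOp_congr σ h2
  have h4 : r = r' ∘ e.symm.symm := h1
  rw [h3, h4, ← rep_symOp_conj, ← rep_altOp_conj] at h0
  have := congrArg (σ e) h0
  rwa [map_zero, ← Module.End.mul_apply, ← map_mul, show (e : Perm α) * e.symm = 1 from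
    mul_inv_cancel (e : Perm α), map_one, Module.End.one_apply] at this

lemma HasShape.forall_inv {lam : ℕ → ℕ} (H : HasShape σ lam) {r : α → ℕ} {c : α → κ}
    (h : Latin r c) (hl : cont r = lam) :
    ∃ v, (∀ g ∈ stab r, σ g v = v) ∧ altOp σ c v ≠ 0 := by
  obtain ⟨v, hv⟩ := H.forall_symOp h hl
  exact ⟨_, fun g hg => rep_symOp σ hg v, hv⟩

lemma HasShape.map_inj {lam : ℕ → ℕ} (H : HasShape σ lam) (φ : σ.IntertwiningMap τ)
    (hφ : Function.Injective φ) : HasShape τ lam := by
  obtain ⟨r, c, h, hl, v, hv⟩ := H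
  refine ⟨r, c, h, hl, φ v, ?_⟩
  rw [← map_symOp, ← map_altOp]
  exact fun h0 => hv (hφ (h0.trans (map_zero φ).symm))

lemma HasShape.of_surj {lam : ℕ → ℕ} (H : HasShape τ lam) (φ : σ.IntertwiningMap τ)
    (hφ : Function.Surjective φ) : HasShape σ lam := by
  obtain ⟨r, c, h, hl, v, hv⟩ := H
  obtain ⟨u, rfl⟩ := hφ v
  refine ⟨r, c, h, hl, u, fun h0 => hv ?_⟩
  rw [← map_symOp, ← map_altOp, h0, map_zero]

open Classical in
/-- The Frobenius map from the word module determined by `r` and `v`. -/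
noncomputable def frob (σ : Representation ℂ (Perm α) W) (r : α → ℕ) (v : W) :
    (wordRep α).IntertwiningMap σ where
  toLinearMap := Finsupp.linearCombination ℂ fun w =>
    ∑ g ∈ univ.filter fun g : Perm α => r ∘ g.symm = w, σ g v
  isIntertwining' k := by
    ext w : 2
    simp only [LinearMap.coe_comp, Function.comp_apply, Finsupp.lsingle_apply, wordRep_single,
      Finsupp.linearCombination_single, one_smul, map_sum]
    symm
    refine sum_bij (fun g _ => k * g) (fun g hg => ?_) (fun a _ b _ h => mul_left_cancel h)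
      (fun g hg => ⟨k⁻¹ * g, ?_, by simp⟩) (fun g _ => by simp)
    · simp only [mem_filter, mem_univ, true_and] at hg ⊢
      rw [← hg]; rfl
    · simp only [mem_filter, mem_univ, true_and] at hg ⊢
      funext a
      have := congrFun hg (k a)
      simpa [Perm.mul_def, Perm.inv_def] using this

lemma frob_single (σ : Representation ℂ (Perm α) W) (r : α → ℕ) (v : W) :
    frob σ r v (Finsupp.single r 1) = symOp σ r v := by
  classical
  change Finsupp.linearCombination ℂ _ _ = _
  rw [Finsupp.linearCombination_single, one_smul, symOp_apply]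
  refine sum_congr ?_ fun _ _ => rfl
  ext g
  simp only [mem_filter, mem_univ, true_and]
  rw [← inv_mem_stab_iff, mem_stab, funext_iff]
  rfl

lemma frob_poly (σ : Representation ℂ (Perm α) W) (r : α → ℕ) (c : α → κ) (v : W) :
    frob σ r v (poly r c) = altOp σ c (symOp σ r v) := by
  rw [poly, map_altOp, frob_single]

/-- A representation with shape `lam` contains the Specht module. -/
theorem HasShape.exists_inj {lam : ℕ → ℕ} (H : HasShape σ lam) :
    ∃ φ : (spechtR α lam).IntertwiningMap σ, Function.Injective φ := by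
  obtain ⟨r, c, h, hl, v, hv⟩ := H
  refine ⟨(frob σ r v).comp (spIncl α lam), injective_of_polyS h hl _ fun h0 => hv ?_⟩
  rw [← frob_poly]
  exact congrArg (fun φ : (spechtR α lam).IntertwiningMap σ => φ (polyS h hl)) h0

lemma symOp_apply_word (r : α → κ) (x : (α → ℕ) →₀ ℂ) (w : α → ℕ) :
    symOp (wordRep α) r x w = ∑ g ∈ stab r, x (w ∘ g) := by
  rw [symOp_apply, Finsupp.finsetSum_apply]
  simp only [wordRep_apply]

lemma altOp_apply_word (c : α → κ) (x : (α → ℕ) →₀ ℂ) (w : α → ℕ) :
    altOp (wordRep α) c x w = ∑ g ∈ stab c, sg g * x (w ∘ g) := by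
  rw [altOp_apply, Finsupp.finsetSum_apply]
  simp only [Finsupp.smul_apply, wordRep_apply, smul_eq_mul]

lemma comp_eq_of_mem {r : α → κ} {g : Perm α} (hg : g ∈ stab r) : r ∘ g = r :=
  funext (mem_stab.1 hg)

lemma symOp_poly_apply {r : α → ℕ} {c : α → κ} (h : Latin r c) :
    symOp (wordRep α) r (poly r c) r = (stab r).card := by
  rw [symOp_apply_word, sum_congr rfl (g := fun _ => (1 : ℂ))
    (fun g hg => by rw [comp_eq_of_mem hg, poly_apply_self h])]
  simp

lemma symOp_polyS_ne_zero {r : α → ℕ} {c : α → κ} (h : Latin r c) {lam : ℕ → ℕ}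
    (hl : cont r = lam) : symOp (spechtR α lam) r (polyS h hl) ≠ 0 := fun h0 => by
  have := congrArg (fun x : Sp α lam => spIncl α lam x r) h0
  simp only [map_symOp, spIncl_polyS, symOp_poly_apply h, map_zero, Finsupp.zero_apply] at this
  exact card_stab_ne r this

/-- In a representation with shape `lam` the product `sym ∘ alt` is also nonzero. -/
lemma HasShape.symOp_altOp {lam : ℕ → ℕ} (H : HasShape σ lam) {r : α → ℕ} {c : α → κ}
    (h : Latin r c) (hl : cont r = lam) : ∃ v, symOp σ r (altOp σ c v) ≠ 0 := by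
  obtain ⟨φ, hφ⟩ := H.exists_inj
  refine ⟨φ (polyS h hl), ?_⟩
  rw [← map_altOp, ← map_symOp, altOp_polyS, map_smul]
  exact fun h0 => smul_ne_zero (card_stab_ne c) (symOp_polyS_ne_zero h hl)
    (hφ (h0.trans (map_zero φ).symm))

/-- The sign twist conjugates shapes. -/
theorem HasShape.twist {lam lam' : ℕ → ℕ} (H : HasShape σ lam) (hc : IsConjShape lam lam') :
    HasShape (twist σ) lam' := by
  obtain ⟨r, c, ht⟩ := H.isShape
  obtain ⟨v, hv⟩ := H.symOp_altOp ht.latin ht.cont_eq
  exact ⟨c, r, ht.latin', (ht.transpose hc).cont_eq, v, by rwa [altOp_twist, symOp_twist]⟩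

theorem hasShape_twist_iff {lam lam' : ℕ → ℕ} (hc : IsConjShape lam lam') :
    HasShape (twist σ) lam' ↔ HasShape σ lam :=
  ⟨fun H => by simpa using H.twist hc.symm, fun H => H.twist hc⟩

lemma hasShape_of_symOp_altOp {r : α → ℕ} {c : α → κ} (h : Latin r c) {lam : ℕ → ℕ}
    (hl : cont r = lam) {v : W} (hv : symOp σ r (altOp σ c v) ≠ 0) : HasShape σ lam := by
  obtain ⟨d, hd, hd'⟩ := h.exists_isTab
  rw [hl] at hd
  rw [← hasShape_twist_iff hd.isConjShape]
  refine ⟨d, r, hd.latin', rfl, v, ?_⟩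
  rwa [altOp_twist, symOp_twist, ← altOp_congr σ hd']

theorem hasShape_specht {lam : ℕ → ℕ} (hl : IsShape α lam) : HasShape (spechtR α lam) lam := by
  obtain ⟨r, c, ht⟩ := hl
  refine hasShape_of_symOp_altOp ht.latin ht.cont_eq (v := polyS ht.latin ht.cont_eq) ?_
  rw [altOp_polyS, map_smul]
  exact smul_ne_zero (card_stab_ne c) (symOp_polyS_ne_zero _ _)

theorem hasShape_iff_inj {lam : ℕ → ℕ} (hl : IsShape α lam) :
    HasShape σ lam ↔ ∃ φ : (spechtR α lam).IntertwiningMap σ, Function.Injective φ :=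
  ⟨fun H => H.exists_inj, fun ⟨φ, hφ⟩ => (hasShape_specht hl).map_inj φ hφ⟩

theorem hasShape_of_hom_ne {lam : ℕ → ℕ} (hl : IsShape α lam)
    (φ : (spechtR α lam).IntertwiningMap σ) (hφ : φ ≠ 0) : HasShape σ lam := by
  have := specht_irreducible hl
  exact (hasShape_specht hl).map_inj φ
    ((Representation.IsIrreducible.injective_or_eq_zero φ).resolve_right hφ)

theorem hasShape_of_hom_ne' {lam : ℕ → ℕ} (hl : IsShape α lam)
    (φ : σ.IntertwiningMap (spechtR α lam)) (hφ : φ ≠ 0) : HasShape σ lam := by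
  have := specht_irreducible hl
  exact (hasShape_specht hl).of_surj φ
    ((Representation.IsIrreducible.surjective_or_eq_zero φ).resolve_right hφ)

/-- An irreducible representation with shape `lam` is the Specht module. -/
theorem HasShape.equiv {lam : ℕ → ℕ} [σ.IsIrreducible] (H : HasShape σ lam) :
    Nonempty ((spechtR α lam).Equiv σ) := by
  obtain ⟨φ, hφ⟩ := H.exists_inj
  obtain ⟨r, c, ht⟩ := H.isShape
  refine ⟨φ.ofBijective ⟨hφ, (Representation.IsIrreducible.surjective_or_eq_zero φ).resolve_right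
    fun h0 => polyS_ne_zero ht.latin ht.cont_eq (hφ ?_)⟩⟩
  rw [h0]; rfl

/-- Dominance: a Specht module only has its own shape. -/
lemma exists_word_of_altOp {lam : ℕ → ℕ} {c : α → κ} {x : Sp α lam}
    (hx : altOp (spechtR α lam) c x ≠ 0) :
    ∃ w : α → ℕ, cont w = lam ∧ ∀ a b, c a = c b → w a = w b → a = b := by
  by_contra hne
  push Not at hne
  apply hx
  apply Sp.ext
  rw [map_altOp, map_zero, ← Finsupp.sum_single (spIncl α lam x), Finsupp.sum, map_sum]
  refine sum_eq_zero fun w hw => ?_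
  obtain ⟨a, b, h1, h2, h3⟩ := hne w (cont_of_mem_specht (spIncl_mem x) (Finsupp.mem_support_iff.1 hw))
  exact altOp_eq_zero _ h3 h1 (wordRep_single_of_mem (swap_mem_stab h2) _)

theorem HasShape.unique {lam mu : ℕ → ℕ} [σ.IsIrreducible] (H : HasShape σ lam)
    (H' : HasShape σ mu) : lam = mu := by
  obtain ⟨φ⟩ := H.equiv
  obtain ⟨ψ⟩ := H'.equiv
  obtain ⟨r, c, h, hl, v, hv⟩ := H'.of_surj φ.toIntertwiningMap φ.toLinearEquiv.surjective
  obtain ⟨r', c', h', hl', v', hv'⟩ := H.of_surj ψ.toIntertwiningMap ψ.toLinearEquiv.surjective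
  obtain ⟨w, hw, hw'⟩ := exists_word_of_altOp hv
  obtain ⟨u, hu, hu'⟩ := exists_word_of_altOp hv'
  have e1 : ∑ a, w a = ∑ a, r' a := sum_eq_of_cont (hw.trans hl'.symm) id
  have e2 : ∑ a, u a = ∑ a, r a := sum_eq_of_cont (hu.trans hl.symm) id
  have e3 := h'.sum_le hu'
  obtain ⟨g, -, hg⟩ := h.exists_eq hw' (by omega)
  rw [← hw, ← hl, hg, cont_comp]

end Crest.Agent.R195
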