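import Crest.Agent.R195.RepBasic

/-!
Tableaux: Latin pairs with sorted columns.
-/

set_option autoImplicit false
set_option linter.unusedSectionVars false

namespace Crest.Agent.R195

open Equiv Finset

variable {α β : Type*} [Fintype α] [DecidableEq α] [Fintype β] [DecidableEq β] {κ κ' : Type*}

/-- `(r, c)` is a bijection from the letters onto the cells `{(i, j) | j < lam i}`. -/
structure IsTab (lam : ℕ → ℕ) (r c : α → ℕ) : Prop where
  anti : Antitone lam
  inj : ∀ a b, r a = r b → c a = c b → a = b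
  mem : ∀ i j, j < lam i ↔ ∃ a, r a = i ∧ c a = j

/-- `lam'` is the conjugate shape of `lam`. -/
def IsConjShape (lam lam' : ℕ → ℕ) : Prop := ∀ i j, j < lam i ↔ i < lam' j

lemma IsConjShape.symm {lam lam' : ℕ → ℕ} (h : IsConjShape lam lam') : IsConjShape lam' lam :=
  fun i j => (h j i).symm

lemma IsConjShape.anti {lam lam' : ℕ → ℕ} (h : IsConjShape lam lam') : Antitone lam :=
  fun i i' hi => by
    by_contra hlt
    have h1 := (h i' (lam i)).1 (not_le.1 hlt)
    have h2 := (h i (lam i)).2 (hi.trans_lt h1)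
    omega

lemma IsConjShape.unique {lam l1 l2 : ℕ → ℕ} (h : IsConjShape lam l1) (h' : IsConjShape lam l2) :
    l1 = l2 := funext fun j => eq_of_forall_lt_iff fun i => (h i j).symm.trans (h' i j)

lemma IsTab.lt {lam : ℕ → ℕ} {r c : α → ℕ} (h : IsTab lam r c) (a : α) : c a < lam (r a) :=
  (h.mem _ _).2 ⟨a, rfl, rfl⟩

lemma IsTab.latin {lam : ℕ → ℕ} {r c : α → ℕ} (h : IsTab lam r c) : Latin r c :=
  ⟨fun a b h1 h2 => h.inj a b h2 h1, fun a i hi => by
    obtain ⟨b, h1, h2⟩ := (h.mem i (c a)).1 ((h.lt a).trans_le (h.anti hi.le))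
    exact ⟨b, h2, h1⟩⟩

lemma IsTab.latin' {lam : ℕ → ℕ} {r c : α → ℕ} (h : IsTab lam r c) : Latin c r :=
  ⟨h.inj, fun a j hj => (h.mem (r a) j).1 (hj.trans (h.lt a))⟩

lemma IsTab.cont_eq {lam : ℕ → ℕ} {r c : α → ℕ} (h : IsTab lam r c) : cont r = lam := by
  funext i
  rw [cont, ← card_range (lam i)]
  refine card_bij (fun a _ => c a) (fun a ha => ?_) (fun a ha b hb hab => ?_) (fun j hj => ?_)
  · rw [mem_range, ← (mem_filter.1 ha).2]; exact h.lt a
  · exact h.inj a b (by rw [(mem_filter.1 ha).2, (mem_filter.1 hb).2]) hab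
  · obtain ⟨a, h1, h2⟩ := (h.mem i j).1 (mem_range.1 hj)
    exact ⟨a, by simp [h1], h2⟩

lemma IsTab.transpose {lam lam' : ℕ → ℕ} {r c : α → ℕ} (h : IsTab lam r c)
    (hc : IsConjShape lam lam') : IsTab lam' c r :=
  ⟨hc.symm.anti, fun a b h1 h2 => h.inj a b h2 h1, fun j i => by
    rw [← hc i j, h.mem]; simp only [and_comm]⟩

lemma IsTab.isConjShape {lam : ℕ → ℕ} {r c : α → ℕ} (h : IsTab lam r c) :
    IsConjShape lam (cont c) := fun i j => by
  constructor
  · intro hj
    rw [cont]
    have : range (i + 1) ⊆ (univ.filter fun a => c a = j).image r := fun k hk => by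
      obtain ⟨a, h1, h2⟩ := (h.mem k j).1 (hj.trans_le (h.anti (Nat.lt_succ_iff.1 (mem_range.1 hk))))
      exact mem_image.2 ⟨a, by simp [h2], h1⟩
    have h2 := (card_le_card this).trans card_image_le
    rw [card_range] at h2
    omega
  · intro hi
    rw [cont] at hi
    obtain ⟨a, ha⟩ := card_pos.1 (Nat.zero_lt_of_lt hi)
    have ha' := (mem_filter.1 ha).2
    obtain ⟨b, h1, h2⟩ := h.latin.exists_of_lt a (i := i) (by
      convert hi using 2
      ext b; simp [ha'])
    exact (h.mem i j).2 ⟨b, h2, h1.trans ha'⟩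

lemma IsTab.comp {lam : ℕ → ℕ} {r c : α → ℕ} (h : IsTab lam r c) (e : β ≃ α) :
    IsTab lam (r ∘ e) (c ∘ e) :=
  ⟨h.anti, fun a b h1 h2 => e.injective (h.inj _ _ h1 h2), fun i j => by
    rw [h.mem]
    exact ⟨fun ⟨a, ha⟩ => ⟨e.symm a, by simpa using ha⟩, fun ⟨b, hb⟩ => ⟨e b, hb⟩⟩⟩

lemma IsTab.exists_equiv {lam : ℕ → ℕ} {r c : α → ℕ} {r' c' : β → ℕ} (h : IsTab lam r c)
    (h' : IsTab lam r' c') : ∃ e : β ≃ α, r' = r ∘ e ∧ c' = c ∘ e := by
  choose f hf1 hf2 using fun b => (h.mem _ _).1 (h'.lt b)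
  have hinj : Function.Injective f := fun a b hab =>
    h'.inj a b (by rw [← hf1, hab, hf1]) (by rw [← hf2, hab, hf2])
  have hsurj : Function.Surjective f := fun a => by
    obtain ⟨b, h1, h2⟩ := (h'.mem _ _).1 (h.lt a)
    exact ⟨b, h.inj _ _ ((hf1 b).trans h1) ((hf2 b).trans h2)⟩
  exact ⟨Equiv.ofBijective f ⟨hinj, hsurj⟩, funext fun b => (hf1 b).symm,
    funext fun b => (hf2 b).symm⟩

lemma exists_nat_label (c : α → κ) : ∃ c' : α → ℕ, ∀ a b, c a = c b ↔ c' a = c' b := by
  classical
  refine ⟨fun a => (Fintype.equivFin (Set.range c) ⟨c a, a, rfl⟩ : ℕ), fun a b => ?_⟩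
  simp [Fin.val_inj]

lemma Latin.cont_anti {r : α → ℕ} {c : α → κ} (h : Latin r c) : Antitone (cont r) := by
  refine antitone_nat_of_succ_le fun i => ?_
  have : ∀ a, ∃ b, r a = i + 1 → c b = c a ∧ r b = i := fun a => by
    by_cases ha : r a = i + 1
    · obtain ⟨b, hb⟩ := h.down a i (by omega)
      exact ⟨b, fun _ => hb⟩
    · exact ⟨a, fun h => absurd h ha⟩
  choose f hf using this
  refine card_le_card_of_injOn f (fun a ha => ?_) (fun a ha b hb hab => ?_)
  · simp only [coe_filter, mem_univ, true_and, Set.mem_ofPred_eq] at ha ⊢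
    exact (hf a ha).2
  · simp only [coe_filter, mem_univ, true_and, Set.mem_ofPred_eq] at ha hb
    exact h.inj a b (by rw [← (hf a ha).1, hab, (hf b hb).1]) (ha.trans hb.symm)

/-- The columns of a Latin pair can be sorted. -/
lemma Latin.exists_isTab {r : α → ℕ} {c : α → κ} (h : Latin r c) :
    ∃ c' : α → ℕ, IsTab (cont r) r c' ∧ ∀ a b, c a = c b ↔ c' a = c' b := by
  classical
  obtain ⟨d, hd⟩ := exists_nat_label c
  replace h := h.congr hd
  suffices H : ∃ c' : α → ℕ, IsTab (cont r) r c' ∧ ∀ a b, d a = d b ↔ c' a = c' b by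
    obtain ⟨c', h1, h2⟩ := H
    exact ⟨c', h1, fun a b => (hd a b).trans (h2 a b)⟩
  set L : α → ℕ := fun a => (univ.filter fun b => d b = d a).card with hL
  have hLc : ∀ a b, d a = d b → L a = L b := fun a b hab => by simp only [hL, hab]
  have hrL : ∀ a, r a < L a := fun a => by
    have : range (r a + 1) ⊆ (univ.filter fun b => d b = d a).image r := fun k hk => by
      rcases (Nat.lt_succ_iff.1 (mem_range.1 hk)).eq_or_lt with h1 | h1
      · exact mem_image.2 ⟨a, by simp, h1.symm⟩
      · obtain ⟨b, h2, h3⟩ := h.down a k h1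
        exact mem_image.2 ⟨b, by simp [h2], h3⟩
    have h2 := (card_le_card this).trans card_image_le
    rw [card_range] at h2
    exact h2
  set bef : α → α → Prop := fun b a => L a < L b ∨ (L a = L b ∧ d b < d a) with hbef
  set c' : α → ℕ := fun a => (univ.filter fun b => r b = 0 ∧ bef b a).card with hc'
  have top : ∀ a, ∃ b, d b = d a ∧ r b = 0 := fun a =>
    h.exists_of_lt a (by convert Nat.zero_lt_of_lt (hrL a))
  have hlt : ∀ a a', bef a a' → c' a < c' a' := fun a a' hb => by
    obtain ⟨t, ht1, ht2⟩ := top a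
    refine card_lt_card ⟨fun b hb' => ?_, fun hs => ?_⟩
    · simp only [mem_filter, mem_univ, true_and, hbef] at hb hb' ⊢
      refine ⟨hb'.1, ?_⟩
      omega
    · have := hs (show t ∈ _ by
        simp only [mem_filter, mem_univ, true_and, hbef] at hb ⊢
        rw [hLc t a ht1, ht1]; exact ⟨ht2, hb⟩)
      simp only [mem_filter, mem_univ, true_and, hbef] at this
      rw [hLc t a ht1, ht1] at this
      omega
  have hfib : ∀ a b, d a = d b ↔ c' a = c' b := fun a b => by
    constructor
    · intro hab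
      simp only [hc', hbef, hLc a b hab, hab]
    · intro hab
      by_contra hne
      have : bef a b ∨ bef b a := by simp only [hbef]; omega
      rcases this with h1 | h1
      · exact absurd hab (hlt _ _ h1).ne
      · exact absurd hab (hlt _ _ h1).ne'
  have hin : ∀ a, c' a < cont r (r a) := fun a => by
    have : ∀ b, ∃ x, bef b a → d x = d b ∧ r x = r a := fun b => by
      by_cases hb : bef b a
      · obtain ⟨x, hx⟩ := h.exists_of_lt b (i := r a) (by
          have := hrL a
          simp only [hbef] at hb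
          have h3 : r a < L b := by omega
          convert h3)
        exact ⟨x, fun _ => hx⟩
      · exact ⟨b, fun h => absurd h hb⟩
    choose f hf using this
    have h1 : c' a ≤ ((univ.filter fun x => r x = r a).erase a).card := by
      refine card_le_card_of_injOn f (fun b hb => ?_) (fun b hb b' hb' hbb => ?_)
      · simp only [coe_filter, mem_univ, true_and, Set.mem_ofPred_eq] at hb
        simp only [coe_erase, coe_filter, mem_univ, true_and, Set.mem_sdiff, Set.mem_ofPred_eq,
          Set.mem_singleton_iff]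
        refine ⟨(hf b hb.2).2, fun he => ?_⟩
        have h2 := (hf b hb.2).1
        rw [he] at h2
        have h3 := hb.2
        simp only [hbef] at h3
        have := hLc a b h2
        omega
      · simp only [coe_filter, mem_univ, true_and, Set.mem_ofPred_eq] at hb hb'
        exact h.inj b b' (by rw [← (hf b hb.2).1, hbb, (hf b' hb'.2).1]) (hb.1.trans hb'.1.symm)
    have h2 : ((univ.filter fun x => r x = r a).erase a).card < cont r (r a) :=
      card_erase_lt_of_mem (by simp)
    omega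
  refine ⟨c', ⟨h.cont_anti, fun a b h1 h2 => h.inj a b ((hfib a b).2 h2) h1, fun i j => ?_⟩, hfib⟩
  constructor
  · intro hj
    have h1 : (univ.filter fun a => r a = i).image c' = range (cont r i) := by
      refine eq_of_subset_of_card_le (fun k hk => ?_) ?_
      · obtain ⟨a, ha, rfl⟩ := mem_image.1 hk
        rw [mem_range, ← (mem_filter.1 ha).2]; exact hin a
      · rw [card_range, card_image_of_injOn]
        · exact le_rfl
        · intro a ha b hb hab
          exact h.inj a b ((hfib a b).2 hab)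
            (by rw [(mem_filter.1 (mem_coe.1 ha)).2, (mem_filter.1 (mem_coe.1 hb)).2])
    have h2 := mem_range.2 hj
    rw [← h1] at h2
    obtain ⟨a, ha, h3⟩ := mem_image.1 h2
    exact ⟨a, (mem_filter.1 ha).2, h3⟩
  · rintro ⟨a, rfl, rfl⟩
    exact hin a

/-- Latin pairs of equal content are conjugate. -/
lemma Latin.exists_equiv {r : α → ℕ} {c : α → κ} {r' : β → ℕ} {c' : β → κ'} (h : Latin r c)
    (h' : Latin r' c') (hc : cont r = cont r') :
    ∃ e : β ≃ α, r' = r ∘ e ∧ ∀ a b, c' a = c' b ↔ c (e a) = c (e b) := by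
  obtain ⟨d, hd, hd'⟩ := h.exists_isTab
  obtain ⟨d', he, he'⟩ := h'.exists_isTab
  rw [← hc] at he
  obtain ⟨e, h1, h2⟩ := hd.exists_equiv he
  exact ⟨e, h1, fun a b => by rw [he', hd', h2]; rfl⟩

/-- `lam` is a partition of the number of letters of `α`. -/
def IsShape (α : Type*) [Fintype α] (lam : ℕ → ℕ) : Prop := ∃ r c : α → ℕ, IsTab lam r c

lemma Latin.isShape {r : α → ℕ} {c : α → κ} (h : Latin r c) : IsShape α (cont r) := by
  obtain ⟨d, hd, -⟩ := h.exists_isTab
  exact ⟨r, d, hd⟩

lemma IsShape.anti {lam : ℕ → ℕ} (h : IsShape α lam) : Antitone lam := by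
  obtain ⟨r, c, h⟩ := h; exact h.anti

lemma IsShape.congr {lam : ℕ → ℕ} (h : IsShape α lam) (e : β ≃ α) : IsShape β lam := by
  obtain ⟨r, c, h⟩ := h; exact ⟨_, _, h.comp e⟩

lemma IsShape.exists_conj {lam : ℕ → ℕ} (h : IsShape α lam) :
    ∃ lam', IsConjShape lam lam' ∧ IsShape α lam' := by
  obtain ⟨r, c, h⟩ := h
  exact ⟨_, h.isConjShape, _, _, h.transpose h.isConjShape⟩

lemma IsShape.conj {lam lam' : ℕ → ℕ} (h : IsShape α lam) (hc : IsConjShape lam lam') :
    IsShape α lam' := by
  obtain ⟨r, c, h⟩ := h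
  exact ⟨_, _, h.transpose hc⟩

lemma sum_cont (r : α → ℕ) {N : ℕ} (hN : ∀ a, r a < N) :
    ∑ i ∈ range N, cont r i = Fintype.card α := by
  rw [← card_univ, card_eq_sum_card_fiberwise (f := r) (t := range N)
    (fun a _ => by simpa using hN a)]
  rfl

lemma cont_eq_zero {r : α → ℕ} {i : ℕ} (h : ∀ a, r a ≠ i) : cont r i = 0 := by
  simp [cont, h]

lemma lt_of_cont {r : α → ℕ} {N : ℕ} (h : ∀ i, N ≤ i → cont r i = 0) (a : α) : r a < N := by
  by_contra hlt
  have := h (r a) (not_lt.1 hlt)
  rw [cont, card_eq_zero] at this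
  have h2 : a ∈ univ.filter fun b => r b = r a := by simp
  rw [this] at h2
  simp at h2

lemma IsShape.sum_eq {lam : ℕ → ℕ} (h : IsShape α lam) {N : ℕ} (hN : lam N = 0) :
    ∑ i ∈ range N, lam i = Fintype.card α := by
  obtain ⟨r, c, h⟩ := h
  rw [← h.cont_eq]
  refine sum_cont r (lt_of_cont fun i hi => ?_)
  rw [h.cont_eq]
  have := h.anti hi
  omega

lemma IsShape.eq_zero {lam : ℕ → ℕ} (h : IsShape α lam) : lam (Fintype.card α) = 0 := by
  by_contra hne
  obtain ⟨r, c, h⟩ := h
  have : range (Fintype.card α + 1) ⊆ univ.image r := fun k hk => by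
    obtain ⟨a, h1, -⟩ := (h.mem k 0).1
      ((Nat.pos_of_ne_zero hne).trans_le (h.anti (Nat.lt_succ_iff.1 (mem_range.1 hk))))
    exact mem_image.2 ⟨a, mem_univ _, h1⟩
  have h2 := (card_le_card this).trans card_image_le
  rw [card_range, card_univ] at h2
  omega

/-- An antitone function with finite support and the right sum is a shape. -/
lemma isShape_of_sum {lam : ℕ → ℕ} (ha : Antitone lam) {N : ℕ} (hN : lam N = 0)
    (hs : ∑ i ∈ range N, lam i = Fintype.card α) : IsShape α lam := by
  have hc : Fintype.card α = Fintype.card (Σ i : Fin N, Fin (lam i)) := by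
    rw [Fintype.card_sigma, ← hs, ← Fin.sum_univ_eq_sum_range]; simp
  obtain ⟨e⟩ := Fintype.card_eq.1 hc
  refine IsShape.congr (α := Σ i : Fin N, Fin (lam i)) ⟨fun p => p.1, fun p => p.2, ha, ?_, ?_⟩ e
  · rintro ⟨i, j⟩ ⟨i', j'⟩ h1 h2
    obtain rfl : i = i' := Fin.ext h1
    obtain rfl : j = j' := Fin.ext h2
    rfl
  · intro i j
    constructor
    · intro hj
      have hi : i < N := by
        by_contra hi
        have := ha (not_lt.1 hi)
        omega
      exact ⟨⟨⟨i, hi⟩, ⟨j, hj⟩⟩, rfl, rfl⟩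
    · rintro ⟨⟨i', j'⟩, rfl, rfl⟩
      exact j'.2

end Crest.Agent.R195
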