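import Crest.Agent.R195.RepSees

/-!
Word modules with arbitrary labels, products of words, the polynomial of a word vector.
-/

set_option autoImplicit false
set_option linter.unusedSectionVars false

namespace Crest.Agent.R195

open Equiv Finset

variable {α β : Type*} [Fintype α] [DecidableEq α] [Fintype β] [DecidableEq β] {κ κ' : Type*}
variable {L L' L'' : Type*}

/-- The permutation representation on words with labels in `L`. -/
noncomputable def lwordRep (α L : Type*) : Representation ℂ (Perm α) ((α → L) →₀ ℂ) where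
  toFun g := Finsupp.lmapDomain ℂ ℂ (fun w i => w (g.symm i))
  map_one' := by
    ext w : 2
    simp only [LinearMap.coe_comp, Function.comp, Finsupp.lsingle_apply, Finsupp.lmapDomain_apply,
      Finsupp.mapDomain_single, Module.End.one_apply]
    rfl
  map_mul' x y := by
    ext w : 2
    simp only [LinearMap.coe_comp, Function.comp, Finsupp.lsingle_apply, Finsupp.lmapDomain_apply,
      Finsupp.mapDomain_single, Module.End.mul_apply]
    rfl

lemma wordRep_eq (α : Type*) : wordRep α = lwordRep α ℕ := rfl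

lemma lwordRep_single (g : Perm α) (w : α → L) (z : ℂ) :
    lwordRep α L g (Finsupp.single w z) = Finsupp.single (w ∘ g.symm) z := by
  simp only [lwordRep, MonoidHom.coe_mk, OneHom.coe_mk, Finsupp.lmapDomain_apply,
    Finsupp.mapDomain_single]
  rfl

lemma lwordRep_apply (g : Perm α) (x : (α → L) →₀ ℂ) (w : α → L) :
    lwordRep α L g x w = x (w ∘ g) := by
  classical
  induction x using Finsupp.induction_linear with
  | zero => simp
  | add x y hx hy => simp [hx, hy]
  | single u z =>
    rw [lwordRep_single, Finsupp.single_apply, Finsupp.single_apply]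
    congr 1
    apply propext
    constructor
    · rintro rfl; funext a; simp
    · rintro rfl; funext a; simp

lemma lsymOp_apply (r : α → κ) (x : (α → L) →₀ ℂ) (w : α → L) :
    symOp (lwordRep α L) r x w = ∑ g ∈ stab r, x (w ∘ g) := by
  rw [symOp_apply, Finsupp.finsetSum_apply]
  simp only [lwordRep_apply]

lemma laltOp_apply (c : α → κ) (x : (α → L) →₀ ℂ) (w : α → L) :
    altOp (lwordRep α L) c x w = ∑ g ∈ stab c, sg g * x (w ∘ g) := by
  rw [altOp_apply, Finsupp.finsetSum_apply]
  simp only [Finsupp.smul_apply, lwordRep_apply, smul_eq_mul]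

/-- A bilinear map of free modules given on basis vectors by a map of index sets. -/
noncomputable def fmul {A B C : Type*} (f : A → B → C) :
    (A →₀ ℂ) →ₗ[ℂ] (B →₀ ℂ) →ₗ[ℂ] (C →₀ ℂ) :=
  Finsupp.linearCombination ℂ fun a => Finsupp.lmapDomain ℂ ℂ (f a)

lemma fmul_single {A B C : Type*} (f : A → B → C) (a : A) (b : B) (y z : ℂ) :
    fmul f (Finsupp.single a y) (Finsupp.single b z) = Finsupp.single (f a b) (y * z) := by
  simp [fmul]

lemma fmul_apply {A B C : Type*} (f : A → B → C)
    (hf : ∀ a b a' b', f a b = f a' b' → a = a' ∧ b = b') (x : A →₀ ℂ) (y : B →₀ ℂ) (a : A)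
    (b : B) : fmul f x y (f a b) = x a * y b := by
  classical
  induction x using Finsupp.induction_linear with
  | zero => simp
  | add x x' hx hx' => simp [hx, hx', add_mul]
  | single u z =>
    induction y using Finsupp.induction_linear with
    | zero => simp
    | add y y' hy hy' => simp [hy, hy', mul_add]
    | single v t =>
      rw [fmul_single, Finsupp.single_apply, Finsupp.single_apply, Finsupp.single_apply]
      by_cases h : f u v = f a b
      · obtain ⟨rfl, rfl⟩ := hf _ _ _ _ h
        simp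
      · rw [if_neg h]
        split_ifs with h1 h2
        · exact absurd (by rw [h1, h2]) h
        all_goals simp

/-- Extensionality for bilinear identities on free modules. -/
lemma bilin_ind {A B : Type*} {p : (A →₀ ℂ) → (B →₀ ℂ) → Prop}
    (z1 : ∀ y, p 0 y) (z2 : ∀ x, p x 0) (a1 : ∀ x x' y, p x y → p x' y → p (x + x') y)
    (a2 : ∀ x y y', p x y → p x y' → p x (y + y'))
    (s : ∀ a b y z, p (Finsupp.single a y) (Finsupp.single b z)) (x : A →₀ ℂ) (y : B →₀ ℂ) :
    p x y := by
  induction x using Finsupp.induction_linear with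
  | zero => exact z1 y
  | add x x' hx hx' => exact a1 _ _ _ hx hx'
  | single u z =>
    induction y using Finsupp.induction_linear with
    | zero => exact z2 _
    | add y y' hy hy' => exact a2 _ _ _ hy hy'
    | single v t => exact s _ _ _ _

/-- The letterwise product of words. -/
noncomputable def wmul : ((α → L) →₀ ℂ) →ₗ[ℂ] ((α → L') →₀ ℂ) →ₗ[ℂ] ((α → L × L') →₀ ℂ) :=
  fmul fun a b x => (a x, b x)

lemma wmul_single (a : α → L) (b : α → L') (y z : ℂ) :
    wmul (Finsupp.single a y) (Finsupp.single b z) =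
      Finsupp.single (fun x => (a x, b x)) (y * z) := fmul_single _ _ _ _ _

lemma wmul_apply (x : (α → L) →₀ ℂ) (y : (α → L') →₀ ℂ) (w : α → L × L') :
    wmul x y w = x (Prod.fst ∘ w) * y (Prod.snd ∘ w) :=
  fmul_apply (fun (a : α → L) (b : α → L') x => (a x, b x))
    (fun _ _ _ _ h => ⟨funext fun x => congrArg Prod.fst (congrFun h x),
      funext fun x => congrArg Prod.snd (congrFun h x)⟩) x y (Prod.fst ∘ w) (Prod.snd ∘ w)

lemma rep_wmul (g : Perm α) (x : (α → L) →₀ ℂ) (y : (α → L') →₀ ℂ) :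
    lwordRep α (L × L') g (wmul x y) = wmul (lwordRep α L g x) (lwordRep α L' g y) := by
  ext w
  simp only [lwordRep_apply, wmul_apply]
  rfl

/-- The concatenation of words on disjoint alphabets. -/
noncomputable def wsum : ((α → L) →₀ ℂ) →ₗ[ℂ] ((β → L) →₀ ℂ) →ₗ[ℂ] ((α ⊕ β → L) →₀ ℂ) :=
  fmul fun a b => Sum.elim a b

lemma wsum_single (a : α → L) (b : β → L) (y z : ℂ) :
    wsum (Finsupp.single a y) (Finsupp.single b z) = Finsupp.single (Sum.elim a b) (y * z) :=
  fmul_single _ _ _ _ _

lemma wsum_apply (x : (α → L) →₀ ℂ) (y : (β → L) →₀ ℂ) (w : α ⊕ β → L) :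
    wsum x y w = x (w ∘ Sum.inl) * y (w ∘ Sum.inr) := by
  have := fmul_apply (fun (a : α → L) (b : β → L) => Sum.elim a b)
    (fun _ _ _ _ h => ⟨funext fun x => congrFun h (Sum.inl x),
      funext fun x => congrFun h (Sum.inr x)⟩) x y (w ∘ Sum.inl) (w ∘ Sum.inr)
  rwa [Sum.elim_comp_inl_inr] at this

lemma rep_wsum (g : Perm α) (k : Perm β) (x : (α → L) →₀ ℂ) (y : (β → L) →₀ ℂ) :
    lwordRep (α ⊕ β) L (Perm.sumCongr g k) (wsum x y) =
      wsum (lwordRep α L g x) (lwordRep β L k y) := by
  ext w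
  simp only [lwordRep_apply, wsum_apply]
  rfl

lemma wmul_wsum (x : (α → L) →₀ ℂ) (y : (β → L) →₀ ℂ) (x' : (α → L') →₀ ℂ) (y' : (β → L') →₀ ℂ) :
    wmul (wsum x y) (wsum x' y') = wsum (wmul x x') (wmul y y') := by
  ext w
  simp only [wmul_apply, wsum_apply]
  exact mul_mul_mul_comm _ _ _ _

/-- Relabelling the letters. -/
noncomputable def wcomp (e : β ≃ α) : ((α → L) →₀ ℂ) →ₗ[ℂ] ((β → L) →₀ ℂ) :=
  Finsupp.lmapDomain ℂ ℂ fun w => w ∘ e

lemma wcomp_single (e : β ≃ α) (w : α → L) (z : ℂ) :
    wcomp e (Finsupp.single w z) = Finsupp.single (w ∘ e) z := by simp [wcomp]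

lemma wcomp_apply (e : β ≃ α) (x : (α → L) →₀ ℂ) (w : β → L) : wcomp e x w = x (w ∘ e.symm) := by
  have : w = (w ∘ e.symm) ∘ e := by funext a; simp
  conv_lhs => rw [this]
  exact Finsupp.mapDomain_apply (f := fun w : α → L => w ∘ e)
    (fun a b h => funext fun x => by simpa using congrFun h (e.symm x)) x _

lemma wcomp_wmul (e : β ≃ α) (x : (α → L) →₀ ℂ) (y : (α → L') →₀ ℂ) :
    wcomp e (wmul x y) = wmul (wcomp e x) (wcomp e y) := by
  ext w
  simp only [wcomp_apply, wmul_apply]
  rfl

lemma rep_wcomp (e : β ≃ α) (g : Perm β) (x : (α → L) →₀ ℂ) :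
    lwordRep β L g (wcomp e x) = wcomp e (lwordRep α L (e.permCongr g) x) := by
  ext w
  simp only [wcomp_apply, lwordRep_apply]
  congr 1
  funext a
  simp

/-- Changing the labels. -/
noncomputable def wlab (α : Type*) (f : L → L') :
    (lwordRep α L).IntertwiningMap (lwordRep α L') where
  toLinearMap := Finsupp.lmapDomain ℂ ℂ fun w => f ∘ w
  isIntertwining' g := by
    ext w : 2
    simp only [lwordRep, MonoidHom.coe_mk, OneHom.coe_mk, LinearMap.coe_comp, Function.comp_apply,
      Finsupp.lsingle_apply, Finsupp.lmapDomain_apply, Finsupp.mapDomain_single]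
    rfl

lemma wlab_single (f : L → L') (w : α → L) (z : ℂ) :
    wlab α f (Finsupp.single w z) = Finsupp.single (f ∘ w) z := by
  change Finsupp.lmapDomain ℂ ℂ _ _ = _
  simp

lemma wlab_injective {f : L → L'} (hf : Function.Injective f) : Function.Injective (wlab α f) :=
  Finsupp.mapDomain_injective hf.comp_left

lemma wlab_apply {f : L → L'} (hf : Function.Injective f) (x : (α → L) →₀ ℂ) (w : α → L) :
    wlab α f x (f ∘ w) = x w :=
  Finsupp.mapDomain_apply (f := fun w : α → L => f ∘ w) hf.comp_left x w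

lemma wlab_swap_wmul (x : (α → L) →₀ ℂ) (y : (α → L') →₀ ℂ) :
    wlab α Prod.swap (wmul x y) = wmul y x := by
  ext w
  have : w = Prod.swap ∘ (Prod.swap ∘ w) := rfl
  conv_lhs => rw [this, wlab_apply Prod.swap_injective]
  simp only [wmul_apply]
  exact mul_comm _ _

lemma wlab_assoc_wmul (x : (α → L) →₀ ℂ) (y : (α → L') →₀ ℂ) (z : (α → L'') →₀ ℂ) :
    wlab α (Equiv.prodAssoc L L' L'') (wmul (wmul x y) z) = wmul x (wmul y z) := by
  ext w
  have : w = Equiv.prodAssoc L L' L'' ∘ ((Equiv.prodAssoc L L' L'').symm ∘ w) := by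
    funext a; simp
  conv_lhs => rw [this, wlab_apply (Equiv.injective _)]
  simp only [wmul_apply]
  exact mul_assoc _ _ _

/-- The polynomial of a word vector: a word gives the product of the variables of its labels. -/
noncomputable def toPoly : ((α → L) →₀ ℂ) →ₗ[ℂ] MvPolynomial L ℂ :=
  Finsupp.linearCombination ℂ fun w => ∏ a, MvPolynomial.X (w a)

lemma toPoly_single (w : α → L) (z : ℂ) :
    toPoly (Finsupp.single w z) = z • ∏ a, MvPolynomial.X (w a) := by simp [toPoly]

lemma toPoly_wcomp (e : β ≃ α) (x : (α → L) →₀ ℂ) : toPoly (wcomp e x) = toPoly x := by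
  induction x using Finsupp.induction_linear with
  | zero => simp
  | add x y hx hy => simp [hx, hy]
  | single w z =>
    rw [wcomp_single, toPoly_single, toPoly_single]
    congr 1
    exact Equiv.prod_comp e fun a => MvPolynomial.X (w a)

lemma toPoly_rep (g : Perm α) (x : (α → L) →₀ ℂ) : toPoly (lwordRep α L g x) = toPoly x :=
  toPoly_wcomp g.symm x

lemma toPoly_wsum (x : (α → L) →₀ ℂ) (y : (β → L) →₀ ℂ) :
    toPoly (wsum x y) = toPoly x * toPoly y := by
  refine bilin_ind (p := fun x y => toPoly (wsum x y) = toPoly x * toPoly y) (by simp) (by simp)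
    (fun x x' y h h' => by simp [h, h', add_mul]) (fun x y y' h h' => by simp [h, h', mul_add])
    (fun a b y z => ?_) x y
  rw [wsum_single, toPoly_single, toPoly_single, toPoly_single, Fintype.prod_sum_type,
    smul_mul_smul_comm]
  rfl

lemma toPoly_wlab (f : L → L') (x : (α → L) →₀ ℂ) :
    toPoly (wlab α f x) = MvPolynomial.rename f (toPoly x) := by
  induction x using Finsupp.induction_linear with
  | zero => simp
  | add x y hx hy => simp [hx, hy]
  | single w z =>
    rw [wlab_single, toPoly_single, toPoly_single]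
    simp

lemma exists_perm_of_prod_X {w w' : α → L}
    (h : (∏ a, MvPolynomial.X (w a) : MvPolynomial L ℂ) = ∏ a, MvPolynomial.X (w' a)) :
    ∃ e : Perm α, w' = w ∘ e := by
  classical
  simp only [MvPolynomial.X, ← MvPolynomial.monomial_sum_one] at h
  have h1 := MvPolynomial.monomial_left_injective one_ne_zero h
  have : ∀ i, Nonempty ({b // w' b = i} ≃ {a // w a = i}) := fun i => by
    refine Fintype.card_eq.1 ?_
    rw [Fintype.card_subtype, Fintype.card_subtype, card_filter, card_filter]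
    have := DFunLike.congr_fun h1 i
    simp only [Finsupp.finsetSum_apply, Finsupp.single_apply] at this
    exact this.symm
  refine ⟨Equiv.ofFiberEquiv (fun i => (this i).some), funext fun b => ?_⟩
  exact (Equiv.ofFiberEquiv_map _ b).symm

/-- The polynomial detects the symmetrised vector. -/
lemma toPoly_wmul_single_eq_zero (x : (α → L) →₀ ℂ) (r : α → L') :
    toPoly (wmul x (Finsupp.single r 1)) = 0 ↔ symOp (lwordRep α L) r x = 0 := by
  classical
  constructor
  · intro h0
    let R : MvPolynomial (L × L') ℂ →ₗ[ℂ] ((α → L) →₀ ℂ) :=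
      (MvPolynomial.basisMonomials (L × L') ℂ).constr ℂ fun m =>
        if h : ∃ a : α → L, (∏ x, MvPolynomial.X (a x, r x) : MvPolynomial (L × L') ℂ) =
            MvPolynomial.monomial m 1 then symOp (lwordRep α L) r (Finsupp.single h.choose 1)
        else 0
    have hR : ∀ x : (α → L) →₀ ℂ,
        R (toPoly (wmul x (Finsupp.single r 1))) = symOp (lwordRep α L) r x := fun x => by
      induction x using Finsupp.induction_linear with
      | zero => simp
      | add x y hx hy => simp only [map_add, LinearMap.add_apply, hx, hy]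
      | single a z =>
        rw [wmul_single, toPoly_single, mul_one, map_smul, ← Finsupp.smul_single_one a z, map_smul]
        congr 1
        have e1 : (∏ x, MvPolynomial.X (a x, r x) : MvPolynomial (L × L') ℂ) =
            MvPolynomial.monomial (∑ x, Finsupp.single (a x, r x) 1) 1 := by
          simp only [MvPolynomial.X, ← MvPolynomial.monomial_sum_one]
        have h : ∃ a' : α → L, (∏ x, MvPolynomial.X (a' x, r x) : MvPolynomial (L × L') ℂ) =
            MvPolynomial.monomial (∑ x, Finsupp.single (a x, r x) 1) 1 := ⟨a, e1⟩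
        have e2 : ∀ m, (MvPolynomial.monomial m 1 : MvPolynomial (L × L') ℂ) =
            MvPolynomial.basisMonomials (L × L') ℂ m := fun m => by simp
        rw [e1, e2]
        simp only [R]
        rw [Module.Basis.constr_basis, dif_pos h]
        obtain ⟨e, he⟩ := exists_perm_of_prod_X (w := fun x => (a x, r x))
          (w' := fun x => (h.choose x, r x)) (e1.trans h.choose_spec.symm)
        have he1 : h.choose = a ∘ e := funext fun x => congrArg Prod.fst (congrFun he x)
        have he2 : e ∈ stab r := mem_stab.2 fun x => (congrArg Prod.snd (congrFun he x)).symm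
        rw [he1, ← symOp_rep _ (inv_mem_stab he2) (Finsupp.single a 1), lwordRep_single]
        rfl
    rw [← hR, h0, map_zero]
  · intro h0
    by_contra hne
    refine symOp_ne_of_invariant (σ := lwordRep α L) (r := r)
      (toPoly ∘ₗ wmul.flip (Finsupp.single r 1)) (fun g hg v => ?_) hne h0
    simp only [LinearMap.coe_comp, Function.comp_apply, LinearMap.flip_apply]
    rw [← toPoly_rep g (wmul v _), rep_wmul, lwordRep_single,
      comp_eq_of_mem (show g.symm ∈ stab r from inv_mem_stab hg)]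

lemma toPoly_wmul_rep (g : Perm α) (x : (α → L) →₀ ℂ) (y : (α → L') →₀ ℂ) :
    toPoly (wmul (lwordRep α L g x) y) = toPoly (wmul x (lwordRep α L' g⁻¹ y)) := by
  rw [← toPoly_rep g⁻¹, rep_wmul, ← Module.End.mul_apply, ← map_mul, inv_mul_cancel, map_one,
    Module.End.one_apply]

lemma toPoly_wmul_altOp (c : α → κ) (x : (α → L) →₀ ℂ) (y : (α → L') →₀ ℂ) :
    toPoly (wmul (altOp (lwordRep α L) c x) y) = toPoly (wmul x (altOp (lwordRep α L') c y)) := by
  simp only [altOp_apply, map_sum, LinearMap.sum_apply, map_smul, LinearMap.smul_apply,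
    toPoly_wmul_rep]
  refine sum_bij (fun g _ => g⁻¹) (fun g hg => inv_mem_stab hg) (fun a _ b _ h => inv_injective h)
    (fun g hg => ⟨g⁻¹, inv_mem_stab hg, inv_inv g⟩) (fun g _ => by rw [sg_inv])

/-- Polynomial criterion for `Sees` in word modules. -/
theorem symOp_altOp_ne_iff (x : (α → L) →₀ ℂ) (r : α → ℕ) (c : α → κ) :
    symOp (lwordRep α L) r (altOp (lwordRep α L) c x) ≠ 0 ↔ toPoly (wmul x (poly r c)) ≠ 0 := by
  rw [ne_eq, ← toPoly_wmul_single_eq_zero, toPoly_wmul_altOp]
  rfl

theorem sees_iff_toPoly (x : (α → L) →₀ ℂ) (C : ℕ → ℕ) :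
    Sees (lwordRep α L) x C ↔
      ∃ r c : α → ℕ, Latin r c ∧ cont r = C ∧ toPoly (wmul x (poly r c)) ≠ 0 := by
  simp only [Sees, symOp_altOp_ne_iff]

lemma poly_comp (e : β ≃ α) (r : α → ℕ) (c : α → κ) :
    poly (r ∘ e) (c ∘ e) = wcomp e (poly r c) := by
  rw [poly_eq', poly_eq', map_sum]
  refine sum_bij (fun g _ => e.permCongr g) (fun g hg => mem_stab.2 fun a => ?_)
    (fun a _ b _ h => e.permCongr.injective h)
    (fun g hg => ⟨e.permCongr.symm g, mem_stab.2 fun a => ?_,
      e.permCongr.apply_symm_apply g⟩) (fun g _ => ?_)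
  · simpa using mem_stab.1 hg (e.symm a)
  · simpa using mem_stab.1 hg (e a)
  · rw [map_smul, wcomp_single, sg, sg, Perm.sign_permCongr]
    congr 2
    funext a
    simp

lemma Sees.wcomp {x : (α → L) →₀ ℂ} {C : ℕ → ℕ} (H : Sees (lwordRep α L) x C) (e : β ≃ α) :
    Sees (lwordRep β L) (wcomp e x) C := by
  rw [sees_iff_toPoly] at H ⊢
  obtain ⟨r, c, h, hl, hx⟩ := H
  exact ⟨_, _, h.comp e, by rw [cont_comp, hl], by rwa [poly_comp, ← wcomp_wmul, toPoly_wcomp]⟩

lemma sg_sumCongr (g : Perm α) (k : Perm β) : sg (Perm.sumCongr g k) = sg g * sg k := by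
  simp [sg]

lemma exists_sumCongr {c : α → κ} {d : β → κ'} {g : Perm (α ⊕ β)} (hg : g ∈ stab (Sum.map c d)) :
    ∃ g1 ∈ stab c, ∃ g2 ∈ stab d, g = Perm.sumCongr g1 g2 := by
  have h1 : Set.MapsTo g (Set.range Sum.inl) (Set.range Sum.inl) := by
    rintro _ ⟨a, rfl⟩
    have := mem_stab.1 hg (Sum.inl a)
    rcases h : g (Sum.inl a) with x | x
    · exact ⟨x, rfl⟩
    · rw [h] at this; simp at this
  obtain ⟨⟨g1, g2⟩, rfl⟩ := Perm.mem_sumCongrHom_range_of_perm_mapsTo_inl h1
  refine ⟨g1, mem_stab.2 fun a => ?_, g2, mem_stab.2 fun b => ?_, rfl⟩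
  · simpa using mem_stab.1 hg (Sum.inl a)
  · simpa using mem_stab.1 hg (Sum.inr b)

lemma sumCongr_mem_stab {c : α → κ} {d : β → κ'} {g1 : Perm α} {g2 : Perm β} (h1 : g1 ∈ stab c)
    (h2 : g2 ∈ stab d) : Perm.sumCongr g1 g2 ∈ stab (Sum.map c d) :=
  mem_stab.2 fun x => by
    rcases x with a | b
    · simp [mem_stab.1 h1]
    · simp [mem_stab.1 h2]

/-- Sums over the stabiliser of a disjoint union of labellings. -/
lemma sum_stab_sum {M : Type*} [AddCommMonoid M] (c : α → κ) (d : β → κ') (F : Perm (α ⊕ β) → M) :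
    ∑ g ∈ stab (Sum.map c d), F g = ∑ g1 ∈ stab c, ∑ g2 ∈ stab d, F (Perm.sumCongr g1 g2) := by
  rw [← sum_product']
  symm
  refine sum_bij (fun p _ => Perm.sumCongr p.1 p.2)
    (fun p hp => sumCongr_mem_stab (mem_product.1 hp).1 (mem_product.1 hp).2)
    (fun a _ b _ h => Perm.sumCongrHom_injective h) (fun g hg => ?_) (fun _ _ => rfl)
  obtain ⟨g1, h1, g2, h2, rfl⟩ := exists_sumCongr hg
  exact ⟨(g1, g2), mem_product.2 ⟨h1, h2⟩, rfl⟩

lemma poly_sum (r : α → ℕ) (c : α → κ) (s : β → ℕ) (d : β → κ') :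
    poly (Sum.elim r s) (Sum.map c d) = wsum (poly r c) (poly s d) := by
  rw [poly_eq', poly_eq', poly_eq', sum_stab_sum]
  simp only [map_sum, LinearMap.sum_apply, map_smul, LinearMap.smul_apply, wsum_single,
    sg_sumCongr, mul_one]
  rw [sum_comm]
  refine sum_congr rfl fun g2 _ => ?_
  rw [smul_sum]
  refine sum_congr rfl fun g1 _ => ?_
  rw [smul_smul, mul_comm]
  congr 2
  funext x
  rcases x with a | b <;> rfl

lemma Latin.sum {r : α → ℕ} {c : α → κ} {s : β → ℕ} {d : β → κ'} (h : Latin r c) (h' : Latin s d) :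
    Latin (Sum.elim r s) (Sum.map c d) := by
  constructor
  · rintro (a | a) (b | b) h1 h2
    · simp only [Sum.map_inl, Sum.inl.injEq, Sum.elim_inl] at h1 h2 ⊢; exact h.inj _ _ h1 h2
    · simp at h1
    · simp at h1
    · simp only [Sum.map_inr, Sum.inr.injEq, Sum.elim_inr] at h1 h2 ⊢; exact h'.inj _ _ h1 h2
  · rintro (a | a) i hi
    · obtain ⟨b, h1, h2⟩ := h.down a i hi
      exact ⟨Sum.inl b, by simp [h1], h2⟩
    · obtain ⟨b, h1, h2⟩ := h'.down a i hi
      exact ⟨Sum.inr b, by simp [h1], h2⟩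

lemma cont_sum (r : α → ℕ) (s : β → ℕ) : cont (Sum.elim r s) = cont r + cont s := by
  funext i
  simp only [cont, card_filter, Fintype.sum_sum_type, Pi.add_apply]
  rfl

/-- The semigroup property. -/
theorem Sees.wsum {x : (α → L) →₀ ℂ} {y : (β → L) →₀ ℂ} {C D : ℕ → ℕ}
    (H : Sees (lwordRep α L) x C) (H' : Sees (lwordRep β L) y D) :
    Sees (lwordRep (α ⊕ β) L) (wsum x y) (C + D) := by
  obtain ⟨r, c, h, hl, hx⟩ := (sees_iff_toPoly _ _).1 H
  obtain ⟨s, d, h', hl', hy⟩ := (sees_iff_toPoly _ _).1 H'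
  refine sees_of_symOp_altOp (h.sum h') (by rw [cont_sum, hl, hl']) ?_
  rw [symOp_altOp_ne_iff, poly_sum, wmul_wsum, toPoly_wsum]
  exact mul_ne_zero hx hy

end Crest.Agent.R195
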