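import Crest.Agent.R195.RepPieri
import Crest.Agent.R195.Basic

/-!
The rule S1: peeling equal first rows.
-/

set_option autoImplicit false
set_option linter.unusedSectionVars false

namespace Crest.Agent.R195

open Equiv Finset

variable {α β γ : Type*} [Fintype α] [DecidableEq α] [Fintype β] [DecidableEq β] [Fintype γ]
  [DecidableEq γ] {κ κ' : Type*}

/-- Labellings with equal fibre sizes differ by a bijection. -/
lemma exists_equiv_of_ct [DecidableEq κ] {r : α → κ} {w : β → κ}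
    (h : ∀ i, SL2.ct r i = SL2.ct w i) : ∃ e : β ≃ α, w = r ∘ e := by
  have : ∀ i, Nonempty ({b // w b = i} ≃ {a // r a = i}) := fun i =>
    Fintype.card_eq.1 (by rw [Fintype.card_subtype, Fintype.card_subtype]; exact (h i).symm)
  refine ⟨Equiv.ofFiberEquiv (fun i => (this i).some), funext fun b => ?_⟩
  exact (Equiv.ofFiberEquiv_map _ b).symm

lemma ct_sum [DecidableEq κ] (w : β ⊕ γ → κ) (i : κ) :
    SL2.ct w i = SL2.ct (w ∘ Sum.inl) i + SL2.ct (w ∘ Sum.inr) i := by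
  simp only [SL2.ct, card_filter, Fintype.sum_sum_type]
  rfl

/-- If `P ∘ g` agrees with `P` on the right letters up to a permutation then `g` is in
`stab P * (S_β × S_γ)`. -/
lemma exists_factor {P : β ⊕ γ → κ} {g : Perm (β ⊕ γ)} (k2 : Perm γ)
    (h : ∀ a, P (g (Sum.inr a)) = P (Sum.inr (k2 a))) :
    ∃ h ∈ stab P, ∃ k1 : Perm β, g = h * Perm.sumCongr k1 k2 := by
  classical
  obtain ⟨k1, hk1⟩ := exists_equiv_of_ct (r := P ∘ Sum.inl) (w := (P ∘ g) ∘ Sum.inl) fun i => by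
    have h1 := ct_sum P i
    have h2 := ct_sum (P ∘ g) i
    rw [SL2.ct_comp] at h2
    have h3 : (P ∘ g) ∘ Sum.inr = (P ∘ Sum.inr) ∘ k2 := funext h
    rw [h3, SL2.ct_comp] at h2
    omega
  refine ⟨g * (Perm.sumCongr k1 k2)⁻¹, mem_stab.2 fun x => ?_, k1,
    (inv_mul_cancel_right _ _).symm⟩
  obtain ⟨y, rfl⟩ := (Perm.sumCongr k1 k2).surjective x
  rw [Perm.mul_apply, Perm.coe_inv, symm_apply_apply]
  rcases y with b | a
  · exact congrFun hk1 b
  · exact h a

/-- Add the right letters as a new top row. -/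
def ext0 (γ : Type*) (w : β → ℕ) : β ⊕ γ → ℕ := Sum.elim (fun b => w b + 1) fun _ => 0

lemma ext0_injective : Function.Injective (ext0 γ : (β → ℕ) → β ⊕ γ → ℕ) := fun _ _ h =>
  funext fun b => Nat.succ_injective (congrFun h (Sum.inl b))

/-- Keep the words whose top row is exactly the right letters. -/
noncomputable def top0 (β γ : Type*) : ((β ⊕ γ → ℕ) →₀ ℂ) →ₗ[ℂ] ((β → ℕ) →₀ ℂ) :=
  Finsupp.lcomapDomain (ext0 γ) fun _ _ h =>
    funext fun b => Nat.succ_injective (congrFun h (Sum.inl b))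

lemma top0_apply (x : (β ⊕ γ → ℕ) →₀ ℂ) (w : β → ℕ) : top0 β γ x w = x (ext0 γ w) := rfl

/-- The pair version of `ext0`. -/
def ext00 (γ : Type*) (w : β → ℕ × ℕ) : β ⊕ γ → ℕ × ℕ :=
  Sum.elim (fun b => ((w b).1 + 1, (w b).2 + 1)) fun _ => (0, 0)

/-- The pair version of `top0`. -/
noncomputable def top00 (β γ : Type*) : ((β ⊕ γ → ℕ × ℕ) →₀ ℂ) →ₗ[ℂ] ((β → ℕ × ℕ) →₀ ℂ) :=
  Finsupp.lcomapDomain (ext00 γ) fun _ _ h => funext fun b =>
    Prod.ext (Nat.succ_injective (congrArg Prod.fst (congrFun h (Sum.inl b))))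
      (Nat.succ_injective (congrArg Prod.snd (congrFun h (Sum.inl b))))

lemma top00_apply (x : (β ⊕ γ → ℕ × ℕ) →₀ ℂ) (w : β → ℕ × ℕ) :
    top00 β γ x w = x (ext00 γ w) := rfl

lemma top00_wmul (x y : (β ⊕ γ → ℕ) →₀ ℂ) :
    top00 β γ (wmul x y) = wmul (top0 β γ x) (top0 β γ y) := by
  ext w
  rw [top00_apply, wmul_apply, wmul_apply, top0_apply, top0_apply]
  congr 2 <;> funext a <;> rcases a with a | a <;> rfl

lemma top0_rep (g : Perm β) (k : Perm γ) (x : (β ⊕ γ → ℕ) →₀ ℂ) :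
    top0 β γ (wordRep _ (Perm.sumCongr g k) x) = wordRep β g (top0 β γ x) := by
  ext w
  rw [top0_apply, wordRep_apply, wordRep_apply, top0_apply]
  congr 1
  funext a
  rcases a with a | a <;> rfl

lemma top00_rep (g : Perm β) (k : Perm γ) (x : (β ⊕ γ → ℕ × ℕ) →₀ ℂ) :
    top00 β γ (pairRep _ (Perm.sumCongr g k) x) = pairRep β g (top00 β γ x) := by
  ext w
  rw [top00_apply, lwordRep_apply, lwordRep_apply, top00_apply]
  congr 1
  funext a
  rcases a with a | a <;> rfl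

lemma Latin.of_ext0 {w : β → ℕ} {C : β ⊕ γ → κ} (h : Latin (ext0 γ w) C) :
    Latin w (C ∘ Sum.inl) :=
  ⟨fun a b h1 h2 => Sum.inl_injective (h.inj _ _ h1 (congrArg (· + 1) h2)), fun a i hi => by
    obtain ⟨x, h1, h2⟩ := h.down (Sum.inl a) (i + 1) (Nat.succ_lt_succ hi)
    rcases x with b | b
    · exact ⟨b, h1, Nat.succ_injective h2⟩
    · exact absurd h2 (Nat.succ_ne_zero i).symm⟩

lemma IsTab.of_ext0 {lam : ℕ → ℕ} {w : β → ℕ} {C : β ⊕ γ → ℕ} (h : IsTab lam (ext0 γ w) C) :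
    IsTab (fun i => lam (i + 1)) w (C ∘ Sum.inl) :=
  ⟨fun _ _ hij => h.anti (Nat.succ_le_succ hij),
    fun a b h1 h2 => Sum.inl_injective (h.inj _ _ (congrArg (· + 1) h1) h2), fun i j => by
    rw [h.mem]
    constructor
    · rintro ⟨b | b, h1, h2⟩
      · exact ⟨b, Nat.succ_injective h1, h2⟩
      · exact absurd h1 (Nat.succ_ne_zero i).symm
    · rintro ⟨b, h1, h2⟩
      exact ⟨Sum.inl b, congrArg (· + 1) h1, h2⟩⟩

lemma IsTab.ext0 {lam : ℕ → ℕ} (ha : Antitone lam) {r c : β → ℕ}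
    (h : IsTab (fun i => lam (i + 1)) r c) {t : γ → ℕ} (ht : Function.Injective t)
    (ht' : ∀ j, j < lam 0 ↔ ∃ a, t a = j) : IsTab lam (ext0 γ r) (Sum.elim c t) :=
  ⟨ha, by
    rintro (a | a) (b | b) h1 h2
    · exact congrArg _ (h.inj _ _ (Nat.succ_injective h1) h2)
    · exact absurd h1 (Nat.succ_ne_zero _)
    · exact absurd h1 (Nat.succ_ne_zero _).symm
    · exact congrArg _ (ht h2), fun i j => by
    rcases i with _ | i
    · rw [ht']
      constructor
      · rintro ⟨a, ha⟩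
        exact ⟨Sum.inr a, rfl, ha⟩
      · rintro ⟨a | a, h1, h2⟩
        · exact absurd h1 (Nat.succ_ne_zero _)
        · exact ⟨a, h2⟩
    · rw [h.mem]
      constructor
      · rintro ⟨a, h1, h2⟩
        exact ⟨Sum.inl a, congrArg (· + 1) h1, h2⟩
      · rintro ⟨a | a, h1, h2⟩
        · exact ⟨a, Nat.succ_injective h1, h2⟩
        · exact absurd h1 (Nat.succ_ne_zero i).symm⟩

lemma top0_poly {R : β ⊕ γ → ℕ} {C : β ⊕ γ → κ} (h : Latin R C) {w : β → ℕ}
    (hw : poly R C (ext0 γ w) ≠ 0) :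
    ∃ z : ℂ, z ≠ 0 ∧ top0 β γ (poly R C) = z • poly w (C ∘ Sum.inl) := by
  have hL := (poly_apply_latin h hw).of_ext0
  obtain ⟨z, hz⟩ := altOp_word hL (x := top0 β γ (poly R C)) fun u hu => by
    obtain ⟨g, -, rfl⟩ := hL.exists_eq_of_latin (poly_apply_latin h hu).of_ext0
    exact cont_comp _ _
  rw [altOp_of_inv _ fun g hg => ?_] at hz
  · have h1 : top0 β γ (poly R C) =
        (((stab (C ∘ Sum.inl)).card : ℂ)⁻¹ * z) • poly w (C ∘ Sum.inl) := by
      rw [mul_smul, ← hz, smul_smul, inv_mul_cancel₀ (card_stab_ne _), one_smul]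
    refine ⟨_, fun h0 => hw ?_, h1⟩
    rw [← top0_apply, h1, h0, zero_smul]
    rfl
  · rw [← top0_rep g (1 : Perm γ), rep_poly_of_mem, map_smul, sg_sumCongr, sg_one, mul_one]
    exact mem_stab.2 fun x => by
      rcases x with b | b
      · exact mem_stab.1 hg b
      · rfl

lemma IsTab.of_poly {lam : ℕ → ℕ} {r c w : α → ℕ} (h : IsTab lam r c) (hw : poly r c w ≠ 0) :
    IsTab lam w c := by
  obtain ⟨g, hg, rfl⟩ := exists_of_poly_apply hw
  have := h.comp g
  rwa [comp_eq_of_mem hg] at this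

lemma rep_poly2_of_mem {r1 r2 : α → ℕ} {c1 : α → κ} {c2 : α → κ'} {g : Perm α}
    (h1 : g ∈ stab c1) (h2 : g ∈ stab c2) :
    pairRep α g (poly2 r1 c1 r2 c2) = poly2 r1 c1 r2 c2 := by
  rw [poly2, rep_wmul, ← wordRep_eq, rep_poly_of_mem _ h1, rep_poly_of_mem _ h2]
  simp [smul_smul]

lemma mem_stab_pair {c1 : α → κ} {c2 : α → κ'} {g : Perm α} :
    g ∈ stab (fun a => (c1 a, c2 a)) ↔ g ∈ stab c1 ∧ g ∈ stab c2 := by
  simp only [mem_stab, Prod.mk.injEq, forall_and]

/-- A nonzero product of `top0` images comes from tableaux on the left letters. -/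
lemma top00_poly2 {x y : ℕ → ℕ} {R1 C1 R2 C2 : β ⊕ γ → ℕ} (h1 : IsTab x R1 C1)
    (h2 : IsTab y R2 C2) (hne : top00 β γ (poly2 R1 C1 R2 C2) ≠ 0) :
    ∃ (w1 w2 : β → ℕ) (z : ℂ), IsTab x (ext0 γ w1) C1 ∧ IsTab y (ext0 γ w2) C2 ∧ z ≠ 0 ∧
      top00 β γ (poly2 R1 C1 R2 C2) = z • poly2 w1 (C1 ∘ Sum.inl) w2 (C2 ∘ Sum.inl) := by
  obtain ⟨w, hw⟩ := Finsupp.ne_iff.1 hne
  rw [poly2, top00_wmul, wmul_apply, top0_apply, top0_apply] at hw
  have e1 := left_ne_zero_of_mul hw
  have e2 := right_ne_zero_of_mul hw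
  obtain ⟨z1, hz1, f1⟩ := top0_poly h1.latin e1
  obtain ⟨z2, hz2, f2⟩ := top0_poly h2.latin e2
  refine ⟨_, _, z1 * z2, h1.of_poly e1, h2.of_poly e2, mul_ne_zero hz1 hz2, ?_⟩
  rw [poly2, top00_wmul, f1, f2, poly2]
  simp [smul_smul, mul_comm]

/-- Rule S1 on a fixed alphabet. -/
theorem KronOn.s1 {x y ka w : ℕ → ℕ} {k : ℕ} (hx : Antitone x) (hy : Antitone y) (hx0 : x 0 = k)
    (hy0 : y 0 = k) (hc : ∀ d, 1 ≤ d → x d + y d ≤ k + (k - d))
    (H : KronOn β (fun i => x (i + 1)) (fun i => y (i + 1)) ka) (hs : HStrip w ka)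
    (hw : IsShape (β ⊕ Fin k) w) : KronOn (β ⊕ Fin k) x y w := by
  classical
  set σ := spechtR (β ⊕ Fin k) w with hσ
  obtain ⟨v, hv, hv'⟩ := pieri_hstrip hs H.isShape.2.2 (hasShape_specht hw)
  obtain ⟨r1, c1, r2, c2, h1, hA, h2, hB, H⟩ := H
  obtain ⟨ψ, hψ, hψi⟩ := exists_hom_inv (q := fun _ : Fin k => (0 : ℕ)) (fun g _ => hv g) hv' H
  replace hψi : ∀ u g, resR σ g (ψ u) = ψ u := fun u g =>
    hψi u g (by rw [stab_const]; exact mem_univ g)
  have hex : ∃ m, ∃ r1 c1 r2 c2 : β → ℕ, IsTab (fun i => x (i + 1)) r1 c1 ∧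
      IsTab (fun i => y (i + 1)) r2 c2 ∧ ψ (poly2 r1 c1 r2 c2) ≠ 0 ∧
      ∑ b, (if c1 b + c2 b + 1 = k then 0 else 1) = m := by
    obtain ⟨d1, hd1, hd1'⟩ := h1.exists_isTab
    obtain ⟨d2, hd2, hd2'⟩ := h2.exists_isTab
    exact ⟨_, r1, d1, r2, d2, hA ▸ hd1, hB ▸ hd2, by rwa [← poly2_congr r1 r2 hd1' hd2'], rfl⟩
  clear hψ H hA hB h1 h2 r1 c1 r2 c2
  obtain ⟨r1, c1, r2, c2, h1, h2, hψ, hm⟩ := Nat.find_spec hex
  have hmin : ∀ r1' c1' r2' c2' : β → ℕ, IsTab (fun i => x (i + 1)) r1' c1' →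
      IsTab (fun i => y (i + 1)) r2' c2' → ψ (poly2 r1' c1' r2' c2') ≠ 0 →
      ∑ b, (if c1 b + c2 b + 1 = k then 0 else 1) ≤
        ∑ b, (if c1' b + c2' b + 1 = k then 0 else 1) := fun r1' c1' r2' c2' a1 a2 a3 =>
    hm ▸ Nat.find_min' hex ⟨r1', c1', r2', c2', a1, a2, a3, rfl⟩
  have T1 : IsTab x (ext0 (Fin k) r1) (Sum.elim c1 fun l => l) :=
    h1.ext0 hx Fin.val_injective fun j => by
      rw [hx0]; exact ⟨fun h => ⟨⟨j, h⟩, rfl⟩, by rintro ⟨a, rfl⟩; exact a.2⟩
  have T2 : IsTab y (ext0 (Fin k) r2) (Sum.elim c2 fun l => l.rev) :=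
    h2.ext0 hy (Fin.val_injective.comp Fin.rev_injective) fun j => by
      rw [hy0]; exact ⟨fun h => ⟨Fin.rev ⟨j, h⟩, by simp⟩, by rintro ⟨a, rfl⟩; exact a.rev.2⟩
  set R1 := ext0 (Fin k) r1
  set R2 := ext0 (Fin k) r2
  set C1 : β ⊕ Fin k → ℕ := Sum.elim c1 fun l => l with hC1
  set C2 : β ⊕ Fin k → ℕ := Sum.elim c2 fun l => l.rev with hC2
  refine kronOn_of_sees T1.latin T2.latin T1.cont_eq T2.cont_eq (sees_of_hom hw
    (avgMap _ σ (ψ.toLinearMap ∘ₗ top00 β (Fin k))) ?_)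
  have hfu : ∃ z : ℂ, z ≠ 0 ∧ top00 β (Fin k) (poly2 R1 C1 R2 C2) = z • poly2 r1 c1 r2 c2 := by
    obtain ⟨z1, hz1, f1⟩ := top0_poly T1.latin (w := r1)
      (by rw [poly_apply_self T1.latin]; exact one_ne_zero)
    obtain ⟨z2, hz2, f2⟩ := top0_poly T2.latin (w := r2)
      (by rw [poly_apply_self T2.latin]; exact one_ne_zero)
    refine ⟨z1 * z2, mul_ne_zero hz1 hz2, ?_⟩
    rw [poly2, top00_wmul, f1, f2, poly2]
    simp [smul_smul, mul_comm, hC1, hC2]
  have hKf : ∀ g1 g2 u, ψ (top00 β (Fin k) (pairRep _ (Perm.sumCongr g1 g2) u)) =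
      σ (Perm.sumCongr g1 g2) (ψ (top00 β (Fin k) u)) := fun g1 g2 u => by
    rw [top00_rep, ψ.isIntertwining, ← resL_resR, hψi]
  refine peel _ (P := fun a => (C1 a, C2 a)) (fun g => ∃ g1 g2, g = Perm.sumCongr g1 g2)
    ⟨1, 1, by simp⟩ ?_ (fun h hh => rep_poly2_of_mem (mem_stab_pair.1 hh).1 (mem_stab_pair.1 hh).2)
    ?_ ?_
  · rintro _ ⟨g1, g2, rfl⟩
    simp only [LinearMap.coe_comp, Function.comp_apply,
      Representation.IntertwiningMap.coe_toLinearMap]
    rw [← hKf, ← Module.End.mul_apply, ← map_mul, mul_inv_cancel, map_one, Module.End.one_apply]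
  · intro g hg
    simp only [LinearMap.coe_comp, Function.comp_apply,
      Representation.IntertwiningMap.coe_toLinearMap] at hg
    rw [rep_poly2] at hg
    have e : (g⁻¹ : Perm (β ⊕ Fin k)).symm = g := rfl
    rw [e] at hg
    obtain ⟨w1, w2, z, a1, a2, -, a4⟩ := top00_poly2 (T1.comp g) (T2.comp g)
      (fun h0 => hg (by rw [h0, map_zero]))
    rw [a4, map_smul] at hg
    have a5 := hmin _ _ _ _ a1.of_ext0 a2.of_ext0 (right_ne_zero_of_smul hg)
    have a6 := Equiv.sum_comp g fun a => if C1 a + C2 a + 1 = k then 0 else 1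
    rw [Fintype.sum_sum_type, Fintype.sum_sum_type] at a6
    have a7 : ∑ l : Fin k, (if C1 (Sum.inr l) + C2 (Sum.inr l) + 1 = k then 0 else 1) = 0 :=
      sum_eq_zero fun l _ => if_pos (by
        simp only [hC1, hC2, Sum.elim_inr, Fin.val_rev]; omega)
    have a8 : ∑ l : Fin k,
        (if C1 (g (Sum.inr l)) + C2 (g (Sum.inr l)) + 1 = k then 0 else 1) = 0 := by
      simp only [Function.comp] at a5
      simp only [hC1, hC2, Sum.elim_inl] at a5 a6 a7 ⊢
      omega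
    have a9 : ∀ l, C1 (g (Sum.inr l)) + C2 (g (Sum.inr l)) + 1 = k := fun l => by
      have := (sum_eq_zero_iff.1 a8) l (mem_univ l)
      by_contra h
      rw [if_neg h] at this
      exact one_ne_zero this
    have hinj : Function.Injective fun l : Fin k =>
        (⟨C1 (g (Sum.inr l)), by have := a9 l; omega⟩ : Fin k) := fun l l' h =>
      Sum.inr_injective (a1.inj _ _ rfl (congrArg Fin.val h))
    obtain ⟨h, hh, k1, hk⟩ := exists_factor (P := fun a => (C1 a, C2 a)) (g := g)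
      (Equiv.ofBijective _ (Finite.injective_iff_bijective.1 hinj)) fun l => by
        have := a9 l
        refine Prod.ext rfl ?_
        simp only [hC2, Sum.elim_inr, Fin.val_rev, Equiv.ofBijective_apply] at this ⊢
        omega
    exact ⟨h, hh, _, ⟨_, _, rfl⟩, hk⟩
  · obtain ⟨z, hz, hfu⟩ := hfu
    simp only [LinearMap.coe_comp, Function.comp_apply,
      Representation.IntertwiningMap.coe_toLinearMap]
    rw [hfu, map_smul, map_smul]
    refine smul_ne_zero hz (sl2_multi σ _ k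
      (Sum.elim (fun b => some (c1 b, c2 b)) fun _ => none) _ ?_ ?_ ?_ ?_ ?_ hψ)
    · rw [ct_sum]
      simp [SL2.ct]
    · rintro (a | a) j h
      · exact Option.some_injective _ h
      · simp at h
    · rintro (a | a) (b | b) ha hb h
      · simp at ha
      · simp at ha
      · simp at hb
      · exact congrArg _ (Fin.ext (congrArg Prod.fst h))
    · intro d hd
      refine le_trans (card_le_card_of_injOn (t := Ico (k - y d) (x d)) C1 (fun a ha => ?_)
        (fun a ha b hb h => ?_)) (by rw [Nat.card_Ico]; have := hc d hd; omega)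
      · simp only [coe_filter, mem_univ, true_and, Set.mem_ofPred_eq] at ha
        rcases a with a | l
        · simp at ha
        have b0 : d ≤ (univ.filter fun b => c1 b = l ∧ c2 b = l.rev).card := by
          have := ha.2
          rw [ct_sum] at this
          simpa [SL2.ct, hC1, hC2] using this
        obtain ⟨b, hb⟩ := card_pos.1 (hd.trans b0)
        obtain ⟨b1, b2⟩ := (mem_filter.1 hb).2
        obtain ⟨e1, e2, e3⟩ := h1.latin.exists_of_lt b (i := d - 1) (by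
          refine lt_of_lt_of_le (by omega) (b0.trans (card_le_card fun e he => ?_))
          simp only [mem_filter, mem_univ, true_and] at he ⊢
          rw [he.1, b1])
        obtain ⟨f1, f2, f3⟩ := h2.latin.exists_of_lt b (i := d - 1) (by
          refine lt_of_lt_of_le (by omega) (b0.trans (card_le_card fun e he => ?_))
          simp only [mem_filter, mem_univ, true_and] at he ⊢
          rw [he.2, b2])
        have g1 := h1.lt e1
        have g2 := h2.lt f1
        rw [e2, e3, b1, Nat.sub_add_cancel hd] at g1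
        rw [f2, f3, b2, Nat.sub_add_cancel hd, Fin.val_rev] at g2
        simp only [coe_Ico, Set.mem_Ico, hC1, Sum.elim_inr]
        omega
      · simp only [coe_filter, mem_univ, true_and, Set.mem_ofPred_eq] at ha hb
        rcases a with a | a
        · simp at ha
        rcases b with b | b
        · simp at hb
        exact congrArg _ (Fin.ext h)
    · intro g hg
      rw [stab_congr (r' := Sum.map (fun b => (c1 b, c2 b)) fun _ : Fin k => ()) (by
        rintro (a | a) (b | b) <;> simp)] at hg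
      obtain ⟨g1, hg1, g2, -, rfl⟩ := exists_sumCongr hg
      rw [← resL_resR, hψi, ← ψ.isIntertwining,
        rep_poly2_of_mem (mem_stab_pair.1 hg1).1 (mem_stab_pair.1 hg1).2]

lemma HStrip.anti {w ka : ℕ → ℕ} (h : HStrip w ka) : Antitone w :=
  antitone_nat_of_succ_le fun i => (h i).1.trans (h i).2

lemma HStrip.anti' {w ka : ℕ → ℕ} (h : HStrip w ka) : Antitone ka :=
  antitone_nat_of_succ_le fun i => (h (i + 1)).2.trans (h i).1

/-- Rule S1. -/
theorem Kron.s1 {x y ka w : ℕ → ℕ} {k N : ℕ} (hx : Antitone x) (hy : Antitone y) (hx0 : x 0 = k)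
    (hy0 : y 0 = k) (hc : ∀ d, 1 ≤ d → x d + y d ≤ k + (k - d))
    (H : Kron (fun i => x (i + 1)) (fun i => y (i + 1)) ka) (hs : HStrip w ka) (hN : w N = 0)
    (hsum : ∑ i ∈ range N, w i = ∑ i ∈ range N, ka i + k) : Kron x y w := by
  obtain ⟨n, H⟩ := H
  refine (H.s1 hx hy hx0 hy0 hc hs (isShape_of_sum hs.anti hN ?_)).kron
  rw [hsum, H.isShape.2.2.sum_eq (by have := (hs N).2; omega)]
  simp

lemma rowsOf_top_zero {a : ℕ} {p : ℕ → ℕ} (ha : Antitone p) (h0 : p a = 0) :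
    rowsOf (ind (range a) + p) 0 = a := by
  have h1 : ∀ j, a ≤ j → (ind (range a) + p) j = 0 := fun j hj => by
    have := ha hj
    simp only [Pi.add_apply, ind, mem_range]
    rw [if_neg (not_lt.2 hj)]
    omega
  rw [rowsOf_eq_card h1, filter_true_of_mem, card_range]
  intro j hj
  simp only [Pi.add_apply, ind, if_pos hj]
  omega

lemma rowsOf_top_succ {a : ℕ} {p : ℕ → ℕ} (ha : Antitone p) (h0 : p a = 0) (i : ℕ) :
    rowsOf (ind (range a) + p) (i + 1) = rowsOf p i := by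
  unfold rowsOf
  congr 1
  ext j
  simp only [Set.mem_ofPred_eq, Pi.add_apply, ind, mem_range]
  split_ifs with h
  · omega
  · have := ha (not_lt.1 h)
    omega

lemma hstrip_ind {c : ℕ → ℕ} (hc : FS c) (S : Finset ℕ) : HStrip (rowsOf (ind S + c)) (rowsOf c) := by
  obtain ⟨N, hN⟩ := (sz_ind S).fs.add hc
  have h1 : ∀ j, N ≤ j → c j = 0 := fun j hj => by
    have := hN j hj; simp only [Pi.add_apply] at this; omega
  intro i
  rw [rowsOf_eq_card hN, rowsOf_eq_card hN, rowsOf_eq_card h1]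
  refine ⟨card_le_card fun j hj => ?_, card_le_card fun j hj => ?_⟩
  · have := ind_le_one S j
    simp only [mem_filter, Pi.add_apply] at hj ⊢
    exact ⟨hj.1, by omega⟩
  · simp only [mem_filter, Pi.add_apply] at hj ⊢
    exact ⟨hj.1, by omega⟩

theorem s1Stmt : S1Stmt := by
  intro a p q c S H hp hq hp0 hq0 hc hS
  obtain ⟨fp, fq, fc, H⟩ := free_iff_kron.1 H
  have f1 := (sz_ind (range a)).fs.add fp
  have f2 := (sz_ind (range a)).fs.add fq
  obtain ⟨m, hm⟩ := fc.exists_sz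
  have s1 := ((sz_ind S).add hm).rowsOf
  obtain ⟨N, hN⟩ := s1.fs
  have hs := hstrip_ind fc S
  refine free_iff_kron.2 ⟨f1, f2, (sz_ind S).fs.add fc, Kron.s1 (k := a) (N := N) (rowsOf_anti f1)
    (rowsOf_anti f2) (rowsOf_top_zero hp hp0) (rowsOf_top_zero hq hq0) (fun d hd => ?_) ?_ hs
    (hN N le_rfl) ?_⟩
  · obtain ⟨d, rfl⟩ : ∃ d', d = d' + 1 := ⟨d - 1, by omega⟩
    rw [rowsOf_top_succ hp hp0, rowsOf_top_succ hq hq0]
    have c1 := isConj_rowsOf hp fp
    have c2 := isConj_rowsOf hq fq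
    have e1 : rowsOf p d ≤ a := by
      by_contra h
      have := (c1 a d).2 (not_le.1 h)
      omega
    have e2 : rowsOf q d ≤ a := by
      by_contra h
      have := (c2 a d).2 (not_le.1 h)
      omega
    have h1 := hc (d + 1) hd
    have h2 : Ico (a - rowsOf q d) (rowsOf p d) ⊆
        (range a).filter fun j => d + 1 ≤ min (p j) (q (a - 1 - j)) := fun j hj => by
      rw [mem_Ico] at hj
      have g1 := (c1 j d).2 hj.2
      have g2 := (c2 (a - 1 - j) d).2 (by omega)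
      exact mem_filter.2 ⟨mem_range.2 (by omega), le_min g1 g2⟩
    have h3 := card_le_card h2
    rw [Nat.card_Ico] at h3
    omega
  · simpa only [rowsOf_top_succ hp hp0, rowsOf_top_succ hq hq0] using H
  · rw [s1.sum_eq hN, hm.rowsOf.sum_eq fun j hj => by have := (hs j).2; have := hN j hj; omega, hS,
      add_comm]

end Crest.Agent.R195
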