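import Crest.Agent.R195.Basic

/-! Row 195: the rules for the universal judgements. -/

set_option autoImplicit false

namespace Crest.Agent.R195

open Finset

namespace UR

lemma foldr_max_le {l : List ℕ} {j : ℕ} (h : ∀ x ∈ l, x ≤ j) : l.foldr max 0 ≤ j := by
  induction l with
  | nil => exact Nat.zero_le _
  | cons a l ih =>
    exact max_le (h a List.mem_cons_self) (ih fun x hx => h x (List.mem_cons_of_mem _ hx))

lemma conjL_sorted (l : List ℕ) : (conjL l).Pairwise (· ≥ ·) :=
  List.pairwise_map.2 (List.pairwise_lt_range.imp fun h => colv_anti l h.le)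

lemma conjL_pos (l : List ℕ) : ∀ x ∈ conjL l, 1 ≤ x := by
  intro x hx
  obtain ⟨j, hj, rfl⟩ := List.mem_map.1 hx
  refine Nat.one_le_iff_ne_zero.2 fun h => ?_
  have := foldr_max_le (colv_eq_zero.1 h)
  have := List.mem_range.1 hj
  omega

lemma length_conjL (l : List ℕ) : (conjL l).length = l.foldr max 0 := by simp [conjL]

lemma headD_eq_vec (l : List ℕ) : l.headD 0 = vec l 0 := by cases l <;> rfl

lemma conjL_short {l : List ℕ} (h1 : l.Pairwise (· ≥ ·)) (h2 : ∀ x ∈ l, 1 ≤ x)
    (h : l.headD 0 ≤ l.length) : (conjL l).length ≤ (conjL l).headD 0 := by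
  rw [headD_eq_vec, vec_conjL, length_conjL]
  have e : colv l 0 = l.length := List.countP_eq_length.2 fun y hy => by
    have := h2 y hy
    simp only [decide_eq_true_eq]
    omega
  rw [e]
  refine (foldr_max_le fun x hx => ?_).trans h
  cases l with
  | nil => simp at hx
  | cons a l =>
    rcases List.mem_cons.1 hx with rfl | hx
    · exact le_rfl
    · exact List.rel_of_pairwise_cons h1 hx

lemma sum_colv_le (l : List ℕ) (S : Finset ℕ) :
    ∑ j ∈ S, colv l j ≤ (l.map fun x => min x S.card).sum := by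
  induction l with
  | nil => simp
  | cons a l ih =>
    rw [colv_cons, List.map_cons, List.sum_cons]
    simp only [Pi.add_apply, sum_add_distrib]
    refine add_le_add (le_min ?_ ?_) ih
    · simpa using (sz_ind (range a)).sum_le S
    · simpa using sum_le_card_nsmul S _ 1 fun j _ => ind_le_one (range a) j

lemma exists_vec {c : ℕ → ℕ} (h : FS c) : ∃ l, vec l = c := by
  obtain ⟨N, hN⟩ := h
  refine ⟨(List.range N).map c, funext fun j => ?_⟩
  by_cases hj : j < N
  · rw [vec_of_lt (by simpa using hj)]; simp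
  · rw [vec_of_le (by simpa using hj), hN j (not_lt.1 hj)]

lemma twist (hJ : JRules) {ν lam : List ℕ} (hν : SC ν) (h : FJ ν (colv (conjL lam))) :
    FJ ν (colv lam) :=
  hJ.twist ν lam hν (hJ.recolF ν _ _ (fs_vec lam) (by rw [rowsOf_colv_conjL, rowsOf_vec]) h)

end UR

theorem uRules_of (hJ : JRules) (hG : GRStmt) (hD : DSplitStmt) (hP : PSplitStmt) : URules where
  nil e c hc := by rw [show c = 0 from hc]; exact hJ.nil e
  mono e e' ν al h he c hc := hJ.mono e e' ν c (h c hc) he
  permX e ν al al' hp h c hc := h c (hc.perm hp.symm)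
  permF ν al al' hp h c hc := h c (hc.perm hp.symm)
  x2f e ν al h c hc := hJ.x2f e ν c (h c hc)
  f2x e ν al h hx c hc := hJ.f2x e ν c (h c hc) hx
  triv e k b ν al h he hx c hc := by
    obtain ⟨S, c', hS, hc', rfl⟩ := hc
    exact hJ.triv e k b ν c' S (h c' hc') he hx hS
  zz e b ν al z h he hx hz hs c hc := by
    obtain ⟨c1, c2, h1, h2, rfl⟩ := Lab.append_iff.1 hc
    exact hJ.zz e b ν c2 c1 (h c2 h2) he hx (hs ▸ h1.sz) fun j => (h1.le_length j).trans hz
  pp e b ν al dl z h he hx hz hs hdl c hc := by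
    obtain ⟨c1, c2, h1, h2, rfl⟩ := Lab.append_iff.1 hc
    have h4 : ∀ j, c1 j ≤ 4 := fun j => (h1.le_length j).trans hz
    obtain ⟨p1, p2, w, s1, s2, hd, hw, rfl⟩ :=
      hP (2 * ((b - 2) / 2) + 1) (2 * ((b - 1) / 2) + 1) c1 dl
        (by rw [show 2 * ((b - 2) / 2) + 1 + (2 * ((b - 1) / 2) + 1) + 3 = z.sum by omega]
            exact h1.sz) h4
        (hdl.imp (fun h => ⟨h.1, by omega, by omega⟩) fun h => ⟨h.1, by omega, by omega⟩)
    rw [add_assoc (p1 + p2)]
    refine hJ.pp e b ν _ p1 p2 (h _ (hw.append h2)) he hx s1 s2 (fun j => ?_) (fun j => ?_) hd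
    · have := h4 j
      simp only [Pi.add_apply] at this
      omega
    · have := h4 j
      simp only [Pi.add_apply] at this
      omega
  dd e b ν al x y h he hx hxy c hc := by
    obtain ⟨c1, c2, h1, h2, rfl⟩ := (Lab.append_iff (l := [x, y])).1 hc
    obtain ⟨d, w, hd, hw, rfl⟩ := hD b x y c1 hxy h1
    rw [add_assoc]
    exact hJ.dd e b ν _ d (h _ (hw.append h2)) he hx hd
  s1 a ν al h hx hd c hc := by
    obtain ⟨S, c', hS, hc', rfl⟩ := hc
    exact hJ.s1 a ν c' S (h c' hc') hx hd hS
  conj ν al h c hc := hJ.conj ν c (h c hc)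
  full ν h c hc := h c (lab_replicate_iff.1 hc)
  dom ν al lam h hs hk :=
    h _ (hG al _ (hs ▸ sz_colv lam) fun S => (UR.sum_colv_le lam S).trans (hk _))
  full_of ν hν h c hc := by
    obtain ⟨l, rfl⟩ := UR.exists_vec hc.fs
    have hs : (conjL l).sum = ν.sum := by rw [sum_conjL]; exact (sz_vec l).unique hc
    refine hJ.recolF ν (colv (conjL l)) _ (fs_vec l) (by rw [rowsOf_colv_conjL, rowsOf_vec]) ?_
    rcases le_total (conjL l).length ((conjL l).headD 0) with h1 | h1
    · exact h _ (UR.conjL_sorted l) (UR.conjL_pos l) hs h1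
    · exact UR.twist hJ hν (h _ (UR.conjL_sorted _) (UR.conjL_pos _) (by rw [sum_conjL, hs])
        (UR.conjL_short (UR.conjL_sorted l) (UR.conjL_pos l) h1))
  twist ν lam hν h := UR.twist hJ hν h

end Crest.Agent.R195
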