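import Crest.Agent.R195.Basic

/-! Row 195: the pieces with rows `b, b-1` and `b, b-2`. -/

set_option autoImplicit false

namespace Crest.Agent.R195

open Finset

lemma colv_two (x y j : ℕ) : colv [x, y] j = (if j < x then 1 else 0) + if j < y then 1 else 0 := by
  rw [colv_cons_apply, colv_cons_apply, colv_nil]; rfl

lemma sum_ite_path {m : ℕ} (f g : ℕ → ℕ) (j i0 : ℕ) (h0 : i0 ≤ m) (h1 : f i0 = j)
    (h2 : ∀ i ≤ m, f i = j → i = i0) :
    (∑ i ∈ range (m + 1), if f i = j then g i else 0) = g i0 := by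
  rw [sum_eq_single i0 (fun i hi hne => if_neg fun h =>
    hne (h2 i (Nat.lt_succ_iff.1 (mem_range.1 hi)) h))
    (fun h => absurd (mem_range.2 (Nat.lt_succ_of_le h0)) h), if_pos h1]

lemma sum_ite_path0 {m : ℕ} (f g : ℕ → ℕ) (j : ℕ) (h2 : ∀ i ≤ m, f i ≠ j) :
    (∑ i ∈ range (m + 1), if f i = j then g i else 0) = 0 :=
  sum_eq_zero fun i hi => if_neg (h2 i (Nat.lt_succ_iff.1 (mem_range.1 hi)))

theorem zStmt_of (h : PathStmt) : ZStmt := by
  intro b β hb hs h4
  have := h (b - 1) (b - 2) b (fun i => b - 1 - i) (fun i => i) β (fun i _ i' _ _ => by omega)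
    (fun _ _ _ _ h => h) (fun i _ => by omega) (fun i _ => by omega)
    (by rwa [show 2 * (b - 1) + 1 = 2 * b - 1 by omega]) h4
  convert this using 1 <;> funext j <;> rw [colv_two]
  · by_cases hj : j < b
    · rw [sum_ite_path _ _ j (b - 1 - j) (by omega) (by omega) fun i _ _ => by omega]
      split_ifs <;> omega
    · rw [sum_ite_path0 _ _ j fun i _ => by omega]
      split_ifs <;> omega
  · by_cases hj : j < b
    · rw [sum_ite_path _ _ j j (by omega) rfl fun i _ h => h]
      split_ifs <;> omega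
    · rw [sum_ite_path0 _ _ j fun i _ => by omega]
      split_ifs <;> omega

lemma path_ft (j0 j : ℕ) :
    (∑ i ∈ range (j0 / 2 + 1), if j0 - 2 * i = j then (if i = 0 then 1 else 2) else 0) =
      if j ≤ j0 ∧ j % 2 = j0 % 2 then (if j = j0 then 1 else 2) else 0 := by
  by_cases hj : j ≤ j0 ∧ j % 2 = j0 % 2
  · rw [if_pos hj, sum_ite_path (fun i => j0 - 2 * i) _ j ((j0 - j) / 2) (by omega) (by omega)
      fun i _ _ => by omega]
    split_ifs <;> omega
  · rw [if_neg hj, sum_ite_path0 (fun i => j0 - 2 * i) _ j fun i _ => by omega]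

lemma path_fs (a m j : ℕ) :
    (∑ i ∈ range (m + 1), if a + 2 * i = j then (if i = m then 1 else 2) else 0) =
      if a ≤ j ∧ j ≤ a + 2 * m ∧ j % 2 = a % 2 then (if j = a + 2 * m then 1 else 2) else 0 := by
  by_cases hj : a ≤ j ∧ j ≤ a + 2 * m ∧ j % 2 = a % 2
  · rw [if_pos hj, sum_ite_path (fun i => a + 2 * i) _ j ((j - a) / 2) (by omega) (by omega)
      fun i _ _ => by omega]
    split_ifs <;> omega
  · rw [if_neg hj, sum_ite_path0 (fun i => a + 2 * i) _ j fun i _ => by omega]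

lemma path_band (h : PathStmt) {b j0 : ℕ} (h2 : j0 + 1 ≤ b)
    {β : ℕ → ℕ} (hs : Sz (2 * (j0 / 2) + 1) β) (h4 : ∀ j, β j ≤ 4) :
    Band (b - 3) b (fun j => if j ≤ j0 ∧ j % 2 = j0 % 2 then (if j = j0 then 1 else 2) else 0)
      (fun j => if b - 1 - j0 ≤ j ∧ j ≤ b - 1 - j0 + 2 * (j0 / 2) ∧ j % 2 = (b - 1 - j0) % 2 then
        (if j = b - 1 - j0 + 2 * (j0 / 2) then 1 else 2) else 0) β := by
  have := h (j0 / 2) (b - 3) b (fun i => j0 - 2 * i) (fun i => b - 1 - j0 + 2 * i) β
    (fun i _ i' _ _ => by omega) (fun i _ i' _ _ => by omega) (fun i _ => by omega)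
    (fun i _ => by omega) hs h4
  simpa only [path_ft, path_fs] using this

theorem pStmt_of (h : PathStmt) (hH : HsumStmt) : PStmt := by
  intro b p1 p2 hb s1 s2 h1 h2 hd
  have := hH _ _ _ _ _ _ _ _ (path_band h (b := b) (j0 := b - 2) (by omega) s1 h1)
    (path_band h (b := b) (j0 := b - 1) (by omega) s2 h2)
    (fun j => by split_ifs <;> omega) (fun j => by split_ifs <;> omega) hd
  convert this using 1 <;> funext j <;> rw [colv_two, Pi.add_apply] <;> split_ifs <;> omega

end Crest.Agent.R195
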