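import Crest.Agent.R195.BB
import Crest.Agent.R195.Big
import Crest.Agent.R195.Check
import Crest.Agent.R195.Comp
import Crest.Agent.R195.Crit
import Crest.Agent.R195.GR
import Crest.Agent.R195.HTD
import Crest.Agent.R195.Hook
import Crest.Agent.R195.JR
import Crest.Agent.R195.S1
import Crest.Agent.R195.UR
import Crest.Agent.R195.ZP
import Crest.Agent.R195.Greedy

/-! Row 195: all rules together. -/

set_option autoImplicit false

namespace Crest.Agent.R195

theorem jRules : JRules :=
  jRules_of compStmt hsumStmt s1Stmt trivStmt (zStmt_of pathStmt) (pStmt_of pathStmt hsumStmt) dStmt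

theorem uRules : URules := uRules_of jRules grStmt dSplitStmt pSplitStmt

theorem planStmt : PlanStmt := planStmt_of uRules

theorem certStmt : CertStmt := certStmt_of jRules grStmt planStmt

theorem full_bb (K : List (List ℕ)) (hK : ∀ ν ∈ K, Full ν) (μ : List ℕ) (plans : List ℕ)
    (As : List (List ℕ)) (L0 : ℕ) (h : bbTop K μ (plans.map planOf) As L0 = true)
    (h32 : L0 ≤ 32) (hall : ∀ x < 1024 * L0, ∃ find, bbX K μ As find x = true) : Full μ :=
  bb_gen uRules planStmt certStmt hookFacts K hK μ _ As L0 h h32 hall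

theorem all_of_range {K : List (List ℕ)} {μ : List ℕ} {As : List (List ℕ)} {T : Tr} {a b : ℕ}
    (h : ((List.range' a (b - a)).all fun x => bbX K μ As T.find x) = true) (x : ℕ) (h1 : a ≤ x)
    (h2 : x < b) : ∃ find, bbX K μ As find x = true :=
  ⟨T.find, List.all_eq_true.1 h x (List.mem_range'_1.2 ⟨h1, by omega⟩)⟩

/-- Boolean form of `Good`. -/
def goodB (μ : List ℕ) : Bool :=
  conjL μ == μ && (List.range μ.length).all fun q => (vec μ q + q).ble (μ.length + 1)

theorem good_of {μ : List ℕ} (h : goodB μ = true) : Good μ := by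
  simp only [goodB, Bool.and_eq_true, beq_iff_eq, List.all_eq_true, List.mem_range, Nat.ble_eq] at h
  exact ⟨h.1, h.2⟩

/-- A hook over a full shape, with a plan satisfying the criterion. -/
theorem full_hook {K : List (List ℕ)} (hK : ∀ ν ∈ K, Full ν) {a : ℕ} {μ al : List ℕ}
    (hg : Good μ) (hf : Full μ) (ha : μ.length + 2 ≤ a) {p : Plan}
    (hp : runP K p none (addHook a μ) = some al) (hc : CritP a (addHook a μ).sum al) :
    Full (addHook a μ) := by
  have hg' := hookFacts.good a μ hg ha
  exact critStmt_of uRules a μ.sum _ al hg'.sc (by omega)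
    (longStmt_of uRules hookFacts a μ hg hf ha)
    (planStmt K hK p none _ al (hookFacts.sorted _ hg'.sc) hp) hc

/-- Boolean check for `full_hook`. -/
def hookB (K : List (List ℕ)) (a : ℕ) (μ : List ℕ) (x : ℕ) : Bool :=
  goodB μ && (μ.length + 2).ble a &&
    match runP K (planOf x) none (addHook a μ) with
    | some al => critB a (addHook a μ).sum al
    | none => false

theorem full_crit (K : List (List ℕ)) (hK : ∀ ν ∈ K, Full ν) (a : ℕ) (μ : List ℕ) (hf : Full μ)
    (x : ℕ) (h : hookB K a μ x = true) : Full (addHook a μ) := by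
  simp only [hookB, Bool.and_eq_true, Nat.ble_eq] at h
  obtain ⟨⟨h1, h2⟩, h3⟩ := h
  split at h3
  · next al hal => exact full_hook hK (good_of h1) hf h2 hal (critBStmt _ _ _ h3)
  · simp at h3

theorem full_nil : Full [] := fun c hc => by
  rw [hc.eq_zero]
  exact jRules.x2f 0 _ _ (jRules.nil 0)

theorem full_one : Full [1] := fun c hc =>
  uRules.x2f 1 [1] [1] (uRules.triv 0 1 1 [] [] (uRules.nil 0) le_rfl (by simp)) c
    (lab_replicate_iff.2 hc)

/-- The inductive step for the members of the family. -/
theorem fam_step {d z i : ℕ} (h : InR (d + 1) z i) (hd : 2 ≤ d) (hf : Full (fam d z (i - 1)))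
    (hc : 36 ≤ d ∨ l2B (d + 1) z i = true) : Full (fam (d + 1) z i) := by
  obtain ⟨h1, h2, h3⟩ := hookFacts.famStep d z i h hd
  have hE := hookFacts.famE (d + 1) z i h (by omega)
  have hg := hookFacts.famGood _ _ _ h1
  have hg' := hookFacts.famGood _ _ _ h
  have hl := longStmt_of uRules hookFacts _ _ hg hf h3
  rw [← h2] at hl
  have ha : 2 * (d + 1) + z - 2 + (if i = 0 then 0 else 1) =
      2 * d + z + (if i = 0 then 0 else 1) := by omega
  rcases hc with hc | hc
  · obtain ⟨al, hu, hcr⟩ := bigStmt_of uRules hookFacts (d + 1) z i h (by omega)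
    rw [← hE, ha] at hcr
    rw [← hE] at hu
    exact critStmt_of uRules _ _ _ al hg'.sc (by omega) hl hu hcr
  · simp only [l2B, ← hE] at hc
    split at hc
    · next al hal =>
      have hh : (fam (d + 1) z i).headD 0 = 2 * d + z + (if i = 0 then 0 else 1) := by
        rw [h2]; rfl
      rw [hh] at hc
      exact critStmt_of uRules _ _ _ al hg'.sc (by omega) hl
        (planStmt [] (by simp) _ none _ al (hookFacts.sorted _ hg'.sc) hal) (critBStmt _ _ _ hc)
    · simp at hc

end Crest.Agent.R195
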