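import Crest.Agent.R195.BB
import Crest.Agent.R195.Greedy

/-! Row 195: cutting the branch and bound check into pieces. -/

set_option autoImplicit false

namespace Crest.Agent.R195

/-- The check for all cells with code in `[a, b)`. -/
def scan (K : List (List ℕ)) (μ : List ℕ) (As : List (List ℕ)) (find : List ℕ → Cert)
    (a b : ℕ) : Bool :=
  (List.range' (a / 1024) (b / 1024 + 1 - a / 1024)).all fun L => (List.range L).all fun c =>
    (List.range (L - c)).all fun t =>
      !(a.ble (1024 * L + 32 * c + t) && (1024 * L + 32 * c + t + 1).ble b) ||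
        bbT K μ As find L c t

theorem of_scan {K : List (List ℕ)} {μ : List ℕ} {As : List (List ℕ)} {find : List ℕ → Cert}
    {a b : ℕ} (h : scan K μ As find a b = true) (x : ℕ) (h1 : a ≤ x) (h2 : x < b) :
    ∃ find, bbX K μ As find x = true := by
  refine ⟨find, ?_⟩
  rw [bbX, Bool.or_eq_true, Nat.ble_eq]
  by_cases hx : x / 1024 ≤ x / 32 % 32 + x % 32
  · exact Or.inl hx
  right
  have e : 1024 * (x / 1024) + 32 * (x / 32 % 32) + x % 32 = x := by omega
  have h3 := List.all_eq_true.1 h (x / 1024) (List.mem_range'_1.2 ⟨Nat.div_le_div_right h1, by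
    have := Nat.div_le_div_right (c := 1024) h1
    have := Nat.div_le_div_right (c := 1024) h2.le
    omega⟩)
  have h4 := List.all_eq_true.1 (List.all_eq_true.1 h3 (x / 32 % 32) (List.mem_range.2 (by omega)))
    (x % 32) (List.mem_range.2 (by omega))
  rw [e, show a.ble x = true from Nat.ble_eq.mpr h1,
    show (x + 1).ble b = true from Nat.ble_eq.mpr h2] at h4
  simpa using h4

lemma bbRec_congr {node : List ℕ → ℕ → ℕ → Bool} {leaf leaf' : List ℕ → Bool} :
    ∀ (c : ℕ) (p : List ℕ) (s : ℕ), (∀ q, leaf (q ++ p) = leaf' (q ++ p)) →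
      bbRec node leaf c p s = bbRec node leaf' c p s
  | 0, p, s, h => by
    have := h []
    rw [List.nil_append] at this
    rw [bbRec, bbRec, this]
  | c + 1, p, s, h => by
    rw [bbRec, bbRec]
    congr 2
    funext v
    rw [bbRec_congr c (v :: p) (s - v) fun q => by simpa using h (q ++ [v])]

/-- The check for the part of a cell with second row in `[a, b)`. -/
def scanY (K : List (List ℕ)) (μ : List ℕ) (As : List (List ℕ)) (find : List ℕ → Cert)
    (L c t a b : ℕ) : Bool :=
  (List.range' a (b - a)).all fun v =>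
    !((2 : ℕ).ble v && (μ.sum - L - t).ble (v * (c + 1)) && (v + 2 * c).ble (μ.sum - L - t)) ||
      bbRec (nodeB As μ.sum t) (fun p => chkC K (find (p.reverse ++ List.replicate t 1)) none μ
        (conjL (p.reverse ++ List.replicate t 1))) c [v, L] (μ.sum - L - t - v)

theorem of_scanY {K : List (List ℕ)} {μ : List ℕ} {As : List (List ℕ)} {find : List ℕ → Cert}
    {L c t a b : ℕ} (h : scanY K μ As find L c t a b = true) (v : ℕ) (h1 : a ≤ v) (h2 : v < b) :
    ∃ find, scanY K μ As find L c t v (v + 1) = true :=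
  ⟨find, by
    have := List.all_eq_true.1 h v (List.mem_range'_1.2 ⟨h1, by omega⟩)
    simpa only [scanY, Nat.add_sub_cancel_left, List.range'_one, List.all_cons, List.all_nil,
      Bool.and_true] using this⟩

theorem of_split {K : List (List ℕ)} {μ : List ℕ} {As : List (List ℕ)} (L c t : ℕ)
    (hc : c + 1 < 32) (ht : t < 32) (x : ℕ) (hx : x = 1024 * L + 32 * (c + 1) + t)
    (h : ∀ v < L + 1, ∃ find, scanY K μ As find L c t v (v + 1) = true) :
    ∃ find, bbX K μ As find x = true := by
  subst hx
  have : Nonempty (List ℕ → Cert) := ⟨fun _ => .hook⟩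
  choose! f hf using h
  refine ⟨fun l => f (l.getD 1 0) l, ?_⟩
  obtain ⟨c1, c2, c3⟩ := BB.code L (c + 1) t hc ht
  rw [bbX, c1, c2, c3, bbT, bbRec]
  simp only [Bool.or_eq_true]
  refine Or.inr (Or.inr (Or.inr (List.all_eq_true.2 fun v hv => ?_)))
  have h1 := hf v (List.mem_range.1 hv)
  simp only [scanY, Nat.add_sub_cancel_left, List.range'_one, List.all_cons, List.all_nil,
    Bool.and_true] at h1
  rw [← h1]
  congr 1
  exact bbRec_congr _ _ _ fun q => by simp

end Crest.Agent.R195
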