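import Crest.Agent.R195.S1

/-!
Chains: peeling several rows at once from a fixed pair of tableaux.
-/

set_option autoImplicit false
set_option linter.unusedSectionVars false

namespace Crest.Agent.R195

open Equiv Finset

variable {α β γ : Type*} [Fintype α] [DecidableEq α] [Fintype β] [DecidableEq β] [Fintype γ]
  [DecidableEq γ] {κ κ' L : Type*}

open Classical in
/-- Keep the words all of whose labels satisfy `T`. -/
noncomputable def wfilter (α : Type*) [Fintype α] [DecidableEq α] (T : L → Prop) :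
    (lwordRep α L).IntertwiningMap (lwordRep α L) where
  toFun x := x.filter fun w => ∀ a, T (w a)
  map_add' x y := Finsupp.filter_add
  map_smul' z x := Finsupp.filter_smul
  isIntertwining' g := by
    refine LinearMap.ext fun x => Finsupp.ext fun w => ?_
    simp only [LinearMap.coe_comp, LinearMap.coe_mk, AddHom.coe_mk, Function.comp_apply,
      lwordRep_apply, Finsupp.filter_apply]
    congr 1
    exact propext ⟨fun h a => h _, fun h a => by simpa using h (g.symm a)⟩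

open Classical in
lemma wfilter_apply (T : L → Prop) (x : (α → L) →₀ ℂ) (w : α → L) :
    wfilter α T x w = if ∀ a, T (w a) then x w else 0 := Finsupp.filter_apply _ _ _

/-- Put the right letters in the rows below `s` and shift the left letters by `s`. -/
def exts (s : ℕ) (w : β → ℕ) (q : γ → ℕ) : β ⊕ γ → ℕ := Sum.elim (fun b => w b + s) q

lemma poly_apply (r w : α → ℕ) (c : α → κ) :
    poly r c w = ∑ g ∈ stab c, if r ∘ g = w then sg g else 0 := by
  classical
  rw [poly_eq', Finsupp.finsetSum_apply]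
  refine sum_congr rfl fun g _ => ?_
  rw [Finsupp.smul_apply, Finsupp.single_apply]
  split_ifs <;> simp

/-- Splitting a polytabloid at level `s`. -/
lemma poly_split {s : ℕ} (r w : β → ℕ) {q : γ → ℕ} (hq : ∀ a, q a < s) (u : γ → ℕ)
    (C : β ⊕ γ → κ) : poly (exts s r q) C (exts s w u) =
      poly r (C ∘ Sum.inl) w * poly q (C ∘ Sum.inr) u := by
  classical
  have h1 : poly (exts s r q) C (exts s w u) =
      poly (exts s r q) (Sum.map (C ∘ Sum.inl) (C ∘ Sum.inr)) (exts s w u) := by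
    rw [poly_apply, poly_apply]
    symm
    refine sum_subset (fun g hg => mem_stab.2 fun x => ?_) fun g hg hg' => if_neg fun he => hg' ?_
    · have := mem_stab.1 hg x
      rcases h : g x with a | a <;> rcases x with x | x <;> rw [h] at this <;> simp_all
    · obtain ⟨g1, g2, rfl⟩ := exists_sumCongr' (g := g) fun b => by
        have := congrFun he (Sum.inl b)
        rcases h : g (Sum.inl b) with a | a
        · rfl
        · simp only [Function.comp, h, exts, Sum.elim_inr, Sum.elim_inl] at this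
          have := hq a
          omega
      exact sumCongr_mem_stab (mem_stab.2 fun b => mem_stab.1 hg (Sum.inl b))
        (mem_stab.2 fun b => mem_stab.1 hg (Sum.inr b))
  rw [h1, exts, poly_sum, wsum_apply]
  congr 1
  rw [poly_apply, poly_apply]
  refine sum_congr rfl fun g _ => ?_
  congr 1
  apply propext
  simp only [funext_iff, Function.comp, exts, Sum.elim_inl, Nat.add_right_cancel_iff]

lemma poly2_lt {r1 r2 : α → ℕ} {c1 : α → κ} {c2 : α → κ'} {s t : ℕ} (h1 : ∀ a, r1 a < s)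
    (h2 : ∀ a, r2 a < t) {w : α → ℕ × ℕ} (hw : poly2 r1 c1 r2 c2 w ≠ 0) (a : α) :
    (w a).1 < s ∧ (w a).2 < t := by
  rw [poly2_apply] at hw
  obtain ⟨g1, -, e1⟩ := exists_of_poly_apply (left_ne_zero_of_mul hw)
  obtain ⟨g2, -, e2⟩ := exists_of_poly_apply (right_ne_zero_of_mul hw)
  exact ⟨(congrFun e1 a).trans_lt (h1 _), (congrFun e2 a).trans_lt (h2 _)⟩

/-- Shift of pair labels. -/
def shift2 (s t : ℕ) (p : ℕ × ℕ) : ℕ × ℕ := (p.1 + s, p.2 + t)

lemma shift2_injective (s t : ℕ) : Function.Injective (shift2 s t) := fun _ _ h =>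
  Prod.ext (Nat.add_right_cancel (congrArg Prod.fst h)) (Nat.add_right_cancel (congrArg Prod.snd h))

lemma wlab_ne_zero {L' : Type*} {f : L → L'} {x : (α → L) →₀ ℂ} {w : α → L'}
    (h : wlab α f x w ≠ 0) : ∃ u, w = f ∘ u := by
  by_contra hne
  exact h (Finsupp.mapDomain_of_notMem_range _ _ fun ⟨u, hu⟩ => hne ⟨u, hu.symm⟩)

/-- The block projection of a product of polytabloids when the support is unique. -/
lemma wfilter_poly2 {s t : ℕ} (r1 r2 : β → ℕ) {q1 q2 : γ → ℕ} (hq1 : ∀ a, q1 a < s)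
    (hq2 : ∀ a, q2 a < t) (C1 : β ⊕ γ → κ) (C2 : β ⊕ γ → κ')
    (hU : ∀ a b, poly (exts s r1 q1) C1 a ≠ 0 → poly (exts t r2 q2) C2 b ≠ 0 →
      (∀ x, a x < s ↔ b x < t) → ∀ x, a x < s ↔ x.isRight) :
    wfilter _ (fun p : ℕ × ℕ => p.1 < s ↔ p.2 < t) (poly2 (exts s r1 q1) C1 (exts t r2 q2) C2) =
      wsum (wlab β (shift2 s t) (poly2 r1 (C1 ∘ Sum.inl) r2 (C2 ∘ Sum.inl)))
        (poly2 q1 (C1 ∘ Sum.inr) q2 (C2 ∘ Sum.inr)) := by
  ext w
  rw [wfilter_apply, wsum_apply]
  by_cases hw : (∀ b, s ≤ (w (Sum.inl b)).1 ∧ t ≤ (w (Sum.inl b)).2) ∧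
      ∀ a, (w (Sum.inr a)).1 < s ∧ (w (Sum.inr a)).2 < t
  · rw [if_pos (by
      rintro (b | a)
      · have := hw.1 b; omega
      · have := hw.2 a; omega)]
    have e0 : w ∘ Sum.inl = shift2 s t ∘ fun b => ((w (Sum.inl b)).1 - s, (w (Sum.inl b)).2 - t) :=
      funext fun b => Prod.ext (Nat.sub_add_cancel (hw.1 b).1).symm
        (Nat.sub_add_cancel (hw.1 b).2).symm
    have e1 : Prod.fst ∘ w = exts s (fun b => (w (Sum.inl b)).1 - s) fun a => (w (Sum.inr a)).1 := by
      funext x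
      rcases x with b | a
      · exact (Nat.sub_add_cancel (hw.1 b).1).symm
      · rfl
    have e2 : Prod.snd ∘ w = exts t (fun b => (w (Sum.inl b)).2 - t) fun a => (w (Sum.inr a)).2 := by
      funext x
      rcases x with b | a
      · exact (Nat.sub_add_cancel (hw.1 b).2).symm
      · rfl
    rw [e0, wlab_apply (shift2_injective s t), poly2_apply, poly2_apply, poly2_apply, e1, e2,
      poly_split _ _ hq1, poly_split _ _ hq2]
    exact mul_mul_mul_comm _ _ _ _
  · have h2 : wlab β (shift2 s t) (poly2 r1 (C1 ∘ Sum.inl) r2 (C2 ∘ Sum.inl)) (w ∘ Sum.inl) *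
        poly2 q1 (C1 ∘ Sum.inr) q2 (C2 ∘ Sum.inr) (w ∘ Sum.inr) = 0 := by
      by_contra h
      obtain ⟨u, hu⟩ := wlab_ne_zero (left_ne_zero_of_mul h)
      refine hw ⟨fun b => ?_, poly2_lt hq1 hq2 (right_ne_zero_of_mul h)⟩
      have := congrFun hu b
      simp only [Function.comp, shift2] at this
      rw [this]
      exact ⟨Nat.le_add_left _ _, Nat.le_add_left _ _⟩
    rw [h2]
    split_ifs with h
    · by_contra h3
      rw [poly2_apply] at h3
      have h4 := hU _ _ (left_ne_zero_of_mul h3) (right_ne_zero_of_mul h3) h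
      refine hw ⟨fun b => ?_, fun a => ?_⟩
      · have h5 := h4 (Sum.inl b)
        have h6 := h (Sum.inl b)
        simp only [Function.comp, Sum.isRight_inl, Bool.false_eq_true, iff_false] at h5
        omega
      · have h5 := h4 (Sum.inr a)
        have h6 := h (Sum.inr a)
        simp only [Function.comp, Sum.isRight_inr, iff_true] at h5
        omega
    · rfl

/-- Chain step, general form. -/
theorem sees_xstep_of_inv {s t : ℕ} {r1 r2 : β → ℕ} {q1 q2 : γ → ℕ} (hq1 : ∀ a, q1 a < s)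
    (hq2 : ∀ a, q2 a < t) {C1 : β ⊕ γ → κ} {C2 : β ⊕ γ → κ'}
    (hU : ∀ a b, poly (exts s r1 q1) C1 a ≠ 0 → poly (exts t r2 q2) C2 b ≠ 0 →
      (∀ x, a x < s ↔ b x < t) → ∀ x, a x < s ↔ x.isRight)
    {lam ka : ℕ → ℕ} (hl : IsShape (β ⊕ γ) lam)
    (hk : Sees (pairRep β) (poly2 r1 (C1 ∘ Sum.inl) r2 (C2 ∘ Sum.inl)) ka)
    {ι : Type*} {q : γ → ι} {v : Sp (β ⊕ γ) lam}
    (hv : ∀ g ∈ stab q, resR (spechtR (β ⊕ γ) lam) g v = v)
    (H : Sees (resL (spechtR (β ⊕ γ) lam)) v ka)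
    (hq : ∀ ζ (y : Sp (β ⊕ γ) lam), (∀ g ∈ stab q, resR (spechtR (β ⊕ γ) lam) g y = y) →
      Sees (resR (spechtR (β ⊕ γ) lam)) y ζ →
      Sees (pairRep γ) (poly2 q1 (C1 ∘ Sum.inr) q2 (C2 ∘ Sum.inr)) ζ) :
    Sees (pairRep (β ⊕ γ)) (poly2 (exts s r1 q1) C1 (exts t r2 q2) C2) lam := by
  refine Sees.of_map (wfilter _ (fun p : ℕ × ℕ => p.1 < s ↔ p.2 < t)) ?_
  rw [wfilter_poly2 r1 r2 hq1 hq2 C1 C2 hU]
  refine sees_wsum_of_inv (fun p => s ≤ p.1) (fun w hw b => ?_)
    (fun w hw a => not_le.2 (poly2_lt hq1 hq2 hw a).1) hl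
    (hk.map_inj _ (wlab_injective (shift2_injective s t))) hv H hq
  obtain ⟨u, rfl⟩ := wlab_ne_zero hw
  exact Nat.le_add_left _ _

/-- Chain step with a piece that sees all shapes with at most `k` rows. -/
theorem sees_xstep {s t : ℕ} {r1 r2 : β → ℕ} {q1 q2 : γ → ℕ} (hq1 : ∀ a, q1 a < s)
    (hq2 : ∀ a, q2 a < t) {C1 : β ⊕ γ → κ} {C2 : β ⊕ γ → κ'}
    (hU : ∀ a b, poly (exts s r1 q1) C1 a ≠ 0 → poly (exts t r2 q2) C2 b ≠ 0 →
      (∀ x, a x < s ↔ b x < t) → ∀ x, a x < s ↔ x.isRight)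
    {k : ℕ} {l : ℕ → ℕ → ℕ} (hs : ∀ j < k, HStrip (l (j + 1)) (l j))
    (hl : IsShape (β ⊕ γ) (l k))
    (hk : Sees (pairRep β) (poly2 r1 (C1 ∘ Sum.inl) r2 (C2 ∘ Sum.inl)) (l 0))
    (hq : ∀ ζ, IsShape γ ζ → ζ k = 0 →
      Sees (pairRep γ) (poly2 q1 (C1 ∘ Sum.inr) q2 (C2 ∘ Sum.inr)) ζ) :
    Sees (pairRep (β ⊕ γ)) (poly2 (exts s r1 q1) C1 (exts t r2 q2) C2) (l k) := by
  obtain ⟨q, v, h1, -, h2, h3⟩ := pieri_chain hs hk.isShape (hasShape_specht hl)
  exact sees_xstep_of_inv hq1 hq2 hU hl hk h2 h3 fun ζ y hy hζ =>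
    hq ζ hζ.isShape (hζ.eq_zero_of_inv h1 hy)

/-- If no column of `lam / ka` has more than `k` cells there is a chain of `k` strips. -/
lemma exists_chain {lam ka : ℕ → ℕ} (hl : Antitone lam) (hk : Antitone ka) (k : ℕ)
    (h1 : ∀ i, ka i ≤ lam i) (h2 : ∀ i, lam (i + k) ≤ ka i) :
    ∃ l : ℕ → ℕ → ℕ, l 0 = ka ∧ l k = lam ∧ ∀ j < k, HStrip (l (j + 1)) (l j) := by
  refine ⟨fun j i => max (ka i) (lam (i + (k - j))), funext fun i => max_eq_left (h2 i),
    funext fun i => by simpa using h1 i, fun j hj i => ⟨?_, ?_⟩⟩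
  · refine max_le_max (hk (Nat.le_succ i)) (le_of_eq ?_)
    congr 1; omega
  · exact max_le_max le_rfl (hl (by omega))

/-- Chain step stated with the interlacing condition. -/
theorem sees_xstep' {s t : ℕ} {r1 r2 : β → ℕ} {q1 q2 : γ → ℕ} (hq1 : ∀ a, q1 a < s)
    (hq2 : ∀ a, q2 a < t) {C1 : β ⊕ γ → κ} {C2 : β ⊕ γ → κ'}
    (hU : ∀ a b, poly (exts s r1 q1) C1 a ≠ 0 → poly (exts t r2 q2) C2 b ≠ 0 →
      (∀ x, a x < s ↔ b x < t) → ∀ x, a x < s ↔ x.isRight)
    {k : ℕ} {lam ka : ℕ → ℕ} (h1 : ∀ i, ka i ≤ lam i) (h2 : ∀ i, lam (i + k) ≤ ka i)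
    (hl : IsShape (β ⊕ γ) lam)
    (hk : Sees (pairRep β) (poly2 r1 (C1 ∘ Sum.inl) r2 (C2 ∘ Sum.inl)) ka)
    (hq : ∀ ζ, IsShape γ ζ → ζ k = 0 →
      Sees (pairRep γ) (poly2 q1 (C1 ∘ Sum.inr) q2 (C2 ∘ Sum.inr)) ζ) :
    Sees (pairRep (β ⊕ γ)) (poly2 (exts s r1 q1) C1 (exts t r2 q2) C2) lam := by
  obtain ⟨l, rfl, rfl, hs⟩ := exists_chain hl.anti hk.isShape.anti k h1 h2
  exact sees_xstep hq1 hq2 hU hs hl hk hq

/-- Intermediate shapes of every size between two nested shapes. -/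
lemma exists_between {lo hi : ℕ → ℕ} (hlo : Antitone lo) (hhi : Antitone hi) (hle : ∀ i, lo i ≤ hi i)
    {N : ℕ} (hN : hi N = 0) (n : ℕ) (h1 : ∑ i ∈ range N, lo i ≤ n) (h2 : n ≤ ∑ i ∈ range N, hi i) :
    ∃ ka : ℕ → ℕ, Antitone ka ∧ (∀ i, lo i ≤ ka i) ∧ (∀ i, ka i ≤ hi i) ∧
      ∑ i ∈ range N, ka i = n := by
  classical
  induction n, h1 using Nat.le_induction with
  | base => exact ⟨lo, hlo, fun _ => le_rfl, hle, rfl⟩
  | succ n hn ih =>
    obtain ⟨ka, a1, a2, a3, a4⟩ := ih (by omega)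
    have hex : ∃ i, ka i < hi i := by
      by_contra hne
      push Not at hne
      have := sum_le_sum (s := range N) fun i _ => hne i
      omega
    set i0 := Nat.find hex with hi0
    have b1 : ka i0 < hi i0 := Nat.find_spec hex
    have b2 : ∀ i, i < i0 → ka i = hi i := fun i hi' =>
      le_antisymm (a3 i) (not_lt.1 (Nat.find_min hex hi'))
    have b3 : i0 < N := by
      by_contra h
      have := hhi (not_lt.1 h)
      omega
    refine ⟨Function.update ka i0 (ka i0 + 1), antitone_nat_of_succ_le fun i => ?_, fun i => ?_,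
      fun i => ?_, ?_⟩
    · by_cases h : i + 1 = i0
      · rw [h, Function.update_self, Function.update_of_ne (by omega), b2 i (by omega)]
        have := hhi (show i ≤ i0 by omega)
        omega
      · rw [Function.update_of_ne h]
        have := a1 (Nat.le_succ i)
        by_cases h' : i = i0
        · rw [h', Function.update_self]; rw [h'] at this; exact this.trans (Nat.le_succ _)
        · rw [Function.update_of_ne h']; exact this
    · by_cases h : i = i0
      · rw [h, Function.update_self]; exact (a2 _).trans (Nat.le_succ _)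
      · rw [Function.update_of_ne h]; exact a2 i
    · by_cases h : i = i0
      · rw [h, Function.update_self]; exact b1
      · rw [Function.update_of_ne h]; exact a3 i
    · rw [sum_update_of_mem (mem_range.2 b3), ← a4, ← add_sum_erase _ _ (mem_range.2 b3),
        sdiff_singleton_eq_erase]
      omega

end Crest.Agent.R195
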