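import Crest.Agent.R195.XStep

/-!
The zigzag piece: a path with an odd number of letters sees every shape with at most four rows.
-/

set_option autoImplicit false
set_option linter.unusedSectionVars false

namespace Crest.Agent.R195

open Equiv Finset

variable {α : Type*} [Fintype α] [DecidableEq α] {κ : Type*}

/-- The stabiliser of a labelling is generated by its transpositions. -/
lemma stab_induction {c : α → κ} {p : Perm α → Prop} (h1 : p 1)
    (hs : ∀ g ∈ stab c, ∀ a b, a ≠ b → c a = c b → p g → p (swap a b * g)) :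
    ∀ g ∈ stab c, p g := by
  intro g
  induction hn : g.support.card using Nat.strong_induction_on generalizing g with
  | _ n ih =>
    intro hg
    by_cases h : g = 1
    · rw [h]; exact h1
    obtain ⟨x, hx⟩ : ∃ x, g x ≠ x := by
      by_contra h'
      push Not at h'
      exact h (Equiv.ext h')
    have hm := mul_mem_stab (swap_mem_stab (mem_stab.1 hg x).symm) hg
    have := hs _ hm x (g x) hx.symm (mem_stab.1 hg x).symm
      (ih _ (hn ▸ Perm.card_support_swap_mul hx) _ rfl hm)
    rwa [swap_mul_self_mul] at this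

/-- A function of words that changes sign under the transpositions of `stab c`. -/
lemma sign_of_swap {L M : Type*} [AddCommGroup M] [Module ℂ M] {c : α → κ}
    (Good : (α → L) → Prop) (hG : ∀ w, Good w → ∀ g ∈ stab c, Good (w ∘ g)) (Y : (α → L) → M)
    (hY : ∀ w, Good w → ∀ a b, a ≠ b → c a = c b → Y (w ∘ swap a b) = -Y w) :
    ∀ g ∈ stab c, ∀ w, Good w → Y (w ∘ g) = sg g • Y w := by
  refine stab_induction (fun w _ => by simp) fun g _ a b hab hc ih w hw => ?_
  have := ih (w ∘ swap a b) (hG w hw _ (swap_mem_stab hc))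
  rw [hY w hw a b hab hc] at this
  rw [sg_mul, sg_swap hab, neg_one_mul, neg_smul, ← smul_neg, ← this]
  rfl

/-- For interval blocks adjacent transpositions suffice. -/
lemma sign_of_adj {N : ℕ} {L M : Type*} [AddCommGroup M] [Module ℂ M] {c : Fin N → ℕ}
    (hc : Monotone c) (Good : (Fin N → L) → Prop) (hG : ∀ w, Good w → ∀ g ∈ stab c, Good (w ∘ g))
    (Y : (Fin N → L) → M)
    (hY : ∀ w, Good w → ∀ a b : Fin N, (b : ℕ) = a + 1 → c a = c b → Y (w ∘ swap a b) = -Y w) :
    ∀ g ∈ stab c, ∀ w, Good w → Y (w ∘ g) = sg g • Y w := by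
  have key : ∀ d : ℕ, ∀ a b : Fin N, (b : ℕ) = a + 1 + d → c a = c b →
      ∀ w, Good w → Y (w ∘ swap a b) = -Y w := by
    intro d
    induction d with
    | zero => exact fun a b h1 h2 w hw => hY w hw a b h1 h2
    | succ d ih =>
      intro a b h1 h2 w hw
      set e : Fin N := ⟨a + 1 + d, by omega⟩ with he
      have hae : c a = c e := le_antisymm (hc (by rw [Fin.le_def]; simp only [he]; omega))
        (h2 ▸ hc (by rw [Fin.le_def]; simp only [he]; omega))
      have heb : c e = c b := hae.symm.trans h2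
      have h3 : swap a b = swap e b * swap a e * swap e b := by
        rw [swap_mul_swap_mul_swap (fun h => by have := congrArg Fin.val h; simp [he] at this; omega)
          (fun h => by have := congrArg Fin.val h; omega), swap_comm]
      have g1 := hG w hw _ (swap_mem_stab heb)
      have g2 := hG _ g1 _ (swap_mem_stab hae)
      have e1 := hY w hw e b (by simp only [he]; omega) heb
      have e2 := ih a e rfl hae _ g1
      have e3 := hY _ g2 e b (by simp only [he]; omega) heb
      rw [e2, e1, neg_neg] at e3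
      rw [h3, ← e3]
      rfl
  refine sign_of_swap Good hG Y fun w hw a b hab h => ?_
  rcases lt_or_gt_of_ne hab with h1 | h1
  · exact key (b - a - 1) a b (by have := Fin.lt_def.1 h1; omega) h w hw
  · rw [swap_comm]
    exact key (a - b - 1) b a (by have := Fin.lt_def.1 h1; omega) h.symm w hw

lemma prod_ofFn_adj {R : Type*} [Ring R] {N : ℕ} :
    ∀ (f f' : Fin N → R) (a b : Fin N), (b : ℕ) = a + 1 → (∀ l, l ≠ a → l ≠ b → f' l = f l) →
      f' a * f' b = -(f a * f b) → (List.ofFn f').prod = -(List.ofFn f).prod := by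
  induction N with
  | zero => exact fun _ _ a => a.elim0
  | succ N ih =>
    intro f f' a b hab h1 h2
    obtain ⟨b, rfl⟩ : ∃ b', b = Fin.succ b' :=
      (Fin.exists_succ_eq.2 fun h => by simp [h] at hab).imp fun _ h => h.symm
    rw [List.ofFn_succ, List.ofFn_succ (f := f), List.prod_cons, List.prod_cons]
    rcases Fin.eq_zero_or_eq_succ a with rfl | ⟨a, rfl⟩
    · rcases N with _ | N
      · exact b.elim0
      obtain rfl : b = 0 := Fin.ext (by simpa using hab)
      rw [List.ofFn_succ, List.ofFn_succ (f := fun i => f (Fin.succ i)), List.prod_cons,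
        List.prod_cons, ← mul_assoc, ← mul_assoc, h2, neg_mul]
      congr 4
      funext l
      exact h1 _ (Fin.succ_ne_zero _) fun h => Fin.succ_ne_zero _ (Fin.succ_injective _ h)
    · rw [ih (fun i => f i.succ) (fun i => f' i.succ) a b (by simpa using hab)
        (fun l h3 h4 => h1 _ (fun h => h3 (Fin.succ_injective _ h))
          fun h => h4 (Fin.succ_injective _ h)) h2,
        h1 0 (Fin.succ_ne_zero _).symm (Fin.succ_ne_zero _).symm, mul_neg]

namespace ZP

/-- Two by two complex matrices. -/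
abbrev M2 := Matrix (Fin 2) (Fin 2) ℂ

/-- The adjugate as a linear map. -/
def adj2 : M2 →ₗ[ℂ] M2 where
  toFun A := !![A 1 1, -A 0 1; -A 1 0, A 0 0]
  map_add' A B := by ext i j; fin_cases i <;> fin_cases j <;> simp [add_comm]
  map_smul' z A := by ext i j; fin_cases i <;> fin_cases j <;> simp

lemma adj2_apply (A : M2) : adj2 A = !![A 1 1, -A 0 1; -A 1 0, A 0 0] := rfl

/-- Identity at even positions, adjugate at odd positions. -/
def pos (l : ℕ) : M2 →ₗ[ℂ] M2 := if l % 2 = 0 then LinearMap.id else adj2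

lemma pos_even {l : ℕ} (h : l % 2 = 0) (A : M2) : pos l A = A := by simp [pos, h]

lemma pos_odd {l : ℕ} (h : l % 2 = 1) (A : M2) : pos l A = adj2 A := by simp [pos, h]

/-- Kronecker delta. -/
def dl (i : Fin 2) (a : ℕ) : ℂ := if (i : ℕ) = a then 1 else 0

/-- Matrix units indexed by pairs of naturals. -/
def eu (p : ℕ × ℕ) : M2 := Matrix.of fun i j => dl i p.1 * dl j p.2

/-- Matrix entries indexed by pairs of naturals. -/
def cf (A : M2) (p : ℕ × ℕ) : ℂ := if h : p.1 < 2 ∧ p.2 < 2 then A ⟨p.1, h.1⟩ ⟨p.2, h.2⟩ else 0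

lemma expand (A : M2) : A = ∑ p ∈ range 2 ×ˢ range 2, cf A p • eu p := by
  ext i j
  fin_cases i <;> fin_cases j <;> simp [sum_product, sum_range_succ, cf, eu, dl]

lemma eu_eq_zero {p : ℕ × ℕ} (h : ¬(p.1 < 2 ∧ p.2 < 2)) : eu p = 0 := by
  ext i j
  simp only [eu, dl, Matrix.of_apply, Matrix.zero_apply]
  have := i.2
  have := j.2
  split_ifs <;> first | omega | simp

/-- The alternating product `A₀ adj(A₁) A₂ ⋯`. -/
def pprod {N : ℕ} (A : Fin N → M2) : M2 := (List.ofFn fun l => pos l (A l)).prod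

lemma pprod_expand {N : ℕ} (A : Fin N → M2) : pprod A =
    ∑ w ∈ Fintype.piFinset fun _ : Fin N => range 2 ×ˢ range 2,
      (∏ l, cf (A l) (w l)) • pprod fun l => eu (w l) := by
  have h1 : (fun l : Fin N => pos l (A l)) =
      fun l : Fin N => ∑ p ∈ range 2 ×ˢ range 2, cf (A l) p • pos l (eu p) := by
    funext l
    conv_lhs => rw [expand (A l)]
    simp only [map_sum, map_smul]
  rw [pprod, ← MultilinearMap.mkPiAlgebraFin_apply (R := ℂ), h1, MultilinearMap.map_sum_finset]
  refine sum_congr rfl fun w _ => ?_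
  rw [MultilinearMap.map_smul_univ, MultilinearMap.mkPiAlgebraFin_apply, pprod]

lemma pprod_adj {N : ℕ} (A A' : Fin N → M2) (a b : Fin N) (hab : (b : ℕ) = a + 1)
    (h1 : ∀ l, l ≠ a → l ≠ b → A' l = A l)
    (h2 : pos a (A' a) * pos b (A' b) = -(pos a (A a) * pos b (A b))) : pprod A' = -pprod A :=
  prod_ofFn_adj _ _ a b hab (fun l h3 h4 => by rw [h1 l h3 h4]) h2

lemma pprod_fst {N : ℕ} (b : Fin N → ℕ) : ∀ g ∈ stab (fun l : Fin N => ((l : ℕ) + 1) / 2),
    ∀ a : Fin N → ℕ, pprod (fun l => eu (a (g l), b l)) = sg g • pprod fun l => eu (a l, b l) := by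
  intro g hg a
  refine sign_of_adj (fun i j h => Nat.div_le_div_right (Nat.succ_le_succ h)) (fun _ => True)
    (fun _ _ _ _ => trivial) (fun a => pprod fun l => eu (a l, b l)) (fun w _ i j hij hc => ?_)
    g hg a trivial
  refine pprod_adj _ _ i j hij (fun l h1 h2 => by simp [swap_apply_of_ne_of_ne h1 h2]) ?_
  rw [pos_odd (by omega), pos_odd (l := i) (by omega), pos_even (by omega),
    pos_even (l := j) (by omega)]
  ext x y
  rw [Matrix.neg_apply, Matrix.mul_apply, Matrix.mul_apply, Fin.sum_univ_two, Fin.sum_univ_two]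
  fin_cases x <;> fin_cases y <;> simp [adj2_apply, eu] <;> ring

lemma pprod_snd {N : ℕ} (a : Fin N → ℕ) : ∀ g ∈ stab (fun l : Fin N => (l : ℕ) / 2),
    ∀ b : Fin N → ℕ, pprod (fun l => eu (a l, b (g l))) = sg g • pprod fun l => eu (a l, b l) := by
  intro g hg b
  refine sign_of_adj (fun i j h => Nat.div_le_div_right h) (fun _ => True)
    (fun _ _ _ _ => trivial) (fun b => pprod fun l => eu (a l, b l)) (fun w _ i j hij hc => ?_)
    g hg b trivial
  refine pprod_adj _ _ i j hij (fun l h1 h2 => by simp [swap_apply_of_ne_of_ne h1 h2]) ?_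
  rw [pos_even (by omega), pos_even (l := i) (by omega), pos_odd (by omega),
    pos_odd (l := j) (by omega)]
  ext x y
  fin_cases x <;> fin_cases y <;> simp [adj2_apply, eu, Matrix.mul_apply, Fin.sum_univ_two] <;> ring

lemma lt_of_pprod {N : ℕ} {w : Fin N → ℕ × ℕ} (h : pprod (fun l => eu (w l)) ≠ 0) (l : Fin N) :
    (w l).1 < 2 ∧ (w l).2 < 2 := by
  by_contra hl
  exact h (List.prod_eq_zero (List.mem_ofFn.2 ⟨l, by simp only [eu_eq_zero hl, map_zero]⟩))

lemma inj_fst {N : ℕ} {w : Fin N → ℕ × ℕ} (h : pprod (fun l => eu (w l)) ≠ 0) (i j : Fin N)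
    (hc : ((i : ℕ) + 1) / 2 = ((j : ℕ) + 1) / 2) (hw : (w i).1 = (w j).1) : i = j := by
  by_contra hij
  have := pprod_fst (fun l => (w l).2) _ (swap_mem_stab (r := fun l : Fin N => ((l : ℕ) + 1) / 2) hc)
    fun l => (w l).1
  simp only [mem_stab.1 (swap_mem_stab (r := fun l => (w l).1) hw), sg_swap hij, neg_smul,
    one_smul] at this
  apply h
  have h2 : (2 : ℂ) • pprod (fun l => eu (w l)) = 0 := by
    rw [two_smul]; nth_rewrite 1 [this]; simp
  simpa using h2

lemma inj_snd {N : ℕ} {w : Fin N → ℕ × ℕ} (h : pprod (fun l => eu (w l)) ≠ 0) (i j : Fin N)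
    (hc : (i : ℕ) / 2 = (j : ℕ) / 2) (hw : (w i).2 = (w j).2) : i = j := by
  by_contra hij
  have := pprod_snd (fun l => (w l).1) _ (swap_mem_stab (r := fun l : Fin N => (l : ℕ) / 2) hc)
    fun l => (w l).2
  simp only [mem_stab.1 (swap_mem_stab (r := fun l => (w l).2) hw), sg_swap hij, neg_smul,
    one_smul] at this
  apply h
  have h2 : (2 : ℂ) • pprod (fun l => eu (w l)) = 0 := by
    rw [two_smul]; nth_rewrite 1 [this]; simp
  simpa using h2

lemma first_eq {n : ℕ} {w : Fin (n + 1) → ℕ × ℕ} {i j : Fin 2}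
    (h : pprod (fun l => eu (w l)) i j ≠ 0) : (w 0).1 = i := by
  by_contra h0
  apply h
  rw [pprod, List.ofFn_succ, List.prod_cons, Matrix.mul_apply, pos_even (by simp)]
  simp [eu, dl, Ne.symm h0]

lemma last_eq {n : ℕ} (hn : n % 2 = 0) {w : Fin (n + 1) → ℕ × ℕ} {i j : Fin 2}
    (h : pprod (fun l => eu (w l)) i j ≠ 0) : (w (Fin.last n)).2 = j := by
  by_contra h0
  apply h
  rw [pprod, List.ofFn_succ', List.prod_concat, Matrix.mul_apply, pos_even (by simpa using hn)]
  simp [eu, dl, Ne.symm h0]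

lemma latin_of {n : ℕ} (hn : n % 2 = 0) {w : Fin (n + 1) → ℕ × ℕ}
    (h : pprod (fun l => eu (w l)) 0 0 ≠ 0) :
    Latin (Prod.fst ∘ w) (fun l => ((l : ℕ) + 1) / 2) ∧
      Latin (Prod.snd ∘ w) (fun l => (l : ℕ) / 2) := by
  have h' : pprod (fun l => eu (w l)) ≠ 0 := fun h0 => h (by rw [h0]; rfl)
  have hlt := lt_of_pprod h'
  refine ⟨⟨inj_fst h', fun a i hi => ?_⟩, ⟨inj_snd h', fun a i hi => ?_⟩⟩
  · have h0 : (w 0).1 = 0 := first_eq h
    have ha := hlt a
    simp only [Function.comp] at hi ⊢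
    have ha0 : (a : ℕ) ≠ 0 := fun h1 => by
      rw [show a = 0 from Fin.ext h1] at hi; omega
    have := a.2
    obtain ⟨b, hb1, hb2⟩ : ∃ b : Fin (n + 1), b ≠ a ∧ ((b : ℕ) + 1) / 2 = ((a : ℕ) + 1) / 2 := by
      by_cases h2 : (a : ℕ) % 2 = 0
      · exact ⟨⟨a - 1, by omega⟩, fun h => by have := congrArg Fin.val h; simp at this; omega,
          by simp only; omega⟩
      · exact ⟨⟨a + 1, by omega⟩, fun h => by have := congrArg Fin.val h; simp at this,
          by simp only; omega⟩
    refine ⟨b, hb2, ?_⟩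
    have h3 := hlt b
    have h4 : (w b).1 ≠ (w a).1 := fun h => hb1 (inj_fst h' b a hb2 h)
    omega
  · have h0 : (w (Fin.last n)).2 = 0 := last_eq hn h
    have ha := hlt a
    simp only [Function.comp] at hi ⊢
    have ha0 : (a : ℕ) ≠ n := fun h1 => by
      rw [show a = Fin.last n from Fin.ext h1] at hi; omega
    have := a.2
    obtain ⟨b, hb1, hb2⟩ : ∃ b : Fin (n + 1), b ≠ a ∧ (b : ℕ) / 2 = (a : ℕ) / 2 := by
      by_cases h2 : (a : ℕ) % 2 = 0
      · exact ⟨⟨a + 1, by omega⟩, fun h => by have := congrArg Fin.val h; simp at this,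
          by simp only; omega⟩
      · exact ⟨⟨a - 1, by omega⟩, fun h => by have := congrArg Fin.val h; simp at this; omega,
          by simp only; omega⟩
    refine ⟨b, hb2, ?_⟩
    have h3 := hlt b
    have h4 : (w b).2 ≠ (w a).2 := fun h => hb1 (inj_snd h' b a hb2 h)
    omega

/-- The coefficients of the zigzag vector are entries of products of matrix units. -/
lemma entry_eq {n : ℕ} (hn : n % 2 = 0) {q1 q2 : Fin (n + 1) → ℕ}
    (h1 : Latin q1 fun l => ((l : ℕ) + 1) / 2) (h2 : Latin q2 fun l => (l : ℕ) / 2)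
    (w : Fin (n + 1) → ℕ × ℕ) : pprod (fun l => eu (w l)) 0 0 =
      pprod (fun l => eu (q1 l, q2 l)) 0 0 *
        poly2 q1 (fun l => ((l : ℕ) + 1) / 2) q2 (fun l => (l : ℕ) / 2) w := by
  rw [poly2_apply]
  by_cases hw : Latin (Prod.fst ∘ w) (fun l => ((l : ℕ) + 1) / 2) ∧
      Latin (Prod.snd ∘ w) (fun l => (l : ℕ) / 2)
  · obtain ⟨g1, hg1, e1⟩ := h1.exists_eq_of_latin hw.1
    obtain ⟨g2, hg2, e2⟩ := h2.exists_eq_of_latin hw.2
    rw [e1, e2, poly_apply_comp h1 hg1, poly_apply_comp h2 hg2]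
    have : w = fun l => (q1 (g1 l), q2 (g2 l)) := funext fun l =>
      Prod.ext (congrFun e1 l) (congrFun e2 l)
    rw [this, pprod_fst _ g1 hg1, pprod_snd _ g2 hg2]
    simp only [Matrix.smul_apply, smul_eq_mul]
    ring
  · have e1 : pprod (fun l => eu (w l)) 0 0 = 0 := by
      by_contra h
      exact hw (latin_of hn h)
    have e2 : poly q1 (fun l => ((l : ℕ) + 1) / 2) (Prod.fst ∘ w) *
        poly q2 (fun l => (l : ℕ) / 2) (Prod.snd ∘ w) = 0 := by
      by_contra h
      exact hw ⟨poly_apply_latin h1 (left_ne_zero_of_mul h),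
        poly_apply_latin h2 (right_ne_zero_of_mul h)⟩
    rw [e1, e2, mul_zero]

/-- Evaluation of the polynomial of a pair vector at a family of matrices. -/
lemma eval_wmul_single (B : ℕ → M2) (x : (α → ℕ × ℕ) →₀ ℂ) (w : α → ℕ) :
    MvPolynomial.eval (fun X : (ℕ × ℕ) × ℕ => cf (B X.2) X.1)
      (toPoly (wmul x (Finsupp.single w 1))) = x.sum fun p z => z * ∏ l, cf (B (w l)) (p l) := by
  induction x using Finsupp.induction_linear with
  | zero => simp
  | add x y hx hy =>
    rw [map_add, LinearMap.add_apply, map_add, map_add, hx, hy, Finsupp.sum_add_index']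
    · simp
    · exact fun _ _ _ => add_mul _ _ _
  | single p z =>
    rw [wmul_single, toPoly_single, Finsupp.sum_single_index (by simp)]
    simp

/-- An orthogonal basis for the determinant form. -/
def cl : Fin 4 → M2 := ![!![1, 0; 0, 1], !![1, 0; 0, -1], !![0, 1; 1, 0], !![0, 1; -1, 0]]

lemma cl_anti (l : ℕ) {i j : Fin 4} (h : i ≠ j) :
    pos l (cl j) * pos (l + 1) (cl i) = -(pos l (cl i) * pos (l + 1) (cl j)) := by
  rcases Nat.mod_two_eq_zero_or_one l with hl | hl
  · rw [pos_even hl, pos_even hl, pos_odd (by omega), pos_odd (by omega)]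
    fin_cases i <;> fin_cases j <;> first | exact absurd rfl h | simp [cl, adj2_apply]
  · rw [pos_odd hl, pos_odd hl, pos_even (by omega), pos_even (by omega)]
    fin_cases i <;> fin_cases j <;> first | exact absurd rfl h | simp [cl, adj2_apply]

/-- Monomial matrices of a given type. -/
def Mono (A : M2) (t : Fin 2) : Prop := ∀ i j, A i j ≠ 0 ↔ j = i + t

lemma Mono.mul {A B : M2} {s t : Fin 2} (hA : Mono A s) (hB : Mono B t) : Mono (A * B) (s + t) := by
  intro i j
  have h1 : ∀ k, k ≠ i + s → A i k = 0 := fun k hk => by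
    by_contra h; exact hk ((hA i k).1 h)
  rw [Matrix.mul_apply, sum_eq_single (i + s) (fun k _ hk => by rw [h1 k hk, zero_mul])
    (fun h => absurd (mem_univ _) h), mul_ne_zero_iff, hB, hA, add_assoc]
  simp

lemma Mono.pos {A : M2} {t : Fin 2} (hA : Mono A t) (l : ℕ) : Mono (pos l A) t := by
  rcases Nat.mod_two_eq_zero_or_one l with hl | hl
  · rwa [pos_even hl]
  · rw [pos_odd hl]
    have h00 := hA 0 0
    have h01 := hA 0 1
    have h10 := hA 1 0
    have h11 := hA 1 1
    intro i j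
    fin_cases i <;> fin_cases j <;> fin_cases t <;> simp_all [adj2_apply]

lemma mono_prod {N : ℕ} : ∀ (f : Fin N → M2) (t : Fin N → Fin 2), (∀ l, Mono (f l) (t l)) →
    Mono (List.ofFn f).prod (∑ l, t l) := by
  induction N with
  | zero =>
    intro f t _ i j
    simp [Matrix.one_apply, eq_comm]
  | succ N ih =>
    intro f t h
    rw [List.ofFn_succ, List.prod_cons, Fin.sum_univ_succ]
    exact (h 0).mul (ih _ _ fun l => h _)

/-- The types of the basis matrices. -/
def ty : Fin 4 → Fin 2 := ![0, 0, 1, 1]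

lemma mono_cl (k : Fin 4) : Mono (cl k) (ty k) := by
  intro i j
  fin_cases k <;> fin_cases i <;> fin_cases j <;> simp [cl, ty]

lemma ty_add_two (k : Fin 4) : ty (k + 2) = ty k + 1 := by fin_cases k <;> rfl

lemma pprod_cl {N : ℕ} {c : Fin N → ℕ} (hc : Monotone c) (v : Fin N → Fin 4)
    (hv : ∀ a b, c a = c b → v a = v b → a = b) {g : Perm (Fin N)} (hg : g ∈ stab c) :
    pprod (fun l => cl (v (g l))) = sg g • pprod fun l => cl (v l) := by
  refine sign_of_adj hc (fun v => ∀ a b, c a = c b → v a = v b → a = b)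
    (fun w hw g hg a b h1 h2 => g.injective (hw _ _ (by rw [mem_stab.1 hg, mem_stab.1 hg, h1]) h2))
    (fun v => pprod fun l => cl (v l)) (fun w hw i j hij h => ?_) g hg v hv
  refine pprod_adj _ _ i j hij (fun l h1 h2 => by simp [swap_apply_of_ne_of_ne h1 h2]) ?_
  simp only [Function.comp, swap_apply_left, swap_apply_right, hij]
  exact cl_anti i fun h' => by have := congrArg Fin.val (hw i j h h'); omega

end ZP

lemma Latin.lt_of_card {r : α → ℕ} {c : α → κ} [DecidableEq κ] (h : Latin r c) (a : α) :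
    r a < (univ.filter fun b => c b = c a).card := by
  have : range (r a + 1) ⊆ (univ.filter fun b => c b = c a).image r := fun k hk => by
    rcases (Nat.lt_succ_iff.1 (mem_range.1 hk)).eq_or_lt with h1 | h1
    · exact mem_image.2 ⟨a, by simp, h1.symm⟩
    · obtain ⟨b, h2, h3⟩ := h.down a k h1
      exact mem_image.2 ⟨b, by simp [h2], h3⟩
  have h2 := (card_le_card this).trans card_image_le
  rwa [card_range] at h2

lemma IsShape.exists_monotone {N : ℕ} {ζ : ℕ → ℕ} (h : IsShape (Fin N) ζ) :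
    ∃ r c : Fin N → ℕ, IsTab ζ r c ∧ Monotone c := by
  obtain ⟨r, c, h⟩ := h
  exact ⟨_, _, h.comp (Tuple.sort c), Tuple.monotone_sort c⟩

lemma card_half_le {N : ℕ} (f : ℕ → ℕ) (hf : Function.Injective f) (a : Fin N) :
    (univ.filter fun b : Fin N => f b / 2 = f a / 2).card ≤ 2 := by
  refine le_trans (card_le_card_of_injOn (t := range 2) (fun b : Fin N => f b % 2)
    (fun b _ => by simp; omega) fun x hx y hy h => ?_) (by simp)
  simp only [coe_filter, mem_univ, true_and, Set.mem_ofPred_eq] at hx hy h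
  exact Fin.ext (hf (by omega))

open ZP in
/-- The zigzag vector sees every shape with at most four rows. -/
theorem sees_zigzag {n : ℕ} (hn : n % 2 = 0) {q1 q2 : Fin (n + 1) → ℕ}
    (h1 : Latin q1 fun l => ((l : ℕ) + 1) / 2) (h2 : Latin q2 fun l => (l : ℕ) / 2) {ζ : ℕ → ℕ}
    (hζ : IsShape (Fin (n + 1)) ζ) (h4 : ζ 4 = 0) :
    Sees (pairRep (Fin (n + 1)))
      (poly2 q1 (fun l => ((l : ℕ) + 1) / 2) q2 fun l => (l : ℕ) / 2) ζ := by
  obtain ⟨r, c, ht, hc⟩ := hζ.exists_monotone
  have hr : ∀ l, r l < 4 := fun l => by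
    by_contra h
    have := ht.anti (not_lt.1 h)
    have := ht.lt l
    omega
  obtain ⟨s, hs⟩ : ∃ s : Fin 4, ∑ l, ty (Fin.ofNat 4 (r l) + s) = 0 := by
    by_cases h : ∑ l, ty (Fin.ofNat 4 (r l)) = 0
    · exact ⟨0, by simpa using h⟩
    · refine ⟨2, ?_⟩
      simp only [ty_add_two, sum_add_distrib, sum_const, card_univ, Fintype.card_fin]
      obtain ⟨m, rfl⟩ : ∃ m, n = 2 * m := ⟨n / 2, by omega⟩
      have e2 : 2 • (1 : Fin 2) = 0 := rfl
      rw [Fin.eq_one_of_ne_zero _ h, succ_nsmul, mul_nsmul, e2, nsmul_zero]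
      rfl
  refine (sees_iff_toPoly _ _).2 ⟨r, c, ht.latin, ht.cont_eq, fun h0 => ?_⟩
  set B : ℕ → M2 := fun k => cl (Fin.ofNat 4 k + s) with hB
  set z := poly2 q1 (fun l => ((l : ℕ) + 1) / 2) q2 fun l => (l : ℕ) / 2 with hz
  have hq1 : ∀ l, q1 l < 2 := fun l =>
    (h1.lt_of_card l).trans_le (card_half_le (· + 1) (add_left_injective 1) l)
  have hq2 : ∀ l, q2 l < 2 := fun l =>
    (h2.lt_of_card l).trans_le (card_half_le id Function.injective_id l)
  have key : ∀ w : Fin (n + 1) → ℕ, pprod (fun l => eu (q1 l, q2 l)) 0 0 *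
      MvPolynomial.eval (fun X : (ℕ × ℕ) × ℕ => cf (B X.2) X.1)
        (toPoly (wmul z (Finsupp.single w 1))) = pprod (fun l => B (w l)) 0 0 := fun w => by
    rw [eval_wmul_single, Finsupp.sum_of_support_subset _
      (s := Fintype.piFinset fun _ => range 2 ×ˢ range 2) (fun p hp => ?_) _ (by simp),
      pprod_expand fun l => B (w l), Matrix.sum_apply, mul_sum]
    · refine sum_congr rfl fun p _ => ?_
      rw [Matrix.smul_apply, entry_eq hn h1 h2 p, smul_eq_mul]
      ring
    · refine Fintype.mem_piFinset.2 fun l => ?_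
      simpa using poly2_lt hq1 hq2 (Finsupp.mem_support_iff.1 hp) l
  have h5 := congrArg (fun P => pprod (fun l => eu (q1 l, q2 l)) 0 0 *
    MvPolynomial.eval (fun X : (ℕ × ℕ) × ℕ => cf (B X.2) X.1) P) h0
  simp only [poly_eq', map_sum, map_smul, MvPolynomial.smul_eval, mul_sum, map_zero,
    mul_zero] at h5
  have h6 : ∀ g ∈ stab c, pprod (fun l => eu (q1 l, q2 l)) 0 0 * (sg g *
      MvPolynomial.eval (fun X : (ℕ × ℕ) × ℕ => cf (B X.2) X.1)
        (toPoly (wmul z (Finsupp.single (r ∘ g) 1)))) = pprod (fun l => B (r l)) 0 0 :=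
    fun g hg => by
      rw [mul_left_comm, key]
      have := pprod_cl hc (fun l => Fin.ofNat 4 (r l) + s) (fun a b e1 e2 => ht.inj a b (by
        have e3 := congrArg Fin.val (add_right_cancel e2)
        simp only [Fin.val_ofNat] at e3
        rwa [Nat.mod_eq_of_lt (hr a), Nat.mod_eq_of_lt (hr b)] at e3) e1) hg
      simp only [Function.comp, hB]
      rw [this, Matrix.smul_apply, smul_eq_mul, ← mul_assoc, sg_mul_self, one_mul]
  rw [sum_congr rfl h6, sum_const, nsmul_eq_mul] at h5
  refine mul_ne_zero (card_stab_ne c) ?_ h5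
  exact (mono_prod _ _ (fun l => (mono_cl _).pos l) 0 0).2 (by rw [hs]; rfl)

end Crest.Agent.R195
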